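import Vale.Agent.P335.Mods

/-!
P335: spectral decomposition for symmetric operators on functions on a finite type.
-/

namespace Vale.Agent.P335.SPB

open Finset Vale.Agent.P335

theorem ip_comm {X : Type} [Fintype X] (f g : X → ℝ) : ip f g = ip g f := by
  unfold ip
  exact Finset.sum_congr rfl fun x _ => mul_comm _ _

theorem ip_smul_left {X : Type} [Fintype X] (c : ℝ) (f g : X → ℝ) : ip (c • f) g = c * ip f g := by
  unfold ip
  rw [Finset.mul_sum]
  exact Finset.sum_congr rfl fun x _ => by simp [mul_assoc]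

/-- an orthonormal eigenbasis -/
theorem spec {X : Type} [Fintype X] (T : (X → ℝ) →ₗ[ℝ] (X → ℝ))
    (hs : ∀ f g, ip (T f) g = ip f (T g)) :
    ∃ (n : ℕ) (mu : Fin n → ℝ) (e : Fin n → X → ℝ),
      (∀ i, T (e i) = mu i • e i) ∧ (∀ i, e i ≠ 0) ∧
      (∀ f g, ip f g = ∑ i, ip f (e i) * ip g (e i)) := by
  classical
  let φ : EuclideanSpace ℝ X ≃ₗ[ℝ] (X → ℝ) := WithLp.linearEquiv 2 ℝ (X → ℝ)
  let T' : EuclideanSpace ℝ X →ₗ[ℝ] EuclideanSpace ℝ X :=
    φ.symm.toLinearMap ∘ₗ T ∘ₗ φ.toLinearMap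
  have hip : ∀ u v : EuclideanSpace ℝ X, inner ℝ u v = ip (φ u) (φ v) := by
    intro u v
    rw [PiLp.inner_apply]
    unfold ip
    refine Finset.sum_congr rfl fun x _ => ?_
    simp [φ, mul_comm]
  have hT' : T'.IsSymmetric := by
    intro u v
    rw [hip, hip]
    simpa [T'] using hs (φ u) (φ v)
  let b := hT'.eigenvectorBasis rfl
  refine ⟨_, hT'.eigenvalues rfl, fun i => φ (b i), fun i => ?_, fun i => ?_, fun f g => ?_⟩
  · have h : T' (b i) = hT'.eigenvalues rfl i • b i := hT'.apply_eigenvectorBasis rfl i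
    have h1 : T (φ (b i)) = φ (T' (b i)) := by
      change T (φ (b i)) = φ (φ.symm (T (φ (b i))))
      rw [LinearEquiv.apply_symm_apply]
    change T (φ (b i)) = hT'.eigenvalues rfl i • φ (b i)
    rw [h1, h, map_smul]
  · intro h
    have h1 : b i = 0 := by
      apply φ.injective
      simpa using h
    exact b.toBasis.ne_zero i (by simpa using h1)
  · have h := b.sum_inner_mul_inner (φ.symm f) (φ.symm g)
    rw [hip] at h
    simp only [LinearEquiv.apply_symm_apply] at h
    rw [← h]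
    refine Finset.sum_congr rfl fun i _ => ?_
    rw [hip, hip]
    simp only [LinearEquiv.apply_symm_apply]
    rw [ip_comm (φ (b i)) g]

end Vale.Agent.P335.SPB
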