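import Vale.Agent.P335.HMods
import Vale.Agent.P335.SpecBase

/-!
P335: SPEC3.
-/

namespace Vale.Agent.P335.H.Spec3

open Finset Vale.Agent.P335 SPB

theorem spec3_proof : SPEC3 := by
  classical
  intro X _ T c hs h1 hev f hf
  obtain ⟨n, mu, e, he, hne, hpar⟩ := spec T hs
  have hTe : ∀ i, ip (T f) (e i) = mu i * ip f (e i) := by
    intro i
    rw [hs, he, ip_comm, ip_smul_left, ip_comm]
  have hsum : ∀ h : X → ℝ, ip h (fun _ => (1 : ℝ)) = ∑ x, h x := by
    intro h
    unfold ip
    exact Finset.sum_congr rfl fun x _ => by ring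
  have hone : ∀ i, mu i ≠ c → ip (fun _ => (1 : ℝ)) (e i) = 0 := by
    intro i hi
    have e1 : ip (T (fun _ => (1 : ℝ))) (e i) = mu i * ip (fun _ => (1 : ℝ)) (e i) := by
      rw [hs, he, ip_comm, ip_smul_left, ip_comm]
    have e2 : ip (T (fun _ => (1 : ℝ))) (e i) = c * ip (fun _ => (1 : ℝ)) (e i) := by
      rw [h1]
      have : (fun _ : X => c) = c • (fun _ : X => (1 : ℝ)) := by
        funext x
        simp
      rw [this, ip_smul_left]
    have e3 : (mu i - c) * ip (fun _ => (1 : ℝ)) (e i) = 0 := by linarith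
    rcases mul_eq_zero.1 e3 with h | h
    · exact absurd (sub_eq_zero.1 h) hi
    · exact h
  have hmu : ∀ i, mu i ≠ c → 1 ≤ mu i := by
    intro i hi
    refine hev (mu i) (e i) (hne i) ?_ (he i)
    rw [← hsum, ip_comm]
    exact hone i hi
  -- the part of f in the eigenspace of c
  have key : c < 1 → ∀ i, mu i = c → ip f (e i) = 0 := by
    intro hc
    let g : X → ℝ := ∑ i ∈ univ.filter (fun i => mu i = c), ip f (e i) • e i
    have hTg : T g = c • g := by
      simp only [g, map_sum, map_smul, he, Finset.smul_sum]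
      refine Finset.sum_congr rfl fun i hi => ?_
      rw [(Finset.mem_filter.1 hi).2, smul_comm]
    have hgs : ∀ h : X → ℝ, ip g h = ∑ i ∈ univ.filter (fun i => mu i = c),
        ip f (e i) * ip (e i) h := by
      intro h
      unfold ip
      simp only [g, Finset.sum_apply, Pi.smul_apply, smul_eq_mul, Finset.sum_mul, Finset.mul_sum]
      rw [Finset.sum_comm]
      refine Finset.sum_congr rfl fun i _ => Finset.sum_congr rfl fun x _ => ?_
      rw [← Finset.sum_mul]
      have e0 : ip f (e i) = ∑ x, f x * e i x := rfl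
      rw [e0]
      ring
    have hg0 : ∑ x, g x = 0 := by
      rw [← hsum, hgs, ← hf, ← hsum, hpar f (fun _ => (1 : ℝ)), Finset.sum_filter]
      refine Finset.sum_congr rfl fun i _ => ?_
      by_cases hi : mu i = c
      · rw [if_pos hi, ip_comm (e i)]
      · rw [if_neg hi, hone i hi, mul_zero]
    have hg : g = 0 := by
      by_contra hne'
      have := hev c g hne' hg0 hTg
      linarith
    have hgf : ip g f = 0 := by
      rw [hg]
      unfold ip
      simp
    rw [hgs] at hgf
    have h2 : ∀ i ∈ univ.filter (fun i => mu i = c), ip f (e i) * ip (e i) f = 0 := by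
      refine (Finset.sum_eq_zero_iff_of_nonneg ?_).1 hgf
      intro i _
      rw [ip_comm (e i) f]
      exact mul_self_nonneg _
    intro i hi
    have h3 := h2 i (Finset.mem_filter.2 ⟨Finset.mem_univ i, hi⟩)
    rw [ip_comm (e i) f] at h3
    exact mul_self_eq_zero.1 h3
  rw [hpar f f, hpar f (T f)]
  refine Finset.sum_le_sum fun i _ => ?_
  rw [hTe]
  have hmul : ip f (e i) * ip f (e i) ≤ mu i * (ip f (e i) * ip f (e i)) ∨ ip f (e i) = 0 := by
    by_cases hi : mu i = c
    · by_cases hc : c < 1
      · exact Or.inr (key hc i hi)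
      · left
        have h1' : 1 ≤ mu i := by rw [hi]; exact not_lt.1 hc
        nlinarith [mul_self_nonneg (ip f (e i))]
    · left
      have h1' := hmu i hi
      nlinarith [mul_self_nonneg (ip f (e i))]
  rcases hmul with h | h
  · linarith
  · rw [h]; simp

end Vale.Agent.P335.H.Spec3
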