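import Vale.Agent.P335.Mods

/-!
# P335, module CONN (Ryser): switches connect the classes
-/

namespace Vale.Agent.P335

open Finset

namespace CONNp

set_option linter.unusedSectionVars false

variable {R Q : Type} [Fintype R] [DecidableEq R] [Fintype Q] [DecidableEq Q]

/-- the set of cells where two matrices differ -/
def D (x y : R → Q → Bool) : Finset (R × Q) := univ.filter (fun c => x c.1 c.2 ≠ y c.1 c.2)

lemma mem_D (x y : R → Q → Bool) (a : R) (b : Q) : (a, b) ∈ D x y ↔ x a b ≠ y a b := by
  unfold D
  rw [mem_filter]
  exact ⟨fun h => h.2, fun h => ⟨mem_univ _, h⟩⟩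

lemma D_comm (x y : R → Q → Bool) : D x y = D y x := by
  ext ⟨a, b⟩
  rw [mem_D, mem_D]
  exact ne_comm

omit [Fintype R] [Fintype Q] in
lemma avail_ne (x : R → Q → Bool) (i k : R) (j l : Q) (h : Avail x i k j l) : i ≠ k ∧ j ≠ l := by
  obtain ⟨h1, h2, h3, h4⟩ := h
  constructor
  · rintro rfl
    rw [h1] at h3
    exact Bool.noConfusion h3
  · rintro rfl
    rw [h1] at h2
    exact Bool.noConfusion h2

lemma lt_of_sw (x y : R → Q → Bool) (i k : R) (j l : Q) (h : Avail x i k j l)
    (h1 : y i j = false) (h2 : y k j = true) (h3 : ¬ (y i l = false ∧ y k l = true)) :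
    (D (sw x i k j l) y).card < (D x y).card := by
  obtain ⟨hik, hjl⟩ := avail_ne x i k j l h
  obtain ⟨a1, a2, a3, a4⟩ := h
  -- the exceptional cell
  obtain ⟨c, hc⟩ : ∃ c : R × Q, D (sw x i k j l) y ⊆ insert c ((D x y).erase (i, j) |>.erase (k, j)) := by
    have hex : ∃ c : R × Q, ∀ a, (a = i ∨ a = k) → sw x i k j l a l ≠ y a l → (a, l) = c := by
      by_cases hy : y i l = false
      · refine ⟨(i, l), ?_⟩
        rintro a (rfl | rfl) h4
        · rfl
        · exfalso
          apply h4
          have h5 : y a l = false := by
            by_contra h6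
            exact h3 ⟨hy, by simpa using h6⟩
          rw [h5]
          unfold sw
          simp [a4]
      · refine ⟨(k, l), ?_⟩
        rintro a (rfl | rfl) h4
        · exfalso
          apply h4
          have h5 : y a l = true := by simpa using hy
          rw [h5]
          unfold sw
          simp [a2]
        · rfl
    obtain ⟨c, hc⟩ := hex
    refine ⟨c, ?_⟩
    rintro ⟨a, b⟩ hab
    rw [mem_D] at hab
    rw [mem_insert, mem_erase, mem_erase, mem_D]
    by_cases ha : a = i ∨ a = k
    · by_cases hb : b = j
      · exfalso
        subst hb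
        rcases ha with rfl | rfl
        · apply hab
          rw [h1]
          unfold sw
          simp [a1]
        · apply hab
          rw [h2]
          unfold sw
          simp [a3]
      · by_cases hb2 : b = l
        · left
          subst hb2
          exact hc a ha hab
        · right
          refine ⟨?_, ?_, ?_⟩
          · intro h5
            exact hb (Prod.mk.inj h5).2
          · intro h5
            exact hb (Prod.mk.inj h5).2
          · unfold sw at hab
            simpa [hb, hb2] using hab
    · right
      have ha1 : a ≠ i := fun h => ha (Or.inl h)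
      have ha2 : a ≠ k := fun h => ha (Or.inr h)
      refine ⟨?_, ?_, ?_⟩
      · intro h5
        exact ha2 (Prod.mk.inj h5).1
      · intro h5
        exact ha1 (Prod.mk.inj h5).1
      · unfold sw at hab
        simpa [ha1, ha2] using hab
  have m1 : (i, j) ∈ D x y := by
    rw [mem_D, a1, h1]
    simp
  have m2 : (k, j) ∈ (D x y).erase (i, j) := by
    rw [mem_erase, mem_D, a3, h2]
    refine ⟨?_, by simp⟩
    intro h5
    exact hik (Prod.mk.inj h5).1.symm
  have h6 := (card_le_card hc).trans (card_insert_le _ _)
  rw [card_erase_of_mem m2, card_erase_of_mem m1] at h6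
  have h7 : 0 < ((D x y).erase (i, j)).card := card_pos.mpr ⟨_, m2⟩
  rw [card_erase_of_mem m1] at h7
  omega

/-- difference of two rows -/
def rd (x : R → Q → Bool) (i k : R) (l : Q) : ℤ :=
  (if x i l = true then 1 else 0) - (if x k l = true then 1 else 0)

omit [Fintype R] [DecidableEq R] [DecidableEq Q] in
lemma sum_rd (x : R → Q → Bool) (i k : R) :
    ∑ l, rd x i k l = (rsum x i : ℤ) - (rsum x k : ℤ) := by
  unfold rd rsum
  rw [sum_sub_distrib, card_filter, card_filter]
  push_cast
  rfl

omit [DecidableEq R] [DecidableEq Q] in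
lemma exists_col (x y : R → Q → Bool) (i k : R) (j : Q) (hi : rsum x i = rsum y i)
    (hk : rsum x k = rsum y k) (h1 : x i j = true) (h2 : x k j = false) (h3 : y i j = false)
    (h4 : y k j = true) :
    ∃ l, (x i l = false ∧ x k l = true ∧ ¬ (y i l = false ∧ y k l = true)) ∨
      (y k l = false ∧ y i l = true ∧ ¬ (x k l = false ∧ x i l = true)) := by
  have h5 : ∃ l, rd x i k l < rd y i k l := by
    by_contra hno
    push Not at hno
    have h6 : ∑ l, rd y i k l < ∑ l, rd x i k l := by
      apply sum_lt_sum (fun l _ => hno l)
      refine ⟨j, mem_univ _, ?_⟩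
      unfold rd
      simp [h1, h2, h3, h4]
    rw [sum_rd, sum_rd, hi, hk] at h6
    exact lt_irrefl _ h6
  obtain ⟨l, hl⟩ := h5
  refine ⟨l, ?_⟩
  unfold rd at hl
  cases hxi : x i l <;> cases hxk : x k l <;> cases hyi : y i l <;> cases hyk : y k l <;>
    simp_all

omit [DecidableEq R] [DecidableEq Q] in
lemma exists_row (T : Finset R) (x y : R → Q → Bool) (h : Rel T x y) (i : R) (j : Q)
    (h1 : x i j = true) (h2 : y i j = false) :
    ∃ k, x k j = false ∧ y k j = true := by
  by_contra hno
  push Not at hno
  have h3 : (univ.filter (fun k => y k j = true)) ⊂ (univ.filter (fun k => x k j = true)) := by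
    rw [ssubset_iff_of_subset]
    · refine ⟨i, ?_, ?_⟩
      · simp [h1]
      · simp [h2]
    · intro k hk
      rw [mem_filter] at hk ⊢
      refine ⟨mem_univ _, ?_⟩
      by_contra h4
      exact hno k (by simpa using h4) hk.2
  have h4 := card_lt_card h3
  have h5 := h.2.2 j
  unfold csum at h5
  omega

omit [DecidableEq R] [DecidableEq Q] in
lemma exists_red (T : Finset R) (x y : R → Q → Bool) (h : Rel T x y) (hne : x ≠ y) :
    ∃ i j, x i j = true ∧ y i j = false := by
  by_contra hno
  push Not at hno
  apply hne
  ext i j
  have h1 : (univ.filter (fun l => x i l = true)) ⊆ (univ.filter (fun l => y i l = true)) := by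
    intro l hl
    rw [mem_filter] at hl ⊢
    refine ⟨mem_univ _, ?_⟩
    by_contra h4
    exact hno i l hl.2 (by simpa using h4)
  have h2 : (univ.filter (fun l => x i l = true)) = (univ.filter (fun l => y i l = true)) := by
    apply eq_of_subset_of_card_le h1
    have := h.2.1 i
    unfold rsum at this
    omega
  have h3 := congrArg (fun s => j ∈ s) h2
  simp only [mem_filter, mem_univ, true_and, eq_iff_iff] at h3
  cases hx : x i j <;> cases hy : y i j <;> simp_all

end CONNp

open CONNp in
theorem CONNp.x_proof (hE : EOPs) : CONN := by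
  intro R Q _ _ _ _ T f hf
  have rel_sw := hE.rel_sw R Q
  have main : ∀ N : ℕ, ∀ x y : R → Q → Bool, (D x y).card ≤ N → Rel T x y → f x = f y := by
    intro N
    induction N with
    | zero =>
      intro x y hN _
      have h1 : D x y = ∅ := card_eq_zero.mp (Nat.le_zero.mp hN)
      have h2 : x = y := by
        ext i j
        have h3 : (i, j) ∉ D x y := by
          rw [h1]
          exact notMem_empty _
        rw [mem_D, not_not] at h3
        rw [h3]
      rw [h2]
    | succ N ih =>
      intro x y hN hxy
      by_cases hne : x = y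
      · rw [hne]
      · obtain ⟨i, j, h1, h2⟩ := exists_red T x y hxy hne
        obtain ⟨k, h3, h4⟩ := exists_row T x y hxy i j h1 h2
        have hiT : i ∈ T := by
          by_contra h
          have := congrFun (hxy.1 i h) j
          rw [h1, h2] at this
          exact Bool.noConfusion this
        have hkT : k ∈ T := by
          by_contra h
          have := congrFun (hxy.1 k h) j
          rw [h3, h4] at this
          exact Bool.noConfusion this
        obtain ⟨l, ⟨h5, h6, h7⟩ | ⟨h5, h6, h7⟩⟩ := exists_col x y i k j (hxy.2.1 i) (hxy.2.1 k) h1 h3 h2 h4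
        · have hav : Avail x i k j l := ⟨h1, h5, h3, h6⟩
          have hlt := lt_of_sw x y i k j l hav h2 h4 h7
          rw [← hf x i k j l hiT hkT hav]
          apply ih _ _ (by omega)
          have h8 := rel_sw T x i k j l hiT hkT hav
          exact ⟨fun a ha => (h8.1 a ha).symm.trans (hxy.1 a ha),
            fun a => (h8.2.1 a).symm.trans (hxy.2.1 a), fun a => (h8.2.2 a).symm.trans (hxy.2.2 a)⟩
        · have hav : Avail y k i j l := ⟨h4, h5, h2, h6⟩
          have hlt := lt_of_sw y x k i j l hav h3 h1 h7
          rw [← hf y k i j l hkT hiT hav]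
          apply ih _ _ (by rw [D_comm]; rw [D_comm x y] at hN; omega)
          have h8 := rel_sw T y k i j l hkT hiT hav
          exact ⟨fun a ha => (hxy.1 a ha).trans (h8.1 a ha),
            fun a => (hxy.2.1 a).trans (h8.2.1 a), fun a => (hxy.2.2 a).trans (h8.2.2 a)⟩
  intro x y hxy
  exact main _ x y le_rfl hxy

end Vale.Agent.P335
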