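import Vale.Agent.P335.Eops

/-!
P335, module COMM: resampling disjoint sets of rows commutes.
-/

set_option linter.unusedSectionVars false

namespace Vale.Agent.P335.Comm

open Finset Eops

section
variable {R Q : Type} [Fintype R] [DecidableEq R] [Fintype Q] [DecidableEq Q]

/-- rows `T` of `z`, the rest of `x` -/
def mix (T : Finset R) (z x : R → Q → Bool) : R → Q → Bool := fun i => if i ∈ T then z i else x i

theorem mix_mem {T : Finset R} (z x : R → Q → Bool) {i : R} (h : i ∈ T) : mix T z x i = z i := by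
  simp [mix, h]

theorem mix_not {T : Finset R} (z x : R → Q → Bool) {i : R} (h : i ∉ T) : mix T z x i = x i := by
  simp [mix, h]

theorem mix_rel1 {S T : Finset R} (hd : Disjoint S T) {x y z : R → Q → Bool} (h1 : Rel S x y)
    (h2 : Rel T y z) : Rel T x (mix T z x) := by
  have hx : ∀ i ∈ T, x i = y i := fun i hi => h1.1 i (fun hs => Finset.disjoint_left.mp hd hs hi)
  refine rel_of_col (fun i hi => (mix_not z x hi).symm) (fun i hi => ?_) (fun j => ?_)
  · have e1 : rsum (mix T z x) i = rsum z i := by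
      unfold rsum
      rw [mix_mem z x hi]
    rw [e1, h1.2.1 i, h2.2.1 i]
  · have e1 : ∑ i ∈ T, (mix T z x i j).toNat = ∑ i ∈ T, (z i j).toNat :=
      Finset.sum_congr rfl (fun i hi => by rw [mix_mem z x hi])
    rw [e1, ← col_T h2 j]
    exact Finset.sum_congr rfl (fun i hi => by rw [hx i hi])

theorem mix_rel2 {S T : Finset R} (hd : Disjoint S T) {x y z : R → Q → Bool} (h1 : Rel S x y)
    (h2 : Rel T y z) : Rel S (mix T z x) z := by
  have h3 := mix_rel1 hd h1 h2
  refine ⟨fun i hi => ?_, fun i => ?_, fun j => ?_⟩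
  · by_cases hT : i ∈ T
    · exact mix_mem z x hT
    · rw [mix_not z x hT, h1.1 i hi, h2.1 i hT]
  · exact ((h3.2.1 i).symm.trans (h1.2.1 i)).trans (h2.2.1 i)
  · exact ((h3.2.2 j).symm.trans (h1.2.2 j)).trans (h2.2.2 j)

theorem mix_eq {S T : Finset R} (hd : Disjoint S T) {x y z : R → Q → Bool} (h1 : Rel S x y)
    (h2 : Rel T y z) : mix S z x = y := by
  funext i
  by_cases hS : i ∈ S
  · rw [mix_mem z x hS]
    exact (h2.1 i (Finset.disjoint_left.mp hd hS)).symm
  · rw [mix_not z x hS]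
    exact h1.1 i hS

theorem mix_back {T : Finset R} {y z : R → Q → Bool} (x : R → Q → Bool) (h : Rel T y z) :
    mix T (mix T z x) y = z := by
  funext i
  by_cases hT : i ∈ T
  · rw [mix_mem _ y hT, mix_mem z x hT]
  · rw [mix_not _ y hT]
    exact h.1 i hT

theorem card_eq {S T : Finset R} (hd : Disjoint S T) {x y : R → Q → Bool} (h1 : Rel S x y) :
    (cls T y).card = (cls T x).card := by
  refine Finset.card_bij' (fun z _ => mix T z x) (fun z _ => mix T z y) ?_ ?_ ?_ ?_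
  · intro z hz
    exact mem_cls.mpr (mix_rel1 hd h1 (mem_cls.mp hz))
  · intro z hz
    exact mem_cls.mpr (mix_rel1 hd (rel_symm h1) (mem_cls.mp hz))
  · intro z hz
    exact mix_back x (mem_cls.mp hz)
  · intro z hz
    exact mix_back y (mem_cls.mp hz)

theorem sum_eq {S T : Finset R} (hd : Disjoint S T) (f : (R → Q → Bool) → ℝ)
    (x : R → Q → Bool) :
    ∑ y ∈ cls S x, ∑ z ∈ cls T y, f z = ∑ y ∈ cls T x, ∑ z ∈ cls S y, f z := by
  rw [Finset.sum_sigma', Finset.sum_sigma']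
  refine Finset.sum_bij' (fun p _ => (⟨mix T p.2 x, p.2⟩ : Σ _ : R → Q → Bool, R → Q → Bool))
    (fun p _ => (⟨mix S p.2 x, p.2⟩ : Σ _ : R → Q → Bool, R → Q → Bool)) ?_ ?_ ?_ ?_ ?_
  · rintro ⟨y, z⟩ h
    rw [Finset.mem_sigma, mem_cls, mem_cls] at h ⊢
    exact ⟨mix_rel1 hd h.1 h.2, mix_rel2 hd h.1 h.2⟩
  · rintro ⟨y, z⟩ h
    rw [Finset.mem_sigma, mem_cls, mem_cls] at h ⊢
    exact ⟨mix_rel1 hd.symm h.1 h.2, mix_rel2 hd.symm h.1 h.2⟩
  · rintro ⟨y, z⟩ h
    rw [Finset.mem_sigma, mem_cls, mem_cls] at h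
    have e := mix_eq hd h.1 h.2
    simp only at e ⊢
    rw [e]
  · rintro ⟨y, z⟩ h
    rw [Finset.mem_sigma, mem_cls, mem_cls] at h
    have e := mix_eq hd.symm h.1 h.2
    simp only at e ⊢
    rw [e]
  · rintro ⟨y, z⟩ _
    rfl

theorem E_E {S T : Finset R} (hd : Disjoint S T) (f : (R → Q → Bool) → ℝ) (x : R → Q → Bool) :
    E S (E T f) x =
      (∑ y ∈ cls S x, ∑ z ∈ cls T y, f z) / (((cls S x).card : ℝ) * ((cls T x).card : ℝ)) := by
  have h1 : ∀ y ∈ cls S x, E T f y = (∑ z ∈ cls T y, f z) / ((cls T x).card : ℝ) := by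
    intro y hy
    unfold E
    rw [card_eq hd (mem_cls.mp hy)]
  rw [E, Finset.sum_congr rfl h1, ← Finset.sum_div, div_div, mul_comm]

end

theorem comm_proof : COMM := by
  intro R Q _ _ _ _ S T f hd
  funext x
  rw [E_E hd f x, E_E hd.symm f x, sum_eq hd f x, mul_comm]

end Vale.Agent.P335.Comm
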