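import Mathlib

/-!
P335, KEY2: the coupling lemma on subsets.
-/

namespace Vale.Agent.P335.COUP

open Finset

variable {Q : Type} [DecidableEq Q]

/-- moving one element in: pairs (A, e) and (B, e) -/
theorem sum_pc_swap (D : Finset Q) (s : ℕ) (psi : Finset Q → Finset Q → ℝ) :
    ∑ A ∈ D.powersetCard s, ∑ e ∈ D \ A, psi A (insert e A) =
      ∑ B ∈ D.powersetCard (s + 1), ∑ e ∈ B, psi (B.erase e) B := by
  rw [Finset.sum_sigma', Finset.sum_sigma']
  refine Finset.sum_bij' (fun p _ => (⟨insert p.2 p.1, p.2⟩ : Σ _ : Finset Q, Q))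
    (fun p _ => (⟨p.1.erase p.2, p.2⟩ : Σ _ : Finset Q, Q)) ?_ ?_ ?_ ?_ ?_
  · rintro ⟨A, e⟩ h
    simp only [mem_sigma, mem_powersetCard, mem_sdiff] at h ⊢
    refine ⟨⟨insert_subset h.2.1 h.1.1, ?_⟩, mem_insert_self _ _⟩
    rw [card_insert_of_notMem h.2.2, h.1.2]
  · rintro ⟨B, e⟩ h
    simp only [mem_sigma, mem_powersetCard, mem_sdiff] at h ⊢
    refine ⟨⟨(erase_subset _ _).trans h.1.1, ?_⟩, h.1.1 h.2, notMem_erase _ _⟩
    rw [card_erase_of_mem h.2, h.1.2]; rfl
  · rintro ⟨A, e⟩ h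
    simp only [mem_sigma, mem_powersetCard, mem_sdiff] at h
    simp [erase_insert h.2.2]
  · rintro ⟨B, e⟩ h
    simp only [mem_sigma, mem_powersetCard] at h
    simp [insert_erase h.2]
  · rintro ⟨A, e⟩ h
    simp only [mem_sigma, mem_powersetCard, mem_sdiff] at h
    simp [erase_insert h.2.2]

theorem sum_up (D : Finset Q) (s : ℕ) (phi : Finset Q → ℝ) :
    ∑ A ∈ D.powersetCard s, ∑ e ∈ D \ A, phi (insert e A) =
      ((s : ℝ) + 1) * ∑ B ∈ D.powersetCard (s + 1), phi B := by
  rw [sum_pc_swap D s (fun _ B => phi B), Finset.mul_sum]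
  refine Finset.sum_congr rfl fun B hB => ?_
  rw [Finset.sum_const, (mem_powersetCard.1 hB).2]
  simp

theorem sum_down (D : Finset Q) (s : ℕ) (hs : s + 1 ≤ D.card) (phi : Finset Q → ℝ) :
    ∑ A ∈ D.powersetCard (s + 1), ∑ e ∈ A, phi (A.erase e) =
      ((D.card : ℝ) - s) * ∑ B ∈ D.powersetCard s, phi B := by
  rw [← sum_pc_swap D s (fun A _ => phi A), Finset.mul_sum]
  refine Finset.sum_congr rfl fun B hB => ?_
  rw [Finset.sum_const, card_sdiff_of_subset (mem_powersetCard.1 hB).1, (mem_powersetCard.1 hB).2]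
  rw [nsmul_eq_mul, Nat.cast_sub (by omega)]

/-- decomposition of the (s+1)-subsets of D + j + l -/
theorem sum_big (D : Finset Q) (j l : Q) (hj : j ∉ D) (hl : l ∉ D) (hjl : j ≠ l) (s : ℕ)
    (hs : s ≤ D.card) (h : Finset Q → ℝ) :
    ∑ B ∈ (insert j (insert l D)).powersetCard (s + 1), h B =
      ∑ A ∈ D.powersetCard s, (h (insert j A) + h (insert l A) +
        (∑ e ∈ A, h (insert j (insert l (A.erase e)))) / ((D.card : ℝ) - s + 1) +
        (∑ e ∈ D \ A, h (insert e A)) / ((s : ℝ) + 1)) := by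
  have hj' : j ∉ insert l D := by simp [hj, hjl]
  have step : ∀ (S : Finset Q) (x : Q) (_ : x ∉ S) (n : ℕ) (g : Finset Q → ℝ),
      ∑ B ∈ (insert x S).powersetCard (n + 1), g B =
        ∑ B ∈ S.powersetCard (n + 1), g B + ∑ A ∈ S.powersetCard n, g (insert x A) := by
    intro S x hx n g
    rw [powersetCard_succ_insert hx, sum_union, sum_image]
    · intro A hA B hB hAB
      have hxA : x ∉ A := fun h' => hx ((mem_powersetCard.1 hA).1 h')
      have hxB : x ∉ B := fun h' => hx ((mem_powersetCard.1 hB).1 h')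
      rw [← erase_insert hxA, ← erase_insert hxB, hAB]
    · rw [disjoint_left]
      intro A hA hB
      obtain ⟨B, _, rfl⟩ := mem_image.1 hB
      exact hx ((mem_powersetCard.1 hA).1 (mem_insert_self _ _))
  have e1 : (∑ A ∈ D.powersetCard s, (∑ e ∈ D \ A, h (insert e A)) / ((s : ℝ) + 1)) =
      ∑ B ∈ D.powersetCard (s + 1), h B := by
    rw [← Finset.sum_div, sum_up]
    have : (s : ℝ) + 1 ≠ 0 := by positivity
    field_simp
  rw [step _ _ hj', step _ _ hl]
  simp only [Finset.sum_add_distrib]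
  rw [e1]
  rcases Nat.eq_zero_or_pos s with rfl | hpos
  · simp
    ring
  · obtain ⟨t, rfl⟩ : ∃ t, s = t + 1 := ⟨s - 1, by omega⟩
    rw [step _ _ hl]
    have e2 : (∑ A ∈ D.powersetCard (t + 1),
        (∑ e ∈ A, h (insert j (insert l (A.erase e)))) / ((D.card : ℝ) - ((t + 1 : ℕ) : ℝ) + 1)) =
        ∑ B ∈ D.powersetCard t, h (insert j (insert l B)) := by
      rw [← Finset.sum_div, sum_down D t hs (fun B => h (insert j (insert l B)))]
      have : (D.card : ℝ) - t ≠ 0 := by
        have : ((t + 1 : ℕ) : ℝ) ≤ D.card := by exact_mod_cast hs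
        push_cast at this
        intro h0
        linarith
      push_cast
      have e3 : (D.card : ℝ) - (t + 1) + 1 = D.card - t := by ring
      rw [e3]
      field_simp
    rw [e2]
    ring

/-- the coupling bound -/
theorem coup (D : Finset Q) (j l : Q) (hj : j ∉ D) (hl : l ∉ D) (hjl : j ≠ l) (s : ℕ)
    (hs : s ≤ D.card) (g h : Finset Q → ℝ) (c : ℝ)
    (h1 : ∀ A ∈ D.powersetCard s, |h (insert j A) - g A| ≤ c)
    (h2 : ∀ A ∈ D.powersetCard s, |h (insert l A) - g A| ≤ c)
    (h3 : ∀ A ∈ D.powersetCard s, ∀ e ∈ A, |h (insert j (insert l (A.erase e))) - g A| ≤ c)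
    (h4 : ∀ A ∈ D.powersetCard s, ∀ e ∈ D \ A, |h (insert e A) - g A| ≤ c) :
    |(∑ B ∈ (insert j (insert l D)).powersetCard (s + 1), h B) /
        (((insert j (insert l D)).powersetCard (s + 1)).card : ℝ) -
      (∑ A ∈ D.powersetCard s, g A) / ((D.powersetCard s).card : ℝ)| ≤ c := by
  set kap : ℝ := 2 + (s : ℝ) / ((D.card : ℝ) - s + 1) + ((D.card : ℝ) - s) / ((s : ℝ) + 1) with hkap
  have hsr : (s : ℝ) ≤ D.card := by exact_mod_cast hs
  have hd1 : (0 : ℝ) < (D.card : ℝ) - s + 1 := by linarith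
  have hd2 : (0 : ℝ) < (s : ℝ) + 1 := by positivity
  have hkpos : 0 < kap := by
    have a1 : 0 ≤ (s : ℝ) / ((D.card : ℝ) - s + 1) := by positivity
    have a2 : 0 ≤ ((D.card : ℝ) - s) / ((s : ℝ) + 1) := div_nonneg (by linarith) hd2.le
    rw [hkap]; linarith
  have hS : 0 < ((D.powersetCard s).card : ℝ) := by
    rw [card_powersetCard]; exact_mod_cast Nat.choose_pos hs
  have cardA : ∀ A ∈ D.powersetCard s, ((A.card : ℝ) = s ∧ ((D \ A).card : ℝ) = D.card - s) := by
    intro A hA
    have h' := mem_powersetCard.1 hA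
    refine ⟨by exact_mod_cast h'.2, ?_⟩
    rw [card_sdiff_of_subset h'.1, h'.2, Nat.cast_sub hs]
  have hT : (((insert j (insert l D)).powersetCard (s + 1)).card : ℝ) =
      kap * ((D.powersetCard s).card : ℝ) := by
    have := sum_big D j l hj hl hjl s hs (fun _ => 1)
    simp only [sum_const, nsmul_eq_mul, mul_one] at this
    rw [this]
    rw [Finset.sum_congr rfl (g := fun _ => kap)]
    · rw [sum_const, nsmul_eq_mul, mul_comm]
    · intro A hA
      obtain ⟨q1, q2⟩ := cardA A hA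
      rw [q1, q2, hkap]; ring
  have hsum := sum_big D j l hj hl hjl s hs h
  have key : |(∑ B ∈ (insert j (insert l D)).powersetCard (s + 1), h B) -
      kap * ∑ A ∈ D.powersetCard s, g A| ≤ kap * c * ((D.powersetCard s).card : ℝ) := by
    rw [hsum, Finset.mul_sum, ← Finset.sum_sub_distrib]
    refine (Finset.abs_sum_le_sum_abs _ _).trans ?_
    have : ∀ A ∈ D.powersetCard s,
        |(h (insert j A) + h (insert l A) +
        (∑ e ∈ A, h (insert j (insert l (A.erase e)))) / ((D.card : ℝ) - s + 1) +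
        (∑ e ∈ D \ A, h (insert e A)) / ((s : ℝ) + 1)) - kap * g A| ≤ kap * c := by
      intro A hA
      obtain ⟨q1, q2⟩ := cardA A hA
      have r3 : |(∑ e ∈ A, h (insert j (insert l (A.erase e)))) - (s : ℝ) * g A| ≤ s * c := by
        have : (s : ℝ) * g A = ∑ e ∈ A, g A := by rw [sum_const, nsmul_eq_mul, q1]
        rw [this, ← Finset.sum_sub_distrib]
        refine (Finset.abs_sum_le_sum_abs _ _).trans ?_
        refine (Finset.sum_le_sum (fun e he => h3 A hA e he)).trans ?_
        rw [sum_const, nsmul_eq_mul, q1]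
      have r4 : |(∑ e ∈ D \ A, h (insert e A)) - ((D.card : ℝ) - s) * g A| ≤ (D.card - s) * c := by
        have : ((D.card : ℝ) - s) * g A = ∑ e ∈ D \ A, g A := by rw [sum_const, nsmul_eq_mul, q2]
        rw [this, ← Finset.sum_sub_distrib]
        refine (Finset.abs_sum_le_sum_abs _ _).trans ?_
        refine (Finset.sum_le_sum (fun e he => h4 A hA e he)).trans ?_
        rw [sum_const, nsmul_eq_mul, q2]
      have r1 := h1 A hA
      have r2 := h2 A hA
      have t3 : |(∑ e ∈ A, h (insert j (insert l (A.erase e)))) / ((D.card : ℝ) - s + 1) -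
          (s : ℝ) / ((D.card : ℝ) - s + 1) * g A| ≤ (s : ℝ) / ((D.card : ℝ) - s + 1) * c := by
        have : (∑ e ∈ A, h (insert j (insert l (A.erase e)))) / ((D.card : ℝ) - s + 1) -
          (s : ℝ) / ((D.card : ℝ) - s + 1) * g A =
          ((∑ e ∈ A, h (insert j (insert l (A.erase e)))) - (s : ℝ) * g A) /
            ((D.card : ℝ) - s + 1) := by ring
        rw [this, abs_div, abs_of_pos hd1, div_mul_eq_mul_div]
        exact div_le_div_of_nonneg_right r3 hd1.le
      have t4 : |(∑ e ∈ D \ A, h (insert e A)) / ((s : ℝ) + 1) -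
          ((D.card : ℝ) - s) / ((s : ℝ) + 1) * g A| ≤ ((D.card : ℝ) - s) / ((s : ℝ) + 1) * c := by
        have : (∑ e ∈ D \ A, h (insert e A)) / ((s : ℝ) + 1) -
          ((D.card : ℝ) - s) / ((s : ℝ) + 1) * g A =
          ((∑ e ∈ D \ A, h (insert e A)) - ((D.card : ℝ) - s) * g A) / ((s : ℝ) + 1) := by ring
        rw [this, abs_div, abs_of_pos hd2, div_mul_eq_mul_div]
        exact div_le_div_of_nonneg_right r4 hd2.le
      rw [abs_le] at r1 r2 t3 t4 ⊢
      rw [hkap]
      constructor <;> nlinarith [r1.1, r1.2, r2.1, r2.2, t3.1, t3.2, t4.1, t4.2]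
    refine (Finset.sum_le_sum this).trans ?_
    rw [sum_const, nsmul_eq_mul]
    linarith
  have hTpos : 0 < (((insert j (insert l D)).powersetCard (s + 1)).card : ℝ) := by
    rw [hT]; positivity
  have e5 : (∑ B ∈ (insert j (insert l D)).powersetCard (s + 1), h B) /
        (((insert j (insert l D)).powersetCard (s + 1)).card : ℝ) -
      (∑ A ∈ D.powersetCard s, g A) / ((D.powersetCard s).card : ℝ) =
      ((∑ B ∈ (insert j (insert l D)).powersetCard (s + 1), h B) -
      kap * ∑ A ∈ D.powersetCard s, g A) /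
        (((insert j (insert l D)).powersetCard (s + 1)).card : ℝ) := by
    rw [sub_div]
    congr 1
    rw [hT]
    field_simp
  rw [e5, abs_div, abs_of_pos hTpos, div_le_iff₀ hTpos]
  refine key.trans (le_of_eq ?_)
  rw [hT]; ring

end Vale.Agent.P335.COUP
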