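import Mathlib

/-!
P335, matrix part: definitions.  Matrices are functions `x : R → Q → Bool`.
-/

namespace Vale.Agent.P335

open Finset

/-- inner product of functions on a finite type -/
def ip {X : Type} [Fintype X] (f g : X → ℝ) : ℝ := ∑ x, f x * g x

section
variable {R Q : Type} [Fintype R] [DecidableEq R] [Fintype Q] [DecidableEq Q]

/-- row sum -/
def rsum (x : R → Q → Bool) (i : R) : ℕ := (univ.filter (fun j => x i j = true)).card

/-- column sum -/
def csum (x : R → Q → Bool) (j : Q) : ℕ := (univ.filter (fun i => x i j = true)).card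

/-- equal outside the rows `T`, and equal row and column sums -/
def Rel (T : Finset R) (x y : R → Q → Bool) : Prop :=
  (∀ i, i ∉ T → x i = y i) ∧ (∀ i, rsum x i = rsum y i) ∧ (∀ j, csum x j = csum y j)

open Classical in
/-- the class of `x`: everything obtained by resampling the rows `T` -/
noncomputable def cls (T : Finset R) (x : R → Q → Bool) : Finset (R → Q → Bool) :=
  univ.filter (fun y => Rel T x y)

/-- average over the class: resample the rows `T` -/
noncomputable def E (T : Finset R) (f : (R → Q → Bool) → ℝ) (x : R → Q → Bool) : ℝ :=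
  (∑ y ∈ cls T x, f y) / ((cls T x).card : ℝ)

/-- the switch on rows `i, k` and columns `j, l` is available (oriented) -/
def Avail (x : R → Q → Bool) (i k : R) (j l : Q) : Prop :=
  x i j = true ∧ x i l = false ∧ x k j = false ∧ x k l = true

/-- flip the four cells -/
def sw (x : R → Q → Bool) (i k : R) (j l : Q) : R → Q → Bool :=
  fun a b => if (a = i ∨ a = k) ∧ (b = j ∨ b = l) then !(x a b) else x a b

/-- the projection complementary to `E T` -/
noncomputable def P (T : Finset R) (f : (R → Q → Bool) → ℝ) : (R → Q → Bool) → ℝ :=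
  fun x => f x - E T f x

/-- sum of `P e` over the pairs `e` inside `T` -/
noncomputable def RT (T : Finset R) (f : (R → Q → Bool) → ℝ) : (R → Q → Bool) → ℝ :=
  fun x => ∑ e ∈ T.powersetCard 2, P e f x

/-- bound for switches inside `T` whose third row `m` has equal entries in the two columns -/
def SameBd (T : Finset R) (f : (R → Q → Bool) → ℝ) (L : ℝ) : Prop :=
  ∀ (z : R → Q → Bool) (i k m : R) (u v : Q), i ∈ T → k ∈ T → m ∈ T → i ≠ k → i ≠ m → k ≠ m →
    Avail z i k u v → z m u = z m v → |f z - f (sw z i k u v)| ≤ L

/-- bound for switches inside `T` whose third row `m` has different entries in the two columns -/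
def MixBd (T : Finset R) (f : (R → Q → Bool) → ℝ) (L : ℝ) : Prop :=
  ∀ (z : R → Q → Bool) (i k m : R) (u v : Q), i ∈ T → k ∈ T → m ∈ T → i ≠ k → i ≠ m → k ≠ m →
    Avail z i k u v → z m u ≠ z m v → |f z - f (sw z i k u v)| ≤ L

end

end Vale.Agent.P335
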