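import Vale.Agent.P335.Mods

/-!
P335, module EOPs: elementary facts on `Rel`, `cls`, `E`, `sw`.
-/

set_option linter.unusedSectionVars false

namespace Vale.Agent.P335.Eops

open Finset

section
variable {R Q : Type} [Fintype R] [DecidableEq R] [Fintype Q] [DecidableEq Q]

theorem rel_refl (T : Finset R) (x : R → Q → Bool) : Rel T x x :=
  ⟨fun _ _ => rfl, fun _ => rfl, fun _ => rfl⟩

theorem rel_symm {T : Finset R} {x y : R → Q → Bool} (h : Rel T x y) : Rel T y x :=
  ⟨fun i hi => (h.1 i hi).symm, fun i => (h.2.1 i).symm, fun j => (h.2.2 j).symm⟩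

theorem rel_trans {T : Finset R} {x y z : R → Q → Bool} (h : Rel T x y) (h' : Rel T y z) :
    Rel T x z :=
  ⟨fun i hi => (h.1 i hi).trans (h'.1 i hi), fun i => (h.2.1 i).trans (h'.2.1 i),
    fun j => (h.2.2 j).trans (h'.2.2 j)⟩

theorem rel_mono {S T : Finset R} {x y : R → Q → Bool} (hst : S ⊆ T) (h : Rel S x y) :
    Rel T x y :=
  ⟨fun i hi => h.1 i (fun hs => hi (hst hs)), h.2⟩

theorem rsum_eq_sum (x : R → Q → Bool) (i : R) : rsum x i = ∑ j, (x i j).toNat := by
  unfold rsum
  rw [Finset.card_filter]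
  refine Finset.sum_congr rfl (fun j _ => ?_)
  cases x i j <;> rfl

theorem csum_eq_sum (x : R → Q → Bool) (j : Q) : csum x j = ∑ i, (x i j).toNat := by
  unfold csum
  rw [Finset.card_filter]
  refine Finset.sum_congr rfl (fun i _ => ?_)
  cases x i j <;> rfl

/-- the column sums over the rows of `T` are invariants of the class -/
theorem col_T {T : Finset R} {x y : R → Q → Bool} (h : Rel T x y) (j : Q) :
    ∑ i ∈ T, (x i j).toNat = ∑ i ∈ T, (y i j).toNat := by
  have h1 := h.2.2 j
  rw [csum_eq_sum, csum_eq_sum, ← Finset.sum_add_sum_compl T, ← Finset.sum_add_sum_compl T] at h1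
  have h2 : ∑ i ∈ Tᶜ, (x i j).toNat = ∑ i ∈ Tᶜ, (y i j).toNat := by
    refine Finset.sum_congr rfl (fun i hi => ?_)
    rw [h.1 i (by simpa using hi)]
  omega

/-- two rows -/
theorem col_pair {i m : R} (him : i ≠ m) {x y : R → Q → Bool} (h : Rel {i, m} x y) (j : Q) :
    (x i j).toNat + (x m j).toNat = (y i j).toNat + (y m j).toNat := by
  have h1 := col_T h j
  rw [Finset.sum_pair him, Finset.sum_pair him] at h1
  exact h1

/-- to be related: rows outside `T`, row sums, and column sums over `T` -/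
theorem rel_of_col {T : Finset R} {x y : R → Q → Bool} (h1 : ∀ i, i ∉ T → x i = y i)
    (h2 : ∀ i ∈ T, rsum x i = rsum y i)
    (h3 : ∀ j, ∑ i ∈ T, (x i j).toNat = ∑ i ∈ T, (y i j).toNat) : Rel T x y := by
  refine ⟨h1, fun i => ?_, fun j => ?_⟩
  · by_cases hi : i ∈ T
    · exact h2 i hi
    · unfold rsum
      rw [h1 i hi]
  · rw [csum_eq_sum, csum_eq_sum, ← Finset.sum_add_sum_compl T, ← Finset.sum_add_sum_compl T, h3 j]
    congr 1
    refine Finset.sum_congr rfl (fun i hi => ?_)
    rw [h1 i (by simpa using hi)]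

/-! ### switches -/

theorem sw_row_of_ne (x : R → Q → Bool) (i k : R) (j l : Q) {a : R} (h1 : a ≠ i) (h2 : a ≠ k) :
    sw x i k j l a = x a := by
  funext b
  simp [sw, h1, h2]

theorem sw_col_of_ne (x : R → Q → Bool) (i k : R) (j l : Q) (a : R) {b : Q} (h1 : b ≠ j)
    (h2 : b ≠ l) : sw x i k j l a b = x a b := by
  simp [sw, h1, h2]

theorem sw_ij (x : R → Q → Bool) (i k : R) (j l : Q) : sw x i k j l i j = !(x i j) := by
  simp [sw]

theorem sw_il (x : R → Q → Bool) (i k : R) (j l : Q) : sw x i k j l i l = !(x i l) := by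
  simp [sw]

theorem sw_kj (x : R → Q → Bool) (i k : R) (j l : Q) : sw x i k j l k j = !(x k j) := by
  simp [sw]

theorem sw_kl (x : R → Q → Bool) (i k : R) (j l : Q) : sw x i k j l k l = !(x k l) := by
  simp [sw]

theorem avail_ne {x : R → Q → Bool} {i k : R} {j l : Q} (h : Avail x i k j l) :
    i ≠ k ∧ j ≠ l := by
  obtain ⟨h1, h2, h3, h4⟩ := h
  constructor
  · rintro rfl
    rw [h1] at h3
    exact absurd h3 (by decide)
  · rintro rfl
    rw [h1] at h2
    exact absurd h2 (by decide)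

theorem sw_sw (x : R → Q → Bool) (i k : R) (j l : Q) : sw (sw x i k j l) i k j l = x := by
  funext a b
  unfold sw
  by_cases h : (a = i ∨ a = k) ∧ (b = j ∨ b = l)
  · simp [h]
  · simp [h]

theorem sw_comm (x : R → Q → Bool) (i k : R) (j l : Q) :
    sw x k i j l = sw x i k j l ∧ sw x i k l j = sw x i k j l := by
  constructor
  · funext a b
    unfold sw
    refine if_congr (and_congr_left' or_comm) rfl rfl
  · funext a b
    unfold sw
    refine if_congr (and_congr_right' or_comm) rfl rfl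

theorem avail_sw {x : R → Q → Bool} {i k : R} {j l : Q} (h : Avail x i k j l) :
    Avail (sw x i k j l) i k l j ∧ Avail (sw x i k j l) k i j l ∧ Avail x k i l j := by
  obtain ⟨h1, h2, h3, h4⟩ := h
  refine ⟨⟨?_, ?_, ?_, ?_⟩, ⟨?_, ?_, ?_, ?_⟩, ⟨h4, h3, h2, h1⟩⟩
  · rw [sw_il, h2]; rfl
  · rw [sw_ij, h1]; rfl
  · rw [sw_kl, h4]; rfl
  · rw [sw_kj, h3]; rfl
  · rw [sw_kj, h3]; rfl
  · rw [sw_kl, h4]; rfl
  · rw [sw_ij, h1]; rfl
  · rw [sw_il, h2]; rfl

/-- rows of the switched matrix, as permuted rows -/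
theorem sw_row_i {x : R → Q → Bool} {i k : R} {j l : Q} (h : Avail x i k j l) (b : Q) :
    sw x i k j l i b = x i (Equiv.swap j l b) := by
  obtain ⟨h1, h2, h3, h4⟩ := h
  by_cases hbj : b = j
  · subst hbj
    rw [sw_ij, Equiv.swap_apply_left, h1, h2]; rfl
  · by_cases hbl : b = l
    · subst hbl
      rw [sw_il, Equiv.swap_apply_right, h1, h2]; rfl
    · rw [sw_col_of_ne x i k j l i hbj hbl, Equiv.swap_apply_of_ne_of_ne hbj hbl]

theorem sw_row_k {x : R → Q → Bool} {i k : R} {j l : Q} (h : Avail x i k j l) (b : Q) :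
    sw x i k j l k b = x k (Equiv.swap j l b) := by
  obtain ⟨h1, h2, h3, h4⟩ := h
  by_cases hbj : b = j
  · subst hbj
    rw [sw_kj, Equiv.swap_apply_left, h3, h4]; rfl
  · by_cases hbl : b = l
    · subst hbl
      rw [sw_kl, Equiv.swap_apply_right, h3, h4]; rfl
    · rw [sw_col_of_ne x i k j l k hbj hbl, Equiv.swap_apply_of_ne_of_ne hbj hbl]

theorem rsum_perm (x y : R → Q → Bool) (a : R) (s : Equiv.Perm Q)
    (h : ∀ b, y a b = x a (s b)) : rsum y a = rsum x a := by
  rw [rsum_eq_sum, rsum_eq_sum, ← Equiv.sum_comp s (fun b => (x a b).toNat)]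
  exact Finset.sum_congr rfl (fun b _ => by rw [h b])

theorem rsum_sw {x : R → Q → Bool} {i k : R} {j l : Q} (h : Avail x i k j l) (a : R) :
    rsum (sw x i k j l) a = rsum x a := by
  by_cases hi : a = i
  · subst hi
    exact rsum_perm x _ a (Equiv.swap j l) (sw_row_i h)
  · by_cases hk : a = k
    · subst hk
      exact rsum_perm x _ a (Equiv.swap j l) (sw_row_k h)
    · unfold rsum
      rw [sw_row_of_ne x i k j l hi hk]

theorem csum_sw {x : R → Q → Bool} {i k : R} {j l : Q} (h : Avail x i k j l) (b : Q) :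
    csum (sw x i k j l) b = csum x b := by
  have hne := avail_ne h
  obtain ⟨h1, h2, h3, h4⟩ := h
  rw [csum_eq_sum, csum_eq_sum]
  by_cases hb : b = j ∨ b = l
  · rw [← Equiv.sum_comp (Equiv.swap i k) (fun a => (x a b).toNat)]
    refine Finset.sum_congr rfl (fun a _ => ?_)
    congr 1
    by_cases hai : a = i
    · subst hai
      rw [Equiv.swap_apply_left]
      rcases hb with hb | hb
      · subst hb; rw [sw_ij, h3, h1]; rfl
      · subst hb; rw [sw_il, h4, h2]; rfl
    · by_cases hak : a = k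
      · subst hak
        rw [Equiv.swap_apply_right]
        rcases hb with hb | hb
        · subst hb; rw [sw_kj, h3, h1]; rfl
        · subst hb; rw [sw_kl, h4, h2]; rfl
      · rw [Equiv.swap_apply_of_ne_of_ne hai hak, sw_row_of_ne x i k j l hai hak]
  · push Not at hb
    refine Finset.sum_congr rfl (fun a _ => ?_)
    rw [sw_col_of_ne x i k j l a hb.1 hb.2]

theorem rel_sw {T : Finset R} {x : R → Q → Bool} {i k : R} {j l : Q} (hi : i ∈ T) (hk : k ∈ T)
    (h : Avail x i k j l) : Rel T x (sw x i k j l) := by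
  refine ⟨fun a ha => ?_, fun a => (rsum_sw h a).symm, fun b => (csum_sw h b).symm⟩
  rw [sw_row_of_ne x i k j l (fun e => ha (by rw [e]; exact hi))
    (fun e => ha (by rw [e]; exact hk))]

/-! ### the averages -/

theorem mem_cls {T : Finset R} {x y : R → Q → Bool} : y ∈ cls T x ↔ Rel T x y := by
  classical
  simp [cls]

theorem cls_congr {T : Finset R} {x y : R → Q → Bool} (h : Rel T x y) : cls T x = cls T y := by
  ext z
  rw [mem_cls, mem_cls]
  exact ⟨fun h' => rel_trans (rel_symm h) h', fun h' => rel_trans h h'⟩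

theorem card_cls_pos (T : Finset R) (x : R → Q → Bool) : 0 < (cls T x).card :=
  Finset.card_pos.mpr ⟨x, mem_cls.mpr (rel_refl T x)⟩

theorem card_cls_ne (T : Finset R) (x : R → Q → Bool) : ((cls T x).card : ℝ) ≠ 0 :=
  Nat.cast_ne_zero.mpr (card_cls_pos T x).ne'

theorem E_congr (T : Finset R) (f : (R → Q → Bool) → ℝ) {x y : R → Q → Bool} (h : Rel T x y) :
    E T f x = E T f y := by
  unfold E
  rw [cls_congr h]

theorem E_fix (T : Finset R) (f : (R → Q → Bool) → ℝ) (x : R → Q → Bool)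
    (h : ∀ y, Rel T x y → f y = f x) : E T f x = f x := by
  unfold E
  rw [Finset.sum_congr rfl (fun y hy => h y (mem_cls.mp hy)), Finset.sum_const, nsmul_eq_mul,
    mul_comm, mul_div_assoc, div_self (card_cls_ne T x), mul_one]

theorem E_add (T : Finset R) (f g : (R → Q → Bool) → ℝ) : E T (f + g) = E T f + E T g := by
  funext x
  simp only [E, Pi.add_apply, Finset.sum_add_distrib, add_div]

theorem E_smul (T : Finset R) (c : ℝ) (f : (R → Q → Bool) → ℝ) : E T (c • f) = c • E T f := by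
  funext x
  simp only [E, Pi.smul_apply, smul_eq_mul, ← Finset.mul_sum, mul_div_assoc]

theorem E_symm (T : Finset R) (f g : (R → Q → Bool) → ℝ) : ip (E T f) g = ip f (E T g) := by
  have h1 : ip (E T f) g = ∑ x, ∑ y ∈ cls T x, f y * g x / ((cls T x).card : ℝ) := by
    unfold ip E
    refine Finset.sum_congr rfl (fun x _ => ?_)
    rw [div_mul_eq_mul_div, Finset.sum_mul, Finset.sum_div]
  have h2 : ip f (E T g) = ∑ y, ∑ x ∈ cls T y, f y * g x / ((cls T y).card : ℝ) := by
    unfold ip E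
    refine Finset.sum_congr rfl (fun x _ => ?_)
    rw [← mul_div_assoc, Finset.mul_sum, Finset.sum_div]
  rw [h1, h2, Finset.sum_comm' (t' := univ) (s' := fun y => cls T y)]
  · refine Finset.sum_congr rfl (fun y _ => Finset.sum_congr rfl (fun x hx => ?_))
    rw [cls_congr (mem_cls.mp hx)]
  · intro x y
    rw [mem_cls, mem_cls]
    exact ⟨fun h => ⟨rel_symm h.2, Finset.mem_univ _⟩, fun h => ⟨Finset.mem_univ _, rel_symm h.1⟩⟩

theorem E_tower {S T : Finset R} (f : (R → Q → Bool) → ℝ) (h : S ⊆ T) :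
    E S (E T f) = E T f := by
  funext x
  exact E_fix S (E T f) x (fun y hy => E_congr T f (rel_symm (rel_mono h hy)))

theorem rel_small {T : Finset R} (h : T.card ≤ 1) {x y : R → Q → Bool} (hr : Rel T x y) :
    x = y := by
  funext i
  by_cases hi : i ∈ T
  · have hT : T = {i} := by
      refine Finset.eq_singleton_iff_unique_mem.mpr ⟨hi, fun a ha => ?_⟩
      exact Finset.card_le_one.mp h a ha i hi
    funext j
    have h1 := col_T hr j
    rw [hT, Finset.sum_singleton, Finset.sum_singleton] at h1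
    revert h1
    cases x i j <;> cases y i j <;> simp
  · exact hr.1 i hi

theorem E_small (T : Finset R) (f : (R → Q → Bool) → ℝ) (h : T.card ≤ 1) : E T f = f := by
  funext x
  exact E_fix T f x (fun y hy => by rw [rel_small h hy])

end

theorem eops_proof : EOPs where
  rel_refl := fun _ _ _ _ _ _ T x => rel_refl T x
  rel_symm := fun _ _ _ _ _ _ _ _ _ h => rel_symm h
  rel_trans := fun _ _ _ _ _ _ _ _ _ _ h h' => rel_trans h h'
  rel_mono := fun _ _ _ _ _ _ _ _ _ _ h h' => rel_mono h h'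
  rel_sw := fun _ _ _ _ _ _ _ _ _ _ _ _ hi hk h => rel_sw hi hk h
  avail_ne := fun _ _ _ _ _ _ _ _ _ _ _ h => avail_ne h
  avail_sw := fun _ _ _ _ _ _ _ _ _ _ _ h => avail_sw h
  sw_sw := fun _ _ _ _ _ _ x i k j l => sw_sw x i k j l
  sw_comm := fun _ _ _ _ _ _ x i k j l => sw_comm x i k j l
  E_congr := fun _ _ _ _ _ _ T f _ _ h => E_congr T f h
  E_fix := fun _ _ _ _ _ _ T f x h => E_fix T f x h
  E_add := fun _ _ _ _ _ _ T f g => E_add T f g
  E_smul := fun _ _ _ _ _ _ T c f => E_smul T c f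
  E_symm := fun _ _ _ _ _ _ T f g => E_symm T f g
  E_tower := fun _ _ _ _ _ _ _ _ f h => E_tower f h
  E_small := fun _ _ _ _ _ _ T f h => E_small T f h

end Vale.Agent.P335.Eops
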