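import Vale.Agent.P335.GMods

/-!
P335, full result (all simple graphs): definitions.
-/

namespace Vale.Agent.P335

open Finset

section
variable {X : Type} [Fintype X]

open Classical in
/-- the class of `x` for the relation `r` -/
noncomputable def kl (r : X → X → Prop) (x : X) : Finset X := univ.filter (fun y => r x y)

/-- average over the class -/
noncomputable def Av (r : X → X → Prop) (f : X → ℝ) (x : X) : ℝ :=
  (∑ y ∈ kl r x, f y) / ((kl r x).card : ℝ)

end

/-! ### graphs -/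

open Classical in
/-- degree -/
noncomputable def dg {n : ℕ} (G : SimpleGraph (Fin n)) (v : Fin n) : ℕ :=
  (univ.filter (fun w => G.Adj v w)).card

/-- same degrees, and equal away from `T` -/
def RelG {n : ℕ} (T : Finset (Fin n)) (G H : SimpleGraph (Fin n)) : Prop :=
  (∀ u v, u ∉ T → v ∉ T → (G.Adj u v ↔ H.Adj u v)) ∧ ∀ v, dg G v = dg H v

/-- resample all edges at the vertices of `T` -/
noncomputable def EG {n : ℕ} (T : Finset (Fin n)) (f : SimpleGraph (Fin n) → ℝ) :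
    SimpleGraph (Fin n) → ℝ := Av (RelG T) f

/-- the complementary projection -/
noncomputable def PG {n : ℕ} (T : Finset (Fin n)) (f : SimpleGraph (Fin n) → ℝ) :
    SimpleGraph (Fin n) → ℝ := fun G => f G - EG T f G

/-- sum of `PG e` over the pairs `e` inside `T` -/
noncomputable def RTG {n : ℕ} (T : Finset (Fin n)) (f : SimpleGraph (Fin n) → ℝ) :
    SimpleGraph (Fin n) → ℝ := fun G => ∑ e ∈ T.powersetCard 2, PG e f G

/-- `ac`, `bd` are edges and `ad`, `bc` are not (`a, b, c, d` are then distinct).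
The switch is `step G (a, c, b, d)`: remove `ac`, `bd`, add `cb`, `da`. -/
def DD {n : ℕ} (a b c d : Fin n) (G : SimpleGraph (Fin n)) : Prop :=
  c ≠ b ∧ d ≠ a ∧ G.Adj a c ∧ G.Adj b d ∧ ¬ G.Adj a d ∧ ¬ G.Adj b c

/-- one of the two alternating states of the `2 x 2` block -/
def Dg {n : ℕ} (a b c d : Fin n) (G : SimpleGraph (Fin n)) : Prop :=
  DD a b c d G ∨ DD a b d c G

/-- `RelG {a, b}` refined by the indicator of `Dg` -/
def RelD {n : ℕ} (a b c d : Fin n) (G H : SimpleGraph (Fin n)) : Prop :=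
  RelG {a, b} G H ∧ (Dg a b c d G ↔ Dg a b c d H)

open Classical in
/-- swap the two alternating states -/
noncomputable def tau {n : ℕ} (a b c d : Fin n) (G : SimpleGraph (Fin n)) : SimpleGraph (Fin n) :=
  if DD a b c d G then step G (a, c, b, d) else
    if DD a b d c G then step G (a, d, b, c) else G

/-- all four distinct -/
def Dist {n : ℕ} (a b c d : Fin n) : Prop :=
  a ≠ b ∧ a ≠ c ∧ a ≠ d ∧ b ≠ c ∧ b ≠ d ∧ c ≠ d

open Classical in
/-- `NK` : squared norm of `(E' f - E f)` on `Dg` -/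
noncomputable def NK {n : ℕ} (a b c d : Fin n) (f : SimpleGraph (Fin n) → ℝ) : ℝ :=
  ∑ G, if Dg a b c d G then (Av (RelD a b c d) f G - EG {a, b} f G) ^ 2 else 0

open Classical in
/-- switch energy of the rows `a`, `b` in the columns `c`, `d` (ordered) -/
noncomputable def En {n : ℕ} (a b c d : Fin n) (f : SimpleGraph (Fin n) → ℝ) : ℝ :=
  ∑ G, if DD a b c d G then (f G - f (step G (a, c, b, d))) ^ 2 else 0

/-! ### abstract 2 x 2 block model -/

/-- `2 x 2` block with entries `(ac, ad, bc, bd)` -/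
abbrev Blk := Bool × Bool × Bool × Bool

/-- a bit as a number -/
def bn (x : Bool) : ℕ := if x then 1 else 0

/-- row sum `a` -/
def rA (Y : Blk) : ℕ := bn Y.1 + bn Y.2.1
/-- row sum `b` -/
def rB (Y : Blk) : ℕ := bn Y.2.2.1 + bn Y.2.2.2
/-- column sum `c` -/
def cC (Y : Blk) : ℕ := bn Y.1 + bn Y.2.2.1
/-- column sum `d` -/
def cD (Y : Blk) : ℕ := bn Y.2.1 + bn Y.2.2.2
/-- alternating block -/
def isD (Y : Blk) : Prop := Y.1 = Y.2.2.2 ∧ Y.2.1 = Y.2.2.1 ∧ Y.1 ≠ Y.2.1

section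
variable {U V K K' : Type}

/-- rows `a, b` resampled -/
def AR1 (k : U → K) (s : U → ℕ) (x y : U × V × Blk) : Prop :=
  x.2.1 = y.2.1 ∧ k x.1 = k y.1 ∧ cC x.2.2 = cC y.2.2 ∧ cD x.2.2 = cD y.2.2 ∧
    s x.1 + rA x.2.2 = s y.1 + rA y.2.2

/-- rows `c, d` resampled -/
def AR2 (k : V → K') (s : V → ℕ) (x y : U × V × Blk) : Prop :=
  x.1 = y.1 ∧ k x.2.1 = k y.2.1 ∧ rA x.2.2 = rA y.2.2 ∧ rB x.2.2 = rB y.2.2 ∧
    s x.2.1 + cC x.2.2 = s y.2.1 + cC y.2.2

/-- refined by `isD` -/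
def AR1' (k : U → K) (s : U → ℕ) (x y : U × V × Blk) : Prop :=
  AR1 k s x y ∧ (isD x.2.2 ↔ isD y.2.2)

/-- refined by `isD` -/
def AR2' (k : V → K') (s : V → ℕ) (x y : U × V × Blk) : Prop :=
  AR2 k s x y ∧ (isD x.2.2 ↔ isD y.2.2)

end

/-! ### parametrisations -/

/-- vertices outside `{a, b, c, d}` -/
abbrev Out4 {n : ℕ} (a b c d : Fin n) := {w : Fin n // w ≠ a ∧ w ≠ b ∧ w ≠ c ∧ w ≠ d}

/-- rows `a, b` (or `c, d`) on the outer columns -/
abbrev Rows {n : ℕ} (a b c d : Fin n) := Out4 a b c d → Bool × Bool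

/-- column sums of the outer part -/
def kO {n : ℕ} (a b c d : Fin n) (u : Rows a b c d) : Out4 a b c d → ℕ :=
  fun w => bn (u w).1 + bn (u w).2

/-- first row sum of the outer part -/
def sO {n : ℕ} (a b c d : Fin n) (u : Rows a b c d) : ℕ := ∑ w, bn (u w).1

open Classical in
/-- columns that are free for the rows `a, b` -/
noncomputable def FF {n : ℕ} (a b : Fin n) (G : SimpleGraph (Fin n)) : Finset (Fin n) :=
  univ.filter (fun w => w ≠ a ∧ w ≠ b ∧ (G.Adj a w ↔ ¬ G.Adj b w))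

open Classical in
/-- the free columns that belong to `a` -/
noncomputable def SF {n : ℕ} (a b : Fin n) (G : SimpleGraph (Fin n)) : Finset (Fin n) :=
  (FF a b G).filter (fun w => G.Adj a w)

/-- the graph obtained from `G` when the free columns of `a, b` in `S` are given to `a` and the
others to `b` -/
def upd {n : ℕ} (a b : Fin n) (G : SimpleGraph (Fin n)) (S : Finset (Fin n)) :
    SimpleGraph (Fin n) :=
  SimpleGraph.fromRel (fun u v =>
    (¬ ((u = a ∨ u = b) ∧ v ∈ FF a b G) ∧ ¬ ((v = a ∨ v = b) ∧ u ∈ FF a b G) ∧ G.Adj u v) ∨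
    (u = a ∧ v ∈ FF a b G ∧ v ∈ S) ∨ (u = b ∧ v ∈ FF a b G ∧ v ∉ S))

end Vale.Agent.P335
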