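import Vale.Agent.P335.FDefs

/-!
P335, full result: module statements (helper21).  See notes/P335_full_helper21.md.
Prove `theorem x_proof (deps) : X` in Vale/Agent/P335/FX.lean, namespace `Vale.Agent.P335.FX`.
-/

namespace Vale.Agent.P335

open Finset

/-! ### averaging -/

open Classical in
/-- AVB: basic facts on `Av` for equivalence relations. -/
structure AVBs : Prop where
  add : ∀ (X : Type) [Fintype X] (r : X → X → Prop) (f g : X → ℝ),
    Av r (f + g) = Av r f + Av r g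
  smul : ∀ (X : Type) [Fintype X] (r : X → X → Prop) (c : ℝ) (f : X → ℝ),
    Av r (c • f) = c • Av r f
  symm : ∀ (X : Type) [Fintype X] (r : X → X → Prop), Equivalence r → ∀ f g : X → ℝ,
    ip (Av r f) g = ip f (Av r g)
  fix : ∀ (X : Type) [Fintype X] (r : X → X → Prop), Equivalence r → ∀ (f : X → ℝ) (x : X),
    (∀ y, r x y → f y = f x) → Av r f x = f x
  congr : ∀ (X : Type) [Fintype X] (r : X → X → Prop), Equivalence r → ∀ (f : X → ℝ) (x y : X),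
    r x y → Av r f x = Av r f y
  tower1 : ∀ (X : Type) [Fintype X] (r r' : X → X → Prop), Equivalence r → Equivalence r' →
    (∀ x y, r x y → r' x y) → ∀ f : X → ℝ, Av r (Av r' f) = Av r' f
  tower2 : ∀ (X : Type) [Fintype X] (r r' : X → X → Prop), Equivalence r → Equivalence r' →
    (∀ x y, r x y → r' x y) → ∀ f : X → ℝ, Av r' (Av r f) = Av r' f
  proj : ∀ (X : Type) [Fintype X] (r : X → X → Prop), Equivalence r → ∀ f : X → ℝ,
    ip f (fun x => f x - Av r f x) = ip (fun x => f x - Av r f x) (fun x => f x - Av r f x)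
  comm : ∀ (X : Type) [Fintype X] (p q : X → X → Prop), Equivalence p → Equivalence q →
    (∀ x z, ((kl p x).filter (fun y => y ∈ kl q z)).card * ((kl q x).card * (kl p z).card) =
      ((kl q x).filter (fun y => y ∈ kl p z)).card * ((kl p x).card * (kl q z).card)) →
    ∀ f : X → ℝ, Av p (Av q f) = Av q (Av p f)
  transfer : ∀ (X Y : Type) [Fintype X] [Fintype Y] (Φ : Y → X) (r : X → X → Prop)
    (r' : Y → Y → Prop), Function.Injective Φ →
    (∀ y x, r (Φ y) x ↔ ∃ y', x = Φ y' ∧ r' y y') →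
    ∀ (f : X → ℝ) (y : Y), Av r f (Φ y) = Av r' (fun z => f (Φ z)) y
  clsum : ∀ (X : Type) [Fintype X] (r : X → X → Prop), Equivalence r → ∀ F G : X → ℝ,
    (∀ x, ∑ y ∈ kl r x, F y ≤ ∑ y ∈ kl r x, G y) → ∑ x, F x ≤ ∑ x, G x

/-- REQ: the relations used are equivalences. -/
structure REQs : Prop where
  relG : ∀ (n : ℕ) (T : Finset (Fin n)), Equivalence (RelG T)
  relD : ∀ (n : ℕ) (a b c d : Fin n), Equivalence (RelD a b c d)
  rel : ∀ (R Q : Type) [Fintype R] [DecidableEq R] [Fintype Q] [DecidableEq Q] (T : Finset R),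
    Equivalence (fun x y : R → Q → Bool => Rel T x y)
  mono : ∀ (n : ℕ) (S T : Finset (Fin n)) (G H : SimpleGraph (Fin n)), S ⊆ T →
    RelG S G H → RelG T G H

/-- SWG: facts on switches. -/
structure SWGs : Prop where
  rel : ∀ (n : ℕ) (a b c d : Fin n) (G : SimpleGraph (Fin n)), DD a b c d G →
    RelG {a, b} G (step G (a, c, b, d)) ∧ RelG {c, d} G (step G (a, c, b, d))
  sw : ∀ (n : ℕ) (a b c d : Fin n) (G : SimpleGraph (Fin n)), DD a b c d G →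
    DD a b d c (step G (a, c, b, d)) ∧ step (step G (a, c, b, d)) (a, d, b, c) = G
  sym : ∀ (n : ℕ) (a b c d : Fin n) (G : SimpleGraph (Fin n)),
    (DD c d a b G ↔ DD a b c d G) ∧ (DD b a d c G ↔ DD a b c d G) ∧
    (Dg c d a b G ↔ Dg a b c d G) ∧ (Dg a b d c G ↔ Dg a b c d G) ∧
    (Dg b a c d G ↔ Dg a b c d G) ∧
    (DD a b c d G → step G (c, a, d, b) = step G (a, c, b, d) ∧
      step G (b, d, a, c) = step G (a, c, b, d))
  dist : ∀ (n : ℕ) (a b c d : Fin n) (G : SimpleGraph (Fin n)), DD a b c d G → Dist a b c d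
  adj : ∀ (n : ℕ) (a b c d : Fin n) (G : SimpleGraph (Fin n)), DD a b c d G → ∀ u v,
    ((step G (a, c, b, d)).Adj u v ↔
      (G.Adj u v ∧ s(u, v) ≠ s(a, c) ∧ s(u, v) ≠ s(b, d)) ∨ s(u, v) = s(c, b) ∨ s(u, v) = s(d, a))

open Classical in
/-- TAU: the involution `tau` and the antisymmetric part. -/
structure TAUs : Prop where
  inv : ∀ (n : ℕ) (a b c d : Fin n) (G : SimpleGraph (Fin n)), tau a b c d (tau a b c d G) = G
  relD : ∀ (n : ℕ) (a b c d : Fin n) (G : SimpleGraph (Fin n)), RelD a b c d G (tau a b c d G)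
  relG : ∀ (n : ℕ) (a b c d : Fin n) (G : SimpleGraph (Fin n)), RelG {c, d} G (tau a b c d G)
  en : ∀ (n : ℕ) (a b c d : Fin n) (f : SimpleGraph (Fin n) → ℝ), c ≠ d →
    ∑ G, (f G - f (tau a b c d G)) ^ 2 = En a b c d f + En a b d c f

/-! ### the 2 x 2 block -/

/-- ABSA: abstract commutation. -/
def ABSA : Prop := ∀ (U V K K' : Type) [Fintype U] [Fintype V] (k : U → K) (s : U → ℕ)
  (k' : V → K') (s' : V → ℕ) (f : U × V × Blk → ℝ),
  Av (AR1' k s) (Av (AR2 k' s') f) = Av (AR2 k' s') (Av (AR1' k s) f)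

/-- ABSB: abstract commutation. -/
def ABSB : Prop := ∀ (U V K K' : Type) [Fintype U] [Fintype V] (k : U → K) (s : U → ℕ)
  (k' : V → K') (s' : V → ℕ) (f : U × V × Blk → ℝ),
  Av (AR1' k s) (Av (AR2' k' s') f) = Av (AR2' k' s') (Av (AR1' k s) f)

/-- PAR4: parametrisation of the graphs that agree with `G` except on the cells between
`{a, b}` and the rest and between `{c, d}` and the rest. -/
def PAR4 : Prop := ∀ (n : ℕ) (a b c d : Fin n) (G : SimpleGraph (Fin n)), Dist a b c d →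
  ∃ Φ : Rows a b c d × Rows a b c d × Blk → SimpleGraph (Fin n), Function.Injective Φ ∧
    (∃ x, Φ x = G) ∧
    (∀ x H, RelG {a, b} (Φ x) H ↔ ∃ y, H = Φ y ∧ AR1 (kO a b c d) (sO a b c d) x y) ∧
    (∀ x H, RelG {c, d} (Φ x) H ↔ ∃ y, H = Φ y ∧ AR2 (kO a b c d) (sO a b c d) x y) ∧
    (∀ x, Dg a b c d (Φ x) ↔ isD x.2.2)

/-- COMA (from ABSA, PAR4, AVBs, REQs). -/
def COMA : Prop := ∀ (n : ℕ) (a b c d : Fin n) (f : SimpleGraph (Fin n) → ℝ), Dist a b c d →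
  Av (RelD a b c d) (EG {c, d} f) = EG {c, d} (Av (RelD a b c d) f)

/-- COMB (from ABSB, PAR4, AVBs, REQs, SWGs). -/
def COMB : Prop := ∀ (n : ℕ) (a b c d : Fin n) (f : SimpleGraph (Fin n) → ℝ), Dist a b c d →
  Av (RelD a b c d) (Av (RelD c d a b) f) = Av (RelD c d a b) (Av (RelD a b c d) f)

/-- DSUP (from SWGs, AVBs, REQs, PAR4): `E' - E` vanishes outside `Dg` for one of the two pairs. -/
def DSUP : Prop := ∀ (n : ℕ) (a b c d : Fin n) (f g : SimpleGraph (Fin n) → ℝ)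
  (G : SimpleGraph (Fin n)), Dist a b c d → ¬ Dg a b c d G →
  Av (RelD a b c d) f G = EG {a, b} f G ∨ Av (RelD c d a b) g G = EG {c, d} g G

/-- DISJ (from COMA, COMB, DSUP, TAUs, SWGs, AVBs, REQs). -/
def DISJ : Prop := ∀ (n : ℕ) (a b c d : Fin n) (f : SimpleGraph (Fin n) → ℝ), Dist a b c d →
  (1 / 4) * (En a b c d f + En a b d c f) - (1 / 2) * (NK a b c d f + NK c d a b f)
    ≤ ip (PG {a, b} f) (PG {c, d} f)

/-! ### slices -/

/-- JGAP: the Johnson graph (from PAIR, or directly by the maximum principle). -/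
def JGAP : Prop := ∀ (n : ℕ) (F : Finset (Fin n)) (s : ℕ) (h : Finset (Fin n) → ℝ),
  ∑ S ∈ F.powersetCard s, h S = 0 →
  ∑ S ∈ F.powersetCard s, (h S) ^ 2 ≤
    (1 / 4) * ∑ S ∈ F.powersetCard s, ∑ c ∈ S, ∑ d ∈ F \ S, (h S - h (insert d (S.erase c))) ^ 2

/-- SLICE (from JGAP). -/
def SLICE : Prop := ∀ (n : ℕ) (F : Finset (Fin n)) (s : ℕ) (h : Finset (Fin n) → ℝ),
  ∑ S ∈ F.powersetCard s, h S = 0 →
  ∑ c ∈ F, ∑ d ∈ F.erase c,
      (∑ S ∈ (F.powersetCard s).filter (fun S => ¬ (c ∈ S ↔ d ∈ S)), h S) ^ 2 /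
        ((((F.powersetCard s).filter (fun S => ¬ (c ∈ S ↔ d ∈ S))).card : ℕ) : ℝ) ≤
    (1 / 2) * ∑ S ∈ F.powersetCard s, ∑ c ∈ S, ∑ d ∈ F \ S, (h S - h (insert d (S.erase c))) ^ 2

/-- CLP: the class of `RelG {a, b}` as a slice. -/
structure CLPs : Prop where
  sf : ∀ (n : ℕ) (a b : Fin n) (G : SimpleGraph (Fin n)), SF a b G ⊆ FF a b G
  sum : ∀ (n : ℕ) (a b : Fin n) (G : SimpleGraph (Fin n)) (f : SimpleGraph (Fin n) → ℝ), a ≠ b →
    ∑ H ∈ kl (RelG {a, b}) G, f H =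
      ∑ S ∈ (FF a b G).powersetCard (SF a b G).card, f (upd a b G S)
  dd : ∀ (n : ℕ) (a b : Fin n) (G : SimpleGraph (Fin n)) (S : Finset (Fin n)), a ≠ b →
    S ∈ (FF a b G).powersetCard (SF a b G).card → ∀ c d,
      (DD a b c d (upd a b G S) ↔ c ∈ S ∧ d ∈ FF a b G \ S) ∧
      (DD a b c d (upd a b G S) →
        step (upd a b G S) (a, c, b, d) = upd a b G (insert d (S.erase c)))

/-- PAIRG (from JGAP, CLPs, AVBs, REQs). -/
def PAIRG : Prop := ∀ (n : ℕ) (a b : Fin n) (f : SimpleGraph (Fin n) → ℝ), a ≠ b →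
  ip (PG {a, b} f) (PG {a, b} f) ≤ (1 / 4) * ∑ c, ∑ d, En a b c d f

/-- SLG (from SLICE, CLPs, AVBs, REQs). -/
def SLG : Prop := ∀ (n : ℕ) (a b : Fin n) (f : SimpleGraph (Fin n) → ℝ), a ≠ b →
  ∑ c, ∑ d, NK a b c d f ≤ (1 / 2) * ∑ c, ∑ d, En a b c d f

open Classical in
/-- DSUM (from DISJ, SLG, SWGs). -/
def DSUM : Prop := ∀ (n : ℕ) (f : SimpleGraph (Fin n) → ℝ),
  0 ≤ ∑ a : Fin n, ∑ b : Fin n, ∑ c : Fin n, ∑ d : Fin n,
    if Dist a b c d then ip (PG {a, b} f) (PG {c, d} f) else 0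

/-! ### three rows, and the conclusion -/

/-- PAR3: parametrisation for a triple. -/
def PAR3 : Prop := ∀ (n : ℕ) (T : Finset (Fin n)) (G : SimpleGraph (Fin n)), T.card = 3 →
  ∃ Φ : ({v // v ∈ T} → Option {w // w ∉ T} → Bool) → SimpleGraph (Fin n),
    Function.Injective Φ ∧ (∃ x, Φ x = G) ∧
    (∀ x H, (∀ u v, u ∉ T → v ∉ T → ((Φ x).Adj u v ↔ H.Adj u v)) → ∃ y, H = Φ y) ∧
    (∀ e ⊆ T, e.card = 2 → ∀ x y,
      (RelG e (Φ x) (Φ y) ↔ Rel (e.subtype (fun v => v ∈ T)) x y))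

/-- TRIG (from TRI, PAR3, AVBs, REQs). -/
def TRIG : Prop := ∀ (n : ℕ) (T : Finset (Fin n)) (f : SimpleGraph (Fin n) → ℝ), T.card = 3 →
  ip f (RTG T f) ≤ ip (RTG T f) (RTG T f)

/-- GARLG (from TRIG, DSUM, AVBs, REQs). -/
def GARLG : Prop := ∀ (n : ℕ) (f : SimpleGraph (Fin n) → ℝ),
  ip f (RTG univ f) ≤ ip (RTG univ f) (RTG univ f)

/-- CONNG: connectivity of the switch graph. -/
def CONNG : Prop := ∀ (n : ℕ) (f : SimpleGraph (Fin n) → ℝ),
  (∀ G, ∀ q ∈ Quad n, f (step G q) = f G) →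
  ∀ G H : SimpleGraph (Fin n), (∀ v, dg G v = dg H v) → f G = f H

/-- GAPG (from GARLG, SPEC2, CONNG, SWGs, AVBs, REQs). -/
def GAPG : Prop := ∀ (n : ℕ) (f : SimpleGraph (Fin n) → ℝ),
  ip (PG univ f) (PG univ f) ≤ ip f (RTG univ f)

/-- ENQ (from SWGs): the switch energies give the quadruple sum. -/
def ENQ : Prop := ∀ (n : ℕ) (f : SimpleGraph (Fin n) → ℝ),
  ∑ a : Fin n, ∑ b : Fin n, ∑ c : Fin n, ∑ d : Fin n, En a b c d f =
    ∑ G, ∑ q ∈ Quad n, (f G - f (step G q)) ^ 2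

/-- GAPQ (from GAPG, PAIRG, ENQ, AVBs, REQs). -/
def GAPQ : Prop := ∀ (n : ℕ) (f : SimpleGraph (Fin n) → ℝ),
  ip (PG univ f) (PG univ f) ≤ (1 / 8) * ∑ G, ∑ q ∈ Quad n, (f G - f (step G q)) ^ 2

open Classical in
/-- GPOING (from GAPQ, KBASs, QCARD, SWGs): Poincare inequality for every degree vector. -/
def GPOING : Prop := ∀ (n : ℕ) (d : Fin n → ℕ), 4 ≤ n → (Om d).Nonempty →
  ∀ f : SimpleGraph (Fin n) → ℝ,
  (2 / ((n : ℝ) * (n - 1) * (n - 2) * (n - 3))) *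
      ∑ G ∈ Om d, (f G - (∑ H ∈ Om d, f H) / ((Om d).card : ℝ)) ^ 2 ≤
    (1 / 4) * ∑ G ∈ Om d, ∑ H ∈ Om d, Kn n G H * (f G - f H) ^ 2

/-- NUM2: numerics. -/
def NUM2 : Prop := ∀ (n N : ℕ), 4 ≤ n → N ≤ 2 ^ (n * (n - 1) / 2) →
  Real.sqrt (N : ℝ) * (1 - 2 / ((n : ℝ) * (n - 1) * (n - 2) * (n - 3))) ^ (n ^ 6) ≤ 1 / 2

/-- FULLMIX: the Kannan-Tetali-Vempala conjecture. -/
def FULLMIX : Prop := ∀ (n : ℕ) (d : Fin n → ℕ), 4 ≤ n →
  (∀ G ∈ Om d, tv d (n ^ 6) G ≤ 1 / 4) ∧ tmix d ≤ n ^ 6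

end Vale.Agent.P335
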