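import Vale.Agent.P335.TRI

/-!
# P335, module GARL: the Bochner/Garland step
-/

namespace Vale.Agent.P335

open Finset

namespace GARLp

set_option linter.unusedSectionVars false

open TRIp

variable {R Q : Type} [Fintype R] [DecidableEq R] [Fintype Q] [DecidableEq Q]

lemma E_sub (hE : EOPs) (T : Finset R) (f g : (R → Q → Bool) → ℝ) (x : R → Q → Bool) :
    E T (fun y => f y - g y) x = E T f x - E T g x := by
  have h2 : (fun y => f y - g y) = f + (-1 : ℝ) • g := by
    ext y
    rw [Pi.add_apply, Pi.smul_apply, smul_eq_mul]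
    ring
  rw [h2, hE.E_add R Q, hE.E_smul R Q, Pi.add_apply, Pi.smul_apply, smul_eq_mul]
  ring

lemma P_comm (hE : EOPs) (hC : COMM) (S T : Finset R) (hST : Disjoint S T)
    (f : (R → Q → Bool) → ℝ) : P S (P T f) = P T (P S f) := by
  ext x
  have h1 : P S (P T f) x = (f x - E T f x) - E S (fun y => f y - E T f y) x := rfl
  have h2 : P T (P S f) x = (f x - E S f x) - E T (fun y => f y - E S f y) x := rfl
  rw [h1, h2, E_sub hE, E_sub hE]
  have h3 : E S (E T f) x = E T (E S f) x := by rw [hC R Q S T f hST]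
  have h4 : E S (fun y => E T f y) x = E S (E T f) x := rfl
  have h5 : E T (fun y => E S f y) x = E T (E S f) x := rfl
  rw [h4, h5, h3]
  ring

lemma disj_nonneg (hE : EOPs) (hC : COMM) (S T : Finset R) (hST : Disjoint S T)
    (f : (R → Q → Bool) → ℝ) : 0 ≤ ip (P S f) (P T f) := by
  have h1 : ip (P S f) (P T f) = ip (P S (P T f)) (P S (P T f)) := by
    calc ip (P S f) (P T f) = ip (P S (P S f)) (P T (P T f)) := by
          rw [P_idem hE, P_idem hE]
      _ = ip (P S f) (P S (P T (P T f))) := by rw [P_symm hE S (P S f)]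
      _ = ip (P S f) (P T (P S (P T f))) := by rw [P_comm hE hC S T hST (P T f)]
      _ = ip (P T (P S f)) (P S (P T f)) := by rw [P_symm hE T (P S f)]
      _ = ip (P S (P T f)) (P S (P T f)) := by rw [P_comm hE hC S T hST f]
  rw [h1]
  exact ip_self_nonneg _

lemma ip_RT_RT (T : Finset R) (f : (R → Q → Bool) → ℝ) :
    ip (RT T f) (RT T f) = ∑ p ∈ T.powersetCard 2 ×ˢ T.powersetCard 2, ip (P p.1 f) (P p.2 f) := by
  have h1 : RT T f = fun x => ∑ e ∈ T.powersetCard 2, P e f x := rfl
  rw [sum_product, h1, ip_sum_right]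
  rw [sum_comm]
  apply sum_congr rfl
  intro e _
  rw [ip_comm, ip_sum_right]
  apply sum_congr rfl
  intro e' _
  rw [ip_comm]

lemma ip_f_RT (hE : EOPs) (T : Finset R) (f : (R → Q → Bool) → ℝ) :
    ip f (RT T f) = ∑ e ∈ T.powersetCard 2, ip (P e f) (P e f) := by
  have h1 : RT T f = fun x => ∑ e ∈ T.powersetCard 2, P e f x := rfl
  rw [h1, ip_sum_right]
  apply sum_congr rfl
  intro e _
  exact ip_P hE e f

lemma split {α : Type} [DecidableEq α] (s : Finset α) (G : α × α → ℝ) :
    ∑ p ∈ s ×ˢ s, G p = ∑ a ∈ s, G (a, a) + ∑ p ∈ s.offDiag, G p := by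
  rw [← diag_union_offDiag, sum_union (disjoint_diag_offDiag s), sum_diag]

lemma fiber (T : Finset R) (hT : T ∈ (univ : Finset R).powersetCard 3) :
    ((((univ : Finset R).powersetCard 2).offDiag.filter (fun p => ¬ Disjoint p.1 p.2)).filter
      (fun p => p.1 ∪ p.2 = T)) = (T.powersetCard 2).offDiag := by
  have hT3 : T.card = 3 := (mem_powersetCard.mp hT).2
  ext ⟨e, e'⟩
  simp only [mem_filter, mem_offDiag, mem_powersetCard, subset_univ, true_and]
  constructor
  · rintro ⟨⟨⟨h1, h2, h3⟩, h4⟩, h5⟩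
    refine ⟨⟨?_, h1⟩, ⟨?_, h2⟩, h3⟩
    · rw [← h5]
      exact subset_union_left
    · rw [← h5]
      exact subset_union_right
  · rintro ⟨⟨h1, h2⟩, ⟨h3, h4⟩, h5⟩
    have h6 : e ∪ e' ⊆ T := union_subset h1 h3
    have h7 := card_union_add_card_inter e e'
    have h8 := card_le_card h6
    have h9 : (e ∪ e').card ≠ 2 := by
      intro h
      apply h5
      have e1 : e = e ∪ e' := eq_of_subset_of_card_le subset_union_left (by omega)
      have e2 : e' = e ∪ e' := eq_of_subset_of_card_le subset_union_right (by omega)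
      rw [e1]
      exact e2.symm
    have h10 : e.card ≤ (e ∪ e').card := card_le_card subset_union_left
    refine ⟨⟨⟨h2, h4, h5⟩, ?_⟩, ?_⟩
    · intro h
      rw [disjoint_iff_inter_eq_empty] at h
      rw [h, card_empty] at h7
      omega
    · apply eq_of_subset_of_card_le h6
      omega

lemma maps (p : Finset R × Finset R)
    (hp : p ∈ ((univ : Finset R).powersetCard 2).offDiag.filter (fun p => ¬ Disjoint p.1 p.2)) :
    p.1 ∪ p.2 ∈ (univ : Finset R).powersetCard 3 := by
  obtain ⟨e, e'⟩ := p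
  simp only [mem_filter, mem_offDiag, mem_powersetCard, subset_univ, true_and] at hp ⊢
  obtain ⟨⟨h1, h2, h3⟩, h4⟩ := hp
  have h7 := card_union_add_card_inter e e'
  have h5 : 0 < (e ∩ e').card := by
    rw [card_pos]
    rw [disjoint_iff_inter_eq_empty] at h4
    exact nonempty_iff_ne_empty.mpr h4
  have h6 : (e ∩ e').card ≠ 2 := by
    intro h
    apply h3
    have e1 : e ∩ e' = e := eq_of_subset_of_card_le inter_subset_left (by omega)
    have e2 : e ∩ e' = e' := eq_of_subset_of_card_le inter_subset_right (by omega)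
    rw [← e1]
    exact e2
  have h8 : (e ∩ e').card ≤ e.card := card_le_card inter_subset_left
  omega

theorem x_proof (hE : EOPs) (hT : TRI) (hC : COMM) : GARL := by
  intro R Q _ _ _ _ f
  rw [ip_f_RT hE, ip_RT_RT, split]
  have h1 : 0 ≤ ∑ p ∈ ((univ : Finset R).powersetCard 2).offDiag, ip (P p.1 f) (P p.2 f) := by
    rw [← sum_filter_add_sum_filter_not _ (fun p : Finset R × Finset R => ¬ Disjoint p.1 p.2)]
    apply add_nonneg
    · rw [← sum_fiberwise_of_maps_to (g := fun p : Finset R × Finset R => p.1 ∪ p.2)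
        (t := (univ : Finset R).powersetCard 3) (fun p hp => maps p hp)]
      apply sum_nonneg
      intro T hT'
      rw [fiber T hT']
      have h2 := hT R Q T f (mem_powersetCard.mp hT').2
      rw [ip_f_RT hE, ip_RT_RT, split] at h2
      linarith
    · apply sum_nonneg
      intro p hp
      have h3 := (mem_filter.mp hp).2
      rw [not_not] at h3
      exact disj_nonneg hE hC _ _ h3 f
  linarith

end GARLp

end Vale.Agent.P335
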