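import Vale.Agent.P335.Gapr

namespace Vale.Agent.P335.GAPMx

open Finset

lemma sum_pairs {R : Type} [Fintype R] [DecidableEq R] (F : Finset R → ℝ) :
    2 * ∑ e ∈ (univ : Finset R).powersetCard 2, F e =
      ∑ p ∈ (univ : Finset R).offDiag, F {p.1, p.2} := by
  classical
  have hmap : ∀ p ∈ (univ : Finset R).offDiag,
      ({p.1, p.2} : Finset R) ∈ (univ : Finset R).powersetCard 2 := by
    intro p hp
    rw [Finset.mem_offDiag] at hp
    rw [Finset.mem_powersetCard]
    exact ⟨Finset.subset_univ _, Finset.card_pair hp.2.2⟩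
  rw [← Finset.sum_fiberwise_of_maps_to hmap, Finset.mul_sum]
  refine Finset.sum_congr rfl fun e he => ?_
  rw [Finset.mem_powersetCard] at he
  obtain ⟨a, b, hab, rfl⟩ := Finset.card_eq_two.mp he.2
  have hf : (univ : Finset R).offDiag.filter (fun p => ({p.1, p.2} : Finset R) = {a, b}) =
      {(a, b), (b, a)} := by
    ext ⟨x, y⟩
    simp only [Finset.mem_filter, Finset.mem_offDiag, Finset.mem_univ, true_and,
      Finset.mem_insert, Finset.mem_singleton, Prod.mk.injEq]
    constructor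
    · rintro ⟨hxy, h⟩
      have hx : x ∈ ({a, b} : Finset R) := by rw [← h]; simp
      have hy : y ∈ ({a, b} : Finset R) := by rw [← h]; simp
      simp only [Finset.mem_insert, Finset.mem_singleton] at hx hy
      rcases hx with rfl | rfl <;> rcases hy with rfl | rfl
      · exact absurd rfl hxy
      · exact Or.inl ⟨rfl, rfl⟩
      · exact Or.inr ⟨rfl, rfl⟩
      · exact absurd rfl hxy
    · rintro (⟨rfl, rfl⟩ | ⟨rfl, rfl⟩)
      · exact ⟨hab, rfl⟩
      · exact ⟨hab.symm, Finset.pair_comm _ _⟩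
  rw [hf, Finset.sum_pair (fun h => hab (Prod.mk.injEq _ _ _ _ ▸ h).1)]
  simp only
  rw [Finset.pair_comm b a]
  ring

open Classical in
theorem gapm_proof (hG : GAPR) (hP : PAIR) : GAPM := by
  intro R Q _ _ _ _ f
  have h1 := hG R Q f
  rw [GAPRx.ip_RT] at h1
  have h2 := sum_pairs (R := R) (fun e => ip f (P e f))
  have h3 : ∑ p ∈ (univ : Finset R).offDiag, ip f (P {p.1, p.2} f) ≤
      ∑ p ∈ (univ : Finset R).offDiag, (1 / 4) * ∑ x : R → Q → Bool, ∑ j : Q, ∑ l : Q,
        (if Avail x p.1 p.2 j l then (f x - f (sw x p.1 p.2 j l)) ^ 2 else 0) := by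
    refine Finset.sum_le_sum fun p hp => ?_
    rw [Finset.mem_offDiag] at hp
    exact hP R Q f p.1 p.2 hp.2.2
  have h4 : ∑ p ∈ (univ : Finset R).offDiag, (1 / 4) * ∑ x : R → Q → Bool, ∑ j : Q, ∑ l : Q,
        (if Avail x p.1 p.2 j l then (f x - f (sw x p.1 p.2 j l)) ^ 2 else 0) ≤
      ∑ p : R × R, (1 / 4) * ∑ x : R → Q → Bool, ∑ j : Q, ∑ l : Q,
        (if Avail x p.1 p.2 j l then (f x - f (sw x p.1 p.2 j l)) ^ 2 else 0) := by
    refine Finset.sum_le_sum_of_subset_of_nonneg (Finset.subset_univ _) fun p _ _ => ?_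
    refine mul_nonneg (by norm_num) (Finset.sum_nonneg fun x _ => Finset.sum_nonneg fun j _ =>
      Finset.sum_nonneg fun l _ => ?_)
    split_ifs
    · exact sq_nonneg _
    · exact le_rfl
  have h5 : ∑ p : R × R, (1 / 4) * ∑ x : R → Q → Bool, ∑ j : Q, ∑ l : Q,
        (if Avail x p.1 p.2 j l then (f x - f (sw x p.1 p.2 j l)) ^ 2 else 0) =
      (1 / 4) * ∑ x : R → Q → Bool, ∑ i : R, ∑ k : R, ∑ j : Q, ∑ l : Q,
        (if Avail x i k j l then (f x - f (sw x i k j l)) ^ 2 else 0) := by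
    rw [← Finset.mul_sum, Finset.sum_comm]
    congr 1
    refine Finset.sum_congr rfl fun x _ => ?_
    rw [Fintype.sum_prod_type]
  linarith

end Vale.Agent.P335.GAPMx
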