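import Vale.Agent.P335.Mods

namespace Vale.Agent.P335.GAPRx

open Finset

variable {R Q : Type} [Fintype R] [DecidableEq R] [Fintype Q] [DecidableEq Q]

lemma ip_add_right {X : Type} [Fintype X] (f g h : X → ℝ) : ip f (g + h) = ip f g + ip f h := by
  unfold ip
  rw [← Finset.sum_add_distrib]
  exact Finset.sum_congr rfl fun x _ => by rw [Pi.add_apply]; ring

lemma ip_sub_right {X : Type} [Fintype X] (f g h : X → ℝ) : ip f (g - h) = ip f g - ip f h := by
  unfold ip
  rw [← Finset.sum_sub_distrib]
  exact Finset.sum_congr rfl fun x _ => by rw [Pi.sub_apply]; ring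

lemma ip_comm {X : Type} [Fintype X] (f g : X → ℝ) : ip f g = ip g f := by
  unfold ip
  exact Finset.sum_congr rfl fun x _ => by ring

lemma ip_sub_left {X : Type} [Fintype X] (f g h : X → ℝ) : ip (f - g) h = ip f h - ip g h := by
  rw [ip_comm, ip_sub_right, ip_comm h f, ip_comm h g]

lemma ip_sum_right {X ι : Type} [Fintype X] (s : Finset ι) (f : X → ℝ) (g : ι → X → ℝ) :
    ip f (fun x => ∑ i ∈ s, g i x) = ∑ i ∈ s, ip f (g i) := by
  unfold ip
  rw [Finset.sum_comm]
  exact Finset.sum_congr rfl fun x _ => by rw [Finset.mul_sum]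

lemma ip_self_nonneg {X : Type} [Fintype X] (f : X → ℝ) : 0 ≤ ip f f :=
  Finset.sum_nonneg fun x _ => mul_self_nonneg _

lemma ip_self_eq_zero {X : Type} [Fintype X] {f : X → ℝ} (h : ip f f = 0) : f = 0 := by
  unfold ip at h
  rw [Finset.sum_eq_zero_iff_of_nonneg fun x _ => mul_self_nonneg _] at h
  funext x
  exact mul_self_eq_zero.mp (h x (Finset.mem_univ x))

lemma P_eq (T : Finset R) (f : (R → Q → Bool) → ℝ) : P T f = f - E T f := rfl

lemma RT_eq (T : Finset R) (f : (R → Q → Bool) → ℝ) :
    RT T f = fun x => ∑ e ∈ T.powersetCard 2, P e f x := rfl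

lemma ip_P_symm (hE : EOPs) (T : Finset R) (f g : (R → Q → Bool) → ℝ) :
    ip (P T f) g = ip f (P T g) := by
  rw [P_eq, P_eq, ip_sub_left, ip_sub_right, hE.E_symm]

lemma ip_P_self (hE : EOPs) (T : Finset R) (f : (R → Q → Bool) → ℝ) :
    ip f (P T f) = ip (P T f) (P T f) := by
  have h1 : E T (E T f) = E T f := hE.E_tower R Q T T f (Finset.Subset.refl T)
  have h2 : P T (P T f) = P T f := by
    rw [P_eq T f]
    have h3 : E T (f - E T f) = 0 := by
      have h4 : f - E T f = f + (-1 : ℝ) • E T f := by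
        funext x
        simp [sub_eq_add_neg]
      rw [h4, hE.E_add, hE.E_smul, h1]
      funext x
      simp
    rw [P_eq, h3, sub_zero]
  rw [ip_P_symm hE, h2]

lemma ip_RT (T : Finset R) (f g : (R → Q → Bool) → ℝ) :
    ip f (RT T g) = ∑ e ∈ T.powersetCard 2, ip f (P e g) := by
  rw [RT_eq, ip_sum_right]

/-- `RT univ` as a linear map -/
noncomputable def TL (hE : EOPs) : ((R → Q → Bool) → ℝ) →ₗ[ℝ] ((R → Q → Bool) → ℝ) where
  toFun f := RT univ f
  map_add' f g := by
    funext x
    rw [Pi.add_apply]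
    unfold RT
    rw [← Finset.sum_add_distrib]
    refine Finset.sum_congr rfl fun e _ => ?_
    unfold P
    rw [hE.E_add, Pi.add_apply, Pi.add_apply]
    ring
  map_smul' c f := by
    funext x
    rw [RingHom.id_apply, Pi.smul_apply, smul_eq_mul]
    unfold RT
    rw [Finset.mul_sum]
    refine Finset.sum_congr rfl fun e _ => ?_
    unfold P
    rw [hE.E_smul, Pi.smul_apply, Pi.smul_apply, smul_eq_mul, smul_eq_mul]
    ring

theorem gapr_proof (hG : GARL) (hS : SPEC2) (hC : CONN) (hE : EOPs) : GAPR := by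
  intro R Q _ _ _ _ f
  refine hS (R → Q → Bool) (TL hE) (E univ) ?_ ?_ ?_ ?_ ?_ ?_ f
  · intro f g
    have e1 : TL hE f = RT univ f := rfl
    have e2 : TL hE g = RT univ g := rfl
    rw [e1, e2, ip_comm, ip_RT, ip_RT]
    refine Finset.sum_congr rfl fun e _ => ?_
    rw [← ip_P_symm hE, ip_comm]
  · intro f
    have e1 : TL hE f = RT univ f := rfl
    rw [e1, ip_RT]
    refine Finset.sum_nonneg fun e _ => ?_
    rw [ip_P_self hE]
    exact ip_self_nonneg _
  · intro f
    exact hG R Q f
  · intro f
    have e1 : TL hE (E univ f) = RT univ (E univ f) := rfl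
    rw [e1]
    funext x
    unfold RT
    refine Finset.sum_eq_zero fun e _ => ?_
    unfold P
    rw [hE.E_tower R Q e univ f (Finset.subset_univ e), sub_self]
  · intro f hf
    have e1 : TL hE f = RT univ f := rfl
    rw [e1] at hf
    have h1 : ip f (RT univ f) = 0 := by
      rw [hf]
      unfold ip
      exact Finset.sum_eq_zero fun x _ => by rw [Pi.zero_apply, mul_zero]
    rw [ip_RT] at h1
    have h2 : ∀ e ∈ (univ : Finset R).powersetCard 2, ip f (P e f) = 0 := by
      rw [Finset.sum_eq_zero_iff_of_nonneg] at h1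
      · exact h1
      · intro e _
        rw [ip_P_self hE]
        exact ip_self_nonneg _
    have h3 : ∀ e ∈ (univ : Finset R).powersetCard 2, E e f = f := by
      intro e he
      have h4 := h2 e he
      rw [ip_P_self hE] at h4
      have h5 := ip_self_eq_zero h4
      rw [P_eq] at h5
      exact (sub_eq_zero.mp h5).symm
    funext x
    refine hE.E_fix R Q univ f x ?_
    intro y hxy
    refine (hC R Q univ f ?_ x y hxy).symm
    intro z i k j l _ _ hav
    have hne := (hE.avail_ne R Q z i k j l hav).1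
    have h6 : ({i, k} : Finset R) ∈ (univ : Finset R).powersetCard 2 := by
      rw [Finset.mem_powersetCard]
      exact ⟨Finset.subset_univ _, Finset.card_pair hne⟩
    have h7 := hE.rel_sw R Q {i, k} z i k j l (by simp) (by simp) hav
    have h8 := hE.E_congr R Q {i, k} f z (sw z i k j l) h7
    rw [h3 _ h6] at h8
    exact h8.symm
  · intro f g
    exact hE.E_symm R Q univ f g

end Vale.Agent.P335.GAPRx
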