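import Vale.Agent.P335.GMods

/-!
P335, module GPOIN: Poincare inequality for split degree vectors.
-/

namespace Vale.Agent.P335.GPOINN

open Finset

theorem mem_cls {R Q : Type} [Fintype R] [DecidableEq R] [Fintype Q] [DecidableEq Q]
    (T : Finset R) (x y : R → Q → Bool) : y ∈ cls T x ↔ Rel T x y := by
  unfold cls
  simp

theorem sum_om (hT : TOGs) (hS : SPLIT) (n : ℕ) (d : Fin n → ℕ) (K : Finset (Fin n))
    (G0 : SimpleGraph (Fin n)) (hG0 : G0 ∈ Om d) (hK : SplitBy K G0)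
    (x0 : {v // v ∈ K} → {v // v ∉ K} → Bool) (hx0 : toG K x0 = G0)
    (F : SimpleGraph (Fin n) → ℝ) :
    ∑ G ∈ Om d, F G = ∑ x ∈ cls univ x0, F (toG K x) := by
  symm
  refine sum_bij (fun x _ => toG K x) ?_ ?_ ?_ ?_
  · intro x hx
    rw [mem_cls] at hx
    exact (hT.om n d K x0 x (by rw [hx0]; exact hG0)).mpr hx
  · intro x _ y _ h
    exact hT.inj n K h
  · intro G hG
    obtain ⟨x, hx⟩ := hT.surj n K G (hS n d K G0 G hG0 hG hK)
    refine ⟨x, ?_, hx⟩
    rw [mem_cls]
    exact (hT.om n d K x0 x (by rw [hx0]; exact hG0)).mp (by rw [hx]; exact hG)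
  · intro x _
    rfl

open Classical in
/-- the Dirichlet form of the chain as a sum over quadruples -/
theorem kn_sum (hB : KBASs) (hq : QCARD) (n : ℕ) (hn : 4 ≤ n) (d : Fin n → ℕ)
    (f : SimpleGraph (Fin n) → ℝ) (G : SimpleGraph (Fin n)) (hG : G ∈ Om d) :
    ∑ H ∈ Om d, Kn n G H * (f G - f H) ^ 2 =
      (1 / ((n : ℝ) * (n - 1) * (n - 2) * (n - 3))) *
        ∑ q ∈ Quad n, (f G - f (step G q)) ^ 2 := by
  have h1 : ∑ H ∈ Om d, Kn n G H * (f G - f H) ^ 2 = ∑ H, Kn n G H * (f G - f H) ^ 2 := by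
    apply sum_subset (subset_univ _)
    intro H _ hH
    by_cases h : Kn n G H = 0
    · rw [h, zero_mul]
    · exact absurd (hB.closed n d G H h hG) hH
  rw [h1, ← hq n hn]
  have h2 : ∑ q ∈ Quad n, (f G - f (step G q)) ^ 2 =
      ∑ H, ∑ q ∈ (Quad n).filter (fun q => step G q = H), (f G - f (step G q)) ^ 2 := by
    symm
    have h5 := Finset.sum_fiberwise_of_maps_to (s := Quad n) (t := univ)
      (g := fun q => step G q) (fun q _ => mem_univ _) (fun q => (f G - f (step G q)) ^ 2)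
    convert h5
  rw [h2, mul_sum]
  refine sum_congr rfl (fun H _ => ?_)
  have h3 : ∑ q ∈ (Quad n).filter (fun q => step G q = H), (f G - f (step G q)) ^ 2 =
      ∑ q ∈ (Quad n).filter (fun q => step G q = H), (f G - f H) ^ 2 := by
    refine sum_congr rfl (fun q hq => ?_)
    rw [mem_filter] at hq
    rw [hq.2]
  rw [h3, sum_const, nsmul_eq_mul]
  have h4 : Kn n G H = (((Quad n).filter (fun q => step G q = H)).card : ℝ) /
      ((Quad n).card : ℝ) := by
    unfold Kn
    congr!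
  rw [h4]
  ring

section
variable {R Q : Type} [Fintype R] [DecidableEq R] [Fintype Q] [DecidableEq Q]

open Classical in
/-- restriction of `g` to the class of `x0` -/
noncomputable def cut (x0 : R → Q → Bool) (g : (R → Q → Bool) → ℝ) (x : R → Q → Bool) : ℝ :=
  if x ∈ cls univ x0 then g x else 0

theorem cls_eq (hE : EOPs) (x0 x : R → Q → Bool) (hx : x ∈ cls univ x0) :
    cls univ x = cls univ x0 := by
  rw [mem_cls] at hx
  ext y
  rw [mem_cls, mem_cls]
  exact ⟨fun h => hE.rel_trans R Q univ x0 x y hx h,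
    fun h => hE.rel_trans R Q univ x x0 y (hE.rel_symm R Q univ x0 x hx) h⟩

theorem P_in (hE : EOPs) (x0 : R → Q → Bool) (g : (R → Q → Bool) → ℝ) (x : R → Q → Bool)
    (hx : x ∈ cls univ x0) :
    P univ (cut x0 g) x = g x - (∑ y ∈ cls univ x0, g y) / ((cls univ x0).card : ℝ) := by
  unfold P E
  rw [cls_eq hE x0 x hx]
  have h1 : cut x0 g x = g x := by unfold cut; rw [if_pos hx]
  have h2 : ∑ y ∈ cls univ x0, cut x0 g y = ∑ y ∈ cls univ x0, g y := by
    refine sum_congr rfl (fun y hy => ?_)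
    unfold cut; rw [if_pos hy]
  rw [h1, h2]

theorem P_out (hE : EOPs) (x0 : R → Q → Bool) (g : (R → Q → Bool) → ℝ) (x : R → Q → Bool)
    (hx : x ∉ cls univ x0) : P univ (cut x0 g) x = 0 := by
  unfold P E
  have h1 : cut x0 g x = 0 := by unfold cut; rw [if_neg hx]
  have h2 : ∑ y ∈ cls univ x, cut x0 g y = 0 := by
    refine sum_eq_zero (fun y hy => ?_)
    unfold cut; rw [if_neg]
    intro hy2
    apply hx
    rw [mem_cls] at hy hy2 ⊢
    exact hE.rel_trans R Q univ x0 y x hy2 (hE.rel_symm R Q univ x y hy)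
  rw [h1, h2]; simp

open Classical in
theorem poin (hE : EOPs) (hM : GAPM) (x0 : R → Q → Bool) (g : (R → Q → Bool) → ℝ) :
    ∑ x ∈ cls univ x0, (g x - (∑ y ∈ cls univ x0, g y) / ((cls univ x0).card : ℝ)) ^ 2 ≤
      (1 / 8) * ∑ x ∈ cls univ x0, ∑ i : R, ∑ k : R, ∑ j : Q, ∑ l : Q,
        if Avail x i k j l then (g x - g (sw x i k j l)) ^ 2 else 0 := by
  have h := hM R Q (cut x0 g)
  have h1 : ip (P univ (cut x0 g)) (P univ (cut x0 g)) =
      ∑ x ∈ cls univ x0, (g x - (∑ y ∈ cls univ x0, g y) / ((cls univ x0).card : ℝ)) ^ 2 := by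
    unfold ip
    symm
    have h2 : ∑ x, P univ (cut x0 g) x * P univ (cut x0 g) x =
        ∑ x ∈ cls univ x0, P univ (cut x0 g) x * P univ (cut x0 g) x := by
      symm
      apply sum_subset (subset_univ _)
      intro x _ hx
      rw [P_out hE x0 g x hx, zero_mul]
    rw [h2]
    refine sum_congr rfl (fun x hx => ?_)
    rw [P_in hE x0 g x hx]; ring
  rw [h1] at h
  refine le_trans h (le_of_eq ?_)
  congr 1
  symm
  have h3 : ∀ x, x ∉ cls univ x0 → (∑ i : R, ∑ k : R, ∑ j : Q, ∑ l : Q,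
      if Avail x i k j l then (cut x0 g x - cut x0 g (sw x i k j l)) ^ 2 else 0) = 0 := by
    intro x hx
    refine sum_eq_zero (fun i _ => sum_eq_zero (fun k _ => sum_eq_zero (fun j _ =>
      sum_eq_zero (fun l _ => ?_))))
    by_cases hA : Avail x i k j l
    · rw [if_pos hA]
      have e1 : cut x0 g x = 0 := by unfold cut; rw [if_neg hx]
      have e2 : cut x0 g (sw x i k j l) = 0 := by
        unfold cut; rw [if_neg]
        intro hy
        apply hx
        rw [mem_cls] at hy ⊢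
        exact hE.rel_trans R Q univ x0 _ x hy (hE.rel_symm R Q univ x _
          (hE.rel_sw R Q univ x i k j l (mem_univ _) (mem_univ _) hA))
      rw [e1, e2]; norm_num
    · rw [if_neg hA]
  rw [← sum_subset (subset_univ (cls univ x0)) (fun x _ hx => h3 x hx)]
  refine sum_congr rfl (fun x hx => ?_)
  refine sum_congr rfl (fun i _ => sum_congr rfl (fun k _ => sum_congr rfl (fun j _ =>
    sum_congr rfl (fun l _ => ?_))))
  by_cases hA : Avail x i k j l
  · rw [if_pos hA, if_pos hA]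
    have e1 : cut x0 g x = g x := by unfold cut; rw [if_pos hx]
    have e2 : cut x0 g (sw x i k j l) = g (sw x i k j l) := by
      unfold cut; rw [if_pos]
      rw [mem_cls] at hx ⊢
      exact hE.rel_trans R Q univ x0 x _ hx
        (hE.rel_sw R Q univ x i k j l (mem_univ _) (mem_univ _) hA)
    rw [e1, e2]
  · rw [if_neg hA, if_neg hA]

end

theorem gpoin_proof (hE : EOPs) (hM : GAPM) (hT : TOGs) (hTS : TSUM) (hB : KBASs) (hq : QCARD)
    (hS : SPLIT) : GPOIN := by
  classical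
  intro n d K G0 hn hG0 hK f
  obtain ⟨x0, hx0⟩ := hT.surj n K G0 hK
  set N4 : ℝ := (n : ℝ) * (n - 1) * (n - 2) * (n - 3) with hN4
  have hn4 : (4 : ℝ) ≤ n := by exact_mod_cast hn
  have hN0 : 0 < N4 := by
    rw [hN4]
    have h1 : (0 : ℝ) < n - 1 := by linarith
    have h2 : (0 : ℝ) < n - 2 := by linarith
    have h3 : (0 : ℝ) < n - 3 := by linarith
    have h0 : (0 : ℝ) < n := by linarith
    positivity
  have hsum := sum_om hT hS n d K G0 hG0 hK x0 hx0
  have hcard : ((Om d).card : ℝ) = ((cls univ x0).card : ℝ) := by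
    have := hsum (fun _ => 1)
    simpa using this
  have hp := poin hE hM x0 (fun x => f (toG K x))
  -- left side
  have hl : ∑ G ∈ Om d, (f G - (∑ H ∈ Om d, f H) / ((Om d).card : ℝ)) ^ 2 =
      ∑ x ∈ cls univ x0, (f (toG K x) -
        (∑ y ∈ cls univ x0, f (toG K y)) / ((cls univ x0).card : ℝ)) ^ 2 := by
    rw [hsum (fun G => (f G - (∑ H ∈ Om d, f H) / ((Om d).card : ℝ)) ^ 2), hsum f, hcard]
  have hr : ∑ G ∈ Om d, ∑ H ∈ Om d, Kn n G H * (f G - f H) ^ 2 =
      (2 / N4) * ∑ x ∈ cls univ x0, ∑ i : {v // v ∈ K}, ∑ k : {v // v ∈ K},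
        ∑ j : {v // v ∉ K}, ∑ l : {v // v ∉ K},
        if Avail x i k j l then (f (toG K x) - f (toG K (sw x i k j l))) ^ 2 else 0 := by
    have h1 : ∑ G ∈ Om d, ∑ H ∈ Om d, Kn n G H * (f G - f H) ^ 2 =
        ∑ G ∈ Om d, (1 / N4) * ∑ q ∈ Quad n, (f G - f (step G q)) ^ 2 := by
      refine sum_congr rfl (fun G hG => ?_)
      exact kn_sum hB hq n hn d f G hG
    rw [h1, hsum (fun G => (1 / N4) * ∑ q ∈ Quad n, (f G - f (step G q)) ^ 2), mul_sum]
    refine sum_congr rfl (fun x _ => ?_)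
    have h2 := hTS n K x f
    rw [h2]
    ring
  rw [hl, hr]
  have h4 : (0 : ℝ) < 4 / N4 := by positivity
  have h5 := mul_le_mul_of_nonneg_left hp h4.le
  refine le_trans h5 (le_of_eq ?_)
  ring

end Vale.Agent.P335.GPOINN
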