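import Vale.Agent.P335.Tsum

/-! P335, module KBASs: basic properties of the switch kernel. -/

namespace Vale.Agent.P335.Kbas

open Finset

variable {n : ℕ}

/-- the condition of a step -/
def Good (G : SimpleGraph (Fin n)) (a b c d : Fin n) : Prop :=
  G.Adj a b ∧ G.Adj c d ∧ ¬ G.Adj b c ∧ ¬ G.Adj d a

theorem step_bad (G : SimpleGraph (Fin n)) (a b c d : Fin n) (h : ¬ Good G a b c d) :
    step G (a, b, c, d) = G := by
  unfold step
  exact if_neg h

theorem rot_good (G : SimpleGraph (Fin n)) (a b c d : Fin n) (h : Good G a b c d)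
    (hq : (a, b, c, d) ∈ Quad n) : step (step G (a, b, c, d)) (b, c, d, a) = G := by
  obtain ⟨h1, h2, h3, h4⟩ := h
  unfold Quad at hq
  rw [mem_filter] at hq
  obtain ⟨_, ab, ac, ad, bc, bd, cd⟩ := hq
  simp only at ab ac ad bc bd cd
  have hadj := Tsum.step_adj G a b c d h1 h2 h3 h4
  set H := step G (a, b, c, d) with hH
  have g1 : H.Adj b c := by
    rw [hadj]
    exact ⟨bc, Or.inr (Or.inl rfl)⟩
  have g2 : H.Adj d a := by
    rw [hadj]
    exact ⟨ad.symm, Or.inr (Or.inr rfl)⟩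
  have g3 : ¬ H.Adj c d := by
    rw [hadj]
    rintro ⟨_, (⟨_, h⟩ | h | h)⟩
    · exact h (Or.inr rfl)
    · rcases Sym2.eq_iff.1 h with ⟨e, _⟩ | ⟨_, e⟩
      · exact bc e.symm
      · exact bd e.symm
    · rcases Sym2.eq_iff.1 h with ⟨e, _⟩ | ⟨e, _⟩
      · exact cd e
      · exact ac e.symm
  have g4 : ¬ H.Adj a b := by
    rw [hadj]
    rintro ⟨_, (⟨_, h⟩ | h | h)⟩
    · exact h (Or.inl rfl)
    · rcases Sym2.eq_iff.1 h with ⟨e, _⟩ | ⟨e, _⟩
      · exact ab e
      · exact ac e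
    · rcases Sym2.eq_iff.1 h with ⟨e, _⟩ | ⟨_, e⟩
      · exact ad e
      · exact bd e
  ext u v
  rw [Tsum.step_adj H b c d a g1 g2 g3 g4, hadj]
  have f1 : s(u, v) = s(a, b) → G.Adj u v := by
    intro e
    rw [← SimpleGraph.mem_edgeSet, e]
    exact h1
  have f2 : s(u, v) = s(c, d) → G.Adj u v := by
    intro e
    rw [← SimpleGraph.mem_edgeSet, e]
    exact h2
  have f3 : s(u, v) = s(b, c) → ¬ G.Adj u v := by
    intro e
    rw [← SimpleGraph.mem_edgeSet, e]
    exact h3
  have f4 : s(u, v) = s(d, a) → ¬ G.Adj u v := by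
    intro e
    rw [← SimpleGraph.mem_edgeSet, e]
    exact h4
  have f5 : G.Adj u v → u ≠ v := fun h => h.ne
  tauto

theorem rot_mem {a b c d : Fin n} (hq : (a, b, c, d) ∈ Quad n) : (b, c, d, a) ∈ Quad n := by
  unfold Quad at hq ⊢
  rw [mem_filter] at hq ⊢
  obtain ⟨_, ab, ac, ad, bc, bd, cd⟩ := hq
  simp only at ab ac ad bc bd cd
  exact ⟨mem_univ _, bc, bd, ab.symm, cd, ac.symm, ad.symm⟩

open Classical in
theorem card_le (G H : SimpleGraph (Fin n)) (hGH : G ≠ H) :
    ((Quad n).filter (fun q => step G q = H)).card ≤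
      ((Quad n).filter (fun q => step H q = G)).card := by
  refine card_le_card_of_injOn (fun q => (q.2.1, q.2.2.1, q.2.2.2, q.1)) ?_ ?_
  · rintro ⟨a, b, c, d⟩ hq
    rw [mem_coe, mem_filter] at hq
    rw [mem_coe, mem_filter]
    refine ⟨rot_mem hq.1, ?_⟩
    have hg : Good G a b c d := by
      by_contra hc
      rw [step_bad G a b c d hc] at hq
      exact hGH hq.2
    have := rot_good G a b c d hg hq.1
    rw [hq.2] at this
    exact this
  · rintro ⟨a, b, c, d⟩ _ ⟨a', b', c', d'⟩ _ h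
    simp only [Prod.mk.injEq] at h
    obtain ⟨h1, h2, h3, h4⟩ := h
    rw [h1, h2, h3, h4]

open Classical in
theorem nb_card (N N' : Finset (Fin n)) (r p : Fin n) (hr : r ∈ N) (hp : p ∉ N)
    (h : ∀ w, w ∈ N' ↔ (w ∈ N ∧ w ≠ r) ∨ w = p) : N'.card = N.card := by
  have e : N' = insert p (N.erase r) := by
    ext w
    rw [h, mem_insert, mem_erase]
    tauto
  rw [e, card_insert_of_notMem (fun hc => hp (mem_of_mem_erase hc)), card_erase_of_mem hr]
  have : 0 < N.card := card_pos.2 ⟨r, hr⟩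
  omega

theorem step_half (G : SimpleGraph (Fin n)) (a b c d : Fin n) :
    step G (c, d, a, b) = step G (a, b, c, d) := by
  unfold step
  have h1 : (G.Adj c d ∧ G.Adj a b ∧ ¬ G.Adj d a ∧ ¬ G.Adj b c) ↔
      (G.Adj a b ∧ G.Adj c d ∧ ¬ G.Adj b c ∧ ¬ G.Adj d a) := by tauto
  by_cases h : G.Adj a b ∧ G.Adj c d ∧ ¬ G.Adj b c ∧ ¬ G.Adj d a
  · rw [if_pos h, if_pos (h1.2 h)]
    simp only
    rw [Set.pair_comm s(c, d) s(a, b), Set.pair_comm s(d, a) s(b, c)]
  · rw [if_neg h, if_neg (fun hc => h (h1.1 hc))]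

open Classical in
theorem deg_a (G : SimpleGraph (Fin n)) (a b c d : Fin n) (hg : Good G a b c d)
    (hq : (a, b, c, d) ∈ Quad n) :
    (univ.filter (fun w => (step G (a, b, c, d)).Adj a w)).card =
      (univ.filter (fun w => G.Adj a w)).card := by
  obtain ⟨h1, h2, h3, h4⟩ := hg
  unfold Quad at hq
  rw [mem_filter] at hq
  obtain ⟨_, ab, ac, ad, bc, bd, cd⟩ := hq
  simp only at ab ac ad bc bd cd
  have hadj := Tsum.step_adj G a b c d h1 h2 h3 h4
  refine nb_card _ _ b d (mem_filter.2 ⟨mem_univ _, h1⟩)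
    (fun hc => h4 ((mem_filter.1 hc).2.symm)) ?_
  intro w
  have k1 : s(a, w) = s(a, b) ↔ w = b := Sym2.congr_right
  have k2 : ¬ s(a, w) = s(c, d) := by
    intro h
    rcases Sym2.eq_iff.1 h with ⟨e, _⟩ | ⟨e, _⟩
    · exact ac e
    · exact ad e
  have k3 : ¬ s(a, w) = s(b, c) := by
    intro h
    rcases Sym2.eq_iff.1 h with ⟨e, _⟩ | ⟨e, _⟩
    · exact ab e
    · exact ac e
  have k4 : s(a, w) = s(d, a) ↔ w = d := by
    rw [Sym2.eq_swap (a := d) (b := a)]
    exact Sym2.congr_right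
  rw [mem_filter, mem_filter, hadj, k1, k4]
  constructor
  · rintro ⟨_, _, (⟨hA, hn⟩ | h | h)⟩
    · exact Or.inl ⟨⟨mem_univ _, hA⟩, fun hc => hn (Or.inl hc)⟩
    · exact absurd h k3
    · exact Or.inr h
  · rintro (⟨⟨_, hA⟩, hn⟩ | h)
    · refine ⟨mem_univ _, hA.ne, Or.inl ⟨hA, ?_⟩⟩
      rintro (h | h)
      · exact hn h
      · exact k2 h
    · refine ⟨mem_univ _, ?_, Or.inr (Or.inr h)⟩
      rw [h]
      exact ad

open Classical in
theorem deg_other (G : SimpleGraph (Fin n)) (a b c d v : Fin n) (hg : Good G a b c d)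
    (va : v ≠ a) (vb : v ≠ b) (vc : v ≠ c) (vd : v ≠ d) :
    (univ.filter (fun w => (step G (a, b, c, d)).Adj v w)).card =
      (univ.filter (fun w => G.Adj v w)).card := by
  obtain ⟨h1, h2, h3, h4⟩ := hg
  have hadj := Tsum.step_adj G a b c d h1 h2 h3 h4
  congr 1
  refine filter_congr fun w _ => ?_
  have k : ∀ p q : Fin n, v ≠ p → v ≠ q → ¬ s(v, w) = s(p, q) := by
    intro p q hp hq h
    rcases Sym2.eq_iff.1 h with ⟨e, _⟩ | ⟨e, _⟩
    · exact hp e
    · exact hq e
  have k1 := k a b va vb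
  have k2 := k c d vc vd
  have k3 := k b c vb vc
  have k4 := k d a vd va
  rw [hadj]
  constructor
  · rintro ⟨_, (⟨hA, _⟩ | h | h)⟩
    · exact hA
    · exact absurd h k3
    · exact absurd h k4
  · intro hA
    refine ⟨hA.ne, Or.inl ⟨hA, ?_⟩⟩
    rintro (h | h)
    · exact k1 h
    · exact k2 h

theorem good_rev {G : SimpleGraph (Fin n)} {a b c d : Fin n} (h : Good G a b c d) :
    Good G b a d c :=
  ⟨h.1.symm, h.2.1.symm, fun hc => h.2.2.2 hc.symm, fun hc => h.2.2.1 hc.symm⟩

theorem good_half {G : SimpleGraph (Fin n)} {a b c d : Fin n} (h : Good G a b c d) :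
    Good G c d a b :=
  ⟨h.2.1, h.1, h.2.2.2, h.2.2.1⟩

theorem quad_rev {a b c d : Fin n} (hq : (a, b, c, d) ∈ Quad n) : (b, a, d, c) ∈ Quad n := by
  unfold Quad at hq ⊢
  rw [mem_filter] at hq ⊢
  obtain ⟨_, ab, ac, ad, bc, bd, cd⟩ := hq
  simp only at ab ac ad bc bd cd
  exact ⟨mem_univ _, ab.symm, bd, bc, ad, ac, cd.symm⟩

theorem quad_half {a b c d : Fin n} (hq : (a, b, c, d) ∈ Quad n) : (c, d, a, b) ∈ Quad n :=
  rot_mem (rot_mem hq)

open Classical in
theorem deg_step (G : SimpleGraph (Fin n)) (q : Fin n × Fin n × Fin n × Fin n) (hq : q ∈ Quad n)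
    (v : Fin n) : (univ.filter (fun w => (step G q).Adj v w)).card =
      (univ.filter (fun w => G.Adj v w)).card := by
  obtain ⟨a, b, c, d⟩ := q
  by_cases hg : Good G a b c d
  · by_cases va : v = a
    · rw [va]
      exact deg_a G a b c d hg hq
    by_cases vb : v = b
    · rw [vb, ← Tsum.step_rev]
      exact deg_a G b a d c (good_rev hg) (quad_rev hq)
    by_cases vc : v = c
    · rw [vc, ← step_half]
      exact deg_a G c d a b (good_half hg) (quad_half hq)
    by_cases vd : v = d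
    · rw [vd, ← step_half, ← Tsum.step_rev]
      exact deg_a G d c b a (good_rev (good_half hg)) (quad_rev (quad_half hq))
    exact deg_other G a b c d v hg va vb vc vd
  · rw [step_bad G a b c d hg]

theorem kbas_proof : KBASs := by
  classical
  refine ⟨?_, ?_, ?_, ?_, ?_⟩
  · intro n G H
    unfold Kn
    positivity
  · intro n G H
    by_cases h : G = H
    · rw [h]
    · unfold Kn
      rw [le_antisymm (card_le G H h) (card_le H G (fun hc => h hc.symm))]
  · intro n hn G
    have hpos : 0 < (Quad n).card := by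
      rw [card_pos]
      refine ⟨(⟨0, by omega⟩, ⟨1, by omega⟩, ⟨2, by omega⟩, ⟨3, by omega⟩), ?_⟩
      unfold Quad
      rw [mem_filter]
      simp [Fin.ext_iff]
    unfold Kn
    rw [← sum_div, ← Nat.cast_sum]
    have : ∑ H : SimpleGraph (Fin n), ((Quad n).filter (fun q => step G q = H)).card =
        (Quad n).card := by
      rw [← card_eq_sum_card_fiberwise (f := fun q => step G q) (t := univ)]
      intro q _
      exact mem_coe.2 (mem_univ _)
    rw [this]
    exact div_self (by exact_mod_cast hpos.ne')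
  · intro n d G H h hG
    have h1 : ((Quad n).filter (fun q => step G q = H)).card ≠ 0 := by
      intro hc
      apply h
      unfold Kn
      rw [hc]
      simp
    obtain ⟨q, hq⟩ := card_ne_zero.1 h1
    rw [mem_filter] at hq
    unfold Om at hG ⊢
    rw [mem_filter] at hG ⊢
    refine ⟨mem_univ _, fun v => ?_⟩
    rw [← hG.2 v, ← hq.2]
    exact deg_step G q hq.1 v
  · intro n d
    have hinj : Function.Injective (fun G : SimpleGraph (Fin n) =>
        (univ.filter (fun z : {z : Sym2 (Fin n) // ¬ z.IsDiag} => (z : Sym2 (Fin n)) ∈ G.edgeSet) :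
          Finset {z : Sym2 (Fin n) // ¬ z.IsDiag})) := by
      intro G H hGH
      ext u v
      by_cases huv : u = v
      · subst huv
        simp
      · have := Finset.ext_iff.1 hGH ⟨s(u, v), by simpa using huv⟩
        simpa using this
    calc (Om d).card ≤ (univ : Finset (SimpleGraph (Fin n))).card := card_le_card (subset_univ _)
      _ ≤ (univ : Finset (Finset {z : Sym2 (Fin n) // ¬ z.IsDiag})).card :=
          card_le_card_of_injOn _ (fun _ _ => mem_coe.2 (mem_univ _)) hinj.injOn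
      _ = 2 ^ (n * (n - 1) / 2) := by
          rw [card_univ, Fintype.card_finset, Sym2.card_subtype_not_diag, Fintype.card_fin,
            Nat.choose_two_right]

end Vale.Agent.P335.Kbas
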