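import Vale.Agent.P335.Eops

/-!
P335, module KEY1: a same-type switch on rows `i, k`; keep row `k`, resample rows `i, m`.
-/

set_option linter.unusedSectionVars false

namespace Vale.Agent.P335.Key1

open Finset Eops

section
variable {R Q : Type} [Fintype R] [DecidableEq R] [Fintype Q] [DecidableEq Q]

/-- the coupling map -/
def F (i k m : R) (j l : Q) (z : R → Q → Bool) : R → Q → Bool :=
  if z i j = z i l then sw z m k j l else sw z i k j l

theorem F_invol {i k m : R} (hik : i ≠ k) (him : i ≠ m) (j l : Q) (z : R → Q → Bool) :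
    F i k m j l (F i k m j l z) = z := by
  by_cases h : z i j = z i l
  · have h1 : F i k m j l z = sw z m k j l := by simp [F, h]
    have h2 : sw z m k j l i = z i := sw_row_of_ne z m k j l him hik
    rw [h1]
    unfold F
    rw [h2, if_pos h, sw_sw]
  · have h1 : F i k m j l z = sw z i k j l := by simp [F, h]
    rw [h1]
    unfold F
    rw [sw_ij, sw_il, if_neg, sw_sw]
    intro e
    exact h (by simpa using e)

theorem F_swap (i k m : R) (j l : Q) (z : R → Q → Bool) : F i k m l j z = F i k m j l z := by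
  unfold F
  rw [(sw_comm z m k j l).2, (sw_comm z i k j l).2]
  exact if_congr eq_comm rfl rfl

theorem cases_z {i k m : R} {j l : Q} (hik : i ≠ k) (him : i ≠ m) (hkm : k ≠ m)
    {x z : R → Q → Bool} (ha : Avail x i k j l) (hm : x m j = x m l) (hz : Rel {i, m} x z) :
    (z i j ≠ z i l ∧ Avail z i k j l ∧ z m j = z m l) ∨
    (z i j = z i l ∧ Avail z m k j l ∧ z i j = z i l) := by
  obtain ⟨h1, h2, h3, h4⟩ := ha
  have hk : x k = z k := hz.1 k (by simp [hik.symm, hkm])
  have hj := col_pair him hz j
  have hl := col_pair him hz l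
  rw [h1] at hj
  rw [h2, ← hm] at hl
  rw [hk] at h3 h4
  revert hj hl
  unfold Avail
  rw [h3, h4]
  cases x m j <;> cases z i j <;> cases z m j <;> cases z i l <;> cases z m l <;> simp

theorem F_mem {i k m : R} {j l : Q} (hik : i ≠ k) (him : i ≠ m) (hkm : k ≠ m)
    {x z : R → Q → Bool} (ha : Avail x i k j l) (hm : x m j = x m l) (hz : Rel {i, m} x z) :
    Rel {i, m} (sw x i k j l) (F i k m j l z) := by
  have hT : ∀ {a b : R → Q → Bool}, Rel {i, m} a b → Rel {i, k, m} a b := fun h =>
    rel_mono (by intro r; simp; tauto) h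
  have hrow : ∀ r, r ≠ i → r ≠ m → sw x i k j l r = F i k m j l z r := by
    intro r hri hrm
    by_cases hrk : r = k
    · subst hrk
      have hk : x r = z r := hz.1 r (by simp [hri, hrm])
      funext b
      unfold F
      by_cases h : z i j = z i l
      · rw [if_pos h]
        simp only [sw, hk, true_and, or_true]
      · rw [if_neg h]
        simp only [sw, hk, true_and, or_true]
    · rw [sw_row_of_ne x i k j l hri hrk]
      have h1 : F i k m j l z r = z r := by
        unfold F
        by_cases h : z i j = z i l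
        · rw [if_pos h, sw_row_of_ne z m k j l hrm hrk]
        · rw [if_neg h, sw_row_of_ne z i k j l hri hrk]
      rw [h1]
      exact hz.1 r (by simp [hri, hrm])
  have hx : Rel {i, k, m} x (sw x i k j l) := rel_sw (by simp) (by simp) ha
  have hF : Rel {i, k, m} z (F i k m j l z) := by
    unfold F
    rcases cases_z hik him hkm ha hm hz with ⟨h, h', _⟩ | ⟨h, h', _⟩
    · rw [if_neg h]
      exact rel_sw (by simp) (by simp) h'
    · rw [if_pos h]
      exact rel_sw (by simp) (by simp) h'
  have hall := rel_trans (rel_trans (rel_symm hx) (hT hz)) hF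
  refine ⟨fun r hr => ?_, hall.2⟩
  have hr' : r ≠ i ∧ r ≠ m := by simpa using hr
  exact hrow r hr'.1 hr'.2

theorem F_bd {i k m : R} {j l : Q} (hik : i ≠ k) (him : i ≠ m) (hkm : k ≠ m)
    {f : (R → Q → Bool) → ℝ} {L : ℝ} (hL : SameBd {i, k, m} f L)
    {x z : R → Q → Bool} (ha : Avail x i k j l) (hm : x m j = x m l) (hz : Rel {i, m} x z) :
    |f z - f (F i k m j l z)| ≤ L := by
  unfold F
  rcases cases_z hik him hkm ha hm hz with ⟨h, h', h''⟩ | ⟨h, h', h''⟩
  · rw [if_neg h]
    exact hL z i k m j l (by simp) (by simp) (by simp) hik him hkm h' h''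
  · rw [if_pos h]
    exact hL z m k i j l (by simp) (by simp) (by simp) hkm.symm him.symm hik.symm h' h''

end

theorem key1_proof : KEY1 := by
  intro R Q _ _ _ _ f i k m j l x L hik him hkm ha hm hL
  have hmap : ∀ z ∈ cls {i, m} x, F i k m j l z ∈ cls {i, m} (sw x i k j l) := fun z hz =>
    mem_cls.mpr (F_mem hik him hkm ha hm (mem_cls.mp hz))
  have hmap' : ∀ z ∈ cls {i, m} (sw x i k j l), F i k m j l z ∈ cls {i, m} x := by
    intro z hz
    have h1 := (avail_sw ha).1
    have h2 : sw x i k j l m l = sw x i k j l m j := by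
      rw [sw_row_of_ne x i k j l him.symm hkm.symm, hm]
    have h3 := F_mem hik him hkm h1 h2 (mem_cls.mp hz)
    rw [F_swap, (sw_comm (sw x i k j l) i k j l).2, sw_sw] at h3
    exact mem_cls.mpr h3
  have hcard : (cls {i, m} (sw x i k j l)).card = (cls {i, m} x).card :=
    Finset.card_bij' (fun z _ => F i k m j l z) (fun z _ => F i k m j l z) hmap' hmap
      (fun z _ => F_invol hik him j l z) (fun z _ => F_invol hik him j l z)
  have hsum : ∑ z ∈ cls {i, m} (sw x i k j l), f z = ∑ z ∈ cls {i, m} x, f (F i k m j l z) := by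
    refine Finset.sum_bij' (fun z _ => F i k m j l z) (fun z _ => F i k m j l z) hmap' hmap
      (fun z _ => F_invol hik him j l z) (fun z _ => F_invol hik him j l z) (fun z _ => ?_)
    rw [F_invol hik him j l z]
  have hpos : (0 : ℝ) < ((cls {i, m} x).card : ℝ) := Nat.cast_pos.mpr (card_cls_pos _ _)
  unfold E
  rw [hsum, hcard, ← sub_div, ← Finset.sum_sub_distrib, abs_div, abs_of_pos hpos,
    div_le_iff₀ hpos]
  calc |∑ z ∈ cls {i, m} x, (f z - f (F i k m j l z))|
      ≤ ∑ z ∈ cls {i, m} x, |f z - f (F i k m j l z)| := Finset.abs_sum_le_sum_abs _ _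
    _ ≤ ∑ _z ∈ cls {i, m} x, L :=
        Finset.sum_le_sum (fun z hz => F_bd hik him hkm hL ha hm (mem_cls.mp hz))
    _ = L * ((cls {i, m} x).card : ℝ) := by
        rw [Finset.sum_const, nsmul_eq_mul, mul_comm]

end Vale.Agent.P335.Key1
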