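import Vale.Agent.P335.Defs

/-!
P335, KEY2: parametrisation of the classes of two rows.
-/

namespace Vale.Agent.P335.PARA

open Finset

variable {R Q : Type} [Fintype R] [DecidableEq R] [Fintype Q] [DecidableEq Q]

/-- columns where the rows `i`, `m` differ -/
def DD (w : R → Q → Bool) (i m : R) : Finset Q := univ.filter (fun v => w i v ≠ w m v)

/-- number of those columns where row `i` has the one -/
def ss (w : R → Q → Bool) (i m : R) : ℕ := ((DD w i m).filter (fun v => w i v = true)).card

/-- the matrix with `A` in row `i` and the complement in row `m` -/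
def mk (w : R → Q → Bool) (i m : R) (D A : Finset Q) : R → Q → Bool :=
  fun a v => if a = i then (if v ∈ D then decide (v ∈ A) else w i v)
    else if a = m then (if v ∈ D then !decide (v ∈ A) else w m v) else w a v

theorem csum_split (x : R → Q → Bool) (i m : R) (h : i ≠ m) (v : Q) :
    csum x v = (x i v).toNat + (x m v).toNat +
      ∑ a ∈ (univ.erase i).erase m, (x a v).toNat := by
  have e1 : csum x v = ∑ a, (x a v).toNat := by
    unfold csum
    rw [card_filter]
    refine Finset.sum_congr rfl fun a _ => ?_
    cases x a v <;> simp
  rw [e1, ← Finset.add_sum_erase univ _ (mem_univ i),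
    ← Finset.add_sum_erase (univ.erase i) _ (mem_erase.2 ⟨h.symm, mem_univ m⟩), add_assoc]

theorem rsum_split (x : R → Q → Bool) (i : R) (D : Finset Q) :
    rsum x i = (D.filter (fun v => x i v = true)).card +
      ((univ \ D).filter (fun v => x i v = true)).card := by
  unfold rsum
  rw [← card_union_of_disjoint]
  · congr 1
    ext v
    simp only [mem_filter, mem_univ, true_and, mem_union, mem_sdiff]
    tauto
  · rw [disjoint_left]
    intro v h1 h2
    simp only [mem_filter, mem_sdiff] at h1 h2
    exact h2.1.2 h1.1

theorem ss_le (w : R → Q → Bool) (i m : R) : ss w i m ≤ (DD w i m).card :=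
  card_le_card (filter_subset _ _)

theorem rel_mk (w : R → Q → Bool) (i m : R) (h : i ≠ m) (A : Finset Q)
    (hA : A ∈ (DD w i m).powersetCard (ss w i m)) : Rel {i, m} w (mk w i m (DD w i m) A) := by
  obtain ⟨hA1, hA2⟩ := mem_powersetCard.1 hA
  refine ⟨?_, ?_, ?_⟩
  · intro a ha
    simp only [mem_insert, mem_singleton, not_or] at ha
    funext v
    simp [mk, ha.1, ha.2]
  · intro a
    by_cases hi : a = i
    · subst hi
      rw [rsum_split w a (DD w a m), rsum_split (mk w a m (DD w a m) A) a (DD w a m)]
      congr 1
      · have : (DD w a m).filter (fun v => mk w a m (DD w a m) A a v = true) = A := by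
          ext v
          simp only [mem_filter, mk, if_true]
          constructor
          · rintro ⟨h1, h2⟩
            simpa [h1] using h2
          · intro h1
            exact ⟨hA1 h1, by simp [hA1 h1, h1]⟩
        rw [this, hA2]
        rfl
      · congr 1
        ext v
        simp only [mem_filter, mem_sdiff, mk, if_true]
        constructor
        · rintro ⟨h1, h2⟩
          exact ⟨h1, by simp [h1.2, h2]⟩
        · rintro ⟨h1, h2⟩
          exact ⟨h1, by simpa [h1.2] using h2⟩
    · by_cases hm : a = m
      · subst hm
        rw [rsum_split w a (DD w i a), rsum_split (mk w i a (DD w i a) A) a (DD w i a)]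
        congr 1
        · have e1 : (DD w i a).filter (fun v => mk w i a (DD w i a) A a v = true) =
              (DD w i a) \ A := by
            ext v
            simp only [mem_filter, mk, if_neg hi, if_true, mem_sdiff]
            constructor
            · rintro ⟨h1, h2⟩
              exact ⟨h1, by simpa [h1] using h2⟩
            · rintro ⟨h1, h2⟩
              exact ⟨h1, by simp [h1, h2]⟩
          have e2 : (DD w i a).filter (fun v => w a v = true) =
              (DD w i a) \ ((DD w i a).filter (fun v => w i v = true)) := by
            ext v
            simp only [mem_filter, mem_sdiff, DD, mem_univ, true_and, not_and]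
            constructor
            · rintro ⟨h1, h2⟩
              refine ⟨h1, fun _ h3 => h1 (h3.trans h2.symm)⟩
            · rintro ⟨h1, h2⟩
              refine ⟨h1, ?_⟩
              have := h2 h1
              cases h3 : w i v <;> cases h4 : w a v <;> simp_all
          rw [e1, e2, card_sdiff_of_subset hA1, card_sdiff_of_subset (filter_subset _ _), hA2]
          rfl
        · congr 1
          ext v
          simp only [mem_filter, mem_sdiff, mk, if_neg hi, if_true]
          constructor
          · rintro ⟨h1, h2⟩
            exact ⟨h1, by simp [h1.2, h2]⟩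
          · rintro ⟨h1, h2⟩
            exact ⟨h1, by simpa [h1.2] using h2⟩
      · unfold rsum
        congr 1
        ext v
        simp [mk, hi, hm]
  · intro v
    rw [csum_split w i m h, csum_split _ i m h]
    congr 1
    · by_cases hv : v ∈ DD w i m
      · have h1 : w i v ≠ w m v := by simpa [DD] using hv
        simp only [mk, if_true, hv, if_neg h.symm]
        cases h3 : w i v <;> cases h4 : w m v <;> simp_all <;>
          (by_cases h5 : v ∈ A <;> simp [h5])
      · simp only [mk, if_true, hv, if_neg h.symm, if_false]
    · refine Finset.sum_congr rfl fun a ha => ?_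
      have h1 : a ≠ m := (mem_erase.1 ha).1
      have h2 : a ≠ i := (mem_erase.1 (mem_erase.1 ha).2).1
      simp [mk, h1, h2]

theorem mk_of_rel (w : R → Q → Bool) (i m : R) (h : i ≠ m) (y : R → Q → Bool)
    (hy : Rel {i, m} w y) : ∃ A ∈ (DD w i m).powersetCard (ss w i m),
      mk w i m (DD w i m) A = y := by
  obtain ⟨h1, h2, h3⟩ := hy
  have hcol : ∀ v, (w i v).toNat + (w m v).toNat = (y i v).toNat + (y m v).toNat := by
    intro v
    have := h3 v
    rw [csum_split w i m h, csum_split y i m h] at this
    have e : ∑ a ∈ (univ.erase i).erase m, (w a v).toNat =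
        ∑ a ∈ (univ.erase i).erase m, (y a v).toNat := by
      refine Finset.sum_congr rfl fun a ha => ?_
      have h1' : a ≠ m := (mem_erase.1 ha).1
      have h2' : a ≠ i := (mem_erase.1 (mem_erase.1 ha).2).1
      rw [h1 a (by simp [h1', h2'])]
    omega
  have hout : ∀ v, v ∉ DD w i m → y i v = w i v ∧ y m v = w m v := by
    intro v hv
    have h4 : w i v = w m v := by simpa [DD] using hv
    have := hcol v
    cases h5 : w i v <;> cases h6 : w m v <;> cases h7 : y i v <;> cases h8 : y m v <;> simp_all
  have hin : ∀ v, v ∈ DD w i m → y m v = !(y i v) := by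
    intro v hv
    have h4 : w i v ≠ w m v := by simpa [DD] using hv
    have := hcol v
    cases h5 : w i v <;> cases h6 : w m v <;> cases h7 : y i v <;> cases h8 : y m v <;> simp_all
  refine ⟨(DD w i m).filter (fun v => y i v = true), ?_, ?_⟩
  · refine mem_powersetCard.2 ⟨filter_subset _ _, ?_⟩
    have := h2 i
    rw [rsum_split w i (DD w i m), rsum_split y i (DD w i m)] at this
    have e : ((univ \ DD w i m).filter (fun v => w i v = true)) =
        ((univ \ DD w i m).filter (fun v => y i v = true)) := by
      refine filter_congr fun v hv => ?_
      rw [(hout v (mem_sdiff.1 hv).2).1]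
    rw [e] at this
    unfold ss
    omega
  · funext a v
    by_cases hi : a = i
    · subst hi
      by_cases hv : v ∈ DD w a m
      · simp only [mk, if_true, hv, mem_filter, true_and]
        cases y a v <;> simp
      · simp only [mk, if_true, hv, if_false]
        exact (hout v hv).1.symm
    · by_cases hm : a = m
      · subst hm
        by_cases hv : v ∈ DD w i a
        · simp only [mk, if_neg hi, if_true, hv, mem_filter, true_and]
          rw [hin v hv]
          cases y i v <;> simp
        · simp only [mk, if_neg hi, if_true, hv, if_false]
          exact (hout v hv).2.symm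
      · simp only [mk, if_neg hi, if_neg hm]
        rw [h1 a (by simp [hi, hm])]

theorem mk_inj (w : R → Q → Bool) (i m : R) (D A B : Finset Q) (hA : A ⊆ D) (hB : B ⊆ D)
    (h : mk w i m D A = mk w i m D B) : A = B := by
  ext v
  have h1 := congrFun (congrFun h i) v
  simp only [mk, if_true] at h1
  constructor
  · intro hv
    simpa [hA hv, hv] using h1
  · intro hv
    simpa [hB hv, hv] using h1

/-- the average over the class of the rows `i`, `m` -/
theorem param (w : R → Q → Bool) (i m : R) (h : i ≠ m) (f : (R → Q → Bool) → ℝ) :
    E {i, m} f w = (∑ A ∈ (DD w i m).powersetCard (ss w i m), f (mk w i m (DD w i m) A)) /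
      (((DD w i m).powersetCard (ss w i m)).card : ℝ) := by
  have e : cls {i, m} w = ((DD w i m).powersetCard (ss w i m)).image (mk w i m (DD w i m)) := by
    ext y
    simp only [cls, mem_filter, mem_univ, true_and, mem_image]
    constructor
    · intro hy
      exact mk_of_rel w i m h y hy
    · rintro ⟨A, hA, rfl⟩
      exact rel_mk w i m h A hA
  have hinj : Set.InjOn (mk w i m (DD w i m))
      (((DD w i m).powersetCard (ss w i m) : Finset (Finset Q)) : Set (Finset Q)) := by
    intro A hA B hB hAB
    exact mk_inj w i m _ A B (mem_powersetCard.1 hA).1 (mem_powersetCard.1 hB).1 hAB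
  unfold E
  rw [e, Finset.sum_image hinj, Finset.card_image_of_injOn hinj]

end Vale.Agent.P335.PARA
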