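import Vale.Agent.P335.Mods
import Vale.Agent.P335.Coup
import Vale.Agent.P335.Para

/-!
P335, KEY2: mixed switch of rows `i, k`; keep row `k`, resample rows `i, m`.
-/

namespace Vale.Agent.P335.KY2

open Finset COUP PARA

variable {R Q : Type} [Fintype R] [DecidableEq R] [Fintype Q] [DecidableEq Q]

section pts
variable (x : R → Q → Bool) (i k m : R) (j l : Q)

theorem DD_eq (hik : i ≠ k) (him : i ≠ m) (hkm : k ≠ m) (hav : Avail x i k j l)
    (hmj : x m j = false) (hml : x m l = true) :
    DD x i m = insert j (insert l (DD (sw x i k j l) i m)) := by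
  obtain ⟨h1, h2, h3, h4⟩ := hav
  ext v
  simp only [DD, mem_filter, mem_univ, true_and, mem_insert, sw]
  by_cases hvj : v = j
  · subst hvj; simp [h1, hmj]
  · by_cases hvl : v = l
    · subst hvl; simp [h2, hml]
    · simp [hvj, hvl]

theorem j_notin (hik : i ≠ k) (him : i ≠ m) (hkm : k ≠ m) (hav : Avail x i k j l)
    (hmj : x m j = false) : j ∉ DD (sw x i k j l) i m := by
  obtain ⟨h1, h2, h3, h4⟩ := hav
  simp [DD, sw, h1, hmj, him.symm, hkm.symm]

theorem l_notin (hik : i ≠ k) (him : i ≠ m) (hkm : k ≠ m) (hav : Avail x i k j l)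
    (hml : x m l = true) : l ∉ DD (sw x i k j l) i m := by
  obtain ⟨h1, h2, h3, h4⟩ := hav
  simp [DD, sw, h2, hml, him.symm, hkm.symm]

theorem ss_eq (hik : i ≠ k) (him : i ≠ m) (hkm : k ≠ m) (hav : Avail x i k j l)
    (hmj : x m j = false) (hml : x m l = true) :
    ss x i m = ss (sw x i k j l) i m + 1 := by
  have hD := DD_eq x i k m j l hik him hkm hav hmj hml
  have hj := j_notin x i k m j l hik him hkm hav hmj
  obtain ⟨h1, h2, h3, h4⟩ := hav
  unfold ss
  rw [hD]
  have : (insert j (insert l (DD (sw x i k j l) i m))).filter (fun v => x i v = true) =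
      insert j ((DD (sw x i k j l) i m).filter (fun v => sw x i k j l i v = true)) := by
    ext v
    simp only [mem_filter, mem_insert]
    by_cases hvj : v = j
    · subst hvj; simp [h1]
    · by_cases hvl : v = l
      · subst hvl
        simp [h2, hvj, sw]
        intro h
        simp [DD, sw, h2, hml, him.symm, hkm.symm] at h
      · simp [hvj, hvl, sw]
  rw [this, card_insert_of_notMem]
  intro h
  exact hj (mem_filter.1 h).1

end pts

/-- the target of the two-step moves -/
def fl (z : R → Q → Bool) (a b k : R) (j l e : Q) : R → Q → Bool :=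
  fun r v => if (r = a ∧ (v = j ∨ v = e)) ∨ (r = b ∧ (v = l ∨ v = e)) ∨ (r = k ∧ (v = j ∨ v = l))
    then !(z r v) else z r v

section bds
variable (f : (R → Q → Bool) → ℝ) (T : Finset R) (a b k : R) (z : R → Q → Bool) (j l e : Q)
  (Ls Lm : ℝ)

/-- bound (1)/(2): one mixed switch -/
theorem bd_one (ha : a ∈ T) (hb : b ∈ T) (hk : k ∈ T) (hab : a ≠ b) (hak : a ≠ k) (hkb : k ≠ b)
    (hM : MixBd T f Lm) (t : R → Q → Bool)
    (hav : Avail z a k l j) (hm : z b l ≠ z b j) (ht : t = sw z a k l j) :
    |f t - f z| ≤ Lm := by
  subst ht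
  rw [abs_sub_comm]
  exact hM z a k b l j ha hk hb hak hab hkb hav hm

theorem bd_two (ha : a ∈ T) (hb : b ∈ T) (hk : k ∈ T) (hab : a ≠ b) (hak : a ≠ k) (hkb : k ≠ b)
    (hS : SameBd T f Ls) (hM : MixBd T f Lm) (hjl : j ≠ l) (hje : e ≠ j) (hle : e ≠ l)
    (haj : z a j = false) (hal : z a l = true) (hkj : z k j = true) (hkl : z k l = false)
    (hbj : z b j = false) (hbl : z b l = true) (hae : z a e = true) (hbe : z b e = false) :
    |f (fl z a b k j l e) - f z| ≤ Lm + Ls := by
  have hba := hab.symm
  have hka := hak.symm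
  have hbk := hkb.symm
  have hlj := hjl.symm
  have hej := hje.symm
  have hel := hle.symm
  cases hke : z k e with
  | false =>
    have e1 := hS z a k b e j ha hk hb hak hab hkb ⟨hae, haj, hke, hkj⟩ (by rw [hbe, hbj])
    have e2 := hM (sw z a k e j) b k a l e hb hk ha hbk hba hka
      (by simp [Avail, sw, *]) (by simp [sw, *])
    have e3 : sw (sw z a k e j) b k l e = fl z a b k j l e := by
      funext r v
      simp only [sw, fl]
      by_cases h1 : r = a
      · subst h1
        by_cases h4 : v = j
        · subst h4; simp [*]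
        · by_cases h5 : v = l
          · subst h5; simp [*]
          · by_cases h6 : v = e
            · subst h6; simp [*]
            · simp [*]
      · by_cases h2 : r = b
        · subst h2
          by_cases h4 : v = j
          · subst h4; simp [*]
          · by_cases h5 : v = l
            · subst h5; simp [*]
            · by_cases h6 : v = e
              · subst h6; simp [*]
              · simp [*]
        · by_cases h3 : r = k
          · subst h3
            by_cases h4 : v = j
            · subst h4; simp [*]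
            · by_cases h5 : v = l
              · subst h5; simp [*]
              · by_cases h6 : v = e
                · subst h6; simp [*]
                · simp [*]
          · simp [*]
    rw [← e3]
    rw [abs_sub_comm] at e1 e2
    calc |f (sw (sw z a k e j) b k l e) - f z| =
        |(f (sw (sw z a k e j) b k l e) - f (sw z a k e j)) + (f (sw z a k e j) - f z)| := by
          congr 1; ring
      _ ≤ _ := abs_add_le _ _
      _ ≤ _ := add_le_add e2 e1
  | true =>
    have e1 := hS z b k a l e hb hk ha hbk hba hka ⟨hbl, hbe, hkl, hke⟩ (by rw [hal, hae])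
    have e2 := hM (sw z b k l e) a k b e j ha hk hb hak hab hkb
      (by simp [Avail, sw, *]) (by simp [sw, *])
    have e3 : sw (sw z b k l e) a k e j = fl z a b k j l e := by
      funext r v
      simp only [sw, fl]
      by_cases h1 : r = a
      · subst h1
        by_cases h4 : v = j
        · subst h4; simp [*]
        · by_cases h5 : v = l
          · subst h5; simp [*]
          · by_cases h6 : v = e
            · subst h6; simp [*]
            · simp [*]
      · by_cases h2 : r = b
        · subst h2
          by_cases h4 : v = j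
          · subst h4; simp [*]
          · by_cases h5 : v = l
            · subst h5; simp [*]
            · by_cases h6 : v = e
              · subst h6; simp [*]
              · simp [*]
        · by_cases h3 : r = k
          · subst h3
            by_cases h4 : v = j
            · subst h4; simp [*]
            · by_cases h5 : v = l
              · subst h5; simp [*]
              · by_cases h6 : v = e
                · subst h6; simp [*]
                · simp [*]
          · simp [*]
    rw [← e3]
    rw [abs_sub_comm] at e1 e2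
    calc |f (sw (sw z b k l e) a k e j) - f z| =
        |(f (sw (sw z b k l e) a k e j) - f (sw z b k l e)) + (f (sw z b k l e) - f z)| := by
          congr 1; ring
      _ ≤ _ := abs_add_le _ _
      _ ≤ _ := add_le_add e2 e1

end bds

section ids
variable (x : R → Q → Bool) (i k m : R) (j l e : Q) (D A : Finset Q)

theorem T1 (hki : k ≠ i) (hmi : m ≠ i) (hkm : k ≠ m) (hlj : l ≠ j)
    (hij : x i j = true) (hil : x i l = false) (hkj : x k j = false) (hkl : x k l = true)
    (hmj : x m j = false) (hml : x m l = true) (hj : j ∉ D) (hl : l ∉ D) (hjA : j ∉ A)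
    (hlA : l ∉ A) (hA : A ⊆ D) :
    PARA.mk x i m (insert j (insert l D)) (insert j A) =
      sw (PARA.mk (sw x i k j l) i m D A) i k l j := by
  have hik := hki.symm
  have him := hmi.symm
  have hmk := hkm.symm
  have hjl := hlj.symm
  funext r v
  have hvA : v ∈ A → v ∈ D := fun h => hA h
  by_cases h1 : r = i
  · subst h1
    by_cases h4 : v = j
    · subst h4; simp [PARA.mk, sw, fl, *]
    · by_cases h5 : v = l
      · subst h5; simp [PARA.mk, sw, fl, *]
      · by_cases h6 : v ∈ D
        · simp [PARA.mk, sw, fl, *]
        · simp [PARA.mk, sw, fl, *]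
  · by_cases h2 : r = m
    · subst h2
      by_cases h4 : v = j
      · subst h4; simp [PARA.mk, sw, fl, *]
      · by_cases h5 : v = l
        · subst h5; simp [PARA.mk, sw, fl, *]
        · by_cases h6 : v ∈ D
          · simp [PARA.mk, sw, fl, *]
          · simp [PARA.mk, sw, fl, *]
    · by_cases h3 : r = k
      · subst h3
        by_cases h4 : v = j
        · subst h4; simp [PARA.mk, sw, fl, *]
        · by_cases h5 : v = l
          · subst h5; simp [PARA.mk, sw, fl, *]
          · simp [PARA.mk, sw, fl, *]
      · simp [PARA.mk, sw, fl, *]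

theorem T2 (hki : k ≠ i) (hmi : m ≠ i) (hkm : k ≠ m) (hlj : l ≠ j)
    (hij : x i j = true) (hil : x i l = false) (hkj : x k j = false) (hkl : x k l = true)
    (hmj : x m j = false) (hml : x m l = true) (hj : j ∉ D) (hl : l ∉ D) (hjA : j ∉ A)
    (hlA : l ∉ A) (hA : A ⊆ D) :
    PARA.mk x i m (insert j (insert l D)) (insert l A) =
      sw (PARA.mk (sw x i k j l) i m D A) m k l j := by
  have hik := hki.symm
  have him := hmi.symm
  have hmk := hkm.symm
  have hjl := hlj.symm
  funext r v
  have hvA : v ∈ A → v ∈ D := fun h => hA h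
  by_cases h1 : r = i
  · subst h1
    by_cases h4 : v = j
    · subst h4; simp [PARA.mk, sw, fl, *]
    · by_cases h5 : v = l
      · subst h5; simp [PARA.mk, sw, fl, *]
      · by_cases h6 : v ∈ D
        · simp [PARA.mk, sw, fl, *]
        · simp [PARA.mk, sw, fl, *]
  · by_cases h2 : r = m
    · subst h2
      by_cases h4 : v = j
      · subst h4; simp [PARA.mk, sw, fl, *]
      · by_cases h5 : v = l
        · subst h5; simp [PARA.mk, sw, fl, *]
        · by_cases h6 : v ∈ D
          · simp [PARA.mk, sw, fl, *]
          · simp [PARA.mk, sw, fl, *]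
    · by_cases h3 : r = k
      · subst h3
        by_cases h4 : v = j
        · subst h4; simp [PARA.mk, sw, fl, *]
        · by_cases h5 : v = l
          · subst h5; simp [PARA.mk, sw, fl, *]
          · simp [PARA.mk, sw, fl, *]
      · simp [PARA.mk, sw, fl, *]

theorem T3 (hki : k ≠ i) (hmi : m ≠ i) (hkm : k ≠ m) (hlj : l ≠ j)
    (hij : x i j = true) (hil : x i l = false) (hkj : x k j = false) (hkl : x k l = true)
    (hmj : x m j = false) (hml : x m l = true) (hj : j ∉ D) (hl : l ∉ D) (hjA : j ∉ A)
    (hlA : l ∉ A) (hA : A ⊆ D) (he : e ∈ A) (heD : e ∈ D) (hej : e ≠ j) (hel : e ≠ l) :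
    PARA.mk x i m (insert j (insert l D)) (insert j (insert l (A.erase e))) =
      fl (PARA.mk (sw x i k j l) i m D A) i m k j l e := by
  have hik := hki.symm
  have him := hmi.symm
  have hmk := hkm.symm
  have hjl := hlj.symm
  have hje := hej.symm
  have hle := hel.symm
  funext r v
  by_cases h1 : r = i
  · subst h1
    by_cases h4 : v = j
    · subst h4; simp [PARA.mk, sw, fl, *]
    · by_cases h5 : v = l
      · subst h5; simp [PARA.mk, sw, fl, *]
      · by_cases h7 : v = e
        · subst h7; simp [PARA.mk, sw, fl, *]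
        · by_cases h6 : v ∈ D
          · simp [PARA.mk, sw, fl, *]
          · simp [PARA.mk, sw, fl, *]
  · by_cases h2 : r = m
    · subst h2
      by_cases h4 : v = j
      · subst h4; simp [PARA.mk, sw, fl, *]
      · by_cases h5 : v = l
        · subst h5; simp [PARA.mk, sw, fl, *]
        · by_cases h7 : v = e
          · subst h7; simp [PARA.mk, sw, fl, *]
          · by_cases h6 : v ∈ D
            · simp [PARA.mk, sw, fl, *]
            · simp [PARA.mk, sw, fl, *]
    · by_cases h3 : r = k
      · subst h3
        by_cases h4 : v = j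
        · subst h4; simp [PARA.mk, sw, fl, *]
        · by_cases h5 : v = l
          · subst h5; simp [PARA.mk, sw, fl, *]
          · simp [PARA.mk, sw, fl, *]
      · simp [PARA.mk, sw, fl, *]

theorem T4 (hki : k ≠ i) (hmi : m ≠ i) (hkm : k ≠ m) (hlj : l ≠ j)
    (hij : x i j = true) (hil : x i l = false) (hkj : x k j = false) (hkl : x k l = true)
    (hmj : x m j = false) (hml : x m l = true) (hj : j ∉ D) (hl : l ∉ D) (hjA : j ∉ A)
    (hlA : l ∉ A) (hA : A ⊆ D) (he : e ∉ A) (heD : e ∈ D) (hej : e ≠ j) (hel : e ≠ l) :
    PARA.mk x i m (insert j (insert l D)) (insert e A) =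
      fl (PARA.mk (sw x i k j l) i m D A) m i k j l e := by
  have hik := hki.symm
  have him := hmi.symm
  have hmk := hkm.symm
  have hjl := hlj.symm
  have hje := hej.symm
  have hle := hel.symm
  funext r v
  by_cases h1 : r = i
  · subst h1
    by_cases h4 : v = j
    · subst h4; simp [PARA.mk, sw, fl, *]
    · by_cases h5 : v = l
      · subst h5; simp [PARA.mk, sw, fl, *]
      · by_cases h7 : v = e
        · subst h7; simp [PARA.mk, sw, fl, *]
        · by_cases h6 : v ∈ D
          · simp [PARA.mk, sw, fl, *]
          · simp [PARA.mk, sw, fl, *]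
  · by_cases h2 : r = m
    · subst h2
      by_cases h4 : v = j
      · subst h4; simp [PARA.mk, sw, fl, *]
      · by_cases h5 : v = l
        · subst h5; simp [PARA.mk, sw, fl, *]
        · by_cases h7 : v = e
          · subst h7; simp [PARA.mk, sw, fl, *]
          · by_cases h6 : v ∈ D
            · simp [PARA.mk, sw, fl, *]
            · simp [PARA.mk, sw, fl, *]
    · by_cases h3 : r = k
      · subst h3
        by_cases h4 : v = j
        · subst h4; simp [PARA.mk, sw, fl, *]
        · by_cases h5 : v = l
          · subst h5; simp [PARA.mk, sw, fl, *]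
          · simp [PARA.mk, sw, fl, *]
      · simp [PARA.mk, sw, fl, *]

end ids

section fin
variable (f : (R → Q → Bool) → ℝ) (i k m : R) (j l : Q) (x : R → Q → Bool) (Ls Lm : ℝ)

/-- the bound for same-type switches is nonnegative -/
theorem Ls_nonneg (hik : i ≠ k) (him : i ≠ m) (hkm : k ≠ m) (hjl : j ≠ l)
    (hS : SameBd {i, k, m} f Ls) : 0 ≤ Ls := by
  have h := hS (fun a v => decide ((a = i ∧ v = j) ∨ (a = k ∧ v = l))) i k m j l
    (by simp) (by simp) (by simp) hik him hkm
    (by simp [Avail, hik, hik.symm, hjl, hjl.symm])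
    (by simp [him.symm, hkm.symm])
  exact (abs_nonneg _).trans h

theorem key2A (hik : i ≠ k) (him : i ≠ m) (hkm : k ≠ m) (hav : Avail x i k j l)
    (hmj : x m j = false) (hml : x m l = true)
    (hS : SameBd {i, k, m} f Ls) (hM : MixBd {i, k, m} f Lm) :
    |E {i, m} f x - E {i, m} f (sw x i k j l)| ≤ Lm + Ls := by
  have hjl : j ≠ l := by
    rintro rfl
    rw [hmj] at hml
    exact absurd hml (by simp)
  have hL := Ls_nonneg f i k m j l Ls hik him hkm hjl hS
  have hj := j_notin x i k m j l hik him hkm hav hmj
  have hl := l_notin x i k m j l hik him hkm hav hml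
  rw [param x i m him f, param (sw x i k j l) i m him f,
    DD_eq x i k m j l hik him hkm hav hmj hml, ss_eq x i k m j l hik him hkm hav hmj hml]
  obtain ⟨hij, hil, hkj, hkl⟩ := hav
  have hz : ∀ A : Finset Q,
      PARA.mk (sw x i k j l) i m (DD (sw x i k j l) i m) A i j = false ∧
      PARA.mk (sw x i k j l) i m (DD (sw x i k j l) i m) A i l = true ∧
      PARA.mk (sw x i k j l) i m (DD (sw x i k j l) i m) A k j = true ∧
      PARA.mk (sw x i k j l) i m (DD (sw x i k j l) i m) A k l = false ∧
      PARA.mk (sw x i k j l) i m (DD (sw x i k j l) i m) A m j = false ∧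
      PARA.mk (sw x i k j l) i m (DD (sw x i k j l) i m) A m l = true := by
    intro A
    refine ⟨?_, ?_, ?_, ?_, ?_, ?_⟩
    · simp only [PARA.mk, if_true, if_neg hj]; simp [sw, hij]
    · simp only [PARA.mk, if_true, if_neg hl]; simp [sw, hil]
    · simp only [PARA.mk, if_neg hik.symm, if_neg hkm]; simp [sw, hkj]
    · simp only [PARA.mk, if_neg hik.symm, if_neg hkm]; simp [sw, hkl]
    · simp only [PARA.mk, if_neg him.symm, if_true, if_neg hj]
      simp [sw, hmj, him.symm, hkm.symm]
    · simp only [PARA.mk, if_neg him.symm, if_true, if_neg hl]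
      simp [sw, hml, him.symm, hkm.symm]
  generalize hD : DD (sw x i k j l) i m = D at *
  refine coup D j l hj hl hjl (ss (sw x i k j l) i m) (hD ▸ ss_le _ i m)
    (fun A => f (PARA.mk (sw x i k j l) i m D A))
    (fun B => f (PARA.mk x i m (insert j (insert l D)) B)) (Lm + Ls) ?_ ?_ ?_ ?_
  · intro A hA
    have hA' := (mem_powersetCard.1 hA).1
    obtain ⟨z1, z2, z3, z4, z5, z6⟩ := hz A
    have := bd_one f {i, k, m} i m k (PARA.mk (sw x i k j l) i m D A) j l Lm
      (by simp) (by simp) (by simp) him hik hkm hM _ ⟨z2, z1, z4, z3⟩ (by rw [z5, z6]; simp)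
      (T1 x i k m j l D A hik.symm him.symm hkm hjl.symm hij hil hkj hkl hmj hml hj hl
        (fun h => hj (hA' h)) (fun h => hl (hA' h)) hA')
    linarith
  · intro A hA
    have hA' := (mem_powersetCard.1 hA).1
    obtain ⟨z1, z2, z3, z4, z5, z6⟩ := hz A
    have := bd_one f {i, k, m} m i k (PARA.mk (sw x i k j l) i m D A) j l Lm
      (by simp) (by simp) (by simp) him.symm hkm.symm hik.symm hM _ ⟨z6, z5, z4, z3⟩
      (by rw [z1, z2]; simp)
      (T2 x i k m j l D A hik.symm him.symm hkm hjl.symm hij hil hkj hkl hmj hml hj hl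
        (fun h => hj (hA' h)) (fun h => hl (hA' h)) hA')
    linarith
  · intro A hA e he
    have hA' := (mem_powersetCard.1 hA).1
    obtain ⟨z1, z2, z3, z4, z5, z6⟩ := hz A
    have heD : e ∈ D := hA' he
    have hej : e ≠ j := fun h => hj (h ▸ heD)
    have hel : e ≠ l := fun h => hl (h ▸ heD)
    have e5 : PARA.mk (sw x i k j l) i m D A i e = true := by simp [PARA.mk, heD, he]
    have e6 : PARA.mk (sw x i k j l) i m D A m e = false := by
      simp [PARA.mk, heD, he, him.symm]
    show |f (PARA.mk x i m (insert j (insert l D)) (insert j (insert l (A.erase e)))) - _| ≤ _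
    rw [T3 x i k m j l e D A hik.symm him.symm hkm hjl.symm hij hil hkj hkl hmj hml hj hl
        (fun h => hj (hA' h)) (fun h => hl (hA' h)) hA' he heD hej hel]
    exact bd_two f {i, k, m} i m k (PARA.mk (sw x i k j l) i m D A) j l e Ls Lm
      (by simp) (by simp) (by simp) him hik hkm hS hM hjl hej hel z1 z2 z3 z4 z5 z6 e5 e6
  · intro A hA e he
    have hA' := (mem_powersetCard.1 hA).1
    obtain ⟨z1, z2, z3, z4, z5, z6⟩ := hz A
    obtain ⟨heD, heA⟩ := mem_sdiff.1 he
    have hej : e ≠ j := fun h => hj (h ▸ heD)
    have hel : e ≠ l := fun h => hl (h ▸ heD)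
    have e5 : PARA.mk (sw x i k j l) i m D A i e = false := by simp [PARA.mk, heD, heA]
    have e6 : PARA.mk (sw x i k j l) i m D A m e = true := by
      simp [PARA.mk, heD, heA, him.symm]
    show |f (PARA.mk x i m (insert j (insert l D)) (insert e A)) - _| ≤ _
    rw [T4 x i k m j l e D A hik.symm him.symm hkm hjl.symm hij hil hkj hkl hmj hml hj hl
        (fun h => hj (hA' h)) (fun h => hl (hA' h)) hA' heA heD hej hel]
    exact bd_two f {i, k, m} m i k (PARA.mk (sw x i k j l) i m D A) j l e Ls Lm
      (by simp) (by simp) (by simp) him.symm hkm.symm hik.symm hS hM hjl hej hel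
      z5 z6 z3 z4 z1 z2 e6 e5

end fin

theorem key2_proof (hE : EOPs) : KEY2 := by
  intro R Q _ _ _ _ f i k m j l x Ls Lm hik him hkm hav hne hS hM
  cases hmj : x m j with
  | false =>
    have hml : x m l = true := by
      rw [hmj] at hne
      cases h : x m l
      · exact absurd h.symm hne
      · rfl
    exact key2A f i k m j l x Ls Lm hik him hkm hav hmj hml hS hM
  | true =>
    have hml : x m l = false := by
      rw [hmj] at hne
      cases h : x m l
      · rfl
      · exact absurd h.symm hne
    have hav' : Avail (sw x i k j l) i k l j := (hE.avail_sw R Q x i k j l hav).1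
    have hjl : j ≠ l := (hE.avail_ne R Q x i k j l hav).2
    have h1 : sw x i k j l m l = false := by simp [sw, him.symm, hkm.symm, hml]
    have h2 : sw x i k j l m j = true := by simp [sw, him.symm, hkm.symm, hmj]
    have h3 := key2A f i k m l j (sw x i k j l) Ls Lm hik him hkm hav' h1 h2 hS hM
    have h4 : sw (sw x i k j l) i k l j = x := by
      rw [(hE.sw_comm R Q (sw x i k j l) i k j l).2, hE.sw_sw R Q x i k j l]
    rw [h4, abs_sub_comm] at h3
    exact h3

end Vale.Agent.P335.KY2
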