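import Vale.Agent.P335.Mods

/-!
P335: MIX, from a Poincare inequality to total variation.
-/

namespace Vale.Agent.P335.MX

open Finset Vale.Agent.P335

variable {X : Type} [Fintype X] [DecidableEq X]

/-- the operator `(1 + K) / 2` on functions -/
noncomputable def A (K : Matrix X X ℝ) (g : X → ℝ) : X → ℝ :=
  fun y => (1 / 2) * (g y + ∑ z, K y z * g z)

/-- the quadratic form -/
noncomputable def B (K : Matrix X X ℝ) (f g : X → ℝ) : ℝ := ∑ x, f x * A K g x

theorem sum_swap (K : Matrix X X ℝ) (hs : ∀ x y, K x y = K y x) (f g : X → ℝ) :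
    ∑ x, f x * ∑ z, K x z * g z = ∑ x, g x * ∑ z, K x z * f z := by
  simp_rw [Finset.mul_sum]
  rw [Finset.sum_comm]
  refine Finset.sum_congr rfl fun x _ => Finset.sum_congr rfl fun z _ => ?_
  rw [hs z x]
  ring

theorem B_eq (K : Matrix X X ℝ) (f g : X → ℝ) :
    B K f g = (1 / 2) * (∑ x, f x * g x) + (1 / 2) * ∑ x, f x * ∑ z, K x z * g z := by
  unfold B A
  rw [Finset.mul_sum, Finset.mul_sum, ← Finset.sum_add_distrib]
  exact Finset.sum_congr rfl fun x _ => by ring

theorem B_symm (K : Matrix X X ℝ) (hs : ∀ x y, K x y = K y x) (f g : X → ℝ) :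
    B K f g = B K g f := by
  rw [B_eq, B_eq, sum_swap K hs f g]
  congr 2
  exact Finset.sum_congr rfl fun x _ => mul_comm _ _

theorem A_add (K : Matrix X X ℝ) (f g : X → ℝ) : A K (f + g) = A K f + A K g := by
  funext y
  simp only [A, Pi.add_apply, mul_add, Finset.sum_add_distrib]
  ring

theorem A_smul (K : Matrix X X ℝ) (c : ℝ) (g : X → ℝ) : A K (c • g) = c • A K g := by
  funext y
  simp only [A, Pi.smul_apply, smul_eq_mul]
  have h : ∑ z, K y z * (c * g z) = c * ∑ z, K y z * g z := by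
    rw [Finset.mul_sum]
    exact Finset.sum_congr rfl fun z _ => by ring
  rw [h]
  ring

theorem B_add_left (K : Matrix X X ℝ) (f f' g : X → ℝ) : B K (f + f') g = B K f g + B K f' g := by
  unfold B
  rw [← Finset.sum_add_distrib]
  exact Finset.sum_congr rfl fun x _ => by simp [add_mul]

theorem B_smul_left (K : Matrix X X ℝ) (c : ℝ) (f g : X → ℝ) : B K (c • f) g = c * B K f g := by
  unfold B
  rw [Finset.mul_sum]
  exact Finset.sum_congr rfl fun x _ => by simp [mul_assoc]

/-- sum over squares -/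
noncomputable def nn (f : X → ℝ) : ℝ := ∑ x, f x ^ 2

theorem row_sq (K : Matrix X X ℝ) (h1 : ∀ x, ∑ y, K x y = 1) (f : X → ℝ) :
    ∑ x, ∑ y, K x y * f x ^ 2 = nn f := by
  unfold nn
  refine Finset.sum_congr rfl fun x _ => ?_
  rw [← Finset.sum_mul, h1, one_mul]

theorem col_sq (K : Matrix X X ℝ) (hs : ∀ x y, K x y = K y x) (h1 : ∀ x, ∑ y, K x y = 1)
    (f : X → ℝ) : ∑ x, ∑ y, K x y * f y ^ 2 = nn f := by
  rw [Finset.sum_comm, ← row_sq K h1 f]
  exact Finset.sum_congr rfl fun x _ => Finset.sum_congr rfl fun y _ => by rw [hs]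

theorem cross (K : Matrix X X ℝ) (f : X → ℝ) :
    ∑ x, f x * ∑ z, K x z * f z = ∑ x, ∑ y, K x y * (f x * f y) := by
  refine Finset.sum_congr rfl fun x _ => ?_
  rw [Finset.mul_sum]
  exact Finset.sum_congr rfl fun y _ => by ring

theorem B_nonneg (K : Matrix X X ℝ) (h0 : ∀ x y, 0 ≤ K x y) (hs : ∀ x y, K x y = K y x)
    (h1 : ∀ x, ∑ y, K x y = 1) (f : X → ℝ) : 0 ≤ B K f f := by
  rw [B_eq, cross]
  have hn : ∑ x, f x * f x = nn f := by
    unfold nn
    exact Finset.sum_congr rfl fun x _ => by ring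
  have h2 : 0 ≤ ∑ x, ∑ y, K x y * (f x + f y) ^ 2 :=
    Finset.sum_nonneg fun x _ => Finset.sum_nonneg fun y _ => mul_nonneg (h0 x y) (sq_nonneg _)
  have h3 : ∑ x, ∑ y, K x y * (f x + f y) ^ 2 =
      ∑ x, ∑ y, K x y * f x ^ 2 + 2 * ∑ x, ∑ y, K x y * (f x * f y) +
        ∑ x, ∑ y, K x y * f y ^ 2 := by
    simp only [Finset.mul_sum, ← Finset.sum_add_distrib]
    exact Finset.sum_congr rfl fun x _ => Finset.sum_congr rfl fun y _ => by ring
  rw [h3, row_sq K h1, col_sq K hs h1] at h2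
  rw [hn]
  linarith

theorem B_form (K : Matrix X X ℝ) (hs : ∀ x y, K x y = K y x)
    (h1 : ∀ x, ∑ y, K x y = 1) (f : X → ℝ) :
    nn f - B K f f = (1 / 4) * ∑ x, ∑ y, K x y * (f x - f y) ^ 2 := by
  rw [B_eq, cross]
  have hn : ∑ x, f x * f x = nn f := by
    unfold nn
    exact Finset.sum_congr rfl fun x _ => by ring
  have h3 : ∑ x, ∑ y, K x y * (f x - f y) ^ 2 =
      ∑ x, ∑ y, K x y * f x ^ 2 - 2 * ∑ x, ∑ y, K x y * (f x * f y) +
        ∑ x, ∑ y, K x y * f y ^ 2 := by
    simp only [Finset.mul_sum, ← Finset.sum_add_distrib, ← Finset.sum_sub_distrib]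
    exact Finset.sum_congr rfl fun x _ => Finset.sum_congr rfl fun y _ => by ring
  rw [h3, row_sq K h1, col_sq K hs h1, hn]
  ring

/-- functions supported on `Om` with sum zero -/
structure Good (Om : Finset X) (f : X → ℝ) : Prop where
  supp : ∀ x, x ∉ Om → f x = 0
  mean : ∑ x, f x = 0

theorem Good.add {Om : Finset X} {f g : X → ℝ} (hf : Good Om f) (hg : Good Om g) :
    Good Om (f + g) where
  supp x hx := by simp [hf.supp x hx, hg.supp x hx]
  mean := by simp [Finset.sum_add_distrib, hf.mean, hg.mean]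

theorem Good.smul {Om : Finset X} {f : X → ℝ} (hf : Good Om f) (c : ℝ) :
    Good Om (c • f) where
  supp x hx := by simp [hf.supp x hx]
  mean := by simp [← Finset.mul_sum, hf.mean]

theorem K_zero {K : Matrix X X ℝ} {Om : Finset X} (hs : ∀ x y, K x y = K y x)
    (hc : ∀ x y, K x y ≠ 0 → x ∈ Om → y ∈ Om) {x y : X} (hx : x ∉ Om) (hy : y ∈ Om) :
    K x y = 0 := by
  by_contra h
  rw [hs] at h
  exact hx (hc y x h hy)

theorem Good.A {K : Matrix X X ℝ} {Om : Finset X} (hs : ∀ x y, K x y = K y x)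
    (h1 : ∀ x, ∑ y, K x y = 1)
    (hc : ∀ x y, K x y ≠ 0 → x ∈ Om → y ∈ Om) {f : X → ℝ} (hf : Good Om f) :
    Good Om (A K f) where
  supp x hx := by
    unfold MX.A
    rw [hf.supp x hx]
    have h : ∑ z, K x z * f z = 0 := by
      refine Finset.sum_eq_zero fun z _ => ?_
      by_cases hz : z ∈ Om
      · rw [K_zero hs hc hx hz, zero_mul]
      · rw [hf.supp z hz, mul_zero]
    rw [h]
    norm_num
  mean := by
    unfold MX.A
    rw [← Finset.mul_sum, Finset.sum_add_distrib, hf.mean, Finset.sum_comm]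
    have h : ∑ y, ∑ x, K x y * f y = ∑ y, f y := by
      refine Finset.sum_congr rfl fun y _ => ?_
      rw [← Finset.sum_mul]
      have h2 : ∑ x, K x y = 1 := by
        rw [← h1 y]
        exact Finset.sum_congr rfl fun x _ => hs x y
      rw [h2, one_mul]
    rw [h, hf.mean]
    norm_num

theorem B_le {K : Matrix X X ℝ} {Om : Finset X} {lam : ℝ} (hs : ∀ x y, K x y = K y x)
    (h1 : ∀ x, ∑ y, K x y = 1)
    (hc : ∀ x y, K x y ≠ 0 → x ∈ Om → y ∈ Om)
    (hP : ∀ f : X → ℝ, lam * ∑ x ∈ Om, (f x - (∑ z ∈ Om, f z) / (Om.card : ℝ)) ^ 2 ≤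
      (1 / 4) * ∑ x ∈ Om, ∑ y ∈ Om, K x y * (f x - f y) ^ 2)
    {f : X → ℝ} (hf : Good Om f) : B K f f ≤ (1 - lam) * nn f := by
  have h2 := B_form K hs h1 f
  have h3 := hP f
  have hm : ∑ z ∈ Om, f z = 0 := by
    rw [← hf.mean]
    exact Finset.sum_subset (Finset.subset_univ _) fun x _ hx => hf.supp x hx
  rw [hm] at h3
  simp only [zero_div, sub_zero] at h3
  have hn : ∑ x ∈ Om, f x ^ 2 = nn f := by
    unfold nn
    exact Finset.sum_subset (Finset.subset_univ _) fun x _ hx => by rw [hf.supp x hx]; norm_num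
  have hd : ∑ x ∈ Om, ∑ y ∈ Om, K x y * (f x - f y) ^ 2 =
      ∑ x, ∑ y, K x y * (f x - f y) ^ 2 := by
    have ha : ∀ x ∈ Om, ∑ y ∈ Om, K x y * (f x - f y) ^ 2 = ∑ y, K x y * (f x - f y) ^ 2 := by
      intro x hx
      refine Finset.sum_subset (Finset.subset_univ _) fun y _ hy => ?_
      have : K x y = 0 := by rw [hs]; exact K_zero hs hc hy hx
      rw [this, zero_mul]
    rw [Finset.sum_congr rfl ha]
    refine Finset.sum_subset (Finset.subset_univ _) fun x _ hx => ?_
    refine Finset.sum_eq_zero fun y _ => ?_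
    by_cases hy : y ∈ Om
    · rw [K_zero hs hc hx hy, zero_mul]
    · rw [hf.supp x hx, hf.supp y hy]; norm_num
  rw [hn, hd, ← h2] at h3
  linarith

theorem contract {K : Matrix X X ℝ} {Om : Finset X} {lam : ℝ} (h0 : ∀ x y, 0 ≤ K x y)
    (hs : ∀ x y, K x y = K y x) (h1 : ∀ x, ∑ y, K x y = 1)
    (hc : ∀ x y, K x y ≠ 0 → x ∈ Om → y ∈ Om) (hl1 : lam ≤ 1)
    (hP : ∀ f : X → ℝ, lam * ∑ x ∈ Om, (f x - (∑ z ∈ Om, f z) / (Om.card : ℝ)) ^ 2 ≤
      (1 / 4) * ∑ x ∈ Om, ∑ y ∈ Om, K x y * (f x - f y) ^ 2)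
    {f : X → ℝ} (hf : Good Om f) : nn (A K f) ≤ (1 - lam) ^ 2 * nn f := by
  have hA := hf.A hs h1 hc
  have hBA : B K (A K f) f = nn (A K f) := by
    unfold B nn
    exact Finset.sum_congr rfl fun x _ => by ring
  have hBA' : B K f (A K f) = nn (A K f) := by rw [B_symm K hs, hBA]
  have e1 := B_le hs h1 hc hP hf
  have e2 := B_le hs h1 hc hP hA
  have hexp : ∀ c : ℝ, B K (c • f + A K f) (c • f + A K f) =
      c ^ 2 * B K f f + 2 * c * nn (A K f) + B K (A K f) (A K f) := by
    intro c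
    rw [B_add_left, B_smul_left, B_symm K hs f (c • f + A K f), B_add_left, B_smul_left,
      B_symm K hs (A K f) (c • f + A K f), B_add_left, B_smul_left, hBA, hBA']
    ring
  rcases (sub_nonneg.2 hl1).eq_or_lt with hc0 | hc0
  · have h4 := B_le hs h1 hc hP (hf.add hA)
    have h5 := hexp 1
    rw [one_smul] at h5
    rw [h5, ← hc0] at h4
    have p1 := B_nonneg K h0 hs h1 f
    have p2 := B_nonneg K h0 hs h1 (A K f)
    rw [← hc0]
    nlinarith
  · have h4 := B_nonneg K h0 hs h1 ((-(1 - lam)) • f + A K f)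
    rw [hexp] at h4
    have h5 : (1 - lam) ^ 2 * B K f f ≤ (1 - lam) ^ 2 * ((1 - lam) * nn f) :=
      mul_le_mul_of_nonneg_left e1 (sq_nonneg _)
    have h6 : 0 ≤ (1 - lam) * ((1 - lam) ^ 2 * nn f - nn (A K f)) := by nlinarith
    have h7 := nonneg_of_mul_nonneg_right h6 hc0
    linarith

theorem mix_proof : MIX := by
  intro X _ _ K Om lam t h0 hs h1 hc _ hl1 hP hnum x hx
  let pi : X → ℝ := fun y => if y ∈ Om then 1 / (Om.card : ℝ) else 0
  let g : ℕ → X → ℝ := fun s y => ((((1 / 2 : ℝ) • (1 + K)) ^ s) x y) - pi y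
  have hcard : 0 < (Om.card : ℝ) := by
    exact_mod_cast Finset.card_pos.2 ⟨x, hx⟩
  have hApi : ∀ y, A K pi y = pi y := by
    intro y
    have h : ∑ z, K y z * pi z = pi y := by
      by_cases hy : y ∈ Om
      · have h2 : ∀ z, K y z * pi z = K y z * (1 / (Om.card : ℝ)) := by
          intro z
          by_cases hz : z ∈ Om
          · simp only [pi, if_pos hz]
          · have : K y z = 0 := by
              by_contra h
              exact hz (hc y z h hy)
            rw [this, zero_mul, zero_mul]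
        rw [Finset.sum_congr rfl fun z _ => h2 z, ← Finset.sum_mul, h1, one_mul]
        simp only [pi, if_pos hy]
      · have h2 : ∀ z, K y z * pi z = 0 := by
          intro z
          by_cases hz : z ∈ Om
          · rw [K_zero hs hc hy hz, zero_mul]
          · simp only [pi, if_neg hz, mul_zero]
        rw [Finset.sum_congr rfl fun z _ => h2 z]
        simp [pi, hy]
    unfold A
    rw [h]
    ring
  have hstep : ∀ s, g (s + 1) = A K (g s) := by
    intro s
    funext y
    have e1 : ((((1 / 2 : ℝ) • (1 + K)) ^ (s + 1)) x y) =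
        A K (fun z => (((1 / 2 : ℝ) • (1 + K)) ^ s) x z) y := by
      rw [pow_succ, Matrix.mul_apply]
      unfold A
      simp only [Matrix.smul_apply, Matrix.add_apply, smul_eq_mul, mul_add, Finset.sum_add_distrib]
      have ea : ∑ i, (((1 / 2 : ℝ) • (1 + K)) ^ s) x i * (1 / 2 * (1 : Matrix X X ℝ) i y) =
          1 / 2 * (((1 / 2 : ℝ) • (1 + K)) ^ s) x y := by
        rw [Finset.sum_eq_single y]
        · rw [Matrix.one_apply_eq]; ring
        · intro b _ hb
          rw [Matrix.one_apply_ne hb]; ring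
        · intro h; exact absurd (Finset.mem_univ y) h
      rw [ea, Finset.mul_sum]
      congr 1
      exact Finset.sum_congr rfl fun z _ => by rw [hs z y]; ring
    have e2 : A K (g s) y = A K (fun z => (((1 / 2 : ℝ) • (1 + K)) ^ s) x z) y - A K pi y := by
      unfold A
      have : ∑ z, K y z * g s z = ∑ z, K y z * (((1 / 2 : ℝ) • (1 + K)) ^ s) x z -
          ∑ z, K y z * pi z := by
        rw [← Finset.sum_sub_distrib]
        exact Finset.sum_congr rfl fun z _ => by simp only [g]; ring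
      rw [this]
      simp only [g]
      ring
    rw [e2, hApi]
    change ((((1 / 2 : ℝ) • (1 + K)) ^ (s + 1)) x y) - pi y = _
    rw [e1]
  have hg0 : Good Om (g 0) := by
    constructor
    · intro y hy
      have : x ≠ y := fun h => hy (h ▸ hx)
      simp only [g, pi, pow_zero, if_neg hy, Matrix.one_apply_ne this, sub_zero]
    · simp only [g, pow_zero, Finset.sum_sub_distrib]
      have e1 : ∑ y, (1 : Matrix X X ℝ) x y = 1 := by
        rw [Finset.sum_eq_single x]
        · exact Matrix.one_apply_eq x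
        · intro b _ hb; exact Matrix.one_apply_ne hb.symm
        · intro h; exact absurd (Finset.mem_univ x) h
      have e2 : ∑ y, pi y = 1 := by
        simp only [pi, Finset.sum_ite_mem, Finset.univ_inter, Finset.sum_const, nsmul_eq_mul]
        field_simp
      rw [e1, e2, sub_self]
  have hn0 : nn (g 0) ≤ 1 := by
    have e0 : ∀ y, g 0 y ^ 2 = (1 : Matrix X X ℝ) x y ^ 2 - 2 * ((1 : Matrix X X ℝ) x y * pi y) +
        pi y ^ 2 := by
      intro y
      simp only [g, pow_zero]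
      ring
    unfold nn
    rw [Finset.sum_congr rfl fun y _ => e0 y, Finset.sum_add_distrib, Finset.sum_sub_distrib,
      ← Finset.mul_sum]
    have e1 : ∑ y, (1 : Matrix X X ℝ) x y ^ 2 = 1 := by
      rw [Finset.sum_eq_single x]
      · rw [Matrix.one_apply_eq]; norm_num
      · intro b _ hb; rw [Matrix.one_apply_ne hb.symm]; norm_num
      · intro h; exact absurd (Finset.mem_univ x) h
    have e2 : ∑ y, (1 : Matrix X X ℝ) x y * pi y = 1 / (Om.card : ℝ) := by
      rw [Finset.sum_eq_single x]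
      · rw [Matrix.one_apply_eq]; simp [pi, hx]
      · intro b _ hb; rw [Matrix.one_apply_ne hb.symm]; ring
      · intro h; exact absurd (Finset.mem_univ x) h
    have e3 : ∑ y, pi y ^ 2 = 1 / (Om.card : ℝ) := by
      have : ∀ y, pi y ^ 2 = if y ∈ Om then (1 / (Om.card : ℝ)) ^ 2 else 0 := by
        intro y
        by_cases hy : y ∈ Om
        · simp [pi, hy]
        · simp [pi, hy]
      rw [Finset.sum_congr rfl fun y _ => this y, Finset.sum_ite_mem, Finset.univ_inter,
        Finset.sum_const, nsmul_eq_mul]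
      field_simp
    rw [e1, e2, e3]
    have : 0 < 1 / (Om.card : ℝ) := by positivity
    linarith
  have hmain : ∀ s, Good Om (g s) ∧ nn (g s) ≤ ((1 - lam) ^ s) ^ 2 := by
    intro s
    induction s with
    | zero => exact ⟨hg0, by simpa using hn0⟩
    | succ s ih =>
      rw [hstep]
      refine ⟨ih.1.A hs h1 hc, ?_⟩
      have h4 := contract h0 hs h1 hc hl1 hP ih.1
      calc nn (A K (g s)) ≤ (1 - lam) ^ 2 * nn (g s) := h4
        _ ≤ (1 - lam) ^ 2 * ((1 - lam) ^ s) ^ 2 :=
            mul_le_mul_of_nonneg_left ih.2 (sq_nonneg _)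
        _ = ((1 - lam) ^ (s + 1)) ^ 2 := by ring
  obtain ⟨hG, hN⟩ := hmain t
  have hL1 : (∑ y, |g t y|) ≤ Real.sqrt (Om.card : ℝ) * (1 - lam) ^ t := by
    have e1 : ∑ y, |g t y| = ∑ y ∈ Om, |g t y| := by
      symm
      exact Finset.sum_subset (Finset.subset_univ _) fun y _ hy => by rw [hG.supp y hy, abs_zero]
    have e2 : (∑ y ∈ Om, |g t y|) ^ 2 ≤ Om.card * ∑ y ∈ Om, |g t y| ^ 2 :=
      sq_sum_le_card_mul_sum_sq
    have e3 : ∑ y ∈ Om, |g t y| ^ 2 ≤ nn (g t) := by
      unfold nn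
      calc ∑ y ∈ Om, |g t y| ^ 2 = ∑ y ∈ Om, g t y ^ 2 :=
            Finset.sum_congr rfl fun y _ => sq_abs _
        _ ≤ ∑ y, g t y ^ 2 :=
            Finset.sum_le_sum_of_subset_of_nonneg (Finset.subset_univ _) fun y _ _ => sq_nonneg _
    rw [e1]
    refine abs_le_of_sq_le_sq' ?_ (mul_nonneg (Real.sqrt_nonneg _)
      (pow_nonneg (sub_nonneg.2 hl1) t)) |>.2
    rw [mul_pow, Real.sq_sqrt hcard.le]
    calc (∑ y ∈ Om, |g t y|) ^ 2 ≤ Om.card * ∑ y ∈ Om, |g t y| ^ 2 := e2
      _ ≤ Om.card * ((1 - lam) ^ t) ^ 2 :=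
          mul_le_mul_of_nonneg_left (e3.trans hN) hcard.le
  have : (∑ y, |((((1 / 2 : ℝ) • (1 + K)) ^ t) x y) -
    (if y ∈ Om then 1 / (Om.card : ℝ) else 0)|) ≤ 1 / 2 := hL1.trans hnum
  linarith

end Vale.Agent.P335.MX
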