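import Vale.Agent.P335.GMods

namespace Vale.Agent.P335.NUMx

open Finset

theorem num_proof : NUM := by
  intro n N hn hN
  have hn4 : (4 : ℝ) ≤ n := by exact_mod_cast hn
  set lam : ℝ := 4 / ((n : ℝ) * (n - 1) * (n - 2) * (n - 3)) with hlam
  have hden : (0 : ℝ) < (n : ℝ) * (n - 1) * (n - 2) * (n - 3) := by
    have h1 : (0 : ℝ) < (n : ℝ) - 1 := by linarith
    have h2 : (0 : ℝ) < (n : ℝ) - 2 := by linarith
    have h3 : (0 : ℝ) < (n : ℝ) - 3 := by linarith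
    positivity
  have hden24 : (24 : ℝ) ≤ (n : ℝ) * (n - 1) * (n - 2) * (n - 3) := by
    have h1 : (3 : ℝ) ≤ (n : ℝ) - 1 := by linarith
    have h2 : (2 : ℝ) ≤ (n : ℝ) - 2 := by linarith
    have h3 : (1 : ℝ) ≤ (n : ℝ) - 3 := by linarith
    calc (24 : ℝ) = 4 * 3 * 2 * 1 := by norm_num
      _ ≤ (n : ℝ) * (n - 1) * (n - 2) * (n - 3) := by gcongr
  have hdenn : (n : ℝ) * (n - 1) * (n - 2) * (n - 3) ≤ (n : ℝ) ^ 4 := by
    have h0 : (0 : ℝ) ≤ n := by linarith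
    have h1 : (0 : ℝ) ≤ (n : ℝ) - 1 := by linarith
    have h2 : (0 : ℝ) ≤ (n : ℝ) - 2 := by linarith
    have h3 : (0 : ℝ) ≤ (n : ℝ) - 3 := by linarith
    calc (n : ℝ) * (n - 1) * (n - 2) * (n - 3) ≤ (n : ℝ) * n * n * n := by
          gcongr <;> linarith
      _ = (n : ℝ) ^ 4 := by ring
  have hl0 : 0 ≤ lam := by positivity
  have hl1 : lam ≤ 1 := by
    rw [hlam, div_le_one hden]
    linarith
  have hl2 : 4 / (n : ℝ) ^ 4 ≤ lam := by
    rw [hlam]
    exact div_le_div_of_nonneg_left (by norm_num) hden hdenn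
  have h1 : (1 - lam) ^ (n ^ 6) ≤ Real.exp (-(4 * (n : ℝ) ^ 2)) := by
    have a1 : 1 - lam ≤ Real.exp (-lam) := by
      have := Real.add_one_le_exp (-lam)
      linarith
    have a2 : (1 - lam) ^ (n ^ 6) ≤ (Real.exp (-lam)) ^ (n ^ 6) :=
      pow_le_pow_left₀ (by linarith) a1 _
    rw [← Real.exp_nat_mul] at a2
    refine a2.trans (Real.exp_le_exp.mpr ?_)
    push_cast
    have a3 : (n : ℝ) ^ 6 * (4 / (n : ℝ) ^ 4) ≤ (n : ℝ) ^ 6 * lam :=
      mul_le_mul_of_nonneg_left hl2 (by positivity)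
    have a4 : (n : ℝ) ^ 6 * (4 / (n : ℝ) ^ 4) = 4 * (n : ℝ) ^ 2 := by
      field_simp
    linarith
  have h2 : Real.sqrt (N : ℝ) ≤ Real.exp ((n : ℝ) ^ 2) := by
    have a1 : (N : ℝ) ≤ (2 : ℝ) ^ (n * (n - 1) / 2) := by exact_mod_cast hN
    have a2 : (2 : ℝ) ^ (n * (n - 1) / 2) ≤ (2 : ℝ) ^ (n ^ 2) := by
      apply pow_le_pow_right₀ (by norm_num)
      calc n * (n - 1) / 2 ≤ n * (n - 1) := Nat.div_le_self _ _
        _ ≤ n * n := Nat.mul_le_mul_left _ (Nat.sub_le _ _)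
        _ = n ^ 2 := by ring
    have a3 : (2 : ℝ) ^ (n ^ 2) ≤ (Real.exp 1) ^ (n ^ 2) := by
      apply pow_le_pow_left₀ (by norm_num)
      have := Real.add_one_le_exp (1 : ℝ)
      linarith
    rw [← Real.exp_nat_mul, mul_one] at a3
    push_cast at a3
    have a4 : (N : ℝ) ≤ Real.exp ((n : ℝ) ^ 2) := a1.trans (a2.trans a3)
    have a5 : 1 ≤ Real.exp ((n : ℝ) ^ 2) := Real.one_le_exp (by positivity)
    apply Real.sqrt_le_iff.mpr
    refine ⟨by positivity, ?_⟩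
    nlinarith
  have h3 : Real.sqrt (N : ℝ) * (1 - lam) ^ (n ^ 6) ≤
      Real.exp ((n : ℝ) ^ 2) * Real.exp (-(4 * (n : ℝ) ^ 2)) :=
    mul_le_mul h2 h1 (pow_nonneg (by linarith) _) (Real.exp_pos _).le
  refine h3.trans ?_
  rw [← Real.exp_add]
  have h4 : (n : ℝ) ^ 2 + -(4 * (n : ℝ) ^ 2) ≤ -1 := by nlinarith
  refine (Real.exp_le_exp.mpr h4).trans ?_
  rw [Real.exp_neg]
  have h5 : (2 : ℝ) ≤ Real.exp 1 := by
    have := Real.add_one_le_exp (1 : ℝ)
    linarith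
  rw [one_div]
  exact inv_anti₀ (by norm_num) h5

lemma inj4 {n : ℕ} (q : Fin n × Fin n × Fin n × Fin n) (hq : q ∈ Quad n) :
    Function.Injective ![q.1, q.2.1, q.2.2.1, q.2.2.2] := by
  simp only [Quad, Finset.mem_filter, Finset.mem_univ, true_and] at hq
  obtain ⟨h1, h2, h3, h4, h5, h6⟩ := hq
  have g1 := h1.symm
  have g2 := h2.symm
  have g3 := h3.symm
  have g4 := h4.symm
  have g5 := h5.symm
  have g6 := h6.symm
  intro a b hab
  fin_cases a <;> fin_cases b <;> simp_all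

theorem qcard_proof : QCARD := by
  intro n hn
  have h1 : (Quad n).card = Fintype.card (Fin 4 ↪ Fin n) := by
    rw [← Finset.card_univ]
    refine Finset.card_bij' (fun q hq => (⟨![q.1, q.2.1, q.2.2.1, q.2.2.2], inj4 q hq⟩ :
      Fin 4 ↪ Fin n)) (fun e _ => (e 0, e 1, e 2, e 3)) ?_ ?_ ?_ ?_
    · intro q hq
      exact Finset.mem_univ _
    · intro e _
      simp only [Quad, Finset.mem_filter, Finset.mem_univ, true_and]
      refine ⟨?_, ?_, ?_, ?_, ?_, ?_⟩ <;> intro h <;>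
        exact absurd (e.injective h) (by decide)
    · intro q hq
      simp
    · intro e _
      ext i
      fin_cases i <;> simp
  rw [h1, Fintype.card_embedding_eq, Fintype.card_fin, Fintype.card_fin]
  obtain ⟨m, rfl⟩ := Nat.exists_eq_add_of_le hn
  have h2 : (4 + m).descFactorial 4 = (4 + m) * (3 + m) * (2 + m) * (1 + m) := by
    simp only [Nat.descFactorial_succ, Nat.descFactorial_zero]
    have e1 : 4 + m - 3 = 1 + m := by omega
    have e2 : 4 + m - 2 = 2 + m := by omega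
    have e3 : 4 + m - 1 = 3 + m := by omega
    have e4 : 4 + m - 0 = 4 + m := by omega
    rw [e1, e2, e3, e4]
    ring
  rw [h2]
  push_cast
  ring

end Vale.Agent.P335.NUMx
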