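import Vale.Agent.P335.Mods

/-!
P335, module PAIR (helper4).
-/

namespace Vale.Agent.P335.PAIRM

open Finset Vale.Agent.P335

section
variable {R Q : Type} [Fintype R] [DecidableEq R] [Fintype Q] [DecidableEq Q]

open Classical in
/-- the generator of the two-row switch chain -/
noncomputable def Tm (i k : R) :
    ((R → Q → Bool) → ℝ) →ₗ[ℝ] ((R → Q → Bool) → ℝ) where
  toFun f x := (1 / 2) * ∑ j : Q, ∑ l : Q,
    if Avail x i k j l then f x - f (sw x i k j l) else 0
  map_add' f g := by
    funext x
    simp only [Pi.add_apply]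
    rw [← mul_add, ← Finset.sum_add_distrib]
    congr 1
    apply Finset.sum_congr rfl
    intro j _
    rw [← Finset.sum_add_distrib]
    apply Finset.sum_congr rfl
    intro l _
    split_ifs
    · ring
    · ring
  map_smul' c f := by
    funext x
    simp only [Pi.smul_apply, smul_eq_mul, RingHom.id_apply]
    rw [← mul_assoc, mul_comm c (1 / 2), mul_assoc]
    congr 1
    rw [Finset.mul_sum]
    apply Finset.sum_congr rfl
    intro j _
    rw [Finset.mul_sum]
    apply Finset.sum_congr rfl
    intro l _
    split_ifs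
    · ring
    · ring

open Classical in
theorem Tm_apply (i k : R) (f : (R → Q → Bool) → ℝ) (x : R → Q → Bool) :
    Tm i k f x = (1 / 2) * ∑ j : Q, ∑ l : Q,
      if Avail x i k j l then f x - f (sw x i k j l) else 0 := rfl

theorem avail_iff (hE : EOPs) (x : R → Q → Bool) (i k : R) (j l : Q) :
    Avail (sw x i k j l) i k j l ↔ Avail x i k l j := by
  constructor
  · intro h
    have h1 := (hE.avail_sw R Q _ i k j l h).1
    rwa [hE.sw_sw] at h1
  · intro h
    have h1 := (hE.avail_sw R Q _ i k l j h).1
    rwa [(hE.sw_comm R Q x i k j l).2] at h1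

/-- the involution -/
noncomputable def swE (hE : EOPs) (i k : R) (j l : Q) : (R → Q → Bool) ≃ (R → Q → Bool) where
  toFun x := sw x i k j l
  invFun x := sw x i k j l
  left_inv x := hE.sw_sw R Q x i k j l
  right_inv x := hE.sw_sw R Q x i k j l

open Classical in
theorem swap_sum (hE : EOPs) (i k : R) (g : (R → Q → Bool) → (R → Q → Bool) → ℝ) :
    ∑ x : R → Q → Bool, ∑ j : Q, ∑ l : Q,
      (if Avail x i k j l then g x (sw x i k j l) else 0) =
    ∑ x : R → Q → Bool, ∑ j : Q, ∑ l : Q,
      (if Avail x i k j l then g (sw x i k j l) x else 0) := by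
  have h1 : ∀ F : (R → Q → Bool) → Q → Q → ℝ,
      ∑ x : R → Q → Bool, ∑ j : Q, ∑ l : Q, F x j l = ∑ j : Q, ∑ l : Q, ∑ x, F x j l := by
    intro F
    rw [Finset.sum_comm]
    apply Finset.sum_congr rfl
    intro j _
    rw [Finset.sum_comm]
  rw [h1, h1, Finset.sum_comm]
  apply Finset.sum_congr rfl
  intro j _
  apply Finset.sum_congr rfl
  intro l _
  rw [← Equiv.sum_comp (swE hE i k l j)]
  apply Finset.sum_congr rfl
  intro x _
  show (if Avail (sw x i k l j) i k l j then g (sw x i k l j) (sw (sw x i k l j) i k l j) else 0) = _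
  rw [hE.sw_sw, (hE.sw_comm R Q x i k j l).2]
  by_cases h : Avail x i k j l
  · rw [if_pos h, if_pos]
    have := (avail_iff hE x i k l j).2 h
    rwa [(hE.sw_comm R Q x i k j l).2] at this
  · rw [if_neg h, if_neg]
    intro h2
    apply h
    apply (avail_iff hE x i k l j).1
    rwa [(hE.sw_comm R Q x i k j l).2]

theorem T_symm (hE : EOPs) (i k : R) (f g : (R → Q → Bool) → ℝ) :
    ip (Tm i k f) g = ip f (Tm i k g) := by
  classical
  have e1 : ip (Tm i k f) g = (1 / 2) * (∑ x : R → Q → Bool, ∑ j : Q, ∑ l : Q,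
      (if Avail x i k j l then f x * g x else 0) -
      ∑ x : R → Q → Bool, ∑ j : Q, ∑ l : Q,
      (if Avail x i k j l then (fun a b => f b * g a) x (sw x i k j l) else 0)) := by
    unfold ip
    rw [← Finset.sum_sub_distrib, Finset.mul_sum]
    apply Finset.sum_congr rfl
    intro x _
    rw [Tm_apply, mul_assoc]
    congr 1
    rw [Finset.sum_mul, ← Finset.sum_sub_distrib]
    apply Finset.sum_congr rfl
    intro j _
    rw [Finset.sum_mul, ← Finset.sum_sub_distrib]
    apply Finset.sum_congr rfl
    intro l _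
    split_ifs
    · ring
    · ring
  have e2 : ip f (Tm i k g) = (1 / 2) * (∑ x : R → Q → Bool, ∑ j : Q, ∑ l : Q,
      (if Avail x i k j l then f x * g x else 0) -
      ∑ x : R → Q → Bool, ∑ j : Q, ∑ l : Q,
      (if Avail x i k j l then (fun a b => f b * g a) (sw x i k j l) x else 0)) := by
    unfold ip
    rw [← Finset.sum_sub_distrib, Finset.mul_sum]
    apply Finset.sum_congr rfl
    intro x _
    rw [Tm_apply]
    rw [← mul_assoc, mul_comm (f x) (1 / 2), mul_assoc]
    congr 1
    rw [Finset.mul_sum, ← Finset.sum_sub_distrib]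
    apply Finset.sum_congr rfl
    intro j _
    rw [Finset.mul_sum, ← Finset.sum_sub_distrib]
    apply Finset.sum_congr rfl
    intro l _
    split_ifs
    · ring
    · ring
  rw [e1, e2, swap_sum hE i k (fun a b => f b * g a)]

open Classical in
theorem T_form (hE : EOPs) (i k : R) (f : (R → Q → Bool) → ℝ) :
    ip f (Tm i k f) = (1 / 4) * ∑ x : R → Q → Bool, ∑ j : Q, ∑ l : Q,
      if Avail x i k j l then (f x - f (sw x i k j l)) ^ 2 else 0 := by
  have e2 : ip f (Tm i k f) = (1 / 2) * ∑ x : R → Q → Bool, ∑ j : Q, ∑ l : Q,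
      (if Avail x i k j l then (fun a b => f a * (f a - f b)) x (sw x i k j l) else 0) := by
    unfold ip
    rw [Finset.mul_sum]
    apply Finset.sum_congr rfl
    intro x _
    rw [Tm_apply]
    rw [← mul_assoc, mul_comm (f x) (1 / 2), mul_assoc]
    congr 1
    rw [Finset.mul_sum]
    apply Finset.sum_congr rfl
    intro j _
    rw [Finset.mul_sum]
    apply Finset.sum_congr rfl
    intro l _
    split_ifs
    · rfl
    · ring
  have e3 := e2
  rw [swap_sum hE i k (fun a b => f a * (f a - f b))] at e3
  have e4 : ip f (Tm i k f) = (1 / 2) * (ip f (Tm i k f) + ip f (Tm i k f)) := by ring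
  rw [e4]
  nth_rewrite 1 [e2]
  rw [e3, ← mul_add, ← mul_assoc, ← Finset.sum_add_distrib]
  norm_num
  apply Finset.sum_congr rfl
  intro x _
  rw [← Finset.sum_add_distrib]
  apply Finset.sum_congr rfl
  intro j _
  rw [← Finset.sum_add_distrib]
  apply Finset.sum_congr rfl
  intro l _
  split_ifs
  · ring
  · ring

theorem sw_val (x : R → Q → Bool) (i k : R) (j l : Q) (a : R) (b : Q) :
    sw x i k j l a b = if (a = i ∨ a = k) ∧ (b = j ∨ b = l) then !(x a b) else x a b := rfl

/-- case p = j, q ≠ l -/
theorem case_b (x : R → Q → Bool) (i k : R) (j l q : Q) (h1 : j ≠ l) (h2 : l ≠ q) (h3 : j ≠ q) :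
    sw (sw x i k j l) i k l q = sw x i k j q := by
  funext a b
  simp only [sw_val]
  by_cases ha : a = i ∨ a = k
  · by_cases hb : b = j
    · subst hb; simp [ha, h1, h3]
    · by_cases hb2 : b = l
      · subst hb2; simp [ha, hb, h2]
      · by_cases hb3 : b = q
        · subst hb3; simp [ha, hb, hb2]
        · simp [ha, hb, hb2, hb3]
  · simp [ha]

/-- case p ≠ j, q = l -/
theorem case_c (x : R → Q → Bool) (i k : R) (j l p : Q) (h1 : j ≠ l) (h2 : j ≠ p) (h3 : l ≠ p) :
    sw (sw x i k j l) i k p j = sw x i k p l := by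
  funext a b
  simp only [sw_val]
  by_cases ha : a = i ∨ a = k
  · by_cases hb : b = j
    · subst hb; simp [ha, h1, h2]
    · by_cases hb2 : b = l
      · subst hb2; simp [ha, hb, h3]
      · by_cases hb3 : b = p
        · subst hb3; simp [ha, hb, hb2]
        · simp [ha, hb, hb2, hb3]
  · simp [ha]

/-- case p ≠ j, q ≠ l -/
theorem case_d (x : R → Q → Bool) (i k : R) (j l p q : Q) (h1 : p ≠ j) (h2 : p ≠ l) (h3 : q ≠ j)
    (h4 : q ≠ l) : sw (sw x i k j l) i k p q = sw (sw x i k p q) i k j l := by
  funext a b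
  simp only [sw_val]
  by_cases ha : a = i ∨ a = k
  · by_cases hb : b = j
    · subst hb; simp [ha, Ne.symm h1, Ne.symm h3]
    · by_cases hb2 : b = l
      · subst hb2; simp [ha, Ne.symm h2, Ne.symm h4]
      · simp [hb, hb2]
  · simp [ha]

theorem avail_val (x : R → Q → Bool) (i k : R) (j l : Q) (h : Avail x i k j l) (b : Q) :
    sw x i k j l i (Equiv.swap j l b) = x i b ∧ sw x i k j l k (Equiv.swap j l b) = x k b := by
  obtain ⟨h1, h2, h3, h4⟩ := h
  simp only [sw_val]
  by_cases hb : b = j
  · subst hb
    rw [Equiv.swap_apply_left]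
    simp [h1, h2, h3, h4]
  · by_cases hb2 : b = l
    · subst hb2
      rw [Equiv.swap_apply_right]
      simp [h1, h2, h3, h4]
    · rw [Equiv.swap_apply_of_ne_of_ne hb hb2]
      simp [hb, hb2]

theorem avail_swap (x : R → Q → Bool) (i k : R) (j l : Q) (h : Avail x i k j l) (p q : Q) :
    Avail (sw x i k j l) i k (Equiv.swap j l p) (Equiv.swap j l q) ↔ Avail x i k p q := by
  unfold Avail
  rw [(avail_val x i k j l h p).1, (avail_val x i k j l h q).1, (avail_val x i k j l h p).2,
    (avail_val x i k j l h q).2]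

open Classical in
theorem T_at' (i k : R) (f : (R → Q → Bool) → ℝ) (x : R → Q → Bool) (j l : Q)
    (h : Avail x i k j l) :
    Tm i k f (sw x i k j l) = (1 / 2) * ∑ p : Q, ∑ q : Q,
      if Avail x i k p q then f (sw x i k j l) -
        f (sw (sw x i k j l) i k (Equiv.swap j l p) (Equiv.swap j l q)) else 0 := by
  rw [Tm_apply]
  congr 1
  rw [← Equiv.sum_comp (Equiv.swap j l)]
  apply Finset.sum_congr rfl
  intro p _
  rw [← Equiv.sum_comp (Equiv.swap j l)]
  apply Finset.sum_congr rfl
  intro q _
  by_cases h2 : Avail x i k p q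
  · rw [if_pos h2, if_pos ((avail_swap x i k j l h p q).2 h2)]
  · rw [if_neg h2, if_neg (fun h3 => h2 ((avail_swap x i k j l h p q).1 h3))]

theorem term_nonneg (hE : EOPs) (i k : R) (f : (R → Q → Bool) → ℝ) (x : R → Q → Bool) (j l : Q)
    (h : Avail x i k j l)
    (hmax : ∀ (y : R → Q → Bool) (u v : Q), Avail y i k u v →
      f y - f (sw y i k u v) ≤ f x - f (sw x i k j l))
    (hL : 0 < f x - f (sw x i k j l)) (p q : Q) (hpq : Avail x i k p q) :
    0 ≤ (f x - f (sw x i k p q)) - (f (sw x i k j l) -
        f (sw (sw x i k j l) i k (Equiv.swap j l p) (Equiv.swap j l q))) ∧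
    (p = j → q = l → 2 * (f x - f (sw x i k j l)) ≤ (f x - f (sw x i k p q)) -
      (f (sw x i k j l) -
        f (sw (sw x i k j l) i k (Equiv.swap j l p) (Equiv.swap j l q)))) := by
  have hjl : j ≠ l := (hE.avail_ne R Q x i k j l h).2
  have hpl : p ≠ l := by
    rintro rfl
    have a1 := hpq.1
    have a2 := h.2.1
    rw [a1] at a2
    exact absurd a2 (by simp)
  have hqj : q ≠ j := by
    rintro rfl
    have a1 := hpq.2.1
    have a2 := h.1
    rw [a1] at a2
    exact absurd a2 (by simp)
  by_cases hp : p = j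
  · subst hp
    by_cases hq : q = l
    · subst hq
      rw [Equiv.swap_apply_left, Equiv.swap_apply_right, (hE.sw_comm R Q _ i k p q).2, hE.sw_sw]
      constructor
      · linarith
      · intro _ _
        linarith
    · rw [Equiv.swap_apply_left, Equiv.swap_apply_of_ne_of_ne hqj hq,
        case_b x i k p l q hjl (Ne.symm hq) (Ne.symm hqj)]
      constructor
      · linarith
      · intro _ h2
        exact absurd h2 hq
  · by_cases hq : q = l
    · subst hq
      rw [Equiv.swap_apply_right, Equiv.swap_apply_of_ne_of_ne hp hpl,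
        case_c x i k j q p hjl (Ne.symm hp) (Ne.symm hpl)]
      constructor
      · linarith
      · intro h2 _
        exact absurd h2 hp
    · rw [Equiv.swap_apply_of_ne_of_ne hp hpl, Equiv.swap_apply_of_ne_of_ne hqj hq,
        case_d x i k j l p q hp hpl hqj hq]
      have hav : Avail (sw x i k p q) i k j l := by
        obtain ⟨h1, h2, h3, h4⟩ := h
        refine ⟨?_, ?_, ?_, ?_⟩
        · rw [sw_val, if_neg]
          · exact h1
          · rintro ⟨_, h5 | h5⟩
            · exact hp h5.symm
            · exact hqj h5.symm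
        · rw [sw_val, if_neg]
          · exact h2
          · rintro ⟨_, h5 | h5⟩
            · exact hpl h5.symm
            · exact hq h5.symm
        · rw [sw_val, if_neg]
          · exact h3
          · rintro ⟨_, h5 | h5⟩
            · exact hp h5.symm
            · exact hqj h5.symm
        · rw [sw_val, if_neg]
          · exact h4
          · rintro ⟨_, h5 | h5⟩
            · exact hpl h5.symm
            · exact hq h5.symm
      have := hmax _ _ _ hav
      constructor
      · linarith
      · intro h2 _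
        exact absurd h2 hp

theorem eigen (hE : EOPs) (i k : R) (nu : ℝ) (f : (R → Q → Bool) → ℝ)
    (hf : f ≠ 0) (hT : Tm i k f = nu • f) : nu = 0 ∨ 1 ≤ nu := by
  classical
  by_cases hinv : ∀ (x : R → Q → Bool) (j l : Q), Avail x i k j l → f (sw x i k j l) = f x
  · left
    obtain ⟨x, hx⟩ := Function.ne_iff.1 hf
    have h1 : Tm i k f x = 0 := by
      rw [Tm_apply]
      rw [Finset.sum_eq_zero, mul_zero]
      intro j _
      apply Finset.sum_eq_zero
      intro l _
      split_ifs with h
      · rw [hinv x j l h, sub_self]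
      · rfl
    rw [hT] at h1
    simp only [Pi.smul_apply, smul_eq_mul, mul_eq_zero] at h1
    rcases h1 with h1 | h1
    · exact h1
    · exact absurd h1 hx
  · right
    push Not at hinv
    obtain ⟨x0, j0, l0, h0, hne⟩ := hinv
    -- a maximiser
    set S : Finset ((R → Q → Bool) × Q × Q) := univ.filter (fun t => Avail t.1 i k t.2.1 t.2.2)
      with hS
    have hSne : S.Nonempty := ⟨(x0, j0, l0), by rw [hS]; simp [h0]⟩
    obtain ⟨t, htS, htmax⟩ := S.exists_max_image
      (fun t => f t.1 - f (sw t.1 i k t.2.1 t.2.2)) hSne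
    obtain ⟨x, j, l⟩ := t
    have hxjl : Avail x i k j l := by
      rw [hS] at htS; simpa using htS
    have hmax : ∀ (y : R → Q → Bool) (u v : Q), Avail y i k u v →
      f y - f (sw y i k u v) ≤ f x - f (sw x i k j l) := by
      intro y u v hy
      exact htmax (y, u, v) (by rw [hS]; simp [hy])
    have hL : 0 < f x - f (sw x i k j l) := by
      rcases lt_or_gt_of_ne hne with h | h
      · have := hmax x0 j0 l0 h0
        linarith
      · have h1 := (hE.avail_sw R Q x0 i k j0 l0 h0).1
        have h2 := hmax _ _ _ h1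
        rw [(hE.sw_comm R Q _ i k j0 l0).2, hE.sw_sw] at h2
        linarith
    have hT1 : Tm i k f x = nu * f x := by rw [hT]; rfl
    have hT2 : Tm i k f (sw x i k j l) = nu * f (sw x i k j l) := by rw [hT]; rfl
    have key : 2 * (f x - f (sw x i k j l)) ≤
        2 * (Tm i k f x - Tm i k f (sw x i k j l)) := by
      rw [T_at' i k f x j l hxjl, Tm_apply, ← mul_sub, ← Finset.sum_sub_distrib,
        ← mul_assoc, show (2 : ℝ) * (1 / 2) = 1 by norm_num, one_mul]
      have hnn : ∀ p ∈ (univ : Finset Q), 0 ≤ (∑ q : Q, if Avail x i k p q then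
          f x - f (sw x i k p q) else 0) - ∑ q : Q, if Avail x i k p q then f (sw x i k j l) -
          f (sw (sw x i k j l) i k (Equiv.swap j l p) (Equiv.swap j l q)) else 0 := by
        intro p _
        rw [← Finset.sum_sub_distrib]
        apply Finset.sum_nonneg
        intro q _
        split_ifs with h
        · exact (term_nonneg hE i k f x j l hxjl hmax hL p q h).1
        · simp
      refine le_trans ?_ (Finset.single_le_sum hnn (Finset.mem_univ j))
      rw [← Finset.sum_sub_distrib]
      have hnn2 : ∀ q ∈ (univ : Finset Q), 0 ≤ ((if Avail x i k j q then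
          f x - f (sw x i k j q) else 0) - if Avail x i k j q then f (sw x i k j l) -
          f (sw (sw x i k j l) i k (Equiv.swap j l j) (Equiv.swap j l q)) else 0) := by
        intro q _
        split_ifs with h
        · exact (term_nonneg hE i k f x j l hxjl hmax hL j q h).1
        · simp
      refine le_trans ?_ (Finset.single_le_sum hnn2 (Finset.mem_univ l))
      rw [if_pos hxjl, if_pos hxjl]
      exact (term_nonneg hE i k f x j l hxjl hmax hL j l hxjl).2 rfl rfl
    rw [hT1, hT2] at key
    have : (f x - f (sw x i k j l)) ≤ nu * (f x - f (sw x i k j l)) := by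
      rw [mul_sub]; linarith
    by_contra hcon
    push Not at hcon
    nlinarith

theorem T_nonneg (hE : EOPs) (i k : R) (f : (R → Q → Bool) → ℝ) :
    0 ≤ ip f (Tm i k f) := by
  classical
  rw [T_form hE]
  apply mul_nonneg (by norm_num)
  apply Finset.sum_nonneg
  intro x _
  apply Finset.sum_nonneg
  intro j _
  apply Finset.sum_nonneg
  intro l _
  split_ifs
  · positivity
  · exact le_rfl

theorem T_E (hE : EOPs) (i k : R) (f : (R → Q → Bool) → ℝ) : Tm i k (E {i, k} f) = 0 := by
  classical
  funext x
  rw [Tm_apply, Finset.sum_eq_zero, mul_zero]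
  · rfl
  intro j _
  apply Finset.sum_eq_zero
  intro l _
  split_ifs with h
  · rw [hE.E_congr R Q {i, k} f x (sw x i k j l) (hE.rel_sw R Q {i, k} x i k j l (by simp)
      (by simp) h), sub_self]
  · rfl

theorem T_ker (hE : EOPs) (hC : CONN) (i k : R) (f : (R → Q → Bool) → ℝ)
    (hT : Tm i k f = 0) : E {i, k} f = f := by
  classical
  have h0 : ip f (Tm i k f) = 0 := by rw [hT]; unfold ip; simp
  rw [T_form hE] at h0
  have h1 : ∑ x : R → Q → Bool, ∑ j : Q, ∑ l : Q,
      (if Avail x i k j l then (f x - f (sw x i k j l)) ^ 2 else 0) = 0 := by linarith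
  have hinv : ∀ (x : R → Q → Bool) (j l : Q), Avail x i k j l → f (sw x i k j l) = f x := by
    intro x j l h
    have hnn : ∀ (x : R → Q → Bool) (j l : Q), 0 ≤
        (if Avail x i k j l then (f x - f (sw x i k j l)) ^ 2 else 0) := by
      intro x j l
      split_ifs
      · positivity
      · exact le_rfl
    have h2 := (Finset.sum_eq_zero_iff_of_nonneg (fun x _ => Finset.sum_nonneg (fun j _ =>
      Finset.sum_nonneg (fun l _ => hnn x j l)))).1 h1 x (Finset.mem_univ x)
    have h3 := (Finset.sum_eq_zero_iff_of_nonneg (fun j _ =>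
      Finset.sum_nonneg (fun l _ => hnn x j l))).1 h2 j (Finset.mem_univ j)
    have h4 := (Finset.sum_eq_zero_iff_of_nonneg (fun l _ => hnn x j l)).1 h3 l
      (Finset.mem_univ l)
    rw [if_pos h] at h4
    have h5 := pow_eq_zero_iff (two_ne_zero) |>.1 h4
    linarith
  have hc := hC R Q {i, k} f (by
    intro x a b j l ha hb h
    have hne := (hE.avail_ne R Q x a b j l h).1
    simp only [Finset.mem_insert, Finset.mem_singleton] at ha hb
    rcases ha with rfl | rfl
    · rcases hb with rfl | rfl
      · exact absurd rfl hne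
      · exact hinv x j l h
    · rcases hb with rfl | rfl
      · rw [(hE.sw_comm R Q x b a j l).1, ← (hE.sw_comm R Q x b a j l).2]
        apply hinv
        exact (hE.avail_sw R Q x a b j l h).2.2
      · exact absurd rfl hne)
  funext x
  apply hE.E_fix
  intro y hy
  exact (hc x y hy).symm

end

/-- module PAIR -/
theorem pair_proof (h1 : SPEC1) (h2 : SPEC2) (hC : CONN) (hE : EOPs) : PAIR := by
  classical
  intro R Q _ _ _ _ f i k _
  have hsym := T_symm (R := R) (Q := Q) hE i k
  have hnn := T_nonneg (R := R) (Q := Q) hE i k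
  have hsp := h1 _ (Tm i k) hsym hnn (fun nu f hf hT => eigen hE i k nu f hf hT)
  have hfin := h2 _ (Tm i k) (E {i, k}) hsym hnn hsp (T_E hE i k)
    (fun f hf => T_ker hE hC i k f hf) (hE.E_symm R Q {i, k}) f
  rw [T_form hE] at hfin
  refine le_trans (le_of_eq ?_) hfin
  -- ip f (P f) = |f - E f|^2
  have h3 : ip (E {i, k} f) (f - E {i, k} f) = 0 := by
    rw [hE.E_symm]
    have h4 : E {i, k} (f - E {i, k} f) = 0 := by
      have h5 : f - E {i, k} f = f + (-1 : ℝ) • E {i, k} f := by
        rw [neg_smul, one_smul, sub_eq_add_neg]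
      rw [h5, hE.E_add, hE.E_smul, hE.E_tower R Q {i, k} {i, k} f (le_refl _), neg_smul, one_smul,
        ← sub_eq_add_neg, sub_self]
    rw [h4]
    unfold ip
    simp
  have h5 : ip f (P {i, k} f) = ip (f - E {i, k} f) (f - E {i, k} f) +
      ip (E {i, k} f) (f - E {i, k} f) := by
    unfold ip
    rw [← Finset.sum_add_distrib]
    apply Finset.sum_congr rfl
    intro x _
    unfold P
    simp only [Pi.sub_apply]
    ring
  rw [h5, h3, add_zero]

end Vale.Agent.P335.PAIRM
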