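import Vale.Agent.P335.SpecBase

/-!
P335: SPEC1.
-/

namespace Vale.Agent.P335.SP1

open Finset Vale.Agent.P335 SPB

theorem spec1_proof : SPEC1 := by
  intro X _ T hs hnn hev f
  obtain ⟨n, mu, e, he, hne, hpar⟩ := spec T hs
  have hmu : ∀ i, mu i = 0 ∨ 1 ≤ mu i := fun i => hev (mu i) (e i) (hne i) (he i)
  have hTe : ∀ i, ip (T f) (e i) = mu i * ip f (e i) := by
    intro i
    rw [hs, he, ip_comm, ip_smul_left, ip_comm]
  rw [hpar f (T f), hpar (T f) (T f)]
  refine Finset.sum_le_sum fun i _ => ?_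
  rw [hTe]
  have h2 : 0 ≤ ip f (e i) ^ 2 := sq_nonneg _
  rcases hmu i with h | h
  · rw [h]; simp
  · have h3 : mu i ≤ mu i ^ 2 := by nlinarith
    nlinarith [mul_le_mul_of_nonneg_right h3 h2]

end Vale.Agent.P335.SP1
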