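import Vale.Agent.P335.SpecBase

/-!
P335: SPEC2.
-/

namespace Vale.Agent.P335.SP2

open Finset Vale.Agent.P335 SPB

theorem ip_self_nonneg {X : Type} [Fintype X] (f : X → ℝ) : 0 ≤ ip f f := by
  unfold ip
  exact Finset.sum_nonneg fun x _ => mul_self_nonneg _

theorem ip_self_pos {X : Type} [Fintype X] {f : X → ℝ} (hf : f ≠ 0) : 0 < ip f f := by
  rcases (ip_self_nonneg f).eq_or_lt with h | h
  · exfalso
    apply hf
    unfold ip at h
    have h2 := (Finset.sum_eq_zero_iff_of_nonneg (fun x _ => mul_self_nonneg (f x))).1 h.symm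
    funext x
    exact mul_self_eq_zero.1 (h2 x (Finset.mem_univ x))
  · exact h

theorem ip_sub_left {X : Type} [Fintype X] (f g h : X → ℝ) : ip (f - g) h = ip f h - ip g h := by
  unfold ip
  rw [← Finset.sum_sub_distrib]
  exact Finset.sum_congr rfl fun x _ => by simp [sub_mul]

theorem spec2_proof : SPEC2 := by
  intro X _ T E hs hnn hle hTE hker hEs f
  obtain ⟨n, mu, e, he, hne, hpar⟩ := spec T hs
  have hq : ∀ i, ip (e i) (T (e i)) = mu i * ip (e i) (e i) := by
    intro i
    rw [he, ip_comm, ip_smul_left]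
  have hmu0 : ∀ i, 0 ≤ mu i := by
    intro i
    have h1 := hnn (e i)
    rw [hq] at h1
    exact nonneg_of_mul_nonneg_left h1 (ip_self_pos (hne i))
  have hmu : ∀ i, mu i = 0 ∨ 1 ≤ mu i := by
    intro i
    have h1 := hle (e i)
    rw [hq, he, ip_smul_left, ip_comm (e i) (mu i • e i), ip_smul_left] at h1
    have h2 := ip_self_pos (hne i)
    have h3 : mu i ≤ mu i * mu i := by
      by_contra hlt
      push Not at hlt
      nlinarith [mul_lt_mul_of_pos_right hlt h2]
    rcases (hmu0 i).eq_or_lt with h | h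
    · exact Or.inl h.symm
    · right
      by_contra hlt
      push Not at hlt
      nlinarith
  have hTe : ∀ i, ip (T f) (e i) = mu i * ip f (e i) := by
    intro i
    rw [hs, he, ip_comm, ip_smul_left, ip_comm]
  rw [hpar f (T f), hpar (f - E f) (f - E f)]
  refine Finset.sum_le_sum fun i _ => ?_
  rw [hTe, ip_sub_left]
  have h2 : 0 ≤ ip f (e i) ^ 2 := sq_nonneg _
  rcases hmu i with h | h
  · have h1 : E (e i) = e i := hker (e i) (by rw [he, h, zero_smul])
    have h3 : ip (E f) (e i) = ip f (e i) := by rw [hEs, h1]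
    rw [h3, h]
    simp
  · have h4 : mu i * ip (E f) (e i) = 0 := by
      have h5 : ip (T (E f)) (e i) = mu i * ip (E f) (e i) := by
        rw [hs, he, ip_comm, ip_smul_left, ip_comm]
      rw [← h5, hTE]
      unfold ip
      simp
    have h6 : ip (E f) (e i) = 0 := by
      rcases mul_eq_zero.1 h4 with h7 | h7
      · linarith
      · exact h7
    rw [h6]
    nlinarith [mul_le_mul_of_nonneg_right h h2]

end Vale.Agent.P335.SP2
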