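import Vale.Agent.P335.GMods

namespace Vale.Agent.P335.SPLITx

open Finset

open Classical in
/-- indicator of adjacency -/
noncomputable def ad {n : ℕ} (G : SimpleGraph (Fin n)) (u v : Fin n) : ℤ := if G.Adj u v then 1 else 0

lemma ad_comm {n : ℕ} (G : SimpleGraph (Fin n)) (u v : Fin n) : ad G u v = ad G v u := by
  unfold ad
  by_cases h : G.Adj u v
  · rw [if_pos h, if_pos h.symm]
  · rw [if_neg h, if_neg (fun h' => h h'.symm)]

open Classical in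
lemma deg_eq {n : ℕ} {d : Fin n → ℕ} {G : SimpleGraph (Fin n)} (h : G ∈ Om d) (u : Fin n) :
    (d u : ℤ) = ∑ v, ad G u v := by
  simp only [Om, Finset.mem_filter, Finset.mem_univ, true_and] at h
  rw [← h u]
  unfold ad
  rw [Finset.sum_boole]

/-- ordered pairs of adjacent vertices inside `K` minus the same outside `K` -/
lemma key {n : ℕ} {d : Fin n → ℕ} {G : SimpleGraph (Fin n)} (h : G ∈ Om d)
    (K : Finset (Fin n)) :
    (∑ u ∈ K, ∑ v ∈ K, ad G u v) - ∑ u ∈ Kᶜ, ∑ v ∈ Kᶜ, ad G u v =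
      (∑ u ∈ K, (d u : ℤ)) - ∑ u ∈ Kᶜ, (d u : ℤ) := by
  have h1 : ∀ u, (d u : ℤ) = ∑ v ∈ K, ad G u v + ∑ v ∈ Kᶜ, ad G u v := by
    intro u
    rw [deg_eq h u, Finset.sum_add_sum_compl]
  have h2 : ∑ u ∈ K, ∑ v ∈ Kᶜ, ad G u v = ∑ u ∈ Kᶜ, ∑ v ∈ K, ad G u v := by
    rw [Finset.sum_comm]
    refine Finset.sum_congr rfl fun u _ => Finset.sum_congr rfl fun v _ => ?_
    exact ad_comm G _ _
  have h3 : ∑ u ∈ K, (d u : ℤ) = ∑ u ∈ K, ∑ v ∈ K, ad G u v + ∑ u ∈ K, ∑ v ∈ Kᶜ, ad G u v := by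
    rw [← Finset.sum_add_distrib]
    exact Finset.sum_congr rfl fun u _ => h1 u
  have h4 : ∑ u ∈ Kᶜ, (d u : ℤ) =
      ∑ u ∈ Kᶜ, ∑ v ∈ K, ad G u v + ∑ u ∈ Kᶜ, ∑ v ∈ Kᶜ, ad G u v := by
    rw [← Finset.sum_add_distrib]
    exact Finset.sum_congr rfl fun u _ => h1 u
  rw [h3, h4, h2]
  ring

/-- upper bound for the pairs inside `K` -/
def mx {n : ℕ} (u v : Fin n) : ℤ := if u = v then 0 else 1

lemma ad_le {n : ℕ} (G : SimpleGraph (Fin n)) (u v : Fin n) : ad G u v ≤ mx u v := by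
  unfold ad mx
  by_cases h : G.Adj u v
  · rw [if_pos h, if_neg h.ne]
  · rw [if_neg h]
    split_ifs <;> norm_num

lemma ad_nonneg {n : ℕ} (G : SimpleGraph (Fin n)) (u v : Fin n) : 0 ≤ ad G u v := by
  unfold ad
  split_ifs <;> norm_num

theorem split_proof : SPLIT := by
  intro n d K G0 G h0 h hs
  have e0 := key h0 K
  have e1 := key h K
  have a1 : ∑ u ∈ K, ∑ v ∈ K, ad G0 u v = ∑ u ∈ K, ∑ v ∈ K, mx u v := by
    refine Finset.sum_congr rfl fun u hu => Finset.sum_congr rfl fun v hv => ?_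
    unfold ad mx
    by_cases huv : u = v
    · subst huv
      rw [if_pos rfl, if_neg (G0.irrefl)]
    · rw [if_neg huv, if_pos (hs.1 u hu v hv huv)]
  have a2 : ∑ u ∈ Kᶜ, ∑ v ∈ Kᶜ, ad G0 u v = 0 := by
    refine Finset.sum_eq_zero fun u hu => Finset.sum_eq_zero fun v hv => ?_
    unfold ad
    rw [if_neg (hs.2 u (Finset.mem_compl.mp hu) v (Finset.mem_compl.mp hv))]
  have a3 : ∑ u ∈ K, ∑ v ∈ K, ad G u v ≤ ∑ u ∈ K, ∑ v ∈ K, mx u v :=
    Finset.sum_le_sum fun u _ => Finset.sum_le_sum fun v _ => ad_le G u v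
  have a4 : 0 ≤ ∑ u ∈ Kᶜ, ∑ v ∈ Kᶜ, ad G u v :=
    Finset.sum_nonneg fun u _ => Finset.sum_nonneg fun v _ => ad_nonneg G u v
  have a5 : ∑ u ∈ K, ∑ v ∈ K, (mx u v - ad G u v) = 0 := by
    simp only [Finset.sum_sub_distrib]
    linarith
  have a6 : ∑ u ∈ Kᶜ, ∑ v ∈ Kᶜ, ad G u v = 0 := by linarith
  constructor
  · intro u hu v hv huv
    rw [Finset.sum_eq_zero_iff_of_nonneg (fun u _ => Finset.sum_nonneg fun v _ =>
      sub_nonneg.mpr (ad_le G u v))] at a5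
    have b1 := a5 u hu
    rw [Finset.sum_eq_zero_iff_of_nonneg (fun v _ => sub_nonneg.mpr (ad_le G u v))] at b1
    have b2 := b1 v hv
    unfold ad mx at b2
    rw [if_neg huv] at b2
    by_contra hc
    rw [if_neg hc] at b2
    norm_num at b2
  · intro u hu v hv hc
    rw [Finset.sum_eq_zero_iff_of_nonneg (fun u _ => Finset.sum_nonneg fun v _ =>
      ad_nonneg G u v)] at a6
    have b1 := a6 u (Finset.mem_compl.mpr hu)
    rw [Finset.sum_eq_zero_iff_of_nonneg (fun v _ => ad_nonneg G u v)] at b1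
    have b2 := b1 v (Finset.mem_compl.mpr hv)
    unfold ad at b2
    rw [if_pos hc] at b2
    norm_num at b2

end Vale.Agent.P335.SPLITx
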