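import Vale.Agent.P335.GMods

/-!
# P335, module SPLITMIX: final theorem from MIX, NUM, GPOIN, KBAS
-/

namespace Vale.Agent.P335.SplitMix

open Finset

theorem den_ge {n : ℕ} (hn : 4 ≤ n) : (24 : ℝ) ≤ (n : ℝ) * (n - 1) * (n - 2) * (n - 3) := by
  have h : (4 : ℝ) ≤ n := by exact_mod_cast hn
  have h1 : (12 : ℝ) ≤ (n : ℝ) * (n - 1) := by nlinarith
  have h2 : (24 : ℝ) ≤ (n : ℝ) * (n - 1) * (n - 2) := by nlinarith
  nlinarith

open Classical in
theorem splitmix_proof (hMIX : MIX) (hNUM : NUM) (hGPOIN : GPOIN) (hK : KBASs) : SPLITMIX := by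
  intro n d hn hex
  obtain ⟨K, G0, hG0, hsp⟩ := hex
  have hden := den_ge hn
  have hden0 : (0 : ℝ) < (n : ℝ) * (n - 1) * (n - 2) * (n - 3) := by linarith
  have hmain : ∀ G ∈ Om d, tv d (n ^ 6) G ≤ 1 / 4 := by
    intro G hG
    have h := hMIX (SimpleGraph (Fin n)) (Kn n) (Om d)
      (4 / ((n : ℝ) * (n - 1) * (n - 2) * (n - 3))) (n ^ 6)
      (fun x y => hK.nonneg n x y) (fun x y => hK.symm n x y)
      (fun x => hK.stoch n hn x) (fun x y => hK.closed n d x y)
      (by positivity)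
      (by rw [div_le_one hden0]; linarith)
      (fun f => hGPOIN n d K G0 hn hG0 hsp f)
      (hNUM n (Om d).card hn (hK.omcard n d)) G hG
    unfold tv Pn
    exact h
  exact ⟨hmain, Nat.sInf_le hmain⟩

end Vale.Agent.P335.SplitMix
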