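import Vale.Agent.P335.Mods

/-!
# P335, module TRI: the three-row inequality
-/

namespace Vale.Agent.P335

open Finset

namespace TRIp

set_option linter.unusedSectionVars false

variable {R Q : Type} [Fintype R] [DecidableEq R] [Fintype Q] [DecidableEq Q]

/-- `RT T` as a linear map -/
noncomputable def RTl (hE : EOPs) (T : Finset R) :
    ((R → Q → Bool) → ℝ) →ₗ[ℝ] ((R → Q → Bool) → ℝ) where
  toFun := RT T
  map_add' := by
    intro f g
    ext x
    change ∑ e ∈ T.powersetCard 2, (f x + g x - E e (f + g) x) =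
      (∑ e ∈ T.powersetCard 2, (f x - E e f x)) + ∑ e ∈ T.powersetCard 2, (g x - E e g x)
    rw [← sum_add_distrib]
    apply sum_congr rfl
    intro e _
    rw [hE.E_add R Q e f g, Pi.add_apply]
    ring
  map_smul' := by
    intro c f
    ext x
    change ∑ e ∈ T.powersetCard 2, (c * f x - E e (c • f) x) =
      c * ∑ e ∈ T.powersetCard 2, (f x - E e f x)
    rw [mul_sum]
    apply sum_congr rfl
    intro e _
    rw [hE.E_smul R Q e c f, Pi.smul_apply, smul_eq_mul]
    ring

lemma RTl_apply (hE : EOPs) (T : Finset R) (f : (R → Q → Bool) → ℝ) : RTl hE T f = RT T f := rfl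

lemma ip_sub_left {X : Type} [Fintype X] (f g h : X → ℝ) :
    ip (fun x => f x - g x) h = ip f h - ip g h := by
  unfold ip
  rw [← sum_sub_distrib]
  apply sum_congr rfl
  intro x _
  ring

lemma ip_sub_right {X : Type} [Fintype X] (f g h : X → ℝ) :
    ip h (fun x => f x - g x) = ip h f - ip h g := by
  unfold ip
  rw [← sum_sub_distrib]
  apply sum_congr rfl
  intro x _
  ring

lemma ip_sum_right {X ι : Type} [Fintype X] (s : Finset ι) (f : ι → X → ℝ) (h : X → ℝ) :
    ip h (fun x => ∑ e ∈ s, f e x) = ∑ e ∈ s, ip h (f e) := by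
  unfold ip
  rw [sum_comm]
  apply sum_congr rfl
  intro x _
  rw [mul_sum]

lemma ip_comm {X : Type} [Fintype X] (f g : X → ℝ) : ip f g = ip g f := by
  unfold ip
  apply sum_congr rfl
  intro x _
  ring

lemma ip_self_nonneg {X : Type} [Fintype X] (f : X → ℝ) : 0 ≤ ip f f := by
  unfold ip
  exact sum_nonneg fun x _ => mul_self_nonneg _

lemma P_symm (hE : EOPs) (T : Finset R) (f g : (R → Q → Bool) → ℝ) :
    ip (P T f) g = ip f (P T g) := by
  have h1 : P T f = fun x => f x - E T f x := rfl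
  have h2 : P T g = fun x => g x - E T g x := rfl
  rw [h1, h2, ip_sub_left, ip_sub_right, hE.E_symm R Q T f g]

lemma P_idem (hE : EOPs) (T : Finset R) (f : (R → Q → Bool) → ℝ) : P T (P T f) = P T f := by
  have h1 : E T (P T f) = fun _ => 0 := by
    have h2 : P T f = f + (-1 : ℝ) • E T f := by
      ext x
      unfold P
      rw [Pi.add_apply, Pi.smul_apply, smul_eq_mul]
      ring
    rw [h2, hE.E_add R Q, hE.E_smul R Q, hE.E_tower R Q T T f (Subset.refl _)]
    ext x
    rw [Pi.add_apply, Pi.smul_apply, smul_eq_mul]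
    ring
  ext x
  have h3 : P T (P T f) x = P T f x - E T (P T f) x := rfl
  rw [h3, h1, sub_zero]

lemma ip_P (hE : EOPs) (T : Finset R) (f : (R → Q → Bool) → ℝ) :
    ip f (P T f) = ip (P T f) (P T f) := by
  rw [P_symm hE T f (P T f), P_idem hE]

lemma RT_symm (hE : EOPs) (T : Finset R) (f g : (R → Q → Bool) → ℝ) :
    ip (RT T f) g = ip f (RT T g) := by
  have h1 : RT T f = fun x => ∑ e ∈ T.powersetCard 2, P e f x := rfl
  have h2 : RT T g = fun x => ∑ e ∈ T.powersetCard 2, P e g x := rfl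
  rw [ip_comm (RT T f) g, h1, h2, ip_sum_right, ip_sum_right]
  apply sum_congr rfl
  intro e _
  rw [ip_comm, P_symm hE]

lemma RT_nonneg (hE : EOPs) (T : Finset R) (f : (R → Q → Bool) → ℝ) :
    0 ≤ ip f (RT T f) := by
  have h1 : RT T f = fun x => ∑ e ∈ T.powersetCard 2, P e f x := rfl
  rw [h1, ip_sum_right]
  apply sum_nonneg
  intro e _
  rw [ip_P hE]
  exact ip_self_nonneg _

lemma exists_max {ι : Type} [Fintype ι] (p : ι → Prop) (F : ι → ℝ) (hF : ∀ a, 0 ≤ F a) :
    ∃ L : ℝ, 0 ≤ L ∧ (∀ a, p a → F a ≤ L) ∧ (L = 0 ∨ ∃ a, p a ∧ F a = L) := by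
  classical
  by_cases h : (univ.filter p).Nonempty
  · obtain ⟨a, ha, hmax⟩ := exists_max_image _ F h
    refine ⟨F a, hF a, ?_, Or.inr ⟨a, (mem_filter.mp ha).2, rfl⟩⟩
    intro b hb
    exact hmax b (mem_filter.mpr ⟨mem_univ _, hb⟩)
  · refine ⟨0, le_rfl, ?_, Or.inl rfl⟩
    intro b hb
    exfalso
    apply h
    exact ⟨b, mem_filter.mpr ⟨mem_univ _, hb⟩⟩

lemma sum_pairs (i k m : R) (hik : i ≠ k) (him : i ≠ m) (hkm : k ≠ m) (F : Finset R → ℝ) :
    ∑ e ∈ ({i, k, m} : Finset R).powersetCard 2, F e = F {i, k} + F {i, m} + F {k, m} := by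
  have hc : ({i, k, m} : Finset R).card = 3 := by
    rw [card_insert_of_notMem, card_insert_of_notMem, card_singleton]
    · simpa using hkm
    · simp [hik, him]
  have h1 : ({i, k} : Finset R) ≠ {i, m} := by
    intro h
    have : k ∈ ({i, m} : Finset R) := by
      rw [← h]
      simp
    simp only [mem_insert, mem_singleton] at this
    rcases this with h | h
    · exact hik h.symm
    · exact hkm h
  have h2 : ({i, k} : Finset R) ≠ {k, m} := by
    intro h
    have : i ∈ ({k, m} : Finset R) := by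
      rw [← h]
      simp
    simp only [mem_insert, mem_singleton] at this
    rcases this with h | h
    · exact hik h
    · exact him h
  have h3 : ({i, m} : Finset R) ≠ {k, m} := by
    intro h
    have : i ∈ ({k, m} : Finset R) := by
      rw [← h]
      simp
    simp only [mem_insert, mem_singleton] at this
    rcases this with h | h
    · exact hik h
    · exact him h
  have hs : ({{i, k}, {i, m}, {k, m}} : Finset (Finset R)) = ({i, k, m} : Finset R).powersetCard 2 := by
    apply eq_of_subset_of_card_le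
    · intro e he
      simp only [mem_insert, mem_singleton] at he
      rw [mem_powersetCard]
      rcases he with rfl | rfl | rfl
      · refine ⟨?_, card_pair hik⟩
        intro x hx
        simp only [mem_insert, mem_singleton] at hx ⊢
        tauto
      · refine ⟨?_, card_pair him⟩
        intro x hx
        simp only [mem_insert, mem_singleton] at hx ⊢
        tauto
      · refine ⟨?_, card_pair hkm⟩
        intro x hx
        simp only [mem_insert, mem_singleton] at hx ⊢
        tauto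
    · rw [card_powersetCard, hc, card_insert_of_notMem, card_insert_of_notMem, card_singleton]
      · simp [Nat.choose]
      · simpa using h3
      · simp [h1, h2]
  rw [← hs, sum_insert, sum_insert, sum_singleton]
  · ring
  · simpa using h3
  · simp [h1, h2]

lemma eq_triple (T : Finset R) (hT : T.card = 3) (i k m : R) (hi : i ∈ T) (hk : k ∈ T) (hm : m ∈ T)
    (hik : i ≠ k) (him : i ≠ m) (hkm : k ≠ m) : T = {i, k, m} := by
  symm
  apply eq_of_subset_of_card_le
  · intro x hx
    simp only [mem_insert, mem_singleton] at hx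
    rcases hx with rfl | rfl | rfl <;> assumption
  · rw [hT, card_insert_of_notMem, card_insert_of_notMem, card_singleton]
    · simpa using hkm
    · simp [hik, him]

/-- one step of the maximum principle -/
lemma step (hE : EOPs) (T : Finset R) (hT : T.card = 3) (f : (R → Q → Bool) → ℝ) (ν : ℝ)
    (hf : RT T f = ν • f) (z : R → Q → Bool) (i k m : R) (u v : Q) (hi : i ∈ T) (hk : k ∈ T)
    (hm : m ∈ T) (hik : i ≠ k) (him : i ≠ m) (hkm : k ≠ m) (ha : Avail z i k u v) (B : ℝ)
    (h1 : |E {i, m} f z - E {i, m} f (sw z i k u v)| ≤ B)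
    (h2 : |E {k, m} f z - E {k, m} f (sw z i k u v)| ≤ B) :
    (3 - ν) * |f z - f (sw z i k u v)| ≤ 2 * B ∨ 3 - ν < 0 := by
  by_cases hν : 3 - ν < 0
  · exact Or.inr hν
  left
  push Not at hν
  have hTe := eq_triple T hT i k m hi hk hm hik him hkm
  have e1 : ∀ x, E {i, k} f x + E {i, m} f x + E {k, m} f x = (3 - ν) * f x := by
    intro x
    have h3 : RT T f x = ν * f x := by
      rw [hf]
      rfl
    have h4 : RT T f x = ∑ e ∈ T.powersetCard 2, P e f x := rfl
    rw [h4, hTe, sum_pairs i k m hik him hkm] at h3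
    unfold P at h3
    linarith
  have e2 : E {i, k} f z = E {i, k} f (sw z i k u v) :=
    hE.E_congr R Q {i, k} f _ _ (hE.rel_sw R Q {i, k} z i k u v (by simp) (by simp) ha)
  have e3 := e1 z
  have e4 := e1 (sw z i k u v)
  rw [← abs_of_nonneg hν, ← abs_mul]
  have e5 : (3 - ν) * (f z - f (sw z i k u v)) =
      (E {i, m} f z - E {i, m} f (sw z i k u v)) + (E {k, m} f z - E {k, m} f (sw z i k u v)) := by
    rw [mul_sub, ← e3, ← e4, e2]
    ring
  rw [e5]
  refine (abs_add_le _ _).trans ?_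
  linarith

theorem eig (hE : EOPs) (hK1 : KEY1) (hK2 : KEY2) (hC : CONN) (T : Finset R) (hT : T.card = 3)
    (ν : ℝ) (f : (R → Q → Bool) → ℝ) (hf0 : f ≠ 0) (hf : RT T f = ν • f) : ν = 0 ∨ 1 ≤ ν := by
  by_contra hcon
  push Not at hcon
  obtain ⟨hν0, hν1⟩ := hcon
  -- same-type switches
  obtain ⟨Ls, hLs0, hLs, hLs'⟩ := exists_max
    (fun a : (R → Q → Bool) × R × R × R × Q × Q =>
      a.2.1 ∈ T ∧ a.2.2.1 ∈ T ∧ a.2.2.2.1 ∈ T ∧ a.2.1 ≠ a.2.2.1 ∧ a.2.1 ≠ a.2.2.2.1 ∧
        a.2.2.1 ≠ a.2.2.2.1 ∧ Avail a.1 a.2.1 a.2.2.1 a.2.2.2.2.1 a.2.2.2.2.2 ∧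
        a.1 a.2.2.2.1 a.2.2.2.2.1 = a.1 a.2.2.2.1 a.2.2.2.2.2)
    (fun a => |f a.1 - f (sw a.1 a.2.1 a.2.2.1 a.2.2.2.2.1 a.2.2.2.2.2)|) (fun a => abs_nonneg _)
  have hsb : SameBd T f Ls := by
    intro z i k m u v hi hk hm hik him hkm ha hz
    exact hLs (z, i, k, m, u, v) ⟨hi, hk, hm, hik, him, hkm, ha, hz⟩
  have hLs_zero : Ls = 0 := by
    rcases hLs' with h | ⟨⟨z, i, k, m, u, v⟩, ⟨hi, hk, hm, hik, him, hkm, ha, hz⟩, hval⟩
    · exact h
    · simp only at hi hk hm hik him hkm ha hz hval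
      have hTe := eq_triple T hT i k m hi hk hm hik him hkm
      have hTe2 := eq_triple T hT k i m hk hi hm hik.symm hkm him
      have h1 := hK1 R Q f i k m u v z Ls hik him hkm ha hz (by rw [← hTe]; exact hsb)
      obtain ⟨-, -, hav⟩ := hE.avail_sw R Q z i k u v ha
      have h2 := hK1 R Q f k i m v u z Ls hik.symm hkm him hav hz.symm (by rw [← hTe2]; exact hsb)
      have h3 : sw z k i v u = sw z i k u v := by
        rw [(hE.sw_comm R Q z i k v u).1, (hE.sw_comm R Q z i k u v).2]
      rw [h3] at h2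
      rcases step hE T hT f ν hf z i k m u v hi hk hm hik him hkm ha Ls h1 h2 with h4 | h4
      · rw [hval] at h4
        nlinarith
      · linarith
  rw [hLs_zero] at hsb
  -- mixed switches
  obtain ⟨Lm, hLm0, hLm, hLm'⟩ := exists_max
    (fun a : (R → Q → Bool) × R × R × R × Q × Q =>
      a.2.1 ∈ T ∧ a.2.2.1 ∈ T ∧ a.2.2.2.1 ∈ T ∧ a.2.1 ≠ a.2.2.1 ∧ a.2.1 ≠ a.2.2.2.1 ∧
        a.2.2.1 ≠ a.2.2.2.1 ∧ Avail a.1 a.2.1 a.2.2.1 a.2.2.2.2.1 a.2.2.2.2.2 ∧
        a.1 a.2.2.2.1 a.2.2.2.2.1 ≠ a.1 a.2.2.2.1 a.2.2.2.2.2)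
    (fun a => |f a.1 - f (sw a.1 a.2.1 a.2.2.1 a.2.2.2.2.1 a.2.2.2.2.2)|) (fun a => abs_nonneg _)
  have hmb : MixBd T f Lm := by
    intro z i k m u v hi hk hm hik him hkm ha hz
    exact hLm (z, i, k, m, u, v) ⟨hi, hk, hm, hik, him, hkm, ha, hz⟩
  have hLm_zero : Lm = 0 := by
    rcases hLm' with h | ⟨⟨z, i, k, m, u, v⟩, ⟨hi, hk, hm, hik, him, hkm, ha, hz⟩, hval⟩
    · exact h
    · simp only at hi hk hm hik him hkm ha hz hval
      have hTe := eq_triple T hT i k m hi hk hm hik him hkm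
      have hTe2 := eq_triple T hT k i m hk hi hm hik.symm hkm him
      have h1 := hK2 R Q f i k m u v z 0 Lm hik him hkm ha hz (by rw [← hTe]; exact hsb)
        (by rw [← hTe]; exact hmb)
      obtain ⟨-, -, hav⟩ := hE.avail_sw R Q z i k u v ha
      have h2 := hK2 R Q f k i m v u z 0 Lm hik.symm hkm him hav hz.symm (by rw [← hTe2]; exact hsb)
        (by rw [← hTe2]; exact hmb)
      have h3 : sw z k i v u = sw z i k u v := by
        rw [(hE.sw_comm R Q z i k v u).1, (hE.sw_comm R Q z i k u v).2]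
      rw [h3] at h2
      rw [add_zero] at h1 h2
      rcases step hE T hT f ν hf z i k m u v hi hk hm hik him hkm ha Lm h1 h2 with h4 | h4
      · rw [hval] at h4
        nlinarith
      · linarith
  rw [hLm_zero] at hmb
  -- invariance
  have hinv : ∀ (x : R → Q → Bool) (i k : R) (j l : Q), i ∈ T → k ∈ T → Avail x i k j l →
      f (sw x i k j l) = f x := by
    intro x i k j l hi hk ha
    obtain ⟨hik, -⟩ := hE.avail_ne R Q x i k j l ha
    have hex : ∃ m ∈ T, i ≠ m ∧ k ≠ m := by
      have h1 : 0 < ((T.erase i).erase k).card := by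
        rw [card_erase_of_mem (mem_erase.mpr ⟨hik.symm, hk⟩), card_erase_of_mem hi, hT]
        norm_num
      obtain ⟨m, hm⟩ := card_pos.mp h1
      rw [mem_erase, mem_erase] at hm
      exact ⟨m, hm.2.2, fun h => hm.2.1 h.symm, fun h => hm.1 h.symm⟩
    obtain ⟨m, hm, him, hkm⟩ := hex
    have h5 : |f x - f (sw x i k j l)| ≤ 0 := by
      by_cases hz : x m j = x m l
      · exact hsb x i k m j l hi hk hm hik him hkm ha hz
      · exact hmb x i k m j l hi hk hm hik him hkm ha hz
    have h6 := abs_nonpos_iff.mp h5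
    linarith
  have hconst := hC R Q T f hinv
  have hP : ∀ e ∈ T.powersetCard 2, ∀ x, P e f x = 0 := by
    intro e he x
    have h1 : E e f x = f x := by
      apply hE.E_fix R Q e f x
      intro y hy
      exact (hconst x y (hE.rel_mono R Q e T x y (mem_powersetCard.mp he).1 hy)).symm
    unfold P
    rw [h1, sub_self]
  have hR : RT T f = 0 := by
    ext x
    have h4 : RT T f x = ∑ e ∈ T.powersetCard 2, P e f x := rfl
    rw [h4]
    exact sum_eq_zero fun e he => hP e he x
  rw [hR] at hf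
  rcases smul_eq_zero.mp hf.symm with h | h
  · exact hν0 h
  · exact hf0 h

theorem x_proof (hE : EOPs) (hS : SPEC1) (hK1 : KEY1) (hK2 : KEY2) (hC : CONN) : TRI := by
  intro R Q _ _ _ _ T f hT
  have := hS (R → Q → Bool) (RTl hE T) (fun f g => RT_symm hE T f g) (fun f => RT_nonneg hE T f)
    (fun ν g hg0 hg => eig hE hK1 hK2 hC T hT ν g hg0 hg) f
  exact this

end TRIp

end Vale.Agent.P335
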