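import Vale.Agent.P335.Tog

/-! P335, module TSUM: switches of a split graph and switches of its matrix. -/

namespace Vale.Agent.P335.Tsum

open Finset

variable {n : ℕ}

/-- the four indices of a matrix switch -/
abbrev I4 (K : Finset (Fin n)) : Type :=
  {v // v ∈ K} × {v // v ∈ K} × {v // v ∉ K} × {v // v ∉ K}

/-- first type of quadruple -/
def f1 (K : Finset (Fin n)) (p : I4 K) : Fin n × Fin n × Fin n × Fin n :=
  ((p.1 : Fin n), (p.2.2.1 : Fin n), (p.2.1 : Fin n), (p.2.2.2 : Fin n))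

/-- second type of quadruple -/
def f2 (K : Finset (Fin n)) (p : I4 K) : Fin n × Fin n × Fin n × Fin n :=
  ((p.2.2.1 : Fin n), (p.1 : Fin n), (p.2.2.2 : Fin n), (p.2.1 : Fin n))

theorem f1_inj (K : Finset (Fin n)) : Function.Injective (f1 K) := by
  rintro ⟨a, b, c, d⟩ ⟨a', b', c', d'⟩ h
  simp only [f1, Prod.mk.injEq] at h
  obtain ⟨h1, h2, h3, h4⟩ := h
  rw [Subtype.ext h1, Subtype.ext h2, Subtype.ext h3, Subtype.ext h4]

theorem f2_inj (K : Finset (Fin n)) : Function.Injective (f2 K) := by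
  rintro ⟨a, b, c, d⟩ ⟨a', b', c', d'⟩ h
  simp only [f2, Prod.mk.injEq] at h
  obtain ⟨h1, h2, h3, h4⟩ := h
  rw [Subtype.ext h1, Subtype.ext h2, Subtype.ext h3, Subtype.ext h4]

/-- adjacency after a step -/
theorem step_adj (G : SimpleGraph (Fin n)) (a b c d : Fin n)
    (hab : G.Adj a b) (hcd : G.Adj c d) (hbc : ¬ G.Adj b c) (hda : ¬ G.Adj d a) (u v : Fin n) :
    (step G (a, b, c, d)).Adj u v ↔ u ≠ v ∧
      ((G.Adj u v ∧ ¬ (s(u, v) = s(a, b) ∨ s(u, v) = s(c, d))) ∨
        (s(u, v) = s(b, c) ∨ s(u, v) = s(d, a))) := by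
  unfold step
  rw [if_pos ⟨hab, hcd, hbc, hda⟩, SimpleGraph.fromEdgeSet_adj]
  simp only [Set.mem_union, Set.mem_sdiff, SimpleGraph.mem_edgeSet, Set.mem_insert_iff,
    Set.mem_singleton_iff]
  tauto

theorem sw_apply (K : Finset (Fin n)) (x : {v // v ∈ K} → {v // v ∉ K} → Bool)
    (i k : {v // v ∈ K}) (j l : {v // v ∉ K}) (hA : Avail x i k j l)
    (a : {v // v ∈ K}) (b : {v // v ∉ K}) : sw x i k j l a b = true ↔
      ((x a b = true ∧ ¬ ((a = i ∧ b = j) ∨ (a = k ∧ b = l))) ∨
        ((a = k ∧ b = j) ∨ (a = i ∧ b = l))) := by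
  obtain ⟨h1, h2, h3, h4⟩ := hA
  have hik : i ≠ k := by
    rintro rfl
    rw [h1] at h3
    exact absurd h3 (by decide)
  have hjl : j ≠ l := by
    rintro rfl
    rw [h1] at h2
    exact absurd h2 (by decide)
  unfold sw
  by_cases ha : a = i
  · subst ha
    by_cases hb : b = j
    · subst hb
      simp [h1, hik, hjl]
    · by_cases hb' : b = l
      · subst hb'
        simp [h2]
      · simp [hb, hb', hik]
  · by_cases ha' : a = k
    · subst ha'
      by_cases hb : b = j
      · subst hb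
        simp [h3]
      · by_cases hb' : b = l
        · subst hb'
          simp [h4, ha, hb]
        · simp [hb, hb']
    · simp [ha, ha']

theorem step_f1 (K : Finset (Fin n)) (x : {v // v ∈ K} → {v // v ∉ K} → Bool)
    (i k : {v // v ∈ K}) (j l : {v // v ∉ K}) (hA : Avail x i k j l) :
    step (toG K x) ((i : Fin n), (j : Fin n), (k : Fin n), (l : Fin n)) =
      toG K (sw x i k j l) := by
  obtain ⟨h1, h2, h3, h4⟩ := id hA
  have a1 : (toG K x).Adj i j := (Tog.adj_in K x i.2 j.2).2 h1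
  have a2 : (toG K x).Adj k l := (Tog.adj_in K x k.2 l.2).2 h4
  have a3 : ¬ (toG K x).Adj j k := by
    rw [Tog.adj_out K x j.2 k.2]
    simp [h3]
  have a4 : ¬ (toG K x).Adj l i := by
    rw [Tog.adj_out K x l.2 i.2]
    simp [h2]
  have key : ∀ (u : {v // v ∈ K}) (v : {v // v ∉ K}),
      (step (toG K x) ((i : Fin n), (j : Fin n), (k : Fin n), (l : Fin n))).Adj u v ↔
        (toG K (sw x i k j l)).Adj u v := by
    intro u v
    rw [step_adj _ _ _ _ _ a1 a2 a3 a4, Tog.adj_in K _ u.2 v.2, Tog.adj_in K _ u.2 v.2,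
      sw_apply K x i k j l hA]
    have huv : (u : Fin n) ≠ v := fun h => v.2 (by rw [← h]; exact u.2)
    have hne : ∀ (p : {v // v ∈ K}) (q : {v // v ∉ K}), (p : Fin n) ≠ q :=
      fun p q h => q.2 (by rw [← h]; exact p.2)
    simp only [Sym2.eq_iff, Subtype.ext_iff]
    have n1 := hne u j
    have n2 := hne i v
    have n3 := hne u l
    have n4 := hne k v
    constructor
    · rintro ⟨_, (⟨h, h'⟩ | h)⟩
      · left
        refine ⟨h, fun hc => h' ?_⟩
        tauto
      · right
        tauto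
    · rintro (⟨h, h'⟩ | h)
      · refine ⟨huv, Or.inl ⟨h, fun hc => h' ?_⟩⟩
        rcases hc with (⟨e1, e2⟩ | ⟨e1, e2⟩) | (⟨e1, e2⟩ | ⟨e1, e2⟩)
        · exact Or.inl ⟨e1, e2⟩
        · exact absurd e1 n1
        · exact Or.inr ⟨e1, e2⟩
        · exact absurd e1 n3
      · refine ⟨huv, Or.inr ?_⟩
        tauto
  ext u v
  by_cases hu : u ∈ K <;> by_cases hv : v ∈ K
  · rw [step_adj _ _ _ _ _ a1 a2 a3 a4, Tog.adj_kk K _ hu hv, Tog.adj_kk K _ hu hv]
    constructor
    · rintro ⟨h, _⟩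
      exact h
    · intro h
      refine ⟨h, Or.inl ⟨h, ?_⟩⟩
      simp only [Sym2.eq_iff]
      rintro ((⟨_, e⟩ | ⟨e, _⟩) | (⟨_, e⟩ | ⟨e, _⟩))
      · exact j.2 (by rw [← e]; exact hv)
      · exact j.2 (by rw [← e]; exact hu)
      · exact l.2 (by rw [← e]; exact hv)
      · exact l.2 (by rw [← e]; exact hu)
  · exact key ⟨u, hu⟩ ⟨v, hv⟩
  · rw [SimpleGraph.adj_comm, SimpleGraph.adj_comm (toG K (sw x i k j l))]
    exact key ⟨v, hv⟩ ⟨u, hu⟩
  · constructor
    · intro h
      rw [step_adj _ _ _ _ _ a1 a2 a3 a4] at h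
      obtain ⟨_, (⟨h', _⟩ | h')⟩ := h
      · exact absurd h' (Tog.adj_nn K x hu hv)
      · simp only [Sym2.eq_iff] at h'
        rcases h' with (⟨_, e⟩ | ⟨e, _⟩) | (⟨_, e⟩ | ⟨e, _⟩)
        · exact absurd (by rw [e]; exact k.2) hv
        · exact absurd (by rw [e]; exact k.2) hu
        · exact absurd (by rw [e]; exact i.2) hv
        · exact absurd (by rw [e]; exact i.2) hu
    · intro h
      exact absurd h (Tog.adj_nn K _ hu hv)

/-- turning a quadruple backwards gives the same step -/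
theorem step_rev (G : SimpleGraph (Fin n)) (a b c d : Fin n) :
    step G (b, a, d, c) = step G (a, b, c, d) := by
  unfold step
  have h1 : (G.Adj b a ∧ G.Adj d c ∧ ¬ G.Adj a d ∧ ¬ G.Adj c b) ↔
      (G.Adj a b ∧ G.Adj c d ∧ ¬ G.Adj b c ∧ ¬ G.Adj d a) := by
    rw [G.adj_comm b a, G.adj_comm d c, G.adj_comm a d, G.adj_comm c b]
    tauto
  by_cases h : G.Adj a b ∧ G.Adj c d ∧ ¬ G.Adj b c ∧ ¬ G.Adj d a
  · rw [if_pos h, if_pos (h1.2 h)]
    congr 1
    rw [Sym2.eq_swap (a := b) (b := a), Sym2.eq_swap (a := d) (b := c),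
      Sym2.eq_swap (a := a) (b := d), Sym2.eq_swap (a := c) (b := b),
      Set.pair_comm s(d, a) s(b, c)]
  · rw [if_neg h, if_neg (fun hc => h (h1.1 hc))]

theorem tsum_proof : TSUM := by
  classical
  intro n K x f
  set S : Finset (I4 K) := univ.filter (fun p => Avail x p.1 p.2.1 p.2.2.1 p.2.2.2) with hS
  set g : Fin n × Fin n × Fin n × Fin n → ℝ :=
    fun q => (f (toG K x) - f (step (toG K x) q)) ^ 2 with hg
  have hne : ∀ (p : {v // v ∈ K}) (q : {v // v ∉ K}), (p : Fin n) ≠ q :=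
    fun p q h => q.2 (by rw [← h]; exact p.2)
  have hsub : S.image (f1 K) ∪ S.image (f2 K) ⊆ Quad n := by
    intro q hq
    rw [mem_union, mem_image, mem_image] at hq
    unfold Quad
    rw [mem_filter]
    rcases hq with ⟨⟨i, k, j, l⟩, hp, rfl⟩ | ⟨⟨i, k, j, l⟩, hp, rfl⟩
    · rw [hS, mem_filter] at hp
      obtain ⟨h1, h2, h3, h4⟩ := hp.2
      have hik : (i : Fin n) ≠ k := by
        intro hc
        have : i = k := Subtype.ext hc
        subst this
        simp only at h1 h3
        rw [h1] at h3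
        exact absurd h3 (by decide)
      have hjl : (j : Fin n) ≠ l := by
        intro hc
        have : j = l := Subtype.ext hc
        subst this
        simp only at h1 h2
        rw [h1] at h2
        exact absurd h2 (by decide)
      exact ⟨mem_univ _, hne i j, hik, hne i l, (hne k j).symm, hjl, hne k l⟩
    · rw [hS, mem_filter] at hp
      obtain ⟨h1, h2, h3, h4⟩ := hp.2
      have hik : (i : Fin n) ≠ k := by
        intro hc
        have : i = k := Subtype.ext hc
        subst this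
        simp only at h1 h3
        rw [h1] at h3
        exact absurd h3 (by decide)
      have hjl : (j : Fin n) ≠ l := by
        intro hc
        have : j = l := Subtype.ext hc
        subst this
        simp only at h1 h2
        rw [h1] at h2
        exact absurd h2 (by decide)
      exact ⟨mem_univ _, (hne i j).symm, hjl, (hne k j).symm, hne i l, hik, (hne k l).symm⟩
  have hzero : ∀ q ∈ Quad n, q ∉ S.image (f1 K) ∪ S.image (f2 K) → g q = 0 := by
    rintro ⟨a, b, c, d⟩ _ hq
    simp only [hg]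
    by_cases hst : (toG K x).Adj a b ∧ (toG K x).Adj c d ∧ ¬ (toG K x).Adj b c ∧
        ¬ (toG K x).Adj d a
    · exfalso
      obtain ⟨h1, h2, h3, h4⟩ := hst
      apply hq
      rw [mem_union, mem_image, mem_image]
      by_cases hbc0 : b = c
      · -- degenerate case excluded below by distinctness
        subst hbc0
        exfalso
        have hq0 := ‹(a, b, b, d) ∈ Quad n›
        unfold Quad at hq0
        rw [mem_filter] at hq0
        exact hq0.2.2.2.2.1 rfl
      by_cases hda0 : d = a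
      · subst hda0
        exfalso
        have hq0 := ‹(d, b, c, d) ∈ Quad n›
        unfold Quad at hq0
        rw [mem_filter] at hq0
        exact hq0.2.2.2.1 rfl
      by_cases ha : a ∈ K
      · have hd : d ∉ K := fun hd => h4 ((Tog.adj_kk K x hd ha).2 hda0)
        have hc : c ∈ K := by
          by_contra hc
          exact Tog.adj_nn K x hc hd h2
        have hb : b ∉ K := fun hb => h3 ((Tog.adj_kk K x hb hc).2 hbc0)
        left
        refine ⟨(⟨a, ha⟩, ⟨c, hc⟩, ⟨b, hb⟩, ⟨d, hd⟩), ?_, rfl⟩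
        rw [hS, mem_filter]
        refine ⟨mem_univ _, (Tog.adj_in K x ha hb).1 h1, ?_, ?_, (Tog.adj_in K x hc hd).1 h2⟩
        · rw [Tog.adj_out K x hd ha] at h4
          simpa using h4
        · rw [Tog.adj_out K x hb hc] at h3
          simpa using h3
      · have hb : b ∈ K := by
          by_contra hb
          exact Tog.adj_nn K x ha hb h1
        have hc : c ∉ K := fun hc => h3 ((Tog.adj_kk K x hb hc).2 hbc0)
        have hd : d ∈ K := by
          by_contra hd
          exact Tog.adj_nn K x hc hd h2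
        right
        refine ⟨(⟨b, hb⟩, ⟨d, hd⟩, ⟨a, ha⟩, ⟨c, hc⟩), ?_, rfl⟩
        rw [hS, mem_filter]
        refine ⟨mem_univ _, (Tog.adj_out K x ha hb).1 h1, ?_, ?_, (Tog.adj_out K x hc hd).1 h2⟩
        · rw [Tog.adj_in K x hb hc] at h3
          simpa using h3
        · rw [Tog.adj_in K x hd ha] at h4
          simpa using h4
    · have : step (toG K x) (a, b, c, d) = toG K x := by
        unfold step
        rw [if_neg hst]
      rw [this]
      ring
  have hdisj : Disjoint (S.image (f1 K)) (S.image (f2 K)) := by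
    rw [disjoint_left]
    intro q h1 h2
    rw [mem_image] at h1 h2
    obtain ⟨p, _, rfl⟩ := h1
    obtain ⟨p', _, h⟩ := h2
    have := (Prod.ext_iff.1 h).1
    exact hne p.1 p'.2.2.1 this.symm
  have e1 : ∑ q ∈ Quad n, g q = ∑ q ∈ S.image (f1 K) ∪ S.image (f2 K), g q :=
    (sum_subset hsub hzero).symm
  have e2 : ∑ q ∈ S.image (f1 K), g q =
      ∑ p ∈ S, (f (toG K x) - f (toG K (sw x p.1 p.2.1 p.2.2.1 p.2.2.2))) ^ 2 := by
    rw [sum_image (fun _ _ _ _ h => f1_inj K h)]
    refine sum_congr rfl fun p hp => ?_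
    rw [hS, mem_filter] at hp
    simp only [hg, f1]
    rw [step_f1 K x p.1 p.2.1 p.2.2.1 p.2.2.2 hp.2]
  have e3 : ∑ q ∈ S.image (f2 K), g q =
      ∑ p ∈ S, (f (toG K x) - f (toG K (sw x p.1 p.2.1 p.2.2.1 p.2.2.2))) ^ 2 := by
    rw [sum_image (fun _ _ _ _ h => f2_inj K h)]
    refine sum_congr rfl fun p hp => ?_
    rw [hS, mem_filter] at hp
    simp only [hg, f2]
    rw [step_rev, step_f1 K x p.1 p.2.1 p.2.2.1 p.2.2.2 hp.2]
  have e4 : ∑ p ∈ S, (f (toG K x) - f (toG K (sw x p.1 p.2.1 p.2.2.1 p.2.2.2))) ^ 2 =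
      ∑ i : {v // v ∈ K}, ∑ k : {v // v ∈ K}, ∑ j : {v // v ∉ K}, ∑ l : {v // v ∉ K},
        if Avail x i k j l then (f (toG K x) - f (toG K (sw x i k j l))) ^ 2 else 0 := by
    rw [hS, sum_filter, Fintype.sum_prod_type]
    refine sum_congr rfl fun i _ => ?_
    rw [Fintype.sum_prod_type]
    refine sum_congr rfl fun k _ => ?_
    rw [Fintype.sum_prod_type]
  rw [e1, sum_union hdisj, e2, e3, e4]
  ring

end Vale.Agent.P335.Tsum
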