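import Vale.Agent.P335.Eops
import Vale.Agent.P335.Comm
import Vale.Agent.P335.CONN
import Vale.Agent.P335.Key1
import Vale.Agent.P335.Key2
import Vale.Agent.P335.TRI
import Vale.Agent.P335.GARL
import Vale.Agent.P335.Gapr
import Vale.Agent.P335.Gapm
import Vale.Agent.P335.Gpoin
import Vale.Agent.P335.Kbas
import Vale.Agent.P335.Mix
import Vale.Agent.P335.Num
import Vale.Agent.P335.PAIR
import Vale.Agent.P335.Spec1
import Vale.Agent.P335.Spec2
import Vale.Agent.P335.Split
import Vale.Agent.P335.SplitMix
import Vale.Agent.P335.Tog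
import Vale.Agent.P335.Tsum

/-!
P335: assembly.
-/

namespace Vale.Agent.P335.FIN

theorem eops : EOPs := Eops.eops_proof
theorem conn : CONN := CONNp.x_proof eops
theorem tri : TRI := TRIp.x_proof eops SP1.spec1_proof Key1.key1_proof (KY2.key2_proof eops) conn
theorem garl : GARL := GARLp.x_proof eops tri Comm.comm_proof
theorem gapr : GAPR := GAPRx.gapr_proof garl SP2.spec2_proof conn eops
theorem pair : PAIR := PAIRM.pair_proof SP1.spec1_proof SP2.spec2_proof conn eops
theorem gapm : GAPM := GAPMx.gapm_proof gapr pair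
theorem gpoin : GPOIN := GPOINN.gpoin_proof eops gapm Tog.togs_proof Tsum.tsum_proof Kbas.kbas_proof
  NUMx.qcard_proof SPLITx.split_proof
theorem splitmix : SPLITMIX :=
  SplitMix.splitmix_proof MX.mix_proof NUMx.num_proof gpoin Kbas.kbas_proof

end Vale.Agent.P335.FIN
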