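import Vale.Agent.P335.Htot

/-!
P335, general simple graphs, module HCM: `E e` and `E e'` commute on functions supported on the
states with a number of edges between `e` and `e'` different from two.
-/

set_option linter.unusedSectionVars false

namespace Vale.Agent.P335.H.Hcm

open Finset Heops Hcuts Htot

theorem two_ex : ∀ (p1 p2 p3 p4 q1 q2 q3 q4 : Bool),
    p1.toNat + p2.toNat + (p3.toNat + p4.toNat) = q1.toNat + q2.toNat + (q3.toNat + q4.toNat) →
    p1.toNat + p2.toNat + (p3.toNat + p4.toNat) ≠ 2 →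
    ∃ m1 m2 m3 m4 : Bool, m1.toNat + m2.toNat = p1.toNat + p2.toNat ∧
      m3.toNat + m4.toNat = p3.toNat + p4.toNat ∧ m1.toNat + m3.toNat = q1.toNat + q3.toNat ∧
      m2.toNat + m4.toNat = q2.toNat + q4.toNat := by
  decide

theorem two_un : ∀ (p1 p2 p3 p4 q1 q2 q3 q4 : Bool),
    p1.toNat + p2.toNat + (p3.toNat + p4.toNat) ≠ 2 →
    p1.toNat + p2.toNat = q1.toNat + q2.toNat → p3.toNat + p4.toNat = q3.toNat + q4.toNat →
    p1.toNat + p3.toNat = q1.toNat + q3.toNat → p2.toNat + p4.toNat = q2.toNat + q4.toNat →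
    p1 = q1 ∧ p2 = q2 ∧ p3 = q3 ∧ p4 = q4 := by
  decide

section
variable {V : Type} [Fintype V] [DecidableEq V]

theorem part_union {C D : Finset (Sym2 V)} (hd : Disjoint C D) (x : St V) (i : V) :
    part (C ∪ D) x i = part C x i + part D x i := by
  unfold part
  rw [← Finset.sum_add_distrib]
  refine Finset.sum_congr rfl (fun j _ => ?_)
  by_cases h1 : j = i
  · simp [h1]
  · by_cases h2 : s(i, j) ∈ C
    · have h3 : s(i, j) ∉ D := fun h => Finset.disjoint_left.mp hd h2 h
      simp [h1, h2, h3]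
    · simp [h1, h2]

/-- existence of the completed square -/
theorem st1 {e e' : Finset V} (he : e.card = 2) (he' : e'.card = 2) (hd : Disjoint e e')
    {x y z : St V} (hxy : Rl (cut e eᶜ) x y) (hyz : Rl (cut e' e'ᶜ) y z)
    (ht : tot e e' x ≠ 2) : ∃ w, Rl (cut e' e'ᶜ) x w ∧ Rl (cut e eᶜ) w z := by
  obtain ⟨i, k, hik, rfl⟩ := Finset.card_eq_two.mp he
  obtain ⟨j, l, hjl, rfl⟩ := Finset.card_eq_two.mp he'
  have hdl := fun {v : V} (h : v ∈ ({i, k} : Finset V)) (h' : v ∈ ({j, l} : Finset V)) =>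
    Finset.disjoint_left.mp hd h h'
  have hij : i ≠ j := fun h => hdl (v := i) (by simp) (by simp [h])
  have hil : i ≠ l := fun h => hdl (v := i) (by simp) (by simp [h])
  have hkj : k ≠ j := fun h => hdl (v := k) (by simp) (by simp [h])
  have hkl : k ≠ l := fun h => hdl (v := k) (by simp) (by simp [h])
  have htz : tot {i, k} {j, l} x = tot {i, k} {j, l} z := by
    rw [tot_eq hd hxy, tot_symm, tot_eq hd.symm hyz, tot_symm]
  have htx : ∀ u : St V, tot {i, k} {j, l} u = (u s(i, j)).toNat + (u s(i, l)).toNat +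
      ((u s(k, j)).toNat + (u s(k, l)).toNat) := by
    intro u
    unfold tot
    rw [Finset.sum_pair hik, Finset.sum_pair hjl, Finset.sum_pair hjl]
  rw [htx, htx] at htz
  rw [htx] at ht
  obtain ⟨m1, m2, m3, m4, e1, e2, e3, e4⟩ := two_ex _ _ _ _ _ _ _ _ htz ht
  -- the completed state
  let w : St V := fun c => if c = s(i, j) then m1 else if c = s(i, l) then m2 else
    if c = s(k, j) then m3 else if c = s(k, l) then m4 else
    if c ∈ cutA {j, l} {i, k} then z c else x c
  have c12 : s(i, l) ≠ s(i, j) := by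
    intro h; rw [Sym2.eq_iff] at h
    rcases h with h | h
    · exact hjl h.2.symm
    · exact hij h.1
  have c13 : s(k, j) ≠ s(i, j) := by
    intro h; rw [Sym2.eq_iff] at h
    rcases h with h | h
    · exact hik h.1.symm
    · exact hkj h.1
  have c23 : s(k, j) ≠ s(i, l) := by
    intro h; rw [Sym2.eq_iff] at h
    rcases h with h | h
    · exact hik h.1.symm
    · exact hkl h.1
  have c14 : s(k, l) ≠ s(i, j) := by
    intro h; rw [Sym2.eq_iff] at h
    rcases h with h | h
    · exact hik h.1.symm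
    · exact hkj h.1
  have c24 : s(k, l) ≠ s(i, l) := by
    intro h; rw [Sym2.eq_iff] at h
    rcases h with h | h
    · exact hik h.1.symm
    · exact hkl h.1
  have c34 : s(k, l) ≠ s(k, j) := by
    intro h; rw [Sym2.eq_iff] at h
    rcases h with h | h
    · exact hjl h.2.symm
    · exact hkj h.1
  have w1 : w s(i, j) = m1 := by simp only [w, if_true]
  have w2 : w s(i, l) = m2 := by simp only [w, if_neg c12, if_true]
  have w3 : w s(k, j) = m3 := by simp only [w, if_neg c13, if_neg c23, if_true]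
  have w4 : w s(k, l) = m4 := by simp only [w, if_neg c14, if_neg c24, if_neg c34, if_true]
  have hMc : ∀ c, c ∉ cut ({i, k} : Finset V) {j, l} →
      w c = if c ∈ cutA {j, l} {i, k} then z c else x c := by
    intro c hc
    have n1 : c ≠ s(i, j) := fun h => hc (h ▸ mem_cut_mk.mpr (Or.inl ⟨by simp, by simp⟩))
    have n2 : c ≠ s(i, l) := fun h => hc (h ▸ mem_cut_mk.mpr (Or.inl ⟨by simp, by simp⟩))
    have n3 : c ≠ s(k, j) := fun h => hc (h ▸ mem_cut_mk.mpr (Or.inl ⟨by simp, by simp⟩))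
    have n4 : c ≠ s(k, l) := fun h => hc (h ▸ mem_cut_mk.mpr (Or.inl ⟨by simp, by simp⟩))
    simp only [w, if_neg n1, if_neg n2, if_neg n3, if_neg n4]
  -- cell sets
  have hA := (disjA hd).1
  have hB := (disjA hd.symm).1
  have hAB := (disjA hd).2
  have hBA := (disjA hd.symm).2
  have sC := cut_split hd
  have sC' := cut_split hd.symm
  have hMM : cut ({j, l} : Finset V) {i, k} = cut {i, k} {j, l} := cut_comm _ _
  rw [hMM] at sC' hB
  have wB : ∀ c ∈ cutA ({j, l} : Finset V) {i, k}, w c = z c := by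
    intro c hc
    rw [hMc c (Finset.disjoint_left.mp hB hc), if_pos hc]
  have wO : ∀ c, c ∉ cut ({j, l} : Finset V) {j, l}ᶜ → w c = x c := by
    intro c hc
    rw [sC', Finset.mem_union, not_or] at hc
    rw [hMc c hc.2, if_neg hc.1]
  -- the two relations
  have key : Rl (cut ({j, l} : Finset V) {j, l}ᶜ) x w := by
    refine rl_of_part (fun c hc => (wO c hc).symm) (fun v => ?_)
    rw [sC', part_union hB, part_union hB]
    have hBz : part (cutA ({j, l} : Finset V) {i, k}) w v =
        part (cutA ({j, l} : Finset V) {i, k}) z v := part_congr wB v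
    rw [hBz]
    have hxyB : part (cutA ({j, l} : Finset V) {i, k}) x v =
        part (cutA ({j, l} : Finset V) {i, k}) y v := by
      refine part_congr (fun c hc => hxy.1 c (fun h => ?_)) v
      exact Finset.disjoint_left.mp hBA hc h
    have hyz' := part_rl hyz v
    rw [sC', part_union hB, part_union hB] at hyz'
    have hxy' := part_rl hxy v
    rw [sC, part_union hA, part_union hA] at hxy'
    by_cases hv : v ∈ ({i, k} : Finset V)
    · have hv' : v ∉ ({j, l} : Finset V) := fun h => hdl hv h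
      have hB0 : ∀ u : St V, part (cutA ({j, l} : Finset V) {i, k}) u v = 0 := by
        intro u
        refine part_none u hv' ?_
        rw [Finset.mem_compl, Finset.mem_union, not_not]
        exact Or.inr hv
      rw [hB0, hB0, part_left hd x hv, part_left hd w hv, Finset.sum_pair hjl,
        Finset.sum_pair hjl]
      rcases Finset.mem_insert.mp hv with rfl | hv2
      · rw [w1, w2, e1]
      · rw [Finset.mem_singleton] at hv2
        subst hv2
        rw [w3, w4, e2]
    · by_cases hv' : v ∈ ({j, l} : Finset V)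
      · have hA0 : ∀ u : St V, part (cutA ({i, k} : Finset V) {j, l}) u v = 0 := by
          intro u
          refine part_none u hv ?_
          rw [Finset.mem_compl, Finset.mem_union, not_not]
          exact Or.inr hv'
        rw [hA0, hA0] at hxy'
        have hwz : part (cut ({i, k} : Finset V) {j, l}) w v =
            part (cut ({i, k} : Finset V) {j, l}) z v := by
          rw [part_right hd w hv', part_right hd z hv', Finset.sum_pair hik,
            Finset.sum_pair hik]
          rcases Finset.mem_insert.mp hv' with rfl | hv2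
          · rw [w1, w3, e3]
          · rw [Finset.mem_singleton] at hv2
            subst hv2
            rw [w2, w4, e4]
        rw [hwz]
        omega
      · have hM0 : ∀ u : St V, part (cut ({i, k} : Finset V) {j, l}) u v = 0 :=
          fun u => part_none u hv hv'
        rw [hM0, hM0]
        rw [hM0, hM0] at hyz'
        omega
  refine ⟨w, key, fun c hc => ?_, fun v => ?_⟩
  · have hc' := hc
    rw [sC, Finset.mem_union, not_or] at hc'
    rw [hMc c hc'.2]
    by_cases hcB : c ∈ cutA ({j, l} : Finset V) {i, k}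
    · rw [if_pos hcB]
    · rw [if_neg hcB, hxy.1 c hc]
      refine hyz.1 c (fun h => ?_)
      rw [sC', Finset.mem_union] at h
      exact h.elim hcB hc'.2
  · exact ((key.2 v).symm.trans (hxy.2 v)).trans (hyz.2 v)

/-- uniqueness -/
theorem st2 {e e' : Finset V} (he : e.card = 2) (he' : e'.card = 2) (hd : Disjoint e e')
    {x y y2 z : St V} (hxy : Rl (cut e eᶜ) x y) (hyz : Rl (cut e' e'ᶜ) y z)
    (hxy2 : Rl (cut e eᶜ) x y2) (hyz2 : Rl (cut e' e'ᶜ) y2 z) (ht : tot e e' x ≠ 2) :
    y = y2 := by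
  have hcol : ∀ b ∈ e', ∑ a ∈ e, (y s(a, b)).toNat = ∑ a ∈ e, (y2 s(a, b)).toNat := by
    intro b hb
    rw [← col_eq (disj_compl e) hxy (sub_compl hd hb),
      ← col_eq (disj_compl e) hxy2 (sub_compl hd hb)]
  have hrow : ∀ a ∈ e, ∑ b ∈ e', (y s(a, b)).toNat = ∑ b ∈ e', (y2 s(a, b)).toNat := by
    intro a ha
    have h1 := col_eq (disj_compl e') hyz (sub_compl hd.symm ha)
    have h2 := col_eq (disj_compl e') hyz2 (sub_compl hd.symm ha)
    have h3 : ∀ u : St V, ∑ b ∈ e', (u s(a, b)).toNat = ∑ b ∈ e', (u s(b, a)).toNat :=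
      fun u => Finset.sum_congr rfl (fun b _ => by rw [Sym2.eq_swap])
    rw [h3, h3, h1, h2]
  have hty : tot e e' y ≠ 2 := by rwa [← tot_eq hd hxy]
  funext c
  by_cases hc : c ∈ cut e eᶜ
  · rw [cut_split hd, Finset.mem_union] at hc
    rcases hc with hc | hc
    · have h1 : c ∉ cut e' e'ᶜ := Finset.disjoint_left.mp (disjA hd).2 hc
      rw [hyz.1 c h1, hyz2.1 c h1]
    · obtain ⟨i, k, hik, rfl⟩ := Finset.card_eq_two.mp he
      obtain ⟨j, l, hjl, rfl⟩ := Finset.card_eq_two.mp he'
      have r1 := hrow i (by simp)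
      have r2 := hrow k (by simp)
      have c1 := hcol j (by simp)
      have c2 := hcol l (by simp)
      rw [Finset.sum_pair hjl, Finset.sum_pair hjl] at r1 r2
      rw [Finset.sum_pair hik, Finset.sum_pair hik] at c1 c2
      unfold tot at hty
      rw [Finset.sum_pair hik, Finset.sum_pair hjl, Finset.sum_pair hjl] at hty
      obtain ⟨q1, q2, q3, q4⟩ := two_un _ _ _ _ _ _ _ _ hty r1 r2 c1 c2
      obtain ⟨a, ha, b, hb, rfl⟩ := mem_cut.mp hc
      rw [Finset.mem_insert, Finset.mem_singleton] at ha hb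
      rcases ha with rfl | rfl <;> rcases hb with rfl | rfl <;> assumption
  · rw [← hxy.1 c hc, ← hxy2.1 c hc]

open Classical in
/-- the completed square, as a function -/
noncomputable def stc (e e' : Finset V) (x z : St V) : St V :=
  if h : ∃ w, Rl (cut e' e'ᶜ) x w ∧ Rl (cut e eᶜ) w z then h.choose else x

theorem stc_spec {e e' : Finset V} (he : e.card = 2) (he' : e'.card = 2) (hd : Disjoint e e')
    {x y z : St V} (hxy : Rl (cut e eᶜ) x y) (hyz : Rl (cut e' e'ᶜ) y z)
    (ht : tot e e' x ≠ 2) :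
    Rl (cut e' e'ᶜ) x (stc e e' x z) ∧ Rl (cut e eᶜ) (stc e e' x z) z := by
  have h := st1 he he' hd hxy hyz ht
  unfold stc
  rw [dif_pos h]
  exact h.choose_spec

theorem card_eq {e e' : Finset V} (he : e.card = 2) (he' : e'.card = 2) (hd : Disjoint e e')
    {x y : St V} (hxy : Rl (cut e eᶜ) x y) (ht : tot e e' x ≠ 2) :
    (cl (cut e' e'ᶜ) y).card = (cl (cut e' e'ᶜ) x).card := by
  have hty : tot e e' y ≠ 2 := by rwa [← tot_eq hd hxy]
  have htx' : tot e' e x ≠ 2 := by rwa [tot_symm]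
  have hty' : tot e' e y ≠ 2 := by rwa [tot_symm]
  refine Finset.card_bij' (fun z _ => stc e e' x z) (fun z _ => stc e e' y z) ?_ ?_ ?_ ?_
  · intro z hz
    exact mem_cl.mpr (stc_spec he he' hd hxy (mem_cl.mp hz) ht).1
  · intro z hz
    exact mem_cl.mpr (stc_spec he he' hd (rl_symm hxy) (mem_cl.mp hz) hty).1
  · intro z hz
    have h1 := stc_spec he he' hd hxy (mem_cl.mp hz) ht
    have h2 := stc_spec he he' hd (rl_symm hxy) h1.1 hty
    exact st2 he' he hd.symm h2.1 h2.2 (mem_cl.mp hz) (rl_symm h1.2) hty'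
  · intro z hz
    have h1 := stc_spec he he' hd (rl_symm hxy) (mem_cl.mp hz) hty
    have h2 := stc_spec he he' hd hxy h1.1 ht
    exact st2 he' he hd.symm h2.1 h2.2 (mem_cl.mp hz) (rl_symm h1.2) htx'

theorem sum_eq {e e' : Finset V} (he : e.card = 2) (he' : e'.card = 2) (hd : Disjoint e e')
    (f : St V → ℝ) {x : St V} (ht : tot e e' x ≠ 2) :
    ∑ y ∈ cl (cut e eᶜ) x, ∑ z ∈ cl (cut e' e'ᶜ) y, f z =
      ∑ y ∈ cl (cut e' e'ᶜ) x, ∑ z ∈ cl (cut e eᶜ) y, f z := by
  have ht' : tot e' e x ≠ 2 := by rwa [tot_symm]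
  rw [Finset.sum_sigma', Finset.sum_sigma']
  refine Finset.sum_bij' (fun p _ => (⟨stc e e' x p.2, p.2⟩ : Σ _ : St V, St V))
    (fun p _ => (⟨stc e' e x p.2, p.2⟩ : Σ _ : St V, St V)) ?_ ?_ ?_ ?_ ?_
  · rintro ⟨y, z⟩ h
    rw [Finset.mem_sigma, mem_cl, mem_cl] at h ⊢
    exact stc_spec he he' hd h.1 h.2 ht
  · rintro ⟨y, z⟩ h
    rw [Finset.mem_sigma, mem_cl, mem_cl] at h ⊢
    exact stc_spec he' he hd.symm h.1 h.2 ht'
  · rintro ⟨y, z⟩ h
    rw [Finset.mem_sigma, mem_cl, mem_cl] at h
    simp only at h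
    have h1 := stc_spec he he' hd h.1 h.2 ht
    have h2 := stc_spec he' he hd.symm h1.1 h1.2 ht'
    have e1 : stc e' e x z = y := st2 he he' hd h2.1 h2.2 h.1 h.2 ht
    simp only
    rw [e1]
  · rintro ⟨y, z⟩ h
    rw [Finset.mem_sigma, mem_cl, mem_cl] at h
    simp only at h
    have h1 := stc_spec he' he hd.symm h.1 h.2 ht'
    have h2 := stc_spec he he' hd h1.1 h1.2 ht
    have e1 : stc e e' x z = y := st2 he' he hd.symm h2.1 h2.2 h.1 h.2 ht'
    simp only
    rw [e1]
  · rintro ⟨y, z⟩ _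
    rfl

theorem E_E {e e' : Finset V} (he : e.card = 2) (he' : e'.card = 2) (hd : Disjoint e e')
    (f : St V → ℝ) {x : St V} (ht : tot e e' x ≠ 2) :
    EC (cut e eᶜ) (EC (cut e' e'ᶜ) f) x =
      (∑ y ∈ cl (cut e eᶜ) x, ∑ z ∈ cl (cut e' e'ᶜ) y, f z) /
        (((cl (cut e eᶜ) x).card : ℝ) * ((cl (cut e' e'ᶜ) x).card : ℝ)) := by
  have h1 : ∀ y ∈ cl (cut e eᶜ) x, EC (cut e' e'ᶜ) f y =
      (∑ z ∈ cl (cut e' e'ᶜ) y, f z) / ((cl (cut e' e'ᶜ) x).card : ℝ) := by
    intro y hy
    have h2 := card_eq he he' hd (mem_cl.mp hy) ht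
    unfold EC
    rw [h2]
  rw [EC, Finset.sum_congr rfl h1, ← Finset.sum_div, div_div, mul_comm]

/-- on states with two edges between `e` and `e'` both sides vanish -/
theorem E_zero {e e' : Finset V} (hd : Disjoint e e') (f : St V → ℝ)
    (hf : ∀ x, tot e e' x = 2 → f x = 0) {x : St V} (hx : tot e e' x = 2) :
    EC (cut e eᶜ) (EC (cut e' e'ᶜ) f) x = 0 := by
  have h2 : ∀ y, tot e e' y = 2 → EC (cut e' e'ᶜ) f y = 0 := by
    intro y hy
    unfold EC
    rw [Finset.sum_eq_zero, zero_div]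
    intro z hz
    refine hf z ?_
    rw [tot_symm, ← tot_eq hd.symm (mem_cl.mp hz), ← tot_symm, hy]
  have : ∀ y ∈ cl (cut e eᶜ) x, EC (cut e' e'ᶜ) f y = 0 := by
    intro y hy
    refine h2 y ?_
    rw [← tot_eq hd (mem_cl.mp hy), hx]
  unfold EC
  unfold EC at this
  rw [Finset.sum_eq_zero this, zero_div]

end

theorem hcm_proof : HCM := by
  intro V _ _ e e' f he he' hd hf
  funext x
  by_cases hx : tot e e' x = 2
  · have hf' : ∀ x, tot e' e x = 2 → f x = 0 := fun x hx => hf x (by rw [tot_symm, hx])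
    have hx' : tot e' e x = 2 := by rw [tot_symm, hx]
    rw [E_zero hd f hf hx, E_zero hd.symm f hf' hx']
  · have hx' : tot e' e x ≠ 2 := by rwa [tot_symm]
    rw [E_E he he' hd f hx, E_E he' he hd.symm f hx', sum_eq he he' hd f hx, mul_comm]

end Vale.Agent.P335.H.Hcm
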