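import Vale.Agent.P335.HMods

/-!
P335: HCONN, connectivity by switches.
-/

namespace Vale.Agent.P335.H.Conn

open Finset Vale.Agent.P335 Vale.Agent.P335.H

variable {V : Type} [Fintype V] [DecidableEq V]

/-- degree inside `S` -/
def dS (S : Finset V) (x : St V) (i : V) : ℕ := (S.filter (fun j => j ≠ i ∧ x s(i, j) = true)).card

/-- agreement off the cells inside `S` -/
def Agree (S : Finset V) (x y : St V) : Prop :=
  ∀ u w, (u ∉ S ∨ w ∉ S ∨ u = w) → x s(u, w) = y s(u, w)

/-- flip the four cells between `{v, z}` and `{a, b}` -/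
def fl (x : St V) (v z a b : V) : St V := fun c => if c ∈ cut {v, z} {a, b} then !(x c) else x c

omit [Fintype V] in
theorem mem_cut4 (v z a b i j : V) : s(i, j) ∈ cut {v, z} {a, b} ↔
    ((i = v ∨ i = z) ∧ (j = a ∨ j = b)) ∨ ((i = a ∨ i = b) ∧ (j = v ∨ j = z)) := by
  unfold cut
  simp only [mem_image, mem_product, mem_insert, mem_singleton, Prod.exists, Sym2.eq_iff]
  constructor
  · rintro ⟨p, q, ⟨hp, hq⟩, (⟨rfl, rfl⟩ | ⟨rfl, rfl⟩)⟩
    · exact Or.inl ⟨hp, hq⟩
    · exact Or.inr ⟨hq, hp⟩
  · rintro (⟨h1, h2⟩ | ⟨h1, h2⟩)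
    · exact ⟨i, j, ⟨h1, h2⟩, Or.inl ⟨rfl, rfl⟩⟩
    · exact ⟨j, i, ⟨h2, h1⟩, Or.inr ⟨rfl, rfl⟩⟩

omit [Fintype V] in
theorem fl_apply (x : St V) (v z a b i j : V) : fl x v z a b s(i, j) =
    if ((i = v ∨ i = z) ∧ (j = a ∨ j = b)) ∨ ((i = a ∨ i = b) ∧ (j = v ∨ j = z)) then
      !(x s(i, j)) else x s(i, j) := by
  unfold fl
  simp only [mem_cut4]

omit [Fintype V] in
theorem card_swap (S : Finset V) (p q : V → Prop) [DecidablePred p] [DecidablePred q] (a b : V)
    (ha : a ∈ S) (hb : b ∈ S) (hpa : p a) (hpb : ¬ p b) (hqa : ¬ q a) (hqb : q b)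
    (h : ∀ j, j ≠ a → j ≠ b → (p j ↔ q j)) : (S.filter q).card = (S.filter p).card := by
  have e1 : S.filter q = insert b ((S.filter p).erase a) := by
    ext j
    simp only [mem_filter, mem_insert, mem_erase]
    constructor
    · rintro ⟨h1, h2⟩
      by_cases hjb : j = b
      · exact Or.inl hjb
      · have hja : j ≠ a := fun hh => hqa (hh ▸ h2)
        exact Or.inr ⟨hja, h1, (h j hja hjb).2 h2⟩
    · rintro (rfl | ⟨h1, h2, h3⟩)
      · exact ⟨hb, hqb⟩
      · have hjb : j ≠ b := fun hh => hpb (hh ▸ h3)
        exact ⟨h2, (h j h1 hjb).1 h3⟩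
  have hbn : b ∉ (S.filter p).erase a := by
    simp only [mem_erase, mem_filter, not_and]
    intro _ _ h2
    exact hpb h2
  have han : a ∈ S.filter p := mem_filter.2 ⟨ha, hpa⟩
  rw [e1, card_insert_of_notMem hbn, card_erase_of_mem han]
  have : 0 < (S.filter p).card := card_pos.2 ⟨a, han⟩
  omega

omit [Fintype V] in
theorem dS_fl (S : Finset V) (x : St V) (v z a b : V) (hv : v ∈ S) (hz : z ∈ S) (ha : a ∈ S)
    (hb : b ∈ S) (hvz : v ≠ z) (hva : v ≠ a) (hvb : v ≠ b) (hza : z ≠ a) (hzb : z ≠ b)
    (hab : a ≠ b) (h1 : x s(v, a) = true) (h2 : x s(v, b) = false) (h3 : x s(z, a) = false)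
    (h4 : x s(z, b) = true) (i : V) : dS S (fl x v z a b) i = dS S x i := by
  have h1' : x s(a, v) = true := by rw [Sym2.eq_swap]; exact h1
  have h2' : x s(b, v) = false := by rw [Sym2.eq_swap]; exact h2
  have h3' : x s(a, z) = false := by rw [Sym2.eq_swap]; exact h3
  have h4' : x s(b, z) = true := by rw [Sym2.eq_swap]; exact h4
  unfold dS
  by_cases e1 : i = v
  · subst e1
    refine card_swap S _ _ a b ha hb ⟨hva.symm, h1⟩ ?_ ?_ ?_ ?_
    · simp [h2]
    · simp [fl_apply, h1]
    · refine ⟨hvb.symm, ?_⟩
      simp [fl_apply, h2]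
    · intro j hja hjb
      simp [fl_apply, hja, hjb, hva, hvb]
  by_cases e2 : i = z
  · subst e2
    refine card_swap S _ _ b a hb ha ⟨hzb.symm, h4⟩ ?_ ?_ ?_ ?_
    · simp [h3]
    · simp [fl_apply, h4]
    · refine ⟨hza.symm, ?_⟩
      simp [fl_apply, h3]
    · intro j hja hjb
      simp [fl_apply, hja, hjb, hza, hzb]
  by_cases e3 : i = a
  · subst e3
    refine card_swap S _ _ v z hv hz ⟨hva, h1'⟩ ?_ ?_ ?_ ?_
    · simp [h3']
    · simp [fl_apply, h1']
    · refine ⟨hza, ?_⟩
      simp [fl_apply, h3']
    · intro j hja hjb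
      simp [fl_apply, hja, hjb, hva.symm, hza.symm]
  by_cases e4 : i = b
  · subst e4
    refine card_swap S _ _ z v hz hv ⟨hzb, h4'⟩ ?_ ?_ ?_ ?_
    · simp [h2']
    · simp [fl_apply, h4']
    · refine ⟨hvb, ?_⟩
      simp [fl_apply, h2']
    · intro j hja hjb
      simp [fl_apply, hja, hjb, hvb.symm, hzb.symm]
  · congr 1
    refine filter_congr fun j _ => ?_
    simp [fl_apply, e1, e2, e3, e4]

theorem dg_eq (x : St V) (i : V) : dg x i = dS univ x i := rfl

theorem dS_of_agree {S : Finset V} {x y : St V} (h : Agree S x y) (hd : ∀ i, dg x i = dg y i)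
    (i : V) : dS S x i = dS S y i := by
  have key : ∀ w : St V, dg w i = dS S w i + dS Sᶜ w i := by
    intro w
    unfold dg dS
    rw [← card_union_of_disjoint]
    · congr 1
      rw [← filter_union, union_compl]
    · exact disjoint_filter_filter disjoint_compl_right
  have h2 : dS Sᶜ x i = dS Sᶜ y i := by
    unfold dS
    congr 1
    refine filter_congr fun j hj => ?_
    rw [h i j (Or.inr (Or.inl (mem_compl.1 hj)))]
  have h3 := hd i
  rw [key, key, h2] at h3
  omega

theorem rl_fl (x : St V) (v z a b : V) (hvz : v ≠ z) (hva : v ≠ a) (hvb : v ≠ b) (hza : z ≠ a)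
    (hzb : z ≠ b) (hab : a ≠ b) (h1 : x s(v, a) = true) (h2 : x s(v, b) = false)
    (h3 : x s(z, a) = false) (h4 : x s(z, b) = true) : Rl (cut {v, z} {a, b}) x (fl x v z a b) := by
  constructor
  · intro c hc
    unfold fl
    rw [if_neg hc]
  · intro i
    rw [dg_eq, dg_eq]
    exact (dS_fl univ x v z a b (mem_univ _) (mem_univ _) (mem_univ _) (mem_univ _) hvz hva hvb
      hza hzb hab h1 h2 h3 h4 i).symm

omit [Fintype V] in
theorem agree_fl {S : Finset V} (x : St V) (v z a b : V) (hv : v ∈ S) (hz : z ∈ S) (ha : a ∈ S)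
    (hb : b ∈ S) (hva : v ≠ a) (hvb : v ≠ b) (hza : z ≠ a) (hzb : z ≠ b) :
    Agree S (fl x v z a b) x := by
  intro u w huw
  rw [fl_apply, if_neg]
  rintro (⟨h1, h2⟩ | ⟨h1, h2⟩)
  · rcases huw with hu | hw | rfl
    · rcases h1 with rfl | rfl
      · exact hu hv
      · exact hu hz
    · rcases h2 with rfl | rfl
      · exact hw ha
      · exact hw hb
    · rcases h1 with rfl | rfl <;> rcases h2 with h | h
      · exact hva h
      · exact hvb h
      · exact hza h
      · exact hzb h
  · rcases huw with hu | hw | rfl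
    · rcases h1 with rfl | rfl
      · exact hu ha
      · exact hu hb
    · rcases h2 with rfl | rfl
      · exact hw hv
      · exact hw hz
    · rcases h1 with rfl | rfl <;> rcases h2 with h | h
      · exact hva h.symm
      · exact hza h.symm
      · exact hvb h.symm
      · exact hzb h.symm

omit [Fintype V] in
/-- the fourth vertex of the switch -/
theorem exists_z (S : Finset V) (x : St V) (v a b : V) (hv : v ∈ S) (ha : a ∈ S) (hb : b ∈ S)
    (hva : v ≠ a) (hvb : v ≠ b) (hab : a ≠ b) (h1 : x s(v, a) = true) (h2 : x s(v, b) = false)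
    (hle : dS S x a ≤ dS S x b) :
    ∃ z ∈ S, z ≠ v ∧ z ≠ a ∧ z ≠ b ∧ x s(z, a) = false ∧ x s(z, b) = true := by
  by_contra hno
  push Not at hno
  have h1' : x s(a, v) = true := by rw [Sym2.eq_swap]; exact h1
  have h2' : x s(b, v) = false := by rw [Sym2.eq_swap]; exact h2
  let A := S.filter (fun j => j ≠ a ∧ x s(a, j) = true)
  let B := S.filter (fun j => j ≠ b ∧ x s(b, j) = true)
  have hsub : B.erase a ⊆ (A.erase b).erase v := by
    intro j hj
    simp only [B, A, mem_erase, mem_filter] at hj ⊢
    obtain ⟨hja, hjS, hjb, hjt⟩ := hj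
    have hjv : j ≠ v := by
      rintro rfl
      rw [h2'] at hjt
      exact absurd hjt (by decide)
    refine ⟨hjv, hjb, hjS, hja, ?_⟩
    have h3 := hno j hjS hjv hja hjb
    by_contra h4
    have h5 : x s(a, j) = false := by
      cases h6 : x s(a, j) with
      | false => rfl
      | true => exact absurd h6 h4
    have h7 : x s(j, a) = false := by rw [Sym2.eq_swap]; exact h5
    have h8 : x s(j, b) = true := by rw [Sym2.eq_swap]; exact hjt
    exact h3 h7 h8
  have hcard := card_le_card hsub
  have hvA : v ∈ A.erase b := by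
    simp only [A, mem_erase, mem_filter]
    exact ⟨hvb, hv, hva, h1'⟩
  rw [card_erase_of_mem hvA] at hcard
  have hpos : 0 < (A.erase b).card := card_pos.2 ⟨v, hvA⟩
  have hAB : A.card ≤ B.card := hle
  by_cases hadj : x s(a, b) = true
  · have hbA : b ∈ A := mem_filter.2 ⟨hb, hab.symm, hadj⟩
    have haB : a ∈ B := mem_filter.2 ⟨ha, hab, by rw [Sym2.eq_swap]; exact hadj⟩
    rw [card_erase_of_mem hbA] at hcard hpos
    rw [card_erase_of_mem haB] at hcard
    omega
  · have hbA : b ∉ A := fun h => hadj (mem_filter.1 h).2.2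
    have haB : a ∉ B := by
      intro h
      apply hadj
      rw [Sym2.eq_swap]
      exact (mem_filter.1 h).2.2
    rw [erase_eq_of_notMem hbA] at hcard hpos
    rw [erase_eq_of_notMem haB] at hcard
    omega

/-- a vertex on which `y` is true and `x` is false -/
theorem exists_b {S : Finset V} {x y : St V} (h : Agree S x y) (hd : ∀ i, dg x i = dg y i)
    (v a : V) (haS : a ∈ S) (hav : a ≠ v) (h1 : x s(v, a) = true) (h2 : y s(v, a) = false) :
    ∃ b ∈ S, b ≠ v ∧ x s(v, b) = false ∧ y s(v, b) = true := by
  by_contra hno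
  push Not at hno
  have hds := dS_of_agree h hd v
  unfold dS at hds
  have hss : S.filter (fun j => j ≠ v ∧ y s(v, j) = true) ⊂
      S.filter (fun j => j ≠ v ∧ x s(v, j) = true) := by
    refine (ssubset_iff_of_subset ?_).2 ⟨a, mem_filter.2 ⟨haS, hav, h1⟩, ?_⟩
    · intro j hj
      simp only [mem_filter] at hj ⊢
      refine ⟨hj.1, hj.2.1, ?_⟩
      by_contra h4
      have h5 : x s(v, j) = false := by
        cases h6 : x s(v, j) with
        | false => rfl
        | true => exact absurd h6 h4
      exact hno j hj.1 hj.2.1 h5 hj.2.2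
    · simp only [mem_filter, not_and]
      intro _ _ h4
      rw [h2] at h4
      exact absurd h4 (by decide)
  have := card_lt_card hss
  omega

/-- number of discrepancies at `v` -/
def disc (S : Finset V) (v : V) (x y : St V) : ℕ :=
  (S.filter (fun j => j ≠ v ∧ x s(v, j) = true ∧ y s(v, j) = false)).card

theorem inner (f : St V → ℝ)
    (hf : ∀ (e e' : Finset V) (x y : St V), e.card = 2 → e'.card = 2 → Disjoint e e' →
      Rl (cut e e') x y → f x = f y) (S : Finset V) (v : V) (hv : v ∈ S)
    (IH : ∀ x y, Agree (S.erase v) x y → (∀ i, dg x i = dg y i) → f x = f y) :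
    ∀ (k : ℕ) (x y : St V), Agree S x y → (∀ i, dg x i = dg y i) → disc S v x y = k →
      f x = f y := by
  intro k
  induction k with
  | zero =>
    intro x y h hd hk
    apply IH x y _ hd
    have hno : ∀ j ∈ S, j ≠ v → x s(v, j) = true → y s(v, j) = true := by
      intro j hj hjv hx
      by_contra h4
      have h5 : y s(v, j) = false := by
        cases h6 : y s(v, j) with
        | false => rfl
        | true => exact absurd h6 h4
      unfold disc at hk
      rw [card_eq_zero] at hk
      have : j ∈ S.filter (fun j => j ≠ v ∧ x s(v, j) = true ∧ y s(v, j) = false) :=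
        mem_filter.2 ⟨hj, hjv, hx, h5⟩
      rw [hk] at this
      exact absurd this (notMem_empty j)
    have hrow : ∀ j, x s(v, j) = y s(v, j) := by
      intro j
      by_cases hjS : j ∈ S
      · by_cases hjv : j = v
        · exact h v j (Or.inr (Or.inr hjv.symm))
        · cases hx : x s(v, j) with
          | true => exact (hno j hjS hjv hx).symm
          | false =>
            cases hy : y s(v, j) with
            | false => rfl
            | true =>
              exfalso
              have h' : Agree S y x := fun u w huw => (h u w huw).symm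
              obtain ⟨b, hb, hbv, hb1, hb2⟩ := exists_b h' (fun i => (hd i).symm) v j hjS hjv hy hx
              have := hno b hb hbv hb2
              rw [hb1] at this
              exact absurd this (by decide)
      · exact h v j (Or.inr (Or.inl hjS))
    intro u w huw
    rcases huw with hu | hw | huw
    · by_cases huv : u = v
      · rw [huv]; exact hrow w
      · exact h u w (Or.inl fun hS => hu (mem_erase.2 ⟨huv, hS⟩))
    · by_cases hwv : w = v
      · rw [hwv, Sym2.eq_swap]; exact hrow u
      · exact h u w (Or.inr (Or.inl fun hS => hw (mem_erase.2 ⟨hwv, hS⟩)))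
    · exact h u w (Or.inr (Or.inr huw))
  | succ k ih =>
    intro x y h hd hk
    have hne : (S.filter (fun j => j ≠ v ∧ x s(v, j) = true ∧ y s(v, j) = false)).Nonempty := by
      apply card_pos.1
      change 0 < disc S v x y
      omega
    obtain ⟨a, ha⟩ := hne
    obtain ⟨haS, hav, hxa, hya⟩ := mem_filter.1 ha
    obtain ⟨b, hbS, hbv, hxb, hyb⟩ := exists_b h hd v a haS hav hxa hya
    have hab : a ≠ b := by
      rintro rfl
      rw [hxa] at hxb
      exact absurd hxb (by decide)
    have hpair : ∀ p q : V, p ≠ q → ({p, q} : Finset V).card = 2 := fun p q hpq =>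
      card_pair hpq
    rcases le_total (dS S x a) (dS S x b) with hle | hle
    · obtain ⟨z, hz, hzv, hza, hzb, hxza, hxzb⟩ :=
        exists_z S x v a b hv haS hbS hav.symm hbv.symm hab hxa hxb hle
      have hR := rl_fl x v z a b hzv.symm hav.symm hbv.symm hza hzb hab hxa hxb hxza hxzb
      have e1 : f x = f (fl x v z a b) := by
        refine hf {v, z} {a, b} x _ (hpair v z hzv.symm) (hpair a b hab) ?_ hR
        simp [hav.symm, hbv.symm, hza, hzb, hza.symm, hzb.symm, hav, hbv]
      rw [e1]
      have hag : Agree S (fl x v z a b) y := fun u w huw =>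
        (agree_fl x v z a b hv hz haS hbS hav.symm hbv.symm hza hzb u w huw).trans (h u w huw)
      refine ih _ _ hag (fun i => (hR.2 i).symm.trans (hd i)) ?_
      have e2 : S.filter (fun j => j ≠ v ∧ fl x v z a b s(v, j) = true ∧ y s(v, j) = false) =
          (S.filter (fun j => j ≠ v ∧ x s(v, j) = true ∧ y s(v, j) = false)).erase a := by
        ext j
        simp only [mem_filter, mem_erase]
        by_cases hja : j = a
        · subst hja
          simp [fl_apply, hxa]
        · by_cases hjb : j = b
          · subst hjb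
            simp [hyb]
          · simp [fl_apply, hja, hjb, hav.symm, hbv.symm]
      unfold disc
      rw [e2, card_erase_of_mem ha]
      unfold disc at hk
      omega
    · have hle' : dS S y b ≤ dS S y a := by
        rw [← dS_of_agree h hd b, ← dS_of_agree h hd a]
        exact hle
      obtain ⟨z, hz, hzv, hzb, hza, hyzb, hyza⟩ :=
        exists_z S y v b a hv hbS haS hbv.symm hav.symm hab.symm hyb hya hle'
      have hR := rl_fl y v z b a hzv.symm hbv.symm hav.symm hzb hza hab.symm hyb hya hyzb hyza
      have e1 : f y = f (fl y v z b a) := by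
        refine hf {v, z} {b, a} y _ (hpair v z hzv.symm) (hpair b a hab.symm) ?_ hR
        simp [hav.symm, hbv.symm, hza, hzb, hza.symm, hzb.symm, hav, hbv]
      rw [e1]
      have hag : Agree S x (fl y v z b a) := fun u w huw =>
        (h u w huw).trans
          (agree_fl y v z b a hv hz hbS haS hbv.symm hav.symm hzb hza u w huw).symm
      refine ih _ _ hag (fun i => (hd i).trans (hR.2 i)) ?_
      have e2 : S.filter (fun j => j ≠ v ∧ x s(v, j) = true ∧ fl y v z b a s(v, j) = false) =
          (S.filter (fun j => j ≠ v ∧ x s(v, j) = true ∧ y s(v, j) = false)).erase a := by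
        ext j
        simp only [mem_filter, mem_erase]
        by_cases hja : j = a
        · subst hja
          simp [fl_apply, hya]
        · by_cases hjb : j = b
          · subst hjb
            simp [hxb]
          · simp [fl_apply, hja, hjb, hav.symm, hbv.symm]
      unfold disc
      rw [e2, card_erase_of_mem ha]
      unfold disc at hk
      omega

theorem outer (f : St V → ℝ)
    (hf : ∀ (e e' : Finset V) (x y : St V), e.card = 2 → e'.card = 2 → Disjoint e e' →
      Rl (cut e e') x y → f x = f y) :
    ∀ (n : ℕ) (S : Finset V), S.card = n → ∀ x y, Agree S x y → (∀ i, dg x i = dg y i) →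
      f x = f y := by
  intro n
  induction n with
  | zero =>
    intro S hS x y h _
    rw [card_eq_zero] at hS
    have : x = y := by
      funext c
      induction c using Sym2.ind with
      | _ u w => exact h u w (Or.inl (by rw [hS]; exact notMem_empty u))
    rw [this]
  | succ n ih =>
    intro S hS x y h hd
    have hne : S.Nonempty := card_pos.1 (by omega)
    obtain ⟨v, hv⟩ := hne
    refine inner f hf S v hv ?_ (disc S v x y) x y h hd rfl
    exact ih (S.erase v) (by rw [card_erase_of_mem hv]; omega)

theorem hconn_proof : HCONN := by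
  intro V _ _ f hf x y hxy
  refine outer f hf _ univ rfl x y ?_ hxy.2
  intro u w huw
  rcases huw with hu | hw | huw
  · exact absurd (mem_univ u) hu
  · exact absurd (mem_univ w) hw
  · refine hxy.1 _ ?_
    unfold offd
    simp [huw]

end Vale.Agent.P335.H.Conn
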