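import Vale.Agent.P335.HMods

/-!
P335, general simple graphs, module CUTS.
-/

set_option linter.unusedSectionVars false

namespace Vale.Agent.P335.H.Hcuts

open Finset

section
variable {V : Type} [Fintype V] [DecidableEq V]

theorem mem_cut {S W : Finset V} {c : Sym2 V} :
    c ∈ cut S W ↔ ∃ a ∈ S, ∃ b ∈ W, s(a, b) = c := by
  unfold cut
  rw [Finset.mem_image]
  constructor
  · rintro ⟨⟨a, b⟩, h, rfl⟩
    rw [Finset.mem_product] at h
    exact ⟨a, h.1, b, h.2, rfl⟩
  · rintro ⟨a, ha, b, hb, rfl⟩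
    exact ⟨(a, b), Finset.mem_product.mpr ⟨ha, hb⟩, rfl⟩

theorem mem_cut_mk {S W : Finset V} {u v : V} :
    s(u, v) ∈ cut S W ↔ (u ∈ S ∧ v ∈ W) ∨ (v ∈ S ∧ u ∈ W) := by
  rw [mem_cut]
  constructor
  · rintro ⟨a, ha, b, hb, h⟩
    rw [Sym2.eq_iff] at h
    rcases h with ⟨rfl, rfl⟩ | ⟨rfl, rfl⟩
    · exact Or.inl ⟨ha, hb⟩
    · exact Or.inr ⟨ha, hb⟩
  · rintro (⟨h1, h2⟩ | ⟨h1, h2⟩)
    · exact ⟨u, h1, v, h2, rfl⟩
    · exact ⟨v, h1, u, h2, Sym2.eq_swap⟩

theorem cut_comm (S W : Finset V) : cut S W = cut W S := by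
  ext c
  induction c using Sym2.ind with
  | _ u v =>
    rw [mem_cut_mk, mem_cut_mk]
    tauto

theorem cut_split {e e' : Finset V} (hd : Disjoint e e') : cut e eᶜ = cutA e e' ∪ cut e e' := by
  ext c
  induction c using Sym2.ind with
  | _ u v =>
    unfold cutA
    rw [Finset.mem_union, mem_cut_mk, mem_cut_mk, mem_cut_mk]
    simp only [Finset.mem_compl, Finset.mem_union]
    have h1 : u ∈ e' → u ∉ e := fun h h' => Finset.disjoint_left.mp hd h' h
    have h2 : v ∈ e' → v ∉ e := fun h h' => Finset.disjoint_left.mp hd h' h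
    tauto

theorem disjA {e e' : Finset V} (hd : Disjoint e e') :
    Disjoint (cutA e e') (cut e e') ∧ Disjoint (cutA e e') (cut e' e'ᶜ) := by
  constructor
  · rw [Finset.disjoint_left]
    intro c
    induction c using Sym2.ind with
    | _ u v =>
      unfold cutA
      rw [mem_cut_mk, mem_cut_mk]
      simp only [Finset.mem_compl, Finset.mem_union]
      have h1 : u ∈ e' → u ∉ e := fun h h' => Finset.disjoint_left.mp hd h' h
      have h2 : v ∈ e' → v ∉ e := fun h h' => Finset.disjoint_left.mp hd h' h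
      tauto
  · rw [Finset.disjoint_left]
    intro c
    induction c using Sym2.ind with
    | _ u v =>
      unfold cutA
      rw [mem_cut_mk, mem_cut_mk]
      simp only [Finset.mem_compl, Finset.mem_union]
      have h1 : u ∈ e' → u ∉ e := fun h h' => Finset.disjoint_left.mp hd h' h
      have h2 : v ∈ e' → v ∉ e := fun h h' => Finset.disjoint_left.mp hd h' h
      tauto

theorem cut_offd {S W : Finset V} (hd : Disjoint S W) : cut S W ⊆ offd V := by
  intro c hc
  unfold offd
  rw [Finset.mem_filter]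
  refine ⟨Finset.mem_univ _, ?_⟩
  induction c using Sym2.ind with
  | _ u v =>
    rw [mem_cut_mk] at hc
    rw [Sym2.mk_isDiag_iff]
    rintro rfl
    rcases hc with ⟨h1, h2⟩ | ⟨h1, h2⟩
    · exact Finset.disjoint_left.mp hd h1 h2
    · exact Finset.disjoint_left.mp hd h1 h2

end

theorem cuts_proof : CUTS where
  comm := fun _ _ _ S W => cut_comm S W
  split := fun _ _ _ _ _ h => cut_split h
  disjA := fun _ _ _ _ _ h => disjA h
  offd := fun _ _ _ _ _ h => cut_offd h

end Vale.Agent.P335.H.Hcuts
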