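import Vale.Agent.P335.HMods

/-!
HDISJ: the cross term of two disjoint pairs.
-/

namespace Vale.Agent.P335.H.Hdisj

open Finset

section abs
variable {X : Type} [Fintype X]

lemma ip_add_left (f g h : X → ℝ) : ip (f + g) h = ip f h + ip g h := by
  simp [ip, add_mul, sum_add_distrib]

lemma ip_add_right (f g h : X → ℝ) : ip f (g + h) = ip f g + ip f h := by
  simp [ip, mul_add, sum_add_distrib]

lemma ip_sub_left (f g h : X → ℝ) : ip (f - g) h = ip f h - ip g h := by
  simp [ip, sub_mul, sum_sub_distrib]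

lemma ip_sub_right (f g h : X → ℝ) : ip f (g - h) = ip f g - ip f h := by
  simp [ip, mul_sub, sum_sub_distrib]

lemma ip_self_nonneg (f : X → ℝ) : 0 ≤ ip f f :=
  sum_nonneg (fun x _ => mul_self_nonneg _)

/-- orthogonal projections -/
structure Proj (E : (X → ℝ) → (X → ℝ)) : Prop where
  sub : ∀ f g, E (f - g) = E f - E g
  sym : ∀ f g, ip (E f) g = ip f (E g)
  idem : ∀ f, E (E f) = E f

lemma comm_nonneg {P Q : (X → ℝ) → (X → ℝ)} (hP : Proj P) (hQ : Proj Q) (f : X → ℝ)
    (hc : P (Q f) = Q (P f)) : 0 ≤ ip (P f) (Q f) := by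
  have h : ip (P f) (Q f) = ip (Q (P f)) (Q (P f)) := by
    calc ip (P f) (Q f) = ip (P (P f)) (Q f) := by rw [hP.idem]
      _ = ip (P f) (P (Q f)) := hP.sym _ _
      _ = ip (P f) (Q (P f)) := by rw [hc]
      _ = ip (P f) (Q (Q (P f))) := by rw [hQ.idem]
      _ = ip (Q (P f)) (Q (P f)) := (hQ.sym _ _).symm
  rw [h]
  exact ip_self_nonneg _

lemma proj_compl {E : (X → ℝ) → (X → ℝ)} (h : Proj E) : Proj (fun f => f - E f) where
  sub f g := by simp only [h.sub]; abel
  sym f g := by simp only [ip_sub_left, ip_sub_right, h.sym]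
  idem f := by simp only [h.sub, h.idem]; abel

lemma proj_mul {E F : (X → ℝ) → (X → ℝ)} (hE : Proj E) (hF : Proj F)
    (hc : ∀ f, E (F f) = F (E f)) : Proj (fun f => E (F f)) where
  sub f g := by simp only [hE.sub, hF.sub]
  sym f g := by rw [hE.sym, hF.sym, hc]
  idem f := by
    show E (F (E (F f))) = E (F f)
    rw [← hc (F f), hF.idem, hE.idem]

lemma proj_diff {E F : (X → ℝ) → (X → ℝ)} (hE : Proj E) (hF : Proj F)
    (h1 : ∀ f, E (F f) = F f) (h2 : ∀ f, F (E f) = F f) : Proj (fun f => E f - F f) where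
  sub f g := by simp only [hE.sub, hF.sub]; abel
  sym f g := by simp only [ip_sub_left, ip_sub_right, hE.sym, hF.sym]
  idem f := by simp only [hE.sub, hF.sub, h1, h2, hE.idem, hF.idem]; abel

/-- the configuration of the five projections -/
structure Cfg (A B M E1 E2 : (X → ℝ) → (X → ℝ)) : Prop where
  hA : Proj A
  hB : Proj B
  hM : Proj M
  h1 : Proj E1
  h2 : Proj E2
  AB : ∀ f, A (B f) = B (A f)
  AM : ∀ f, A (M f) = M (A f)
  BM : ∀ f, B (M f) = M (B f)
  A1 : ∀ f, A (E1 f) = E1 f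
  A1' : ∀ f, E1 (A f) = E1 f
  M1 : ∀ f, M (E1 f) = E1 f
  M1' : ∀ f, E1 (M f) = E1 f
  B2 : ∀ f, B (E2 f) = E2 f
  B2' : ∀ f, E2 (B f) = E2 f
  M2 : ∀ f, M (E2 f) = E2 f
  M2' : ∀ f, E2 (M f) = E2 f
  A2 : ∀ f, A (E2 f) = E2 (A f)
  B1 : ∀ f, B (E1 f) = E1 (B f)

lemma Cfg.swap {A B M E1 E2 : (X → ℝ) → (X → ℝ)} (c : Cfg A B M E1 E2) : Cfg B A M E2 E1 where
  hA := c.hB
  hB := c.hA
  hM := c.hM
  h1 := c.h2
  h2 := c.h1
  AB f := (c.AB f).symm
  AM := c.BM
  BM := c.AM
  A1 := c.B2
  A1' := c.B2'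
  M1 := c.M2
  M1' := c.M2'
  B2 := c.A1
  B2' := c.A1'
  M2 := c.M1
  M2' := c.M1'
  A2 := c.B1
  B1 := c.A2

variable {A B M E1 E2 : (X → ℝ) → (X → ℝ)}

lemma Cfg.projQ (c : Cfg A B M E1 E2) : Proj (fun f => A (M f) - E1 f) := by
  refine proj_diff (E := fun f => A (M f)) (F := E1) (proj_mul c.hA c.hM c.AM) c.h1 ?_ ?_
  · intro f
    show A (M (E1 f)) = E1 f
    rw [c.M1, c.A1]
  · intro f
    show E1 (A (M f)) = E1 f
    rw [c.A1', c.M1']

lemma Cfg.Rcomm (c : Cfg A B M E1 E2) (f : X → ℝ) :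
    (fun g => g - A (M g)) (B (M f) - E2 f) =
      (fun g => B (M g) - E2 g) (f - A (M f)) := by
  show B (M f) - E2 f - A (M (B (M f) - E2 f)) = B (M (f - A (M f))) - E2 (f - A (M f))
  simp only [c.hA.sub, c.hB.sub, c.hM.sub, c.h2.sub, c.M2]
  have e1 : A (M (B (M f))) = B (M (A (M f))) := by
    rw [← c.BM, ← c.AM, c.hM.idem, c.AB]
  have e2 : A (E2 f) = E2 (A (M f)) := by
    rw [c.AM, c.M2', c.A2]
  rw [e1, e2]
  abel

lemma Cfg.Qcomm (c : Cfg A B M E1 E2) (f : X → ℝ) (h : E1 (E2 f) = E2 (E1 f)) :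
    (fun g => A (M g) - E1 g) ((fun g => B (M g) - E2 g) f) =
      (fun g => B (M g) - E2 g) ((fun g => A (M g) - E1 g) f) := by
  show A (M (B (M f) - E2 f)) - E1 (B (M f) - E2 f) =
    B (M (A (M f) - E1 f)) - E2 (A (M f) - E1 f)
  simp only [c.hA.sub, c.hB.sub, c.hM.sub, c.h1.sub, c.h2.sub, c.M2, c.M1]
  have e1 : A (M (B (M f))) = B (M (A (M f))) := by
    rw [← c.BM, ← c.AM, c.hM.idem, c.AB]
  have e2 : A (E2 f) = E2 (A (M f)) := by
    rw [c.AM, c.M2', c.A2]
  have e3 : B (E1 f) = E1 (B (M f)) := by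
    rw [c.BM, c.M1', c.B1]
  rw [e1, e2, e3, h]
  abel

lemma Cfg.main (c : Cfg A B M E1 E2) (f : X → ℝ) :
    ip (f - M f) (f - M f) + ip (A (M f) - E1 f) (B (M f) - E2 f) ≤
      ip (f - E1 f) (f - E2 f) := by
  have hs1 : f - E1 f = (f - A (M f)) + (A (M f) - E1 f) := by abel
  have hs2 : f - E2 f = (f - B (M f)) + (B (M f) - E2 f) := by abel
  rw [hs1, hs2, ip_add_left, ip_add_right, ip_add_right]
  have hRA : Proj (fun f => f - A (M f)) :=
    proj_compl (E := fun f => A (M f)) (proj_mul c.hA c.hM c.AM)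
  have hRB : Proj (fun f => f - B (M f)) :=
    proj_compl (E := fun f => B (M f)) (proj_mul c.hB c.hM c.BM)
  have t2 : 0 ≤ ip (f - A (M f)) (B (M f) - E2 f) :=
    comm_nonneg hRA c.swap.projQ f (c.Rcomm f)
  have t3 : 0 ≤ ip (A (M f) - E1 f) (f - B (M f)) := by
    exact comm_nonneg c.projQ hRB f (c.swap.Rcomm f).symm
  have t1 : ip (f - M f) (f - M f) ≤ ip (f - A (M f)) (f - B (M f)) := by
    have g1 : f - A (M f) = (f - M f) + (M f - A (M f)) := by abel
    have g2 : f - B (M f) = (f - M f) + (M f - B (M f)) := by abel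
    rw [g1, g2, ip_add_left, ip_add_right, ip_add_right]
    have hMA : M f - A (M f) = M (f - A f) := by rw [c.hM.sub, c.AM]
    have hMB : M f - B (M f) = M (f - B f) := by rw [c.hM.sub, c.BM]
    have z1 : ip (f - M f) (M f - B (M f)) = 0 := by
      rw [hMB, ← c.hM.sym, c.hM.sub, c.hM.idem, sub_self]
      simp [ip]
    have z2 : ip (M f - A (M f)) (f - M f) = 0 := by
      rw [hMA, c.hM.sym, c.hM.sub, c.hM.idem, sub_self]
      simp [ip]
    have z3 : 0 ≤ ip (M f - A (M f)) (M f - B (M f)) := by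
      refine comm_nonneg (P := fun g => g - A g) (Q := fun g => g - B g) (proj_compl c.hA)
        (proj_compl c.hB) (M f) ?_
      show M f - B (M f) - A (M f - B (M f)) = M f - A (M f) - B (M f - A (M f))
      simp only [c.hA.sub, c.hB.sub, c.AB]
      abel
    linarith
  linarith

lemma Cfg.Qnonneg (c : Cfg A B M E1 E2) (f : X → ℝ) (h : E1 (E2 f) = E2 (E1 f)) :
    0 ≤ ip (A (M f) - E1 f) (B (M f) - E2 f) :=
  comm_nonneg c.projQ c.swap.projQ f (c.Qcomm f h)

lemma Cfg.QAB (c : Cfg A B M E1 E2) (f : X → ℝ) :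
    ip (A (M f) - E1 f) (B (M f) - E2 f) =
      ip (B (A (M f) - E1 f)) (A (B (M f) - E2 f)) := by
  have ha : A (A (M f) - E1 f) = A (M f) - E1 f := by rw [c.hA.sub, c.hA.idem, c.A1]
  have hb : B (B (M f) - E2 f) = B (M f) - E2 f := by rw [c.hB.sub, c.hB.idem, c.B2]
  calc ip (A (M f) - E1 f) (B (M f) - E2 f)
      = ip (A (M f) - E1 f) (B (B (M f) - E2 f)) := by rw [hb]
    _ = ip (B (A (M f) - E1 f)) (B (M f) - E2 f) := (c.hB.sym _ _).symm
    _ = ip (B (A (A (M f) - E1 f))) (B (M f) - E2 f) := by rw [ha]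
    _ = ip (A (B (A (M f) - E1 f))) (B (M f) - E2 f) := by rw [c.AB]
    _ = ip (B (A (M f) - E1 f)) (A (B (M f) - E2 f)) := c.hA.sym _ _

end abs

section inst
variable {V : Type} [Fintype V] [DecidableEq V]

lemma proj_EC (he : EOPH) (C : Finset (Sym2 V)) : Proj (EC C) where
  sub f g := he.E_sub V C f g
  sym f g := he.E_symm V C f g
  idem f := he.E_idem V C f

lemma cfg (he : EOPH) (hc : CUTS) (e e' : Finset V) (hd : Disjoint e e') :
    Cfg (EC (cutA e e')) (EC (cutA e' e)) (EC (cut e e')) (EC (cut e eᶜ)) (EC (cut e' e'ᶜ)) := by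
  have hs1 := hc.split V e e' hd
  have hs2 := hc.split V e' e hd.symm
  have hd1 := hc.disjA V e e' hd
  have hd2 := hc.disjA V e' e hd.symm
  have hcm := hc.comm V e' e
  rw [hcm] at hs2 hd2
  have sA1 : cutA e e' ⊆ cut e eᶜ := by rw [hs1]; exact subset_union_left
  have sM1 : cut e e' ⊆ cut e eᶜ := by rw [hs1]; exact subset_union_right
  have sB2 : cutA e' e ⊆ cut e' e'ᶜ := by rw [hs2]; exact subset_union_left
  have sM2 : cut e e' ⊆ cut e' e'ᶜ := by rw [hs2]; exact subset_union_right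
  exact
    { hA := proj_EC he _
      hB := proj_EC he _
      hM := proj_EC he _
      h1 := proj_EC he _
      h2 := proj_EC he _
      AB := fun f => he.E_comm V _ _ f (hd1.2.mono_right sB2)
      AM := fun f => he.E_comm V _ _ f hd1.1
      BM := fun f => he.E_comm V _ _ f hd2.1
      A1 := fun f => (he.E_tower V _ _ f sA1).1
      A1' := fun f => (he.E_tower V _ _ f sA1).2
      M1 := fun f => (he.E_tower V _ _ f sM1).1
      M1' := fun f => (he.E_tower V _ _ f sM1).2
      B2 := fun f => (he.E_tower V _ _ f sB2).1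
      B2' := fun f => (he.E_tower V _ _ f sB2).2
      M2 := fun f => (he.E_tower V _ _ f sM2).1
      M2' := fun f => (he.E_tower V _ _ f sM2).2
      A2 := fun f => he.E_comm V _ _ f hd1.2
      B1 := fun f => he.E_comm V _ _ f hd2.2 }

lemma ind_EC (he : EOPH) (C : Finset (Sym2 V)) (p : St V → Prop)
    (hp : ∀ x y, Rl C x y → (p x ↔ p y)) (f : St V → ℝ) :
    EC C (fun x => ind (p x) * f x) = fun x => ind (p x) * EC C f x := by
  refine he.E_mul V C (fun x => ind (p x)) f ?_
  intro x y h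
  have := hp x y h
  unfold ind
  by_cases h1 : p x
  · simp [h1, this.1 h1]
  · have h2 : ¬ p y := fun h3 => h1 (this.2 h3)
    simp [h1, h2]

lemma ind_sq (p : Prop) : ind p * ind p = ind p := by
  unfold ind
  by_cases h : p <;> simp [h]

lemma ind_nonneg (p : Prop) : 0 ≤ ind p := by
  unfold ind
  by_cases h : p <;> simp [h]

lemma ind_add (p : Prop) : ind p + ind (¬ p) = 1 := by
  unfold ind
  by_cases h : p <;> simp [h]

lemma T_mul (he : EOPH) (C D E : Finset (Sym2 V)) (hC : C ⊆ E) (hD : D ⊆ E) (p : St V → Prop)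
    (hp : ∀ x y, Rl E x y → (p x ↔ p y)) (f : St V → ℝ) :
    EC C (EC D (fun x => ind (p x) * f x)) - EC E (fun x => ind (p x) * f x) =
      fun x => ind (p x) * (EC C (EC D f) - EC E f) x := by
  rw [ind_EC he D p (fun x y h => hp x y (he.rl_mono V D E x y hD h)),
    ind_EC he C p (fun x y h => hp x y (he.rl_mono V C E x y hC h)), ind_EC he E p hp]
  funext x
  simp only [Pi.sub_apply]
  ring

lemma four (e e' : Finset V) (x : St V) (h2 : e.card = 2) (h2' : e'.card = 2)
    (ht : tot e e' x = 2) (ha : ¬ Alt e e' x) :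
    (∀ b ∈ e', ∀ a ∈ e, ∀ a' ∈ e, x s(a, b) = x s(a', b)) ∨
      (∀ a ∈ e, ∀ b ∈ e', ∀ b' ∈ e', x s(a, b) = x s(a, b')) := by
  obtain ⟨i, k, hik, rfl⟩ := card_eq_two.1 h2
  obtain ⟨j, l, hjl, rfl⟩ := card_eq_two.1 h2'
  unfold tot at ht
  rw [sum_pair hik, sum_pair hjl, sum_pair hjl] at ht
  unfold Alt at ha
  simp only [mem_insert, mem_singleton, forall_eq_or_imp, forall_eq, filter_insert,
    filter_singleton] at ha ⊢
  cases h1 : x s(i, j) <;> cases h2 : x s(i, l) <;> cases h3 : x s(k, j) <;>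
    cases h4 : x s(k, l) <;> simp_all

lemma four' (e e' : Finset V) (x : St V) (h2 : e.card = 2) (h2' : e'.card = 2)
    (ha : Alt e e' x) : tot e e' x = 2 := by
  obtain ⟨i, k, hik, rfl⟩ := card_eq_two.1 h2
  obtain ⟨j, l, hjl, rfl⟩ := card_eq_two.1 h2'
  unfold tot
  rw [sum_pair hik, sum_pair hjl, sum_pair hjl]
  unfold Alt at ha
  simp only [mem_insert, mem_singleton, forall_eq_or_imp, forall_eq, filter_insert,
    filter_singleton] at ha
  cases h1 : x s(i, j) <;> cases h2 : x s(i, l) <;> cases h3 : x s(k, j) <;>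
    cases h4 : x s(k, l) <;> simp_all

end inst

theorem hdisj_proof (he : EOPH) (hc : CUTS) (ht : HTOT) (hcm : HCM) (h4 : HT4) : HDISJ := by
  intro V _ _ e e' f h2 h2' hd
  have c := cfg he hc e e' hd
  have hs1 := hc.split V e e' hd
  have hs2 := hc.split V e' e hd.symm
  have hd1 := hc.disjA V e e' hd
  have hd2 := hc.disjA V e' e hd.symm
  have hcomm := hc.comm V e' e
  rw [hcomm] at hs2 hd2
  have sA1 : cutA e e' ⊆ cut e eᶜ := by rw [hs1]; exact subset_union_left
  have sM1 : cut e e' ⊆ cut e eᶜ := by rw [hs1]; exact subset_union_right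
  have sB2 : cutA e' e ⊆ cut e' e'ᶜ := by rw [hs2]; exact subset_union_left
  have sM2 : cut e e' ⊆ cut e' e'ᶜ := by rw [hs2]; exact subset_union_right
  have hm := c.main f
  set A := EC (cutA e e') with hA
  set B := EC (cutA e' e) with hB
  set M := EC (cut e e') with hM
  set E1 := EC (cut e eᶜ) with hE1
  set E2 := EC (cut e' e'ᶜ) with hE2
  set T : St V → ℝ := A (M f) - E1 f with hT
  set T' : St V → ℝ := B (M f) - E2 f with hT'
  have hTT : TT e e' f = T := by
    have hPe : Pe e f = f - E1 f := rfl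
    show A (M (Pe e f)) = T
    rw [hPe, c.hM.sub, c.hA.sub, c.M1, c.A1]
  have hTT' : TT e' e f = T' := by
    have hPe : Pe e' f = f - E2 f := rfl
    unfold TT
    rw [hcomm]
    show B (M (Pe e' f)) = T'
    rw [hPe, c.hM.sub, c.hB.sub, c.M2, c.B2]
  rw [hTT, hTT']
  have hPs : Ps e e' f = f - M f := rfl
  have hPe1 : Pe e f = f - E1 f := rfl
  have hPe2 : Pe e' f = f - E2 f := rfl
  rw [hPs, hPe1, hPe2]
  -- invariance of tot
  have inv1 : ∀ x y, Rl (cut e eᶜ) x y → tot e e' x = tot e e' y := fun x y h =>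
    (ht V e e' x y hd).1 h
  have inv2 : ∀ x y, Rl (cut e' e'ᶜ) x y → tot e e' x = tot e e' y := fun x y h => by
    have h1 := (ht V e' e x y hd.symm).1 h
    have h2 := (ht V e e' x y hd).2.2.2.2.1
    have h3 := (ht V e e' y y hd).2.2.2.2.1
    rw [h2, h1, ← h3]
  -- split
  have hQ1 : ∀ q : ℕ → Prop,
      A (M (fun x => ind (q (tot e e' x)) * f x)) - E1 (fun x => ind (q (tot e e' x)) * f x) =
        fun x => ind (q (tot e e' x)) * T x := fun q =>
    T_mul he _ _ _ sA1 sM1 (fun x => q (tot e e' x)) (fun x y h => by rw [inv1 x y h]) f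
  have hQ2 : ∀ q : ℕ → Prop,
      B (M (fun x => ind (q (tot e e' x)) * f x)) - E2 (fun x => ind (q (tot e e' x)) * f x) =
        fun x => ind (q (tot e e' x)) * T' x := fun q =>
    T_mul he _ _ _ sB2 sM2 (fun x => q (tot e e' x)) (fun x y h => by rw [inv2 x y h]) f
  have hsplit : ip T T' =
      ip (fun x => ind (¬ (tot e e' x = 2)) * T x) (fun x => ind (¬ (tot e e' x = 2)) * T' x) +
      ip (fun x => ind (tot e e' x = 2) * T x) (fun x => ind (tot e e' x = 2) * T' x) := by
    unfold ip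
    rw [← sum_add_distrib]
    refine sum_congr rfl (fun x _ => ?_)
    have a1 := ind_sq (tot e e' x = 2)
    have a2 := ind_sq (¬ (tot e e' x = 2))
    have a3 := ind_add (tot e e' x = 2)
    calc T x * T' x = (ind (tot e e' x = 2) + ind (¬ (tot e e' x = 2))) * (T x * T' x) := by
          rw [a3, one_mul]
      _ = (ind (tot e e' x = 2) * ind (tot e e' x = 2) +
            ind (¬ (tot e e' x = 2)) * ind (¬ (tot e e' x = 2))) * (T x * T' x) := by
          rw [a1, a2]
      _ = _ := by ring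
  have hw : 0 ≤ ip (fun x => ind (¬ (tot e e' x = 2)) * T x)
      (fun x => ind (¬ (tot e e' x = 2)) * T' x) := by
    have q1 := hQ1 (fun t => ¬ (t = 2))
    have q2 := hQ2 (fun t => ¬ (t = 2))
    rw [← q1, ← q2]
    refine c.Qnonneg _ ?_
    refine hcm V e e' _ h2 h2' hd ?_
    intro x hx
    unfold ind
    simp [hx]
  have hz : ip (fun x => ind (tot e e' x = 2) * T x) (fun x => ind (tot e e' x = 2) * T' x) =
      ∑ x, ind (tot e e' x = 2) * (B T x * A T' x) := by
    have q1 := hQ1 (fun t => t = 2)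
    have q2 := hQ2 (fun t => t = 2)
    rw [← q1, ← q2, c.QAB, q1, q2]
    have e1 : B (fun x => ind (tot e e' x = 2) * T x) =
        fun x => ind (tot e e' x = 2) * B T x :=
      ind_EC he _ (fun x => tot e e' x = 2)
        (fun x y h => by rw [inv2 x y (he.rl_mono V _ _ x y sB2 h)]) T
    have e2 : A (fun x => ind (tot e e' x = 2) * T' x) =
        fun x => ind (tot e e' x = 2) * A T' x :=
      ind_EC he _ (fun x => tot e e' x = 2)
        (fun x y h => by rw [inv1 x y (he.rl_mono V _ _ x y sA1 h)]) T'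
    rw [e1, e2]
    unfold ip
    refine sum_congr rfl (fun x _ => ?_)
    have a1 := ind_sq (tot e e' x = 2)
    calc ind (tot e e' x = 2) * B T x * (ind (tot e e' x = 2) * A T' x)
        = (ind (tot e e' x = 2) * ind (tot e e' x = 2)) * (B T x * A T' x) := by ring
      _ = _ := by rw [a1]
  have hpt : ∀ x, -(1 / 2) * (ind (Alt e e' x) * ((B T x) ^ 2 + (A T' x) ^ 2)) ≤
      ind (tot e e' x = 2) * (B T x * A T' x) := by
    intro x
    by_cases hx : Alt e e' x
    · have hx2 := four' e e' x h2 h2' hx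
      have i1 : ind (Alt e e' x) = 1 := by unfold ind; simp [hx]
      have i2 : ind (tot e e' x = 2) = 1 := by unfold ind; simp [hx2]
      rw [i1, i2]
      nlinarith [sq_nonneg (B T x + A T' x)]
    · have i1 : ind (Alt e e' x) = 0 := by unfold ind; simp [hx]
      rw [i1]
      by_cases hx2 : tot e e' x = 2
      · have hz : B T x * A T' x = 0 := by
          rcases four e e' x h2 h2' hx2 hx with h | h
          · have hTz : ∀ y, Rl (cutA e' e) x y → T y = 0 := by
              intro y hy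
              have := h4 V e e' f y hd ?_
              · rwa [hTT] at this
              · intro b hb a ha a' ha'
                have hma : ∀ a ∈ e, s(a, b) ∉ cutA e' e := by
                  intro a ha hmem
                  have hm2 : s(a, b) ∈ cut e e' :=
                    mem_image.2 ⟨(a, b), mem_product.2 ⟨ha, hb⟩, rfl⟩
                  exact (disjoint_left.1 hd2.1) hmem hm2
                rw [← hy.1 _ (hma a ha), ← hy.1 _ (hma a' ha')]
                exact h b hb a ha a' ha'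
            have h0 : T x = 0 := hTz x (he.rl_refl V _ x)
            have : B T x = T x := he.E_fix V _ T x (fun y hy => by rw [hTz y hy, h0])
            rw [this, h0, zero_mul]
          · have hTz : ∀ y, Rl (cutA e e') x y → T' y = 0 := by
              intro y hy
              have := h4 V e' e f y hd.symm ?_
              · rwa [hTT'] at this
              · intro a ha b hb b' hb'
                have hma : ∀ b ∈ e', s(a, b) ∉ cutA e e' := by
                  intro b hb hmem
                  have hm2 : s(a, b) ∈ cut e e' :=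
                    mem_image.2 ⟨(a, b), mem_product.2 ⟨ha, hb⟩, rfl⟩
                  exact (disjoint_left.1 hd1.1) hmem hm2
                have k1 := hy.1 _ (hma b hb)
                have k2 := hy.1 _ (hma b' hb')
                have k3 := h a ha b hb b' hb'
                rw [Sym2.eq_swap (a := b) (b := a), Sym2.eq_swap (a := b') (b := a), ← k1, ← k2,
                  k3]
            have h0 : T' x = 0 := hTz x (he.rl_refl V _ x)
            have : A T' x = T' x := he.E_fix V _ T' x (fun y hy => by rw [hTz y hy, h0])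
            rw [this, h0, mul_zero]
        rw [hz]
        simp
      · have i2 : ind (tot e e' x = 2) = 0 := by unfold ind; simp [hx2]
        rw [i2]
        simp
  have hsum := sum_le_sum (fun x (_ : x ∈ (univ : Finset (St V))) => hpt x)
  rw [← hz] at hsum
  -- contraction
  have hcontr : ∀ (C : Finset (Sym2 V)) (g : St V → ℝ),
      (∀ x y, Rl C x y → (Alt e e' x ↔ Alt e e' y)) →
      ∑ x, ind (Alt e e' x) * (EC C g x) ^ 2 ≤ ∑ x, ind (Alt e e' x) * (g x) ^ 2 := by
    intro C g hC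
    have h1 := ind_EC he C (fun x => Alt e e' x) hC g
    have h2 := he.E_sq V C (fun x => ind (Alt e e' x) * g x)
    rw [h1] at h2
    unfold ip at h2
    have h3 : ∀ u : St V → ℝ, ∑ x, ind (Alt e e' x) * u x * (ind (Alt e e' x) * u x) =
        ∑ x, ind (Alt e e' x) * (u x) ^ 2 := by
      intro u
      refine sum_congr rfl (fun x _ => ?_)
      have a1 := ind_sq (Alt e e' x)
      calc ind (Alt e e' x) * u x * (ind (Alt e e' x) * u x)
          = (ind (Alt e e' x) * ind (Alt e e' x)) * (u x) ^ 2 := by ring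
        _ = _ := by rw [a1]
    rw [h3, h3] at h2
    exact h2
  have c1 := hcontr (cutA e' e) T (fun x y h => (ht V e e' x y hd).2.2.1 h)
  have c2 := hcontr (cutA e e') T' (fun x y h => (ht V e e' x y hd).2.1 h)
  rw [← mul_sum] at hsum
  have hs : ∑ x, ind (Alt e e' x) * ((B T x) ^ 2 + (A T' x) ^ 2) =
      ∑ x, ind (Alt e e' x) * (B T x) ^ 2 + ∑ x, ind (Alt e e' x) * (A T' x) ^ 2 := by
    rw [← sum_add_distrib]
    exact sum_congr rfl (fun x _ => by ring)
  have hs' : ∑ x, ind (Alt e e' x) * ((T x) ^ 2 + (T' x) ^ 2) =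
      ∑ x, ind (Alt e e' x) * (T x) ^ 2 + ∑ x, ind (Alt e e' x) * (T' x) ^ 2 := by
    rw [← sum_add_distrib]
    exact sum_congr rfl (fun x _ => by ring)
  rw [hs] at hsum
  rw [hs']
  linarith [hsplit, hw, hm, hsum, c1, c2]

end Vale.Agent.P335.H.Hdisj
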