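import Vale.Agent.P335.HMods

/-!
P335, general simple graphs, module EOPH: elementary facts on `Rl`, `cl`, `EC`.
-/

set_option linter.unusedSectionVars false

namespace Vale.Agent.P335.H.Heops

open Finset

section
variable {V : Type} [Fintype V] [DecidableEq V]

theorem rl_refl (C : Finset (Sym2 V)) (x : St V) : Rl C x x := ⟨fun _ _ => rfl, fun _ => rfl⟩

theorem rl_symm {C : Finset (Sym2 V)} {x y : St V} (h : Rl C x y) : Rl C y x :=
  ⟨fun c hc => (h.1 c hc).symm, fun i => (h.2 i).symm⟩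

theorem rl_trans {C : Finset (Sym2 V)} {x y z : St V} (h : Rl C x y) (h' : Rl C y z) :
    Rl C x z :=
  ⟨fun c hc => (h.1 c hc).trans (h'.1 c hc), fun i => (h.2 i).trans (h'.2 i)⟩

theorem rl_mono {C C' : Finset (Sym2 V)} {x y : St V} (hs : C ⊆ C') (h : Rl C x y) :
    Rl C' x y :=
  ⟨fun c hc => h.1 c (fun hc' => hc (hs hc')), h.2⟩

/-- the part of the degree of `i` coming from the cells `C` -/
def part (C : Finset (Sym2 V)) (x : St V) (i : V) : ℕ :=
  ∑ j, if j ≠ i ∧ s(i, j) ∈ C then (x s(i, j)).toNat else 0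

theorem dg_split (C : Finset (Sym2 V)) (x : St V) (i : V) :
    dg x i = part C x i + part Cᶜ x i := by
  unfold dg part
  rw [Finset.card_filter, ← Finset.sum_add_distrib]
  refine Finset.sum_congr rfl (fun j _ => ?_)
  by_cases h1 : j = i
  · simp [h1]
  · by_cases h2 : s(i, j) ∈ C
    · cases hx : x s(i, j) <;> simp [h1, h2, hx]
    · cases hx : x s(i, j) <;> simp [h1, h2, hx]

theorem part_congr {C : Finset (Sym2 V)} {x y : St V} (h : ∀ c ∈ C, x c = y c) (i : V) :
    part C x i = part C y i := by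
  unfold part
  refine Finset.sum_congr rfl (fun j _ => ?_)
  by_cases h1 : j ≠ i ∧ s(i, j) ∈ C
  · rw [if_pos h1, if_pos h1, h _ h1.2]
  · rw [if_neg h1, if_neg h1]

theorem part_rl {C : Finset (Sym2 V)} {x y : St V} (h : Rl C x y) (i : V) :
    part C x i = part C y i := by
  have h1 := h.2 i
  rw [dg_split C x i, dg_split C y i] at h1
  have h2 : part Cᶜ x i = part Cᶜ y i := part_congr (fun c hc => h.1 c (by simpa using hc)) i
  omega

theorem rl_of_part {C : Finset (Sym2 V)} {x y : St V} (h1 : ∀ c, c ∉ C → x c = y c)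
    (h2 : ∀ i, part C x i = part C y i) : Rl C x y := by
  refine ⟨h1, fun i => ?_⟩
  rw [dg_split C x i, dg_split C y i, h2 i,
    part_congr (C := Cᶜ) (fun c hc => h1 c (by simpa using hc)) i]

/-! ### the averages -/

theorem mem_cl {C : Finset (Sym2 V)} {x y : St V} : y ∈ cl C x ↔ Rl C x y := by
  classical
  simp [cl]

theorem cl_congr {C : Finset (Sym2 V)} {x y : St V} (h : Rl C x y) : cl C x = cl C y := by
  ext z
  rw [mem_cl, mem_cl]
  exact ⟨fun h' => rl_trans (rl_symm h) h', fun h' => rl_trans h h'⟩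

theorem card_cl_pos (C : Finset (Sym2 V)) (x : St V) : 0 < (cl C x).card :=
  Finset.card_pos.mpr ⟨x, mem_cl.mpr (rl_refl C x)⟩

theorem card_cl_ne (C : Finset (Sym2 V)) (x : St V) : ((cl C x).card : ℝ) ≠ 0 :=
  Nat.cast_ne_zero.mpr (card_cl_pos C x).ne'

theorem E_congr (C : Finset (Sym2 V)) (f : St V → ℝ) {x y : St V} (h : Rl C x y) :
    EC C f x = EC C f y := by
  unfold EC
  rw [cl_congr h]

theorem E_fix (C : Finset (Sym2 V)) (f : St V → ℝ) (x : St V)
    (h : ∀ y, Rl C x y → f y = f x) : EC C f x = f x := by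
  unfold EC
  rw [Finset.sum_congr rfl (fun y hy => h y (mem_cl.mp hy)), Finset.sum_const, nsmul_eq_mul,
    mul_comm, mul_div_assoc, div_self (card_cl_ne C x), mul_one]

theorem E_add (C : Finset (Sym2 V)) (f g : St V → ℝ) : EC C (f + g) = EC C f + EC C g := by
  funext x
  simp only [EC, Pi.add_apply, Finset.sum_add_distrib, add_div]

theorem E_sub (C : Finset (Sym2 V)) (f g : St V → ℝ) : EC C (f - g) = EC C f - EC C g := by
  funext x
  simp only [EC, Pi.sub_apply, Finset.sum_sub_distrib, sub_div]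

theorem E_smul (C : Finset (Sym2 V)) (c : ℝ) (f : St V → ℝ) : EC C (c • f) = c • EC C f := by
  funext x
  simp only [EC, Pi.smul_apply, smul_eq_mul, ← Finset.mul_sum, mul_div_assoc]

theorem E_symm (C : Finset (Sym2 V)) (f g : St V → ℝ) : ip (EC C f) g = ip f (EC C g) := by
  have h1 : ip (EC C f) g = ∑ x, ∑ y ∈ cl C x, f y * g x / ((cl C x).card : ℝ) := by
    unfold ip EC
    refine Finset.sum_congr rfl (fun x _ => ?_)
    rw [div_mul_eq_mul_div, Finset.sum_mul, Finset.sum_div]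
  have h2 : ip f (EC C g) = ∑ y, ∑ x ∈ cl C y, f y * g x / ((cl C y).card : ℝ) := by
    unfold ip EC
    refine Finset.sum_congr rfl (fun x _ => ?_)
    rw [← mul_div_assoc, Finset.mul_sum, Finset.sum_div]
  rw [h1, h2, Finset.sum_comm' (t' := univ) (s' := fun y => cl C y)]
  · refine Finset.sum_congr rfl (fun y _ => Finset.sum_congr rfl (fun x hx => ?_))
    rw [cl_congr (mem_cl.mp hx)]
  · intro x y
    rw [mem_cl, mem_cl]
    exact ⟨fun h => ⟨rl_symm h.2, Finset.mem_univ _⟩, fun h => ⟨Finset.mem_univ _, rl_symm h.1⟩⟩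

theorem E_tower1 {C C' : Finset (Sym2 V)} (f : St V → ℝ) (h : C ⊆ C') :
    EC C (EC C' f) = EC C' f := by
  funext x
  exact E_fix C (EC C' f) x (fun y hy => E_congr C' f (rl_symm (rl_mono h hy)))

theorem E_idem (C : Finset (Sym2 V)) (f : St V → ℝ) : EC C (EC C f) = EC C f :=
  E_tower1 f (Finset.Subset.refl C)

theorem ip_comm (f g : St V → ℝ) : ip f g = ip g f := by
  unfold ip
  exact Finset.sum_congr rfl (fun x _ => mul_comm _ _)

theorem ip_single (f : St V → ℝ) (x : St V) :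
    ip f (fun y => if y = x then 1 else 0) = f x := by
  unfold ip
  rw [Finset.sum_eq_single x]
  · simp
  · intro y _ hy
    simp [hy]
  · intro h
    exact absurd (Finset.mem_univ x) h

theorem ip_ext {f g : St V → ℝ} (h : ∀ k, ip f k = ip g k) : f = g := by
  funext x
  have := h (fun y => if y = x then 1 else 0)
  rwa [ip_single, ip_single] at this

theorem E_tower2 {C C' : Finset (Sym2 V)} (f : St V → ℝ) (h : C ⊆ C') :
    EC C' (EC C f) = EC C' f := by
  refine ip_ext (fun k => ?_)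
  rw [E_symm, E_symm, E_tower1 k h, ← E_symm]

theorem E_mul (C : Finset (Sym2 V)) (w f : St V → ℝ) (h : ∀ x y, Rl C x y → w x = w y) :
    EC C (fun x => w x * f x) = fun x => w x * EC C f x := by
  funext x
  unfold EC
  rw [← mul_div_assoc, Finset.mul_sum]
  congr 1
  refine Finset.sum_congr rfl (fun y hy => ?_)
  rw [h x y (mem_cl.mp hy)]

theorem E_sq (C : Finset (Sym2 V)) (f : St V → ℝ) : ip (EC C f) (EC C f) ≤ ip f f := by
  have h1 : ip (EC C f) (EC C f) = ip f (EC C f) := by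
    rw [E_symm, E_idem]
  have h2 : 0 ≤ ip (f - EC C f) (f - EC C f) := by
    unfold ip
    exact Finset.sum_nonneg (fun x _ => mul_self_nonneg _)
  have h3 : ip (f - EC C f) (f - EC C f) =
      ip f f - 2 * ip f (EC C f) + ip (EC C f) (EC C f) := by
    unfold ip
    rw [Finset.mul_sum, ← Finset.sum_sub_distrib, ← Finset.sum_add_distrib]
    refine Finset.sum_congr rfl (fun x _ => ?_)
    simp only [Pi.sub_apply]
    ring
  linarith

theorem E_one (C : Finset (Sym2 V)) : EC C (fun _ => (1 : ℝ)) = fun _ => 1 := by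
  funext x
  exact E_fix C _ x (fun _ _ => rfl)

theorem E_sum (C : Finset (Sym2 V)) (f : St V → ℝ) : ∑ x, EC C f x = ∑ x, f x := by
  have h := E_symm C f (fun _ => 1)
  rw [E_one] at h
  unfold ip at h
  simpa using h

/-! ### disjoint cell sets commute -/

/-- cells `C` of `z`, the rest of `x` -/
def mix (C : Finset (Sym2 V)) (z x : St V) : St V := fun c => if c ∈ C then z c else x c

theorem mix_mem {C : Finset (Sym2 V)} (z x : St V) {c : Sym2 V} (h : c ∈ C) :
    mix C z x c = z c := by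
  simp [mix, h]

theorem mix_not {C : Finset (Sym2 V)} (z x : St V) {c : Sym2 V} (h : c ∉ C) :
    mix C z x c = x c := by
  simp [mix, h]

theorem mix_rel1 {C C' : Finset (Sym2 V)} (hd : Disjoint C' C) {x y z : St V}
    (h1 : Rl C' x y) (h2 : Rl C y z) : Rl C x (mix C z x) := by
  have hx : ∀ c ∈ C, x c = y c := fun c hc =>
    h1.1 c (fun hs => Finset.disjoint_left.mp hd hs hc)
  refine rl_of_part (fun c hc => (mix_not z x hc).symm) (fun i => ?_)
  rw [part_congr hx i, part_rl h2 i]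
  exact part_congr (fun c hc => (mix_mem z x hc).symm) i

theorem mix_rel2 {C C' : Finset (Sym2 V)} (hd : Disjoint C' C) {x y z : St V}
    (h1 : Rl C' x y) (h2 : Rl C y z) : Rl C' (mix C z x) z := by
  have h3 := mix_rel1 hd h1 h2
  refine ⟨fun c hc => ?_, fun i => ?_⟩
  · by_cases hT : c ∈ C
    · exact mix_mem z x hT
    · rw [mix_not z x hT, h1.1 c hc, h2.1 c hT]
  · exact ((h3.2 i).symm.trans (h1.2 i)).trans (h2.2 i)

theorem mix_eq {C C' : Finset (Sym2 V)} (hd : Disjoint C' C) {x y z : St V}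
    (h1 : Rl C' x y) (h2 : Rl C y z) : mix C' z x = y := by
  funext c
  by_cases hS : c ∈ C'
  · rw [mix_mem z x hS]
    exact (h2.1 c (Finset.disjoint_left.mp hd hS)).symm
  · rw [mix_not z x hS]
    exact h1.1 c hS

theorem mix_back {C : Finset (Sym2 V)} {y z : St V} (x : St V) (h : Rl C y z) :
    mix C (mix C z x) y = z := by
  funext c
  by_cases hT : c ∈ C
  · rw [mix_mem _ y hT, mix_mem z x hT]
  · rw [mix_not _ y hT]
    exact h.1 c hT

theorem card_eq {C C' : Finset (Sym2 V)} (hd : Disjoint C' C) {x y : St V} (h1 : Rl C' x y) :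
    (cl C y).card = (cl C x).card := by
  refine Finset.card_bij' (fun z _ => mix C z x) (fun z _ => mix C z y) ?_ ?_ ?_ ?_
  · intro z hz
    exact mem_cl.mpr (mix_rel1 hd h1 (mem_cl.mp hz))
  · intro z hz
    exact mem_cl.mpr (mix_rel1 hd (rl_symm h1) (mem_cl.mp hz))
  · intro z hz
    exact mix_back x (mem_cl.mp hz)
  · intro z hz
    exact mix_back y (mem_cl.mp hz)

theorem sum_eq {C C' : Finset (Sym2 V)} (hd : Disjoint C' C) (f : St V → ℝ) (x : St V) :
    ∑ y ∈ cl C' x, ∑ z ∈ cl C y, f z = ∑ y ∈ cl C x, ∑ z ∈ cl C' y, f z := by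
  rw [Finset.sum_sigma', Finset.sum_sigma']
  refine Finset.sum_bij' (fun p _ => (⟨mix C p.2 x, p.2⟩ : Σ _ : St V, St V))
    (fun p _ => (⟨mix C' p.2 x, p.2⟩ : Σ _ : St V, St V)) ?_ ?_ ?_ ?_ ?_
  · rintro ⟨y, z⟩ h
    rw [Finset.mem_sigma, mem_cl, mem_cl] at h ⊢
    exact ⟨mix_rel1 hd h.1 h.2, mix_rel2 hd h.1 h.2⟩
  · rintro ⟨y, z⟩ h
    rw [Finset.mem_sigma, mem_cl, mem_cl] at h ⊢
    exact ⟨mix_rel1 hd.symm h.1 h.2, mix_rel2 hd.symm h.1 h.2⟩
  · rintro ⟨y, z⟩ h
    rw [Finset.mem_sigma, mem_cl, mem_cl] at h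
    have e := mix_eq hd h.1 h.2
    simp only at e ⊢
    rw [e]
  · rintro ⟨y, z⟩ h
    rw [Finset.mem_sigma, mem_cl, mem_cl] at h
    have e := mix_eq hd.symm h.1 h.2
    simp only at e ⊢
    rw [e]
  · rintro ⟨y, z⟩ _
    rfl

theorem E_E {C C' : Finset (Sym2 V)} (hd : Disjoint C' C) (f : St V → ℝ) (x : St V) :
    EC C' (EC C f) x =
      (∑ y ∈ cl C' x, ∑ z ∈ cl C y, f z) / (((cl C' x).card : ℝ) * ((cl C x).card : ℝ)) := by
  have h1 : ∀ y ∈ cl C' x, EC C f y = (∑ z ∈ cl C y, f z) / ((cl C x).card : ℝ) := by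
    intro y hy
    unfold EC
    rw [card_eq hd (mem_cl.mp hy)]
  rw [EC, Finset.sum_congr rfl h1, ← Finset.sum_div, div_div, mul_comm]

theorem E_comm {C C' : Finset (Sym2 V)} (f : St V → ℝ) (hd : Disjoint C C') :
    EC C (EC C' f) = EC C' (EC C f) := by
  funext x
  rw [E_E hd f x, E_E hd.symm f x, sum_eq hd f x, mul_comm]

end

theorem eoph_proof : EOPH where
  rl_refl := fun _ _ _ C x => rl_refl C x
  rl_symm := fun _ _ _ _ _ _ h => rl_symm h
  rl_trans := fun _ _ _ _ _ _ _ h h' => rl_trans h h'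
  rl_mono := fun _ _ _ _ _ _ _ h h' => rl_mono h h'
  E_congr := fun _ _ _ C f _ _ h => E_congr C f h
  E_fix := fun _ _ _ C f x h => E_fix C f x h
  E_add := fun _ _ _ C f g => E_add C f g
  E_sub := fun _ _ _ C f g => E_sub C f g
  E_smul := fun _ _ _ C c f => E_smul C c f
  E_symm := fun _ _ _ C f g => E_symm C f g
  E_idem := fun _ _ _ C f => E_idem C f
  E_tower := fun _ _ _ _ _ f h => ⟨E_tower1 f h, E_tower2 f h⟩
  E_comm := fun _ _ _ _ _ f h => E_comm f h
  E_mul := fun _ _ _ C w f h => E_mul C w f h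
  E_sq := fun _ _ _ C f => E_sq C f
  E_sum := fun _ _ _ C f => E_sum C f

end Vale.Agent.P335.H.Heops
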