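import Vale.Agent.P335.HMods

/-!
P335, general simple graphs, module HGAP: the gap of the pair resampling generator.
-/

set_option linter.unusedSectionVars false

namespace Vale.Agent.P335.H.Hgap

open Finset

section gen

variable {X : Type} [Fintype X]

lemma ip_comm (f g : X → ℝ) : ip f g = ip g f := by
  unfold ip
  exact Finset.sum_congr rfl fun x _ => by ring

lemma ip_sub_right (f g h : X → ℝ) : ip f (g - h) = ip f g - ip f h := by
  unfold ip
  rw [← Finset.sum_sub_distrib]
  exact Finset.sum_congr rfl fun x _ => by rw [Pi.sub_apply]; ring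

lemma ip_sub_left (f g h : X → ℝ) : ip (f - g) h = ip f h - ip g h := by
  rw [ip_comm, ip_sub_right, ip_comm h f, ip_comm h g]

lemma ip_smul_right (c : ℝ) (f g : X → ℝ) : ip f (fun x => c * g x) = c * ip f g := by
  unfold ip
  rw [Finset.mul_sum]
  exact Finset.sum_congr rfl fun x _ => by ring

lemma ip_smul_left (c : ℝ) (f g : X → ℝ) : ip (fun x => c * f x) g = c * ip f g := by
  rw [ip_comm, ip_smul_right, ip_comm]

lemma ip_sum_right {ι : Type} (s : Finset ι) (f : X → ℝ) (g : ι → X → ℝ) :
    ip f (fun x => ∑ i ∈ s, g i x) = ∑ i ∈ s, ip f (g i) := by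
  unfold ip
  rw [Finset.sum_comm]
  exact Finset.sum_congr rfl fun x _ => by rw [Finset.mul_sum]

lemma ip_self_nonneg (f : X → ℝ) : 0 ≤ ip f f :=
  Finset.sum_nonneg fun x _ => mul_self_nonneg _

lemma ip_self_eq_zero {f : X → ℝ} (h : ip f f = 0) : f = 0 := by
  unfold ip at h
  rw [Finset.sum_eq_zero_iff_of_nonneg fun x _ => mul_self_nonneg _] at h
  funext x
  exact mul_self_eq_zero.mp (h x (Finset.mem_univ x))

end gen

section
variable {V : Type} [Fintype V] [DecidableEq V]

lemma Pe_eq (e : Finset V) (f : St V → ℝ) : Pe e f = f - EC (cut e eᶜ) f := rfl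

lemma ip_Pe_symm (hE : EOPH) (e : Finset V) (f g : St V → ℝ) :
    ip (Pe e f) g = ip f (Pe e g) := by
  rw [Pe_eq, Pe_eq, ip_sub_left, ip_sub_right, hE.E_symm]

lemma Pe_idem (hE : EOPH) (e : Finset V) (f : St V → ℝ) : Pe e (Pe e f) = Pe e f := by
  rw [Pe_eq e f, Pe_eq, hE.E_sub, hE.E_idem, sub_self, sub_zero]

lemma ip_Pe_self (hE : EOPH) (e : Finset V) (f : St V → ℝ) :
    ip f (Pe e f) = ip (Pe e f) (Pe e f) := by
  rw [ip_Pe_symm hE, Pe_idem hE]

lemma RH_eq (T : Finset V) (f : St V → ℝ) :
    RH T f = fun x => ∑ e ∈ T.powersetCard 2, Pe e f x := rfl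

lemma ip_RH (T : Finset V) (f g : St V → ℝ) :
    ip f (RH T g) = ∑ e ∈ T.powersetCard 2, ip f (Pe e g) := by
  rw [RH_eq, ip_sum_right]

lemma cut_mono {e e' : Finset V} (h : Disjoint e e') : cut e e' ⊆ cut e eᶜ := by
  unfold cut
  refine Finset.image_subset_image (Finset.product_subset_product_right ?_)
  intro a ha
  rw [Finset.mem_compl]
  exact fun ha' => Finset.disjoint_left.mp h ha' ha

/-- half of `RH univ` as a linear map -/
noncomputable def TL (V : Type) [Fintype V] [DecidableEq V] (hE : EOPH) :
    (St V → ℝ) →ₗ[ℝ] (St V → ℝ) where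
  toFun f := fun x => (1 / 2) * RH univ f x
  map_add' f g := by
    funext x
    rw [Pi.add_apply]
    unfold RH
    rw [← mul_add, ← Finset.sum_add_distrib]
    congr 1
    refine Finset.sum_congr rfl fun e _ => ?_
    unfold Pe
    rw [hE.E_add, Pi.add_apply, Pi.add_apply]
    ring
  map_smul' c f := by
    funext x
    rw [RingHom.id_apply, Pi.smul_apply, smul_eq_mul]
    unfold RH
    rw [Finset.mul_sum, Finset.mul_sum, Finset.mul_sum]
    refine Finset.sum_congr rfl fun e _ => ?_
    unfold Pe
    rw [hE.E_smul, Pi.smul_apply, Pi.smul_apply, smul_eq_mul, smul_eq_mul]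
    ring

lemma TL_eq (hE : EOPH) (f : St V → ℝ) : TL V hE f = fun x => (1 / 2) * RH univ f x := rfl

end

theorem hgap_proof (hE : EOPH) (hU : CUTS) (hG : HSQ) (hC : HCONN) (hS : SPEC2) : HGAP := by
  intro V _ _ f
  have key : ip (f - EC (offd V) f) (f - EC (offd V) f) ≤ ip f (TL V hE f) := by
    refine hS (St V) (TL V hE) (EC (offd V)) ?_ ?_ ?_ ?_ ?_ ?_ f
    · intro f g
      rw [TL_eq, TL_eq, ip_smul_left, ip_smul_right, ip_comm, ip_RH, ip_RH]
      congr 1
      refine Finset.sum_congr rfl fun e _ => ?_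
      rw [← ip_Pe_symm hE, ip_comm]
    · intro f
      rw [TL_eq, ip_smul_right, ip_RH]
      refine mul_nonneg (by norm_num) (Finset.sum_nonneg fun e _ => ?_)
      rw [ip_Pe_self hE]
      exact ip_self_nonneg _
    · intro f
      rw [TL_eq, ip_smul_right, ip_smul_right, ip_smul_left]
      have h := hG V f
      linarith
    · intro f
      rw [TL_eq]
      funext x
      have h0 : RH univ (EC (offd V) f) x = 0 := by
        unfold RH
        refine Finset.sum_eq_zero fun e _ => ?_
        unfold Pe
        rw [(hE.E_tower V (cut e eᶜ) (offd V) f (hU.offd V e eᶜ disjoint_compl_right)).1,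
          sub_self]
      change (1 / 2 : ℝ) * RH univ (EC (offd V) f) x = 0
      rw [h0, mul_zero]
    · intro f hf
      rw [TL_eq] at hf
      have h1 : ip f (RH univ f) = 0 := by
        have h2 : ip f (fun x => (1 / 2) * RH univ f x) = 0 := by
          rw [hf]
          unfold ip
          exact Finset.sum_eq_zero fun x _ => by rw [Pi.zero_apply, mul_zero]
        rw [ip_smul_right] at h2
        linarith
      rw [ip_RH] at h1
      have h2 : ∀ e ∈ (univ : Finset V).powersetCard 2, ip f (Pe e f) = 0 := by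
        rw [Finset.sum_eq_zero_iff_of_nonneg] at h1
        · exact h1
        · intro e _
          rw [ip_Pe_self hE]
          exact ip_self_nonneg _
      have h3 : ∀ e ∈ (univ : Finset V).powersetCard 2, EC (cut e eᶜ) f = f := by
        intro e he
        have h4 := h2 e he
        rw [ip_Pe_self hE] at h4
        have h5 := ip_self_eq_zero h4
        rw [Pe_eq] at h5
        exact (sub_eq_zero.mp h5).symm
      funext x
      refine hE.E_fix V (offd V) f x ?_
      intro y hxy
      refine (hC V f ?_ x y hxy).symm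
      intro e e' a b he he' hd hab
      have h6 : e ∈ (univ : Finset V).powersetCard 2 := by
        rw [Finset.mem_powersetCard]
        exact ⟨Finset.subset_univ _, he⟩
      have h8 := hE.E_congr V (cut e eᶜ) f a b (hE.rl_mono V _ _ a b (cut_mono hd) hab)
      rw [h3 _ h6] at h8
      exact h8
    · intro f g
      exact hE.E_symm V (offd V) f g
  rw [TL_eq, ip_smul_right] at key
  linarith

end Vale.Agent.P335.H.Hgap
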