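import Vale.Agent.P335.HMods

/-!
P335, general graphs, module HPERE (helper16): transfer of the Johnson scheme inequality to the
classes of a pair.
-/

set_option linter.unusedSectionVars false
set_option linter.unusedVariables false

namespace Vale.Agent.P335.H.Hpere

open Finset

section
variable {V : Type} [Fintype V] [DecidableEq V]

/-- state with `N` as neighbourhood of `i` inside `U`, its complement for `k` -/
def Phi (x : St V) (i k : V) (U N : Finset V) : St V := fun c =>
  if c ∈ U.image (fun v => s(i, v)) then decide (c ∈ N.image (fun v => s(i, v)))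
  else if c ∈ U.image (fun v => s(k, v)) then decide (c ∉ N.image (fun v => s(k, v)))
  else x c

theorem mem_im {i v : V} {N : Finset V} (hi : i ∉ N) :
    s(i, v) ∈ N.image (fun v => s(i, v)) ↔ v ∈ N := by
  constructor
  · intro h
    obtain ⟨w, hw, h⟩ := Finset.mem_image.1 h
    have h' := Sym2.eq_iff.1 h
    rcases h' with ⟨_, h2⟩ | ⟨h1, h2⟩
    · exact h2 ▸ hw
    · exact absurd (h2 ▸ hw) hi
  · intro h
    exact Finset.mem_image.2 ⟨v, h, rfl⟩

theorem notmem_im {i k v : V} {N : Finset V} (hik : i ≠ k) (hk : k ∉ N) :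
    s(k, v) ∉ N.image (fun v => s(i, v)) := by
  intro h
  obtain ⟨w, hw, h⟩ := Finset.mem_image.1 h
  have h' := Sym2.eq_iff.1 h
  rcases h' with ⟨h1, _⟩ | ⟨h1, h2⟩
  · exact hik h1
  · exact hk (h2 ▸ hw)

theorem Phi_i (x : St V) {i k v : V} {U N : Finset V} (hi : i ∉ U) (hN : N ⊆ U) (hv : v ∈ U) :
    Phi x i k U N s(i, v) = decide (v ∈ N) := by
  unfold Phi
  rw [if_pos ((mem_im hi).2 hv)]
  exact decide_eq_decide.2 (mem_im (fun h => hi (hN h)))

theorem Phi_k (x : St V) {i k v : V} {U N : Finset V} (hik : i ≠ k) (hk : k ∉ U)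
    (hN : N ⊆ U) (hv : v ∈ U) :
    Phi x i k U N s(k, v) = decide (v ∉ N) := by
  unfold Phi
  rw [if_neg (notmem_im hik hk), if_pos ((mem_im hk).2 hv)]
  exact decide_eq_decide.2 (not_congr (mem_im (fun h => hk (hN h))))

theorem Phi_o (x : St V) {i k : V} {U N : Finset V} {c : Sym2 V}
    (h1 : c ∉ U.image (fun v => s(i, v))) (h2 : c ∉ U.image (fun v => s(k, v))) :
    Phi x i k U N c = x c := by
  unfold Phi
  rw [if_neg h1, if_neg h2]

theorem dg_sum (x : St V) (i : V) : dg x i = ∑ j ∈ univ.erase i, (x s(i, j)).toNat := by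
  unfold dg
  rw [Finset.card_filter]
  rw [← Finset.sum_erase_add _ _ (Finset.mem_univ i)]
  simp only [ne_eq, not_true_eq_false, false_and, if_false, add_zero]
  refine Finset.sum_congr rfl (fun j hj => ?_)
  have hj' : j ≠ i := Finset.ne_of_mem_erase hj
  by_cases h : x s(i, j) = true
  · simp [h, hj']
  · simp [h, hj']

theorem mem_cut {e W : Finset V} {a b : V} :
    s(a, b) ∈ cut e W ↔ (a ∈ e ∧ b ∈ W) ∨ (b ∈ e ∧ a ∈ W) := by
  unfold cut
  constructor
  · intro h
    obtain ⟨⟨p, q⟩, hp, h⟩ := Finset.mem_image.1 h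
    rw [Finset.mem_product] at hp
    rcases Sym2.eq_iff.1 h with ⟨h1, h2⟩ | ⟨h1, h2⟩
    · left; exact ⟨h1 ▸ hp.1, h2 ▸ hp.2⟩
    · right; exact ⟨h1 ▸ hp.1, h2 ▸ hp.2⟩
  · rintro (⟨h1, h2⟩ | ⟨h1, h2⟩)
    · exact Finset.mem_image.2 ⟨(a, b), Finset.mem_product.2 ⟨h1, h2⟩, rfl⟩
    · exact Finset.mem_image.2 ⟨(b, a), Finset.mem_product.2 ⟨h1, h2⟩, Sym2.eq_swap⟩

/-- degrees and sums over the cells of a cut -/
theorem deg_col {i k v : V} {W : Finset V} (hik : i ≠ k) (hi : i ∉ W) (hk : k ∉ W) (hv : v ∈ W)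
    {x y : St V} (h : ∀ c, c ∉ cut {i, k} W → x c = y c) :
    dg x v = dg y v ↔ (x s(i, v)).toNat + (x s(k, v)).toNat =
      (y s(i, v)).toNat + (y s(k, v)).toNat := by
  rw [dg_sum, dg_sum]
  have hiv : i ≠ v := fun h => hi (h ▸ hv)
  have hkv : k ≠ v := fun h => hk (h ▸ hv)
  have h1 : i ∈ (univ : Finset V).erase v := Finset.mem_erase.2 ⟨hiv, Finset.mem_univ _⟩
  have h2 : k ∈ ((univ : Finset V).erase v).erase i :=
    Finset.mem_erase.2 ⟨hik.symm, Finset.mem_erase.2 ⟨hkv, Finset.mem_univ _⟩⟩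
  have hsum : ∀ z : St V, ∑ j ∈ univ.erase v, (z s(v, j)).toNat =
      ∑ j ∈ ((univ.erase v).erase i).erase k, (z s(v, j)).toNat +
        ((z s(i, v)).toNat + (z s(k, v)).toNat) := by
    intro z
    rw [← Finset.sum_erase_add _ _ h1, ← Finset.sum_erase_add _ _ h2,
      Sym2.eq_swap (a := v) (b := i), Sym2.eq_swap (a := v) (b := k)]
    ring
  rw [hsum x, hsum y]
  have he : ∑ j ∈ ((univ.erase v).erase i).erase k, (x s(v, j)).toNat =
      ∑ j ∈ ((univ.erase v).erase i).erase k, (y s(v, j)).toNat := by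
    refine Finset.sum_congr rfl (fun j hj => ?_)
    have hjk : j ≠ k := Finset.ne_of_mem_erase hj
    have hji : j ≠ i := Finset.ne_of_mem_erase (Finset.mem_of_mem_erase hj)
    rw [h]
    intro hc
    rcases mem_cut.1 hc with ⟨h1, _⟩ | ⟨h1, _⟩
    · rcases Finset.mem_insert.1 h1 with h1 | h1
      · exact hiv h1.symm
      · exact hkv (Finset.mem_singleton.1 h1).symm
    · rcases Finset.mem_insert.1 h1 with h1 | h1
      · exact hji h1
      · exact hjk (Finset.mem_singleton.1 h1)
  rw [he]
  omega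

theorem deg_row {i : V} {e W : Finset V} (hie : i ∈ e) (hd : Disjoint e W)
    {x y : St V} (h : ∀ c, c ∉ cut e W → x c = y c) :
    dg x i = dg y i ↔ ∑ v ∈ W, (x s(i, v)).toNat = ∑ v ∈ W, (y s(i, v)).toNat := by
  rw [dg_sum, dg_sum]
  have hi : i ∉ W := Finset.disjoint_left.1 hd hie
  have hWs : W ⊆ univ.erase i := fun v hv =>
    Finset.mem_erase.2 ⟨fun h => hi (h ▸ hv), Finset.mem_univ _⟩
  rw [← Finset.sum_sdiff hWs, ← Finset.sum_sdiff hWs]
  have he : ∑ j ∈ univ.erase i \ W, (x s(i, j)).toNat =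
      ∑ j ∈ univ.erase i \ W, (y s(i, j)).toNat := by
    refine Finset.sum_congr rfl (fun j hj => ?_)
    rw [Finset.mem_sdiff] at hj
    rw [h]
    intro hc
    rcases mem_cut.1 hc with ⟨_, h1⟩ | ⟨_, h1⟩
    · exact hj.2 h1
    · exact hi h1
  rw [he]
  omega

/-- the relation `Rl (cut e W)` in coordinates -/
theorem rl_iff {i k : V} {W : Finset V} (hik : i ≠ k) (hi : i ∉ W) (hk : k ∉ W) {x y : St V} :
    Rl (cut {i, k} W) x y ↔ (∀ c, c ∉ cut {i, k} W → x c = y c) ∧
      (∀ v ∈ W, (x s(i, v)).toNat + (x s(k, v)).toNat =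
        (y s(i, v)).toNat + (y s(k, v)).toNat) ∧
      ∑ v ∈ W, (x s(i, v)).toNat = ∑ v ∈ W, (y s(i, v)).toNat := by
  have hd : Disjoint ({i, k} : Finset V) W := by
    rw [Finset.disjoint_left]
    intro a ha
    rcases Finset.mem_insert.1 ha with ha | ha
    · exact ha ▸ hi
    · exact (Finset.mem_singleton.1 ha) ▸ hk
  constructor
  · rintro ⟨h1, h2⟩
    exact ⟨h1, fun v hv => (deg_col hik hi hk hv h1).1 (h2 v),
      (deg_row (by simp) hd h1).1 (h2 i)⟩
  · rintro ⟨h1, h2, h3⟩
    refine ⟨h1, fun j => ?_⟩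
    by_cases hj : j ∈ W
    · exact (deg_col hik hi hk hj h1).2 (h2 j hj)
    by_cases hji : j = i
    · subst hji
      exact (deg_row (by simp) hd h1).2 h3
    by_cases hjk : j = k
    · subst hjk
      refine (deg_row (by simp) hd h1).2 ?_
      have h4 : ∑ v ∈ W, ((x s(i, v)).toNat + (x s(j, v)).toNat) =
          ∑ v ∈ W, ((y s(i, v)).toNat + (y s(j, v)).toNat) :=
        Finset.sum_congr rfl h2
      rw [Finset.sum_add_distrib, Finset.sum_add_distrib] at h4
      omega
    · rw [dg_sum, dg_sum]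
      refine Finset.sum_congr rfl (fun l _ => ?_)
      rw [h1]
      intro hc
      rcases mem_cut.1 hc with ⟨h1, _⟩ | ⟨_, h1⟩
      · rcases Finset.mem_insert.1 h1 with h1 | h1
        · exact hji h1
        · exact hjk (Finset.mem_singleton.1 h1)
      · exact hj h1

/-! ### the class of `x` -/

/-- the set where the rows of `i` and `k` differ -/
def Uof (x : St V) (i k : V) : Finset V :=
  univ.filter (fun v => v ≠ i ∧ v ≠ k ∧ x s(i, v) ≠ x s(k, v))

/-- neighbours of `i` in `U` -/
def Nof (y : St V) (i : V) (U : Finset V) : Finset V := U.filter (fun v => y s(i, v) = true)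

theorem Nof_sub (y : St V) (i : V) (U : Finset V) : Nof y i U ⊆ U := Finset.filter_subset _ _

theorem iU (x : St V) (i k : V) : i ∉ Uof x i k := by simp [Uof]
theorem kU (x : St V) (i k : V) : k ∉ Uof x i k := by simp [Uof]

/-- a state in the class of `x` is `Phi` of its neighbourhood -/
theorem eq_Phi {i k : V} (hik : i ≠ k) {x y : St V} (h : Rl (cut {i, k} ({i, k} : Finset V)ᶜ) x y) :
    y = Phi x i k (Uof x i k) (Nof y i (Uof x i k)) := by
  rw [rl_iff hik (by simp) (by simp)] at h
  obtain ⟨h1, h2, h3⟩ := h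
  have hcol : ∀ v, v ≠ i → v ≠ k → (x s(i, v)).toNat + (x s(k, v)).toNat =
        (y s(i, v)).toNat + (y s(k, v)).toNat := by
    intro v hvi hvk
    exact h2 v (by simp [hvi, hvk])
  funext c
  by_cases hc1 : c ∈ (Uof x i k).image (fun v => s(i, v))
  · obtain ⟨v, hv, rfl⟩ := Finset.mem_image.1 hc1
    rw [Phi_i x (iU x i k) (Nof_sub _ _ _) hv]
    unfold Nof
    simp only [Finset.mem_filter, hv, true_and]
    cases y s(i, v) <;> simp
  by_cases hc2 : c ∈ (Uof x i k).image (fun v => s(k, v))
  · obtain ⟨v, hv, rfl⟩ := Finset.mem_image.1 hc2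
    rw [Phi_k x hik (kU x i k) (Nof_sub _ _ _) hv]
    unfold Nof
    simp only [Finset.mem_filter, hv, true_and]
    have hv' := hv
    simp only [Uof, Finset.mem_filter, Finset.mem_univ, true_and] at hv'
    have := hcol v hv'.1 hv'.2.1
    have h5 := hv'.2.2
    revert this h5
    cases x s(i, v) <;> cases x s(k, v) <;> cases y s(i, v) <;> cases y s(k, v) <;> simp
  · rw [Phi_o x hc1 hc2]
    by_cases hc : c ∈ cut {i, k} ({i, k} : Finset V)ᶜ
    · unfold cut at hc
      obtain ⟨⟨a, v⟩, hp, rfl⟩ := Finset.mem_image.1 hc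
      rw [Finset.mem_product] at hp
      have hv := hp.2
      simp only [Finset.mem_compl, Finset.mem_insert, Finset.mem_singleton, not_or] at hv
      have hvU : v ∉ Uof x i k := by
        intro hvU
        rcases Finset.mem_insert.1 hp.1 with ha | ha
        · exact hc1 (Finset.mem_image.2 ⟨v, hvU, by simp only at ha; rw [ha]⟩)
        · have ha := Finset.mem_singleton.1 ha
          exact hc2 (Finset.mem_image.2 ⟨v, hvU, by simp only at ha; rw [ha]⟩)
      have heq : x s(i, v) = x s(k, v) := by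
        by_contra hne
        exact hvU (by simp [Uof, hv.1, hv.2, hne])
      have := hcol v hv.1 hv.2
      have hya : y s(i, v) = x s(i, v) ∧ y s(k, v) = x s(k, v) := by
        revert this heq
        cases x s(i, v) <;> cases x s(k, v) <;> cases y s(i, v) <;> cases y s(k, v) <;> simp
      rcases Finset.mem_insert.1 hp.1 with ha | ha
      · simp only at ha
        subst ha
        exact hya.1
      · have ha := Finset.mem_singleton.1 ha
        simp only at ha
        subst ha
        exact hya.2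
    · exact (h1 c hc).symm

theorem Phi_toNat_i (x : St V) {i k v : V} {N : Finset V} (hN : N ⊆ Uof x i k) (hvi : v ≠ i)
    (hik : i ≠ k) :
    (Phi x i k (Uof x i k) N s(i, v)).toNat =
      if v ∈ Uof x i k then (if v ∈ N then 1 else 0) else (x s(i, v)).toNat := by
  by_cases hv : v ∈ Uof x i k
  · rw [Phi_i x (iU x i k) hN hv, if_pos hv]
    by_cases h : v ∈ N <;> simp [h]
  · rw [if_neg hv, Phi_o]
    · rw [mem_im (iU x i k)]
      exact hv
    · exact notmem_im hik.symm (iU x i k)

/-- relation between `Phi` of two sets -/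
theorem rl_Phi {i k : V} (hik : i ≠ k) {x : St V} {W N N' : Finset V} (hi : i ∉ W) (hk : k ∉ W)
    (hN : N ⊆ Uof x i k) (hN' : N' ⊆ Uof x i k) (hcard : N.card = N'.card) :
    Rl (cut {i, k} W) (Phi x i k (Uof x i k) N) (Phi x i k (Uof x i k) N') ↔
      N' \ W = N \ W := by
  rw [rl_iff hik hi hk]
  constructor
  · rintro ⟨h1, _, _⟩
    ext v
    rw [Finset.mem_sdiff, Finset.mem_sdiff]
    constructor
    · rintro ⟨hv, hvW⟩
      refine ⟨?_, hvW⟩
      have hvU := hN' hv
      have h := h1 s(i, v) (by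
        intro hc
        rcases mem_cut.1 hc with ⟨_, h⟩ | ⟨_, h⟩
        · exact hvW h
        · exact hi h)
      rw [Phi_i x (iU x i k) hN hvU, Phi_i x (iU x i k) hN' hvU] at h
      simpa [hv] using h
    · rintro ⟨hv, hvW⟩
      refine ⟨?_, hvW⟩
      have hvU := hN hv
      have h := h1 s(i, v) (by
        intro hc
        rcases mem_cut.1 hc with ⟨_, h⟩ | ⟨_, h⟩
        · exact hvW h
        · exact hi h)
      rw [Phi_i x (iU x i k) hN hvU, Phi_i x (iU x i k) hN' hvU] at h
      simpa [hv] using h.symm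
  · intro hW
    have hmem : ∀ v, v ∉ W → (v ∈ N' ↔ v ∈ N) := by
      intro v hv
      have := Finset.ext_iff.1 hW v
      simpa [hv] using this
    refine ⟨?_, ?_, ?_⟩
    · intro c hc
      by_cases hc1 : c ∈ (Uof x i k).image (fun v => s(i, v))
      · obtain ⟨v, hv, rfl⟩ := Finset.mem_image.1 hc1
        rw [Phi_i x (iU x i k) hN hv, Phi_i x (iU x i k) hN' hv]
        have hvW : v ∉ W := fun h => hc (mem_cut.2 (Or.inl ⟨by simp, h⟩))
        simp [hmem v hvW]
      by_cases hc2 : c ∈ (Uof x i k).image (fun v => s(k, v))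
      · obtain ⟨v, hv, rfl⟩ := Finset.mem_image.1 hc2
        rw [Phi_k x hik (kU x i k) hN hv, Phi_k x hik (kU x i k) hN' hv]
        have hvW : v ∉ W := fun h => hc (mem_cut.2 (Or.inl ⟨by simp, h⟩))
        simp [hmem v hvW]
      · rw [Phi_o x hc1 hc2, Phi_o x hc1 hc2]
    · intro v hv
      by_cases hvU : v ∈ Uof x i k
      · rw [Phi_i x (iU x i k) hN hvU, Phi_i x (iU x i k) hN' hvU,
          Phi_k x hik (kU x i k) hN hvU, Phi_k x hik (kU x i k) hN' hvU]
        by_cases h1 : v ∈ N <;> by_cases h2 : v ∈ N' <;> simp [h1, h2]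
      · rw [Phi_o x (by rw [mem_im (iU x i k)]; exact hvU) (notmem_im hik.symm (iU x i k)),
          Phi_o x (by rw [mem_im (iU x i k)]; exact hvU) (notmem_im hik.symm (iU x i k)),
          Phi_o x (notmem_im hik (kU x i k)) (by rw [mem_im (kU x i k)]; exact hvU),
          Phi_o x (notmem_im hik (kU x i k)) (by rw [mem_im (kU x i k)]; exact hvU)]
    · have key : ∀ M : Finset V, M ⊆ Uof x i k →
          ∑ v ∈ W, (Phi x i k (Uof x i k) M s(i, v)).toNat =
            (M ∩ W).card + ∑ v ∈ W, (if v ∈ Uof x i k then 0 else (x s(i, v)).toNat) := by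
        intro M hM
        have h1 : (M ∩ W).card = ∑ v ∈ W, (if v ∈ M then 1 else 0) := by
          rw [Finset.sum_ite_mem, Finset.inter_comm]
          simp
        rw [h1, ← Finset.sum_add_distrib]
        refine Finset.sum_congr rfl (fun v hv => ?_)
        rw [Phi_toNat_i x hM (fun h => hi (h ▸ hv)) hik]
        by_cases hvU : v ∈ Uof x i k
        · simp [hvU]
        · have : v ∉ M := fun h => hvU (hM h)
          simp [hvU, this]
      rw [key N hN, key N' hN']
      have h1 := Finset.card_sdiff_add_card_inter N W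
      have h2 := Finset.card_sdiff_add_card_inter N' W
      rw [hW] at h2
      omega

theorem Phi_inj {i k : V} {x : St V} {N N' : Finset V}
    (hN : N ⊆ Uof x i k) (hN' : N' ⊆ Uof x i k)
    (h : Phi x i k (Uof x i k) N = Phi x i k (Uof x i k) N') : N = N' := by
  ext v
  by_cases hv : v ∈ Uof x i k
  · have := congrFun h s(i, v)
    rw [Phi_i x (iU x i k) hN hv, Phi_i x (iU x i k) hN' hv] at this
    simpa using this
  · exact ⟨fun h => absurd (hN h) hv, fun h => absurd (hN' h) hv⟩

theorem Nof_card {i k : V} (hik : i ≠ k) {x y : St V}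
    (h : Rl (cut {i, k} ({i, k} : Finset V)ᶜ) x y) :
    (Nof y i (Uof x i k)).card = (Nof x i (Uof x i k)).card := by
  have h' := h
  rw [rl_iff hik (by simp) (by simp)] at h
  obtain ⟨h1, h2, h3⟩ := h
  have key : ∀ z : St V, (Nof z i (Uof x i k)).card =
      ∑ v ∈ Uof x i k, (z s(i, v)).toNat := by
    intro z
    unfold Nof
    rw [Finset.card_filter]
    refine Finset.sum_congr rfl (fun v _ => ?_)
    cases z s(i, v) <;> rfl
  rw [key, key]
  have hs : Uof x i k ⊆ ({i, k} : Finset V)ᶜ := by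
    intro v hv
    simp only [Uof, Finset.mem_filter, Finset.mem_univ, true_and] at hv
    simp [hv.1, hv.2.1]
  rw [← Finset.sum_sdiff hs, ← Finset.sum_sdiff hs] at h3
  have he : ∑ v ∈ ({i, k} : Finset V)ᶜ \ Uof x i k, (x s(i, v)).toNat =
      ∑ v ∈ ({i, k} : Finset V)ᶜ \ Uof x i k, (y s(i, v)).toNat := by
    refine Finset.sum_congr rfl (fun v hv => ?_)
    rw [Finset.mem_sdiff] at hv
    have hy := eq_Phi hik h'
    rw [hy, Phi_o x (by rw [mem_im (iU x i k)]; exact hv.2)
      (notmem_im hik.symm (iU x i k))]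
  omega

theorem Nof_mem (y : St V) (i : V) (U : Finset V) {a : ℕ} (h : (Nof y i U).card = a) :
    Nof y i U ∈ U.powersetCard a := Finset.mem_powersetCard.2 ⟨Nof_sub _ _ _, h⟩

/-- `x` itself -/
theorem Phi_self {i k : V} (hik : i ≠ k) (x : St V) :
    Phi x i k (Uof x i k) (Nof x i (Uof x i k)) = x :=
  (eq_Phi hik ⟨fun _ _ => rfl, fun _ => rfl⟩).symm

/-- all the `Phi` are in the class of `x` -/
theorem Phi_rl {i k : V} (hik : i ≠ k) {x : St V} {N : Finset V}
    (hN : N ∈ (Uof x i k).powersetCard (Nof x i (Uof x i k)).card) :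
    Rl (cut {i, k} ({i, k} : Finset V)ᶜ) x (Phi x i k (Uof x i k) N) := by
  rw [Finset.mem_powersetCard] at hN
  have h := (rl_Phi hik (x := x) (W := ({i, k} : Finset V)ᶜ) (by simp) (by simp)
    (Nof_sub x i (Uof x i k)) hN.1 hN.2.symm).2 (by
      have h1 : ∀ M : Finset V, M ⊆ Uof x i k → M \ ({i, k} : Finset V)ᶜ = ∅ := by
        intro M hM
        rw [Finset.sdiff_eq_empty_iff_subset]
        intro v hv
        have := hM hv
        simp only [Uof, Finset.mem_filter, Finset.mem_univ, true_and] at this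
        simp [this.1, this.2.1]
      rw [h1 _ hN.1, h1 _ (Nof_sub x i (Uof x i k))])
  rwa [Phi_self hik x] at h

open Classical in
/-- the classes in coordinates -/
theorem cl_Phi {i k : V} (hik : i ≠ k) {x : St V} {W N : Finset V} (hi : i ∉ W) (hk : k ∉ W)
    (hN : N ∈ (Uof x i k).powersetCard (Nof x i (Uof x i k)).card) :
    cl (cut {i, k} W) (Phi x i k (Uof x i k) N) =
      (((Uof x i k).powersetCard (Nof x i (Uof x i k)).card).filter
        (fun N' => N' \ W = N \ W)).image (Phi x i k (Uof x i k)) := by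
  have hsub : cut {i, k} W ⊆ cut {i, k} ({i, k} : Finset V)ᶜ := by
    intro c hc
    unfold cut at hc ⊢
    obtain ⟨⟨a, b⟩, hp, rfl⟩ := Finset.mem_image.1 hc
    rw [Finset.mem_product] at hp
    refine Finset.mem_image.2 ⟨(a, b), Finset.mem_product.2 ⟨hp.1, ?_⟩, rfl⟩
    simp only [Finset.mem_compl, Finset.mem_insert, Finset.mem_singleton, not_or]
    exact ⟨fun h => hi (h ▸ hp.2), fun h => hk (h ▸ hp.2)⟩
  have hN' := Finset.mem_powersetCard.1 hN
  ext z
  unfold cl
  rw [Finset.mem_filter, Finset.mem_image]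
  constructor
  · rintro ⟨_, hz⟩
    have hxz : Rl (cut {i, k} ({i, k} : Finset V)ᶜ) x z := by
      have h1 := Phi_rl hik hN
      exact ⟨fun c hc => (h1.1 c hc).trans (hz.1 c (fun h => hc (hsub h))),
        fun j => (h1.2 j).trans (hz.2 j)⟩
    refine ⟨Nof z i (Uof x i k), ?_, (eq_Phi hik hxz).symm⟩
    rw [Finset.mem_filter]
    refine ⟨Nof_mem _ _ _ (Nof_card hik hxz), ?_⟩
    rw [eq_Phi hik hxz] at hz
    exact (rl_Phi hik hi hk hN'.1 (Nof_sub _ _ _) (hN'.2.trans (Nof_card hik hxz).symm)).1 hz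
  · rintro ⟨M, hM, rfl⟩
    rw [Finset.mem_filter] at hM
    have hM' := Finset.mem_powersetCard.1 hM.1
    exact ⟨Finset.mem_univ _, (rl_Phi hik hi hk hN'.1 hM'.1 (hN'.2.trans hM'.2.symm)).2 hM.2⟩

theorem Phi_injOn (x : St V) (i k : V) (a : ℕ) (p : Finset V → Prop) [DecidablePred p] :
    Set.InjOn (Phi x i k (Uof x i k)) ↑(((Uof x i k).powersetCard a).filter p) := by
  intro N hN N' hN' h
  rw [Finset.mem_coe, Finset.mem_filter] at hN hN'
  exact Phi_inj (Finset.mem_powersetCard.1 hN.1).1 (Finset.mem_powersetCard.1 hN'.1).1 h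

/-- averages in coordinates -/
theorem EC_Phi {i k : V} (hik : i ≠ k) {x : St V} {W N : Finset V} (hi : i ∉ W) (hk : k ∉ W)
    (hN : N ∈ (Uof x i k).powersetCard (Nof x i (Uof x i k)).card) (F : St V → ℝ) :
    EC (cut {i, k} W) F (Phi x i k (Uof x i k) N) =
      (∑ N' ∈ ((Uof x i k).powersetCard (Nof x i (Uof x i k)).card).filter
        (fun N' => N' \ W = N \ W), F (Phi x i k (Uof x i k) N')) /
      ((((Uof x i k).powersetCard (Nof x i (Uof x i k)).card).filter
        (fun N' => N' \ W = N \ W)).card : ℝ) := by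
  classical
  unfold EC
  rw [cl_Phi hik hi hk hN, Finset.sum_image (by
      intro a ha b hb h
      exact Phi_injOn x i k _ _ ha hb h), Finset.card_image_of_injOn (Phi_injOn x i k _ _)]

/-- the pair of states -/
theorem filt_pair {U N p : Finset V} {a : ℕ} (hN : N ∈ U.powersetCard a)
    (hp : p ∈ U.powersetCard 2) (h1 : (N ∩ p).card = 1) :
    (U.powersetCard a).filter (fun N' => N' \ p = N \ p) = {N, symmDiff N p} ∧
      N ≠ symmDiff N p ∧ symmDiff N p ∈ U.powersetCard a ∧ (symmDiff N p ∩ p).card = 1 := by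
  rw [Finset.mem_powersetCard] at hN hp
  obtain ⟨u, v, huv, rfl⟩ := Finset.card_eq_two.1 hp.2
  have hmem : (u ∈ N ∧ v ∉ N) ∨ (u ∉ N ∧ v ∈ N) := by
    by_cases hu : u ∈ N
    · by_cases hv : v ∈ N
      · exfalso
        have : N ∩ {u, v} = {u, v} := by
          ext w; simp only [Finset.mem_inter, Finset.mem_insert, Finset.mem_singleton]
          constructor
          · exact fun h => h.2
          · intro h
            refine ⟨?_, h⟩
            rcases h with h | h
            · exact h ▸ hu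
            · exact h ▸ hv
        rw [this, Finset.card_pair huv] at h1
        omega
      · exact Or.inl ⟨hu, hv⟩
    · by_cases hv : v ∈ N
      · exact Or.inr ⟨hu, hv⟩
      · exfalso
        have : N ∩ {u, v} = ∅ := by
          ext w; simp only [Finset.mem_inter, Finset.mem_insert, Finset.mem_singleton,
            Finset.notMem_empty, iff_false, not_and, not_or]
          intro hw
          exact ⟨fun h => hu (h ▸ hw), fun h => hv (h ▸ hw)⟩
        rw [this] at h1
        simp at h1
  have hcard : ∀ M : Finset V, (M ∩ {u, v}).card =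
      (if u ∈ M then 1 else 0) + (if v ∈ M then 1 else 0) := by
    intro M
    have : M ∩ {u, v} = ({u, v} : Finset V).filter (fun w => w ∈ M) := by
      ext w
      simp only [Finset.mem_inter, Finset.mem_filter]
      tauto
    rw [this, Finset.card_filter, Finset.sum_pair huv]
  have hsd : symmDiff N {u, v} \ {u, v} = N \ {u, v} := by
    ext w
    simp only [Finset.mem_sdiff, Finset.mem_symmDiff, Finset.mem_insert, Finset.mem_singleton]
    tauto
  have hc1 : (symmDiff N {u, v} ∩ {u, v}).card = 1 := by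
    rw [hcard]
    simp only [Finset.mem_symmDiff, Finset.mem_insert, Finset.mem_singleton]
    rcases hmem with ⟨h, h'⟩ | ⟨h, h'⟩ <;> simp [h, h']
  have hc2 : (symmDiff N {u, v}).card = a := by
    have h3 := Finset.card_sdiff_add_card_inter N {u, v}
    have h4 := Finset.card_sdiff_add_card_inter (symmDiff N {u, v}) {u, v}
    rw [hsd] at h4
    omega
  refine ⟨?_, ?_, ?_, hc1⟩
  · ext M
    rw [Finset.mem_filter, Finset.mem_powersetCard, Finset.mem_insert, Finset.mem_singleton]
    constructor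
    · rintro ⟨⟨hM1, hM2⟩, hM3⟩
      have hw : ∀ w, w ≠ u → w ≠ v → (w ∈ M ↔ w ∈ N) := by
        intro w h1 h2
        have := Finset.ext_iff.1 hM3 w
        simpa [h1, h2] using this
      have hMc : (M ∩ {u, v}).card = 1 := by
        have h3 := Finset.card_sdiff_add_card_inter N {u, v}
        have h4 := Finset.card_sdiff_add_card_inter M {u, v}
        rw [hM3] at h4
        omega
      rw [hcard] at hMc
      have hM' : (u ∈ M ∧ v ∉ M) ∨ (u ∉ M ∧ v ∈ M) := by
        by_cases hu : u ∈ M <;> by_cases hv : v ∈ M <;> simp [hu, hv] at hMc ⊢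
      rcases hmem with ⟨h3, h4⟩ | ⟨h3, h4⟩ <;> rcases hM' with ⟨h5, h6⟩ | ⟨h5, h6⟩
      · left
        ext w
        by_cases hwu : w = u
        · subst hwu; simp [h3, h5]
        by_cases hwv : w = v
        · subst hwv; simp [h4, h6]
        exact hw w hwu hwv
      · right
        ext w
        rw [Finset.mem_symmDiff]
        by_cases hwu : w = u
        · subst hwu; simp [h3, h5]
        by_cases hwv : w = v
        · subst hwv; simp [h4, h6]
        simp [hw w hwu hwv, hwu, hwv]
      · right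
        ext w
        rw [Finset.mem_symmDiff]
        by_cases hwu : w = u
        · subst hwu; simp [h3, h5]
        by_cases hwv : w = v
        · subst hwv; simp [h4, h6]
        simp [hw w hwu hwv, hwu, hwv]
      · left
        ext w
        by_cases hwu : w = u
        · subst hwu; simp [h3, h5]
        by_cases hwv : w = v
        · subst hwv; simp [h4, h6]
        exact hw w hwu hwv
    · rintro (rfl | rfl)
      · exact ⟨⟨hN.1, hN.2⟩, rfl⟩
      · refine ⟨⟨?_, hc2⟩, hsd⟩
        intro w hw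
        rw [Finset.mem_symmDiff] at hw
        rcases hw with ⟨hw, _⟩ | ⟨hw, _⟩
        · exact hN.1 hw
        · exact hp.1 hw
  · intro h
    have := Finset.ext_iff.1 h u
    rw [Finset.mem_symmDiff] at this
    simp at this
  · rw [Finset.mem_powersetCard]
    refine ⟨?_, hc2⟩
    intro w hw
    rw [Finset.mem_symmDiff] at hw
    rcases hw with ⟨hw, _⟩ | ⟨hw, _⟩
    · exact hN.1 hw
    · exact hp.1 hw

/-! ### alternation -/

theorem alt_Phi {i k : V} (hik : i ≠ k) {x : St V} {N p : Finset V} (hN : N ⊆ Uof x i k)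
    (hp : p ∈ (Uof x i k).powersetCard 2) :
    Alt {i, k} p (Phi x i k (Uof x i k) N) ↔ (N ∩ p).card = 1 := by
  rw [Finset.mem_powersetCard] at hp
  have hi' : ∀ b ∈ p, (Phi x i k (Uof x i k) N s(i, b) = true ↔ b ∈ N) := by
    intro b hb
    rw [Phi_i x (iU x i k) hN (hp.1 hb)]
    simp
  have hk' : ∀ b ∈ p, (Phi x i k (Uof x i k) N s(k, b) = true ↔ b ∉ N) := by
    intro b hb
    rw [Phi_k x hik (kU x i k) hN (hp.1 hb)]
    simp
  have h1 : (p.filter (fun b => Phi x i k (Uof x i k) N s(i, b) = true)).card = (N ∩ p).card := by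
    congr 1
    ext b
    simp only [Finset.mem_filter, Finset.mem_inter]
    constructor
    · rintro ⟨h, h'⟩
      exact ⟨(hi' b h).1 h', h⟩
    · rintro ⟨h, h'⟩
      exact ⟨h', (hi' b h').2 h⟩
  have h2 : (p.filter (fun b => Phi x i k (Uof x i k) N s(k, b) = true)).card = (p \ N).card := by
    congr 1
    ext b
    simp only [Finset.mem_filter, Finset.mem_sdiff]
    constructor
    · rintro ⟨h, h'⟩
      exact ⟨h, (hk' b h).1 h'⟩
    · rintro ⟨h, h'⟩
      exact ⟨h, (hk' b h).2 h'⟩
  have h3 := Finset.card_sdiff_add_card_inter p N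
  rw [Finset.inter_comm p N] at h3
  unfold Alt
  constructor
  · rintro ⟨h, _⟩
    have := h i (by simp)
    rw [h1] at this
    exact this
  · intro h
    refine ⟨?_, ?_⟩
    · intro a ha
      rcases Finset.mem_insert.1 ha with rfl | ha
      · rw [h1]; exact h
      · rw [Finset.mem_singleton] at ha
        subst ha
        rw [h2]
        omega
    · intro b hb
      rw [Finset.card_filter, Finset.sum_pair hik]
      by_cases hbN : b ∈ N
      · rw [if_pos ((hi' b hb).2 hbN), if_neg (fun h => (hk' b hb).1 h hbN)]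
      · rw [if_neg (fun h => hbN ((hi' b hb).1 h)), if_pos ((hk' b hb).2 hbN)]

theorem not_alt {i k : V} (hik : i ≠ k) {x : St V} {N p : Finset V} (hN : N ⊆ Uof x i k)
    (hp : p ⊆ ({i, k} : Finset V)ᶜ) (hpU : ¬ p ⊆ Uof x i k) :
    ¬ Alt {i, k} p (Phi x i k (Uof x i k) N) := by
  rw [Finset.not_subset] at hpU
  obtain ⟨b, hb, hbU⟩ := hpU
  intro h
  have h1 := h.2 b hb
  have hb' := hp hb
  simp only [Finset.mem_compl, Finset.mem_insert, Finset.mem_singleton, not_or] at hb'
  rw [Finset.card_filter, Finset.sum_pair hik,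
    Phi_o x (by rw [mem_im (iU x i k)]; exact hbU) (notmem_im hik.symm (iU x i k)),
    Phi_o x (notmem_im hik (kU x i k)) (by rw [mem_im (kU x i k)]; exact hbU)] at h1
  have heq : x s(i, b) = x s(k, b) := by
    by_contra hne
    exact hbU (by simp [Uof, hb'.1, hb'.2, hne])
  rw [heq] at h1
  by_cases h2 : x s(k, b) = true
  · simp [h2] at h1
  · simp [h2] at h1

/-! ### the terms -/

/-- the average over the pair -/
theorem EC_pair {i k : V} (hik : i ≠ k) {x : St V} {N p : Finset V}
    (hN : N ∈ (Uof x i k).powersetCard (Nof x i (Uof x i k)).card)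
    (hp : p ∈ (Uof x i k).powersetCard 2) (h1 : (N ∩ p).card = 1) (F : St V → ℝ) :
    EC (cut {i, k} p) F (Phi x i k (Uof x i k) N) =
      (F (Phi x i k (Uof x i k) N) + F (Phi x i k (Uof x i k) (symmDiff N p))) / 2 := by
  have hp' := Finset.mem_powersetCard.1 hp
  rw [EC_Phi hik (fun h => iU x i k (hp'.1 h)) (fun h => kU x i k (hp'.1 h)) hN]
  obtain ⟨h2, h3, h4, h5⟩ := filt_pair hN hp h1
  rw [h2, Finset.sum_pair h3, Finset.card_pair h3]
  norm_num

/-- `TT` in coordinates -/
theorem TT_Phi {i k : V} (hik : i ≠ k) {x : St V} {N p : Finset V}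
    (hN : N ∈ (Uof x i k).powersetCard (Nof x i (Uof x i k)).card)
    (hp : p ∈ (Uof x i k).powersetCard 2) (h1 : (N ∩ p).card = 1) (f : St V → ℝ) :
    TT {i, k} p f (Phi x i k (Uof x i k) N) =
      (∑ M ∈ ((Uof x i k).powersetCard (Nof x i (Uof x i k)).card).filter
        (fun M => (M ∩ p).card = 1), Pe {i, k} f (Phi x i k (Uof x i k) M)) /
      ((((Uof x i k).powersetCard (Nof x i (Uof x i k)).card).filter
        (fun M => (M ∩ p).card = 1)).card : ℝ) := by
  have hp' := Finset.mem_powersetCard.1 hp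
  have hNs := (Finset.mem_powersetCard.1 hN).1
  unfold TT cutA
  rw [EC_Phi hik (by simp) (by simp) hN]
  set P := (Uof x i k).powersetCard (Nof x i (Uof x i k)).card with hP
  set g : Finset V → ℝ := fun M => Pe {i, k} f (Phi x i k (Uof x i k) M) with hg
  -- the filter
  have hf : P.filter (fun N' => N' \ (({i, k} : Finset V) ∪ p)ᶜ = N \ (({i, k} : Finset V) ∪ p)ᶜ) =
      P.filter (fun N' => N' ∩ p = N ∩ p) := by
    refine Finset.filter_congr (fun M hM => ?_)
    have hMs := (Finset.mem_powersetCard.1 hM).1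
    have key : ∀ K : Finset V, K ⊆ Uof x i k → K \ (({i, k} : Finset V) ∪ p)ᶜ = K ∩ p := by
      intro K hK
      ext w
      simp only [Finset.mem_sdiff, Finset.mem_compl, Finset.mem_union, Finset.mem_insert,
        Finset.mem_singleton, Finset.mem_inter, not_not]
      constructor
      · rintro ⟨hw, (hw' | hw') | hw'⟩
        · exact absurd (hw' ▸ hK hw) (iU x i k)
        · exact absurd (hw' ▸ hK hw) (kU x i k)
        · exact ⟨hw, hw'⟩
      · exact fun h => ⟨h.1, Or.inr h.2⟩
    rw [key M hMs, key N hNs]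
  rw [hf]
  -- numerators
  have hnum : ∀ M ∈ P.filter (fun N' => N' ∩ p = N ∩ p),
      EC (cut {i, k} p) (Pe {i, k} f) (Phi x i k (Uof x i k) M) =
        (g M + g (symmDiff M p)) / 2 := by
    intro M hM
    rw [Finset.mem_filter] at hM
    exact EC_pair hik hM.1 hp (by rw [hM.2]; exact h1) _
  rw [Finset.sum_congr rfl hnum]
  -- split the other filter
  have hsplit : P.filter (fun M => (M ∩ p).card = 1) =
      P.filter (fun N' => N' ∩ p = N ∩ p) ∪
        (P.filter (fun N' => N' ∩ p = N ∩ p)).image (fun M => symmDiff M p) := by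
    ext M
    rw [Finset.mem_union, Finset.mem_image, Finset.mem_filter]
    constructor
    · rintro ⟨hM, hMc⟩
      obtain ⟨h2, h3, h4, h5⟩ := filt_pair hM hp hMc
      by_cases hMN : M ∩ p = N ∩ p
      · left
        exact Finset.mem_filter.2 ⟨hM, hMN⟩
      · right
        refine ⟨symmDiff M p, Finset.mem_filter.2 ⟨h4, ?_⟩, symmDiff_symmDiff_cancel_right _ _⟩
        obtain ⟨u, v, huv, hpuv⟩ := Finset.card_eq_two.1 hp'.2
        have hsd : symmDiff M p ∩ p = p \ M := by
          ext w
          simp only [Finset.mem_inter, Finset.mem_symmDiff, Finset.mem_sdiff]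
          tauto
        rw [hsd]
        obtain ⟨a, ha⟩ := Finset.card_eq_one.1 hMc
        obtain ⟨b, hb⟩ := Finset.card_eq_one.1 h1
        have hab : a ≠ b := by
          intro hab
          exact hMN (by rw [ha, hb, hab])
        have hap : a ∈ M ∩ p := by rw [ha]; simp
        have hbp : b ∈ N ∩ p := by rw [hb]; simp
        rw [Finset.mem_inter] at hap hbp
        have hpab : p = {a, b} := by
          symm
          apply Finset.eq_of_subset_of_card_le
          · intro w hw
            rcases Finset.mem_insert.1 hw with rfl | hw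
            · exact hap.2
            · rw [Finset.mem_singleton] at hw
              rw [hw]; exact hbp.2
          · rw [hp'.2, Finset.card_pair hab]
        rw [hb]
        ext w
        rw [Finset.mem_sdiff, Finset.mem_singleton]
        constructor
        · rintro ⟨hw1, hw2⟩
          rw [hpab] at hw1
          rcases Finset.mem_insert.1 hw1 with rfl | hw1
          · exact absurd hap.1 hw2
          · exact Finset.mem_singleton.1 hw1
        · intro hw
          rw [hw]
          refine ⟨hbp.2, fun hbM => ?_⟩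
          have : b ∈ M ∩ p := Finset.mem_inter.2 ⟨hbM, hbp.2⟩
          rw [ha, Finset.mem_singleton] at this
          exact hab this.symm
    · rintro (hM | ⟨K, hK, rfl⟩)
      · rw [Finset.mem_filter] at hM
        exact ⟨hM.1, by rw [hM.2]; exact h1⟩
      · rw [Finset.mem_filter] at hK
        obtain ⟨h2, h3, h4, h5⟩ := filt_pair hK.1 hp (by rw [hK.2]; exact h1)
        exact ⟨h4, h5⟩
  have hinj : Set.InjOn (fun M : Finset V => symmDiff M p)
      ↑(P.filter (fun N' => N' ∩ p = N ∩ p)) := by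
    intro a _ b _ hab
    exact symmDiff_left_injective p hab
  have hdisj : Disjoint (P.filter (fun N' => N' ∩ p = N ∩ p))
      ((P.filter (fun N' => N' ∩ p = N ∩ p)).image (fun M => symmDiff M p)) := by
    rw [Finset.disjoint_left]
    intro M hM hM'
    obtain ⟨K, hK, hKM⟩ := Finset.mem_image.1 hM'
    rw [Finset.mem_filter] at hM hK
    have hsd : symmDiff K p ∩ p = p \ K := by
      ext w
      simp only [Finset.mem_inter, Finset.mem_symmDiff, Finset.mem_sdiff]
      tauto
    rw [← hKM, hsd] at hM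
    obtain ⟨b, hb⟩ := Finset.card_eq_one.1 h1
    have hb1 : b ∈ p \ K := by rw [hM.2, hb]; simp
    have hb2 : b ∈ K ∩ p := by rw [hK.2, hb]; simp
    exact (Finset.mem_sdiff.1 hb1).2 (Finset.mem_inter.1 hb2).1
  rw [hsplit, Finset.sum_union hdisj, Finset.card_union_of_disjoint hdisj,
    Finset.sum_image (fun a ha b hb h => hinj ha hb h), Finset.card_image_of_injOn hinj,
    ← Finset.sum_add_distrib, ← Finset.sum_div]
  push_cast
  rw [div_div]
  congr 1
  ring

/-- average over the whole class in coordinates -/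
theorem EC_full {i k : V} (hik : i ≠ k) {x : St V} {N : Finset V}
    (hN : N ∈ (Uof x i k).powersetCard (Nof x i (Uof x i k)).card) (F : St V → ℝ) :
    EC (cut {i, k} ({i, k} : Finset V)ᶜ) F (Phi x i k (Uof x i k) N) =
      (∑ N' ∈ (Uof x i k).powersetCard (Nof x i (Uof x i k)).card,
        F (Phi x i k (Uof x i k) N')) /
      (((Uof x i k).powersetCard (Nof x i (Uof x i k)).card).card : ℝ) := by
  rw [EC_Phi hik (by simp) (by simp) hN]
  have h1 : ∀ M : Finset V, M ⊆ Uof x i k → M \ ({i, k} : Finset V)ᶜ = ∅ := by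
    intro M hM
    rw [Finset.sdiff_eq_empty_iff_subset]
    intro v hv
    have := hM hv
    simp only [Uof, Finset.mem_filter, Finset.mem_univ, true_and] at this
    simp [this.1, this.2.1]
  have hf : ((Uof x i k).powersetCard (Nof x i (Uof x i k)).card).filter
      (fun N' => N' \ ({i, k} : Finset V)ᶜ = N \ ({i, k} : Finset V)ᶜ) =
      (Uof x i k).powersetCard (Nof x i (Uof x i k)).card := by
    refine Finset.filter_true_of_mem (fun M hM => ?_)
    rw [h1 M (Finset.mem_powersetCard.1 hM).1, h1 N (Finset.mem_powersetCard.1 hN).1]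
  rw [hf]

theorem main (he : EOPH) (hj : JOHN) (e : Finset V) (f : St V → ℝ) (hec : e.card = 2) :
    ip (Pe e f) (Pe e f) ≤ ∑ e' ∈ (eᶜ : Finset V).powersetCard 2,
    (ip (Ps e e' f) (Ps e e' f) - ∑ x, ind (Alt e e' x) * (TT e e' f x) ^ 2) := by
  classical
  obtain ⟨i, k, hik, rfl⟩ := Finset.card_eq_two.1 hec
  set e : Finset V := {i, k} with hedef
  set F : St V → ℝ := fun y => (Pe e f y) ^ 2 with hF
  set G : St V → ℝ := fun y => ∑ e' ∈ (eᶜ : Finset V).powersetCard 2,
    ((Ps e e' f y) ^ 2 - ind (Alt e e' y) * (TT e e' f y) ^ 2) with hG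
  have h1 : ip (Pe e f) (Pe e f) = ∑ x, EC (cut e eᶜ) F x := by
    rw [he.E_sum]
    unfold ip
    exact Finset.sum_congr rfl (fun x _ => by rw [hF]; ring)
  have h2 : ∑ e' ∈ (eᶜ : Finset V).powersetCard 2,
      (ip (Ps e e' f) (Ps e e' f) - ∑ x, ind (Alt e e' x) * (TT e e' f x) ^ 2) =
      ∑ x, EC (cut e eᶜ) G x := by
    rw [he.E_sum, hG, Finset.sum_comm]
    refine Finset.sum_congr rfl (fun e' _ => ?_)
    unfold ip
    rw [← Finset.sum_sub_distrib]
    exact Finset.sum_congr rfl (fun x _ => by ring)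
  rw [h1, h2]
  refine Finset.sum_le_sum (fun x _ => ?_)
  -- coordinates
  set U := Uof x i k with hU
  set P := U.powersetCard (Nof x i U).card with hP
  have hNx : Nof x i U ∈ P := Nof_mem _ _ _ rfl
  have hPne : (P.card : ℝ) ≠ 0 := by
    have : P.card ≠ 0 := Finset.card_ne_zero_of_mem hNx
    exact_mod_cast this
  have hx : Phi x i k U (Nof x i U) = x := Phi_self hik x
  have hEC : ∀ H : St V → ℝ, EC (cut e eᶜ) H x = (∑ N' ∈ P, H (Phi x i k U N')) / (P.card : ℝ) := by
    intro H
    have := EC_full hik (x := x) hNx H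
    rw [← hU, hx] at this
    exact this
  rw [hEC, hEC]
  refine div_le_div_of_nonneg_right ?_ (Nat.cast_nonneg _)
  set g : Finset V → ℝ := fun N => Pe e f (Phi x i k U N) with hg
  have hgN : ∀ N ∈ P, g N = f (Phi x i k U N) - (∑ N' ∈ P, f (Phi x i k U N')) / (P.card : ℝ) := by
    intro N hN
    have h3 := EC_full hik hN f
    rw [← hedef, ← hU, ← hP] at h3
    show f (Phi x i k U N) - EC (cut e eᶜ) f (Phi x i k U N) = _
    rw [h3]
  have hg0 : ∑ N ∈ P, g N = 0 := by
    rw [Finset.sum_congr rfl hgN, Finset.sum_sub_distrib, Finset.sum_const, nsmul_eq_mul]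
    field_simp
    ring
  have hJ := hj V U (Nof x i U).card g hg0
  refine le_trans (le_of_eq ?_) (le_trans hJ ?_)
  · rfl
  -- the right hand side
  have hR : ∑ N ∈ P, G (Phi x i k U N) = ∑ p ∈ (eᶜ : Finset V).powersetCard 2, ∑ N ∈ P,
      ((Ps e p f (Phi x i k U N)) ^ 2 -
        ind (Alt e p (Phi x i k U N)) * (TT e p f (Phi x i k U N)) ^ 2) := by
    rw [hG, Finset.sum_comm]
  rw [hR]
  have hUe : U ⊆ eᶜ := by
    intro v hv
    simp only [hU, Uof, Finset.mem_filter, Finset.mem_univ, true_and] at hv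
    simp [hedef, hv.1, hv.2.1]
  have hsub : U.powersetCard 2 ⊆ (eᶜ : Finset V).powersetCard 2 := Finset.powersetCard_mono hUe
  refine le_trans ?_ (Finset.sum_le_sum_of_subset_of_nonneg hsub ?_)
  · refine Finset.sum_le_sum (fun p hp => ?_)
    have hsplit := Finset.sum_filter_add_sum_filter_not P (fun N => (N ∩ p).card = 1)
      (fun N => (Ps e p f (Phi x i k U N)) ^ 2 -
        ind (Alt e p (Phi x i k U N)) * (TT e p f (Phi x i k U N)) ^ 2)
    rw [← hsplit]
    have hnn : 0 ≤ ∑ N ∈ P.filter (fun N => ¬ (N ∩ p).card = 1),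
        ((Ps e p f (Phi x i k U N)) ^ 2 -
          ind (Alt e p (Phi x i k U N)) * (TT e p f (Phi x i k U N)) ^ 2) := by
      refine Finset.sum_nonneg (fun N hN => ?_)
      rw [Finset.mem_filter] at hN
      have hna : ¬ Alt e p (Phi x i k U N) := by
        intro h
        exact hN.2 ((alt_Phi hik (Finset.mem_powersetCard.1 hN.1).1 hp).1 h)
      unfold ind
      rw [if_neg hna]
      nlinarith [sq_nonneg (Ps e p f (Phi x i k U N))]
    refine le_trans (le_of_eq ?_) (le_add_of_nonneg_right hnn)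
    -- exact computation on the filter
    set Q := P.filter (fun N => (N ∩ p).card = 1) with hQ
    have hterm : ∀ N ∈ Q, (Ps e p f (Phi x i k U N)) ^ 2 -
        ind (Alt e p (Phi x i k U N)) * (TT e p f (Phi x i k U N)) ^ 2 =
        (1 / 4) * (g N - g (symmDiff N p)) ^ 2 - ((∑ M ∈ Q, g M) / (Q.card : ℝ)) ^ 2 := by
      intro N hN
      rw [hQ, Finset.mem_filter] at hN
      have ha : Alt e p (Phi x i k U N) :=
        (alt_Phi hik (Finset.mem_powersetCard.1 hN.1).1 hp).2 hN.2
      obtain ⟨k2, k3, k4, k5⟩ := filt_pair hN.1 hp hN.2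
      have hT := TT_Phi hik hN.1 hp hN.2 f
      have hPs : Ps e p f (Phi x i k U N) = (1 / 2) * (g N - g (symmDiff N p)) := by
        unfold Ps
        rw [hedef, EC_pair hik hN.1 hp hN.2, hgN N hN.1, hgN _ k4]
        ring
      unfold ind
      rw [if_pos ha, hPs, hedef, hT]
      ring
    rw [Finset.sum_congr rfl hterm, Finset.sum_sub_distrib, Finset.sum_const, nsmul_eq_mul,
      ← Finset.mul_sum]
    congr 1
    by_cases hQ0 : (Q.card : ℝ) = 0
    · rw [hQ0]; simp
    · field_simp
  · intro p hp hpU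
    refine Finset.sum_nonneg (fun N hN => ?_)
    have hp' := Finset.mem_powersetCard.1 hp
    have hna : ¬ Alt e p (Phi x i k U N) := by
      refine not_alt hik (Finset.mem_powersetCard.1 hN).1 hp'.1 (fun h => ?_)
      exact hpU (Finset.mem_powersetCard.2 ⟨h, hp'.2⟩)
    unfold ind
    rw [if_neg hna]
    nlinarith [sq_nonneg (Ps e p f (Phi x i k U N))]

end

theorem HPERE_proof (he : EOPH) (hj : JOHN) : HPERE := by
  intro V _ _ e f hec
  exact main he hj e f hec

end Vale.Agent.P335.H.Hpere
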