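import Vale.Agent.P335.HMods
import Vale.Agent.P335.Gpoin

/-!
P335, general simple graphs, module HPOIN: Poincare inequality for every degree vector.
-/

set_option linter.unusedSectionVars false

namespace Vale.Agent.P335.H.Hpoin

open Finset

open Classical in
/-- the cut-off function on states -/
noncomputable def cutF {n : ℕ} (d : Fin n → ℕ) (f : SimpleGraph (Fin n) → ℝ) (x : St (Fin n)) : ℝ :=
  if h : ∃ G, G ∈ Om d ∧ toSt G = x then
    f h.choose - (∑ H ∈ Om d, f H) / ((Om d).card : ℝ) else 0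

theorem cutF_st (hT : HSTs) {n : ℕ} (d : Fin n → ℕ) (f : SimpleGraph (Fin n) → ℝ)
    (G : SimpleGraph (Fin n)) (hG : G ∈ Om d) :
    cutF d f (toSt G) = f G - (∑ H ∈ Om d, f H) / ((Om d).card : ℝ) := by
  unfold cutF
  have h : ∃ H, H ∈ Om d ∧ toSt H = toSt G := ⟨G, hG, rfl⟩
  rw [dif_pos h]
  have : h.choose = G := hT.inj n h.choose_spec.2
  rw [this]

theorem cutF_zero {n : ℕ} (d : Fin n → ℕ) (f : SimpleGraph (Fin n) → ℝ) (x : St (Fin n))
    (h : ¬ ∃ G, G ∈ Om d ∧ toSt G = x) : cutF d f x = 0 := by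
  unfold cutF
  rw [dif_neg h]

theorem om_dg {n : ℕ} (hT : HSTs) (d : Fin n → ℕ) (G : SimpleGraph (Fin n)) (hG : G ∈ Om d)
    (x : St (Fin n)) (h : Rl (offd (Fin n)) (toSt G) x) : ∃ H, H ∈ Om d ∧ toSt H = x := by
  have hdiag : ∀ i, x s(i, i) = false := by
    intro i
    have h1 := h.1 s(i, i) (by unfold offd; simp)
    rw [← h1]; exact hT.diag n G i
  obtain ⟨H, hH⟩ := hT.surj n x hdiag
  refine ⟨H, ?_, hH⟩
  rw [hT.om n d G H hG, hH]
  exact h

/-- the average of the cut-off function vanishes -/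
theorem EC_cutF (hE : EOPH) (hT : HSTs) {n : ℕ} (d : Fin n → ℕ) (f : SimpleGraph (Fin n) → ℝ) :
    EC (offd (Fin n)) (cutF d f) = 0 := by
  classical
  funext x
  have hmem : ∀ y, y ∈ cl (offd (Fin n)) x ↔ Rl (offd (Fin n)) x y := by
    intro y; unfold cl; simp
  show (∑ y ∈ cl (offd (Fin n)) x, cutF d f y) / ((cl (offd (Fin n)) x).card : ℝ) = 0
  by_cases hx : ∃ G, G ∈ Om d ∧ toSt G = x
  · obtain ⟨G, hG, rfl⟩ := hx
    have h1 : ∑ y ∈ cl (offd (Fin n)) (toSt G), cutF d f y =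
        ∑ H ∈ Om d, (f H - (∑ H ∈ Om d, f H) / ((Om d).card : ℝ)) := by
      symm
      refine sum_bij (fun H _ => toSt H) ?_ ?_ ?_ ?_
      · intro H hH
        rw [hmem]
        exact (hT.om n d G H hG).mp hH
      · intro H _ H' _ h
        exact hT.inj n h
      · intro y hy
        rw [hmem] at hy
        obtain ⟨H, hH, h⟩ := om_dg hT d G hG y hy
        exact ⟨H, hH, h⟩
      · intro H hH
        exact (cutF_st hT d f H hH).symm
    rw [h1, sum_sub_distrib, sum_const, nsmul_eq_mul]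
    have h2 : ((Om d).card : ℝ) ≠ 0 := by
      have : 0 < (Om d).card := card_pos.mpr ⟨G, hG⟩
      exact_mod_cast this.ne'
    rw [mul_div_cancel₀ _ h2]
    simp
  · have h1 : ∑ y ∈ cl (offd (Fin n)) x, cutF d f y = 0 := by
      refine sum_eq_zero (fun y hy => ?_)
      apply cutF_zero
      rintro ⟨G, hG, h⟩
      apply hx
      rw [hmem] at hy
      apply om_dg hT d G hG x
      rw [h]
      exact hE.rl_symm _ _ _ _ hy
    rw [h1]; simp

/-- sum over states of functions supported on `Om d` -/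
theorem sum_st (hT : HSTs) {n : ℕ} (d : Fin n → ℕ) (Φ : St (Fin n) → ℝ)
    (h0 : ∀ x, (¬ ∃ G, G ∈ Om d ∧ toSt G = x) → Φ x = 0) :
    ∑ x, Φ x = ∑ G ∈ Om d, Φ (toSt G) := by
  classical
  have h1 : ∑ G ∈ Om d, Φ (toSt G) = ∑ x ∈ (Om d).image toSt, Φ x := by
    rw [sum_image (fun _ _ _ _ h => hT.inj n h)]
  rw [h1]
  symm
  apply sum_subset (subset_univ _)
  intro x _ hx
  apply h0
  rintro ⟨G, hG, h⟩
  exact hx (mem_image.mpr ⟨G, hG, h⟩)

/-- `Ps` of the cut-off function vanishes away from `Om d` -/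
theorem Ps_zero (hE : EOPH) (hT : HSTs) {n : ℕ} (d : Fin n → ℕ) (f : SimpleGraph (Fin n) → ℝ)
    (e e' : Finset (Fin n)) (hee : Disjoint e e') (hC : cut e e' ⊆ offd (Fin n))
    (x : St (Fin n)) (hx : ¬ ∃ G, G ∈ Om d ∧ toSt G = x) : Ps e e' (cutF d f) x = 0 := by
  classical
  unfold Ps
  have h1 : EC (cut e e') (cutF d f) x = cutF d f x := by
    apply hE.E_fix
    intro y hy
    rw [cutF_zero d f x hx, cutF_zero d f y]
    rintro ⟨G, hG, h⟩
    apply hx
    apply om_dg hT d G hG x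
    rw [h]
    exact hE.rl_mono _ _ _ _ _ hC (hE.rl_symm _ _ _ _ hy)
  rw [h1, sub_self]

theorem hpoin_proof (hE : EOPH) (hCU : CUTS) (hW : HSW) (hT : HSTs) (hQ : HQ) (hB : KBASs)
    (hq : QCARD) : HPOIN := by
  classical
  intro n d hn f
  set N4 : ℝ := (n : ℝ) * (n - 1) * (n - 2) * (n - 3) with hN4
  have hn4 : (4 : ℝ) ≤ n := by exact_mod_cast hn
  have hN0 : 0 < N4 := by
    rw [hN4]
    have h1 : (0 : ℝ) < n - 1 := by linarith
    have h2 : (0 : ℝ) < n - 2 := by linarith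
    have h3 : (0 : ℝ) < n - 3 := by linarith
    have h0 : (0 : ℝ) < n := by linarith
    positivity
  set F := cutF d f with hF
  have hw := hW (Fin n) F
  rw [EC_cutF hE hT d f] at hw
  -- left side
  have hl : ip (F - 0) (F - 0) =
      ∑ G ∈ Om d, (f G - (∑ H ∈ Om d, f H) / ((Om d).card : ℝ)) ^ 2 := by
    unfold ip
    rw [sum_st hT d (fun x => (F - 0) x * (F - 0) x)]
    · refine sum_congr rfl (fun G hG => ?_)
      have : (F - 0) (toSt G) = f G - (∑ H ∈ Om d, f H) / ((Om d).card : ℝ) := by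
        rw [sub_zero]; exact cutF_st hT d f G hG
      rw [this]; ring
    · intro x hx
      have : (F - 0) x = 0 := by rw [sub_zero]; exact cutF_zero d f x hx
      rw [this]; ring
  -- right side
  have hr : ∑ e ∈ (univ : Finset (Fin n)).powersetCard 2,
      ∑ e' ∈ (eᶜ : Finset (Fin n)).powersetCard 2, ip (Ps e e' F) (Ps e e' F) =
      (1 / 8) * ∑ G ∈ Om d, ∑ q ∈ Quad n, (f G - f (step G q)) ^ 2 := by
    have h1 : ∀ e ∈ (univ : Finset (Fin n)).powersetCard 2,
        ∀ e' ∈ (eᶜ : Finset (Fin n)).powersetCard 2,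
        ip (Ps e e' F) (Ps e e' F) = ∑ G ∈ Om d, (Ps e e' F (toSt G)) ^ 2 := by
      intro e _ e' he'
      have hdis : Disjoint e e' := by
        rw [mem_powersetCard] at he'
        rw [disjoint_left]
        intro v hv hv'
        exact (mem_compl.mp (he'.1 hv')) hv
      unfold ip
      rw [sum_st hT d (fun x => Ps e e' F x * Ps e e' F x)]
      · exact sum_congr rfl (fun G _ => by ring)
      · intro x hx
        rw [Ps_zero hE hT d f e e' hdis (hCU.offd _ e e' hdis) x hx]; ring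
    have h2 : ∑ e ∈ (univ : Finset (Fin n)).powersetCard 2,
        ∑ e' ∈ (eᶜ : Finset (Fin n)).powersetCard 2, ip (Ps e e' F) (Ps e e' F) =
        ∑ G ∈ Om d, ∑ e ∈ (univ : Finset (Fin n)).powersetCard 2,
        ∑ e' ∈ (eᶜ : Finset (Fin n)).powersetCard 2, (Ps e e' F (toSt G)) ^ 2 := by
      rw [sum_congr rfl (fun e he => sum_congr rfl (fun e' he' => h1 e he e' he'))]
      have h3 : ∀ e ∈ (univ : Finset (Fin n)).powersetCard 2,
          ∑ e' ∈ (eᶜ : Finset (Fin n)).powersetCard 2, ∑ G ∈ Om d, (Ps e e' F (toSt G)) ^ 2 =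
          ∑ G ∈ Om d, ∑ e' ∈ (eᶜ : Finset (Fin n)).powersetCard 2,
            (Ps e e' F (toSt G)) ^ 2 := fun e _ => sum_comm
      rw [sum_congr rfl h3, sum_comm]
    rw [h2, mul_sum]
    refine sum_congr rfl (fun G hG => ?_)
    have h4 := hQ n F G
    have h5 : ∑ q ∈ Quad n, (F (toSt G) - F (toSt (step G q))) ^ 2 =
        ∑ q ∈ Quad n, (f G - f (step G q)) ^ 2 := by
      refine sum_congr rfl (fun q hq' => ?_)
      have hst : step G q ∈ Om d := by
        have hk : Kn n G (step G q) ≠ 0 := by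
          unfold Kn
          apply div_ne_zero
          · rw [Nat.cast_ne_zero]
            apply (card_pos.mpr ⟨q, ?_⟩).ne'
            rw [mem_filter]
            exact ⟨hq', rfl⟩
          · rw [Nat.cast_ne_zero]
            exact (card_pos.mpr ⟨q, hq'⟩).ne'
        exact hB.closed n d G _ hk hG
      rw [hF, cutF_st hT d f G hG, cutF_st hT d f _ hst]
      ring
    rw [h5] at h4
    linarith
  rw [hl, hr] at hw
  -- the kernel side
  have hk : ∑ G ∈ Om d, ∑ H ∈ Om d, Kn n G H * (f G - f H) ^ 2 =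
      (1 / N4) * ∑ G ∈ Om d, ∑ q ∈ Quad n, (f G - f (step G q)) ^ 2 := by
    rw [mul_sum]
    exact sum_congr rfl (fun G hG => GPOINN.kn_sum hB hq n hn d f G hG)
  rw [hk]
  set A := ∑ G ∈ Om d, (f G - (∑ H ∈ Om d, f H) / ((Om d).card : ℝ)) ^ 2
  set B := ∑ G ∈ Om d, ∑ q ∈ Quad n, (f G - f (step G q)) ^ 2
  have h6 : A ≤ (1 / 16) * B := by linarith
  calc (4 / N4) * A ≤ (4 / N4) * ((1 / 16) * B) := mul_le_mul_of_nonneg_left h6 (by positivity)
    _ = 1 / 4 * (1 / N4 * B) := by ring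

end Vale.Agent.P335.H.Hpoin
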