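import Vale.Agent.P335.HMods

/-!
P335, general simple graphs, module HSQ: the square of the pair resampling generator.
-/

set_option linter.unusedSectionVars false

namespace Vale.Agent.P335.H.Hsq

open Finset

section gen

variable {X : Type} [Fintype X]

lemma ip_comm (f g : X → ℝ) : ip f g = ip g f := by
  unfold ip
  exact Finset.sum_congr rfl fun x _ => by ring

lemma ip_sub_right (f g h : X → ℝ) : ip f (g - h) = ip f g - ip f h := by
  unfold ip
  rw [← Finset.sum_sub_distrib]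
  exact Finset.sum_congr rfl fun x _ => by rw [Pi.sub_apply]; ring

lemma ip_sub_left (f g h : X → ℝ) : ip (f - g) h = ip f h - ip g h := by
  rw [ip_comm, ip_sub_right, ip_comm h f, ip_comm h g]

lemma ip_sum_right {ι : Type} (s : Finset ι) (f : X → ℝ) (g : ι → X → ℝ) :
    ip f (fun x => ∑ i ∈ s, g i x) = ∑ i ∈ s, ip f (g i) := by
  unfold ip
  rw [Finset.sum_comm]
  exact Finset.sum_congr rfl fun x _ => by rw [Finset.mul_sum]

end gen

section
variable {V : Type} [Fintype V] [DecidableEq V]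

lemma Pe_eq (e : Finset V) (f : St V → ℝ) : Pe e f = f - EC (cut e eᶜ) f := rfl

lemma ip_Pe_symm (hE : EOPH) (e : Finset V) (f g : St V → ℝ) :
    ip (Pe e f) g = ip f (Pe e g) := by
  rw [Pe_eq, Pe_eq, ip_sub_left, ip_sub_right, hE.E_symm]

lemma Pe_idem (hE : EOPH) (e : Finset V) (f : St V → ℝ) : Pe e (Pe e f) = Pe e f := by
  rw [Pe_eq e f, Pe_eq, hE.E_sub, hE.E_idem, sub_self, sub_zero]

lemma ip_Pe_self (hE : EOPH) (e : Finset V) (f : St V → ℝ) :
    ip f (Pe e f) = ip (Pe e f) (Pe e f) := by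
  rw [ip_Pe_symm hE, Pe_idem hE]

lemma ip_RH_RH (T : Finset V) (f : St V → ℝ) :
    ip (RH T f) (RH T f) =
      ∑ p ∈ T.powersetCard 2 ×ˢ T.powersetCard 2, ip (Pe p.1 f) (Pe p.2 f) := by
  have h1 : RH T f = fun x => ∑ e ∈ T.powersetCard 2, Pe e f x := rfl
  rw [sum_product, h1, ip_sum_right]
  rw [sum_comm]
  apply sum_congr rfl
  intro e _
  rw [ip_comm, ip_sum_right]
  apply sum_congr rfl
  intro e' _
  rw [ip_comm]

lemma ip_f_RH (hE : EOPH) (T : Finset V) (f : St V → ℝ) :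
    ip f (RH T f) = ∑ e ∈ T.powersetCard 2, ip (Pe e f) (Pe e f) := by
  have h1 : RH T f = fun x => ∑ e ∈ T.powersetCard 2, Pe e f x := rfl
  rw [h1, ip_sum_right]
  apply sum_congr rfl
  intro e _
  exact ip_Pe_self hE e f

lemma split {α : Type} [DecidableEq α] (s : Finset α) (G : α × α → ℝ) :
    ∑ p ∈ s ×ˢ s, G p = ∑ a ∈ s, G (a, a) + ∑ p ∈ s.offDiag, G p := by
  rw [← diag_union_offDiag, sum_union (disjoint_diag_offDiag s), sum_diag]

lemma fiber (T : Finset V) (hT : T ∈ (univ : Finset V).powersetCard 3) :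
    ((((univ : Finset V).powersetCard 2).offDiag.filter (fun p => ¬ Disjoint p.1 p.2)).filter
      (fun p => p.1 ∪ p.2 = T)) = (T.powersetCard 2).offDiag := by
  have hT3 : T.card = 3 := (mem_powersetCard.mp hT).2
  ext ⟨e, e'⟩
  simp only [mem_filter, mem_offDiag, mem_powersetCard, subset_univ, true_and]
  constructor
  · rintro ⟨⟨⟨h1, h2, h3⟩, h4⟩, h5⟩
    refine ⟨⟨?_, h1⟩, ⟨?_, h2⟩, h3⟩
    · rw [← h5]
      exact subset_union_left
    · rw [← h5]
      exact subset_union_right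
  · rintro ⟨⟨h1, h2⟩, ⟨h3, h4⟩, h5⟩
    have h6 : e ∪ e' ⊆ T := union_subset h1 h3
    have h7 := card_union_add_card_inter e e'
    have h8 := card_le_card h6
    have h9 : (e ∪ e').card ≠ 2 := by
      intro h
      apply h5
      have e1 : e = e ∪ e' := eq_of_subset_of_card_le subset_union_left (by omega)
      have e2 : e' = e ∪ e' := eq_of_subset_of_card_le subset_union_right (by omega)
      rw [e1]
      exact e2.symm
    have h10 : e.card ≤ (e ∪ e').card := card_le_card subset_union_left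
    refine ⟨⟨⟨h2, h4, h5⟩, ?_⟩, ?_⟩
    · intro h
      rw [disjoint_iff_inter_eq_empty] at h
      rw [h, card_empty] at h7
      omega
    · apply eq_of_subset_of_card_le h6
      omega

lemma maps (p : Finset V × Finset V)
    (hp : p ∈ ((univ : Finset V).powersetCard 2).offDiag.filter (fun p => ¬ Disjoint p.1 p.2)) :
    p.1 ∪ p.2 ∈ (univ : Finset V).powersetCard 3 := by
  obtain ⟨e, e'⟩ := p
  simp only [mem_filter, mem_offDiag, mem_powersetCard, subset_univ, true_and] at hp ⊢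
  obtain ⟨⟨h1, h2, h3⟩, h4⟩ := hp
  have h7 := card_union_add_card_inter e e'
  have h5 : 0 < (e ∩ e').card := by
    rw [card_pos]
    rw [disjoint_iff_inter_eq_empty] at h4
    exact nonempty_iff_ne_empty.mpr h4
  have h6 : (e ∩ e').card ≠ 2 := by
    intro h
    apply h3
    have e1 : e ∩ e' = e := eq_of_subset_of_card_le inter_subset_left (by omega)
    have e2 : e ∩ e' = e' := eq_of_subset_of_card_le inter_subset_right (by omega)
    rw [← e1]
    exact e2
  have h8 : (e ∩ e').card ≤ e.card := card_le_card inter_subset_left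
  omega

/-- the ordered pairs of disjoint pairs -/
def DD (V : Type) [Fintype V] [DecidableEq V] : Finset (Finset V × Finset V) :=
  ((univ : Finset V).powersetCard 2).offDiag.filter (fun p => ¬ ¬ Disjoint p.1 p.2)

lemma mem_DD (p : Finset V × Finset V) :
    p ∈ DD V ↔ p.1.card = 2 ∧ p.2.card = 2 ∧ Disjoint p.1 p.2 := by
  obtain ⟨e, e'⟩ := p
  unfold DD
  simp only [mem_filter, mem_offDiag, mem_powersetCard, subset_univ, true_and, not_not]
  constructor
  · rintro ⟨⟨h1, h2, _⟩, h4⟩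
    exact ⟨h1, h2, h4⟩
  · rintro ⟨h1, h2, h4⟩
    refine ⟨⟨h1, h2, ?_⟩, h4⟩
    rintro rfl
    rw [disjoint_self] at h4
    rw [h4, bot_eq_empty, card_empty] at h1
    omega

lemma sum_DD (G : Finset V → Finset V → ℝ) :
    ∑ p ∈ DD V, G p.1 p.2 =
      ∑ e ∈ (univ : Finset V).powersetCard 2, ∑ e' ∈ (eᶜ : Finset V).powersetCard 2, G e e' := by
  rw [Finset.sum_sigma']
  refine Finset.sum_bij' (fun p _ => (⟨p.1, p.2⟩ : (_ : Finset V) × Finset V))
    (fun p _ => (p.1, p.2)) ?_ ?_ ?_ ?_ ?_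
  · intro p hp
    rw [mem_DD] at hp
    simp only [mem_sigma, mem_powersetCard, subset_univ, true_and]
    exact ⟨hp.1, subset_compl_iff_disjoint_left.mpr hp.2.2, hp.2.1⟩
  · intro p hp
    simp only [mem_sigma, mem_powersetCard, subset_univ, true_and] at hp
    rw [mem_DD]
    exact ⟨hp.1, hp.2.2, subset_compl_iff_disjoint_left.mp hp.2.1⟩
  · intro p _
    rfl
  · intro p _
    rfl
  · intro p _
    rfl

lemma sum_DD_swap (G : Finset V → Finset V → ℝ) :
    ∑ p ∈ DD V, G p.2 p.1 = ∑ p ∈ DD V, G p.1 p.2 := by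
  refine Finset.sum_bij' (fun p _ => (p.2, p.1)) (fun p _ => (p.2, p.1)) ?_ ?_ ?_ ?_ ?_
  · intro p hp
    rw [mem_DD] at hp ⊢
    exact ⟨hp.2.1, hp.1, hp.2.2.symm⟩
  · intro p hp
    rw [mem_DD] at hp ⊢
    exact ⟨hp.2.1, hp.1, hp.2.2.symm⟩
  · intro p _
    rfl
  · intro p _
    rfl
  · intro p _
    rfl

/-- the two halves of the error term -/
noncomputable def AA (f : St V → ℝ) (e e' : Finset V) : ℝ :=
  ∑ x, ind (Alt e e' x) * (TT e e' f x) ^ 2

lemma AA_split (hT : HTOT) (f : St V → ℝ) (e e' : Finset V) (hd : Disjoint e e') :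
    ∑ x, ind (Alt e e' x) * ((TT e e' f x) ^ 2 + (TT e' e f x) ^ 2) =
      AA f e e' + AA f e' e := by
  unfold AA
  rw [← Finset.sum_add_distrib]
  refine Finset.sum_congr rfl fun x _ => ?_
  have h := (hT V e e' x x hd).2.2.2.2.2
  rw [show ind (Alt e' e x) = ind (Alt e e' x) from congrArg ind (propext h.symm)]
  ring

lemma disj_part (hT : HTOT) (hD : HDISJ) (hP : HPERE) (f : St V → ℝ) :
    ∑ e ∈ (univ : Finset V).powersetCard 2, ip (Pe e f) (Pe e f) ≤
      ∑ p ∈ DD V, ip (Pe p.1 f) (Pe p.2 f) := by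
  have h1 : ∑ p ∈ DD V, (ip (Ps p.1 p.2 f) (Ps p.1 p.2 f) - (1 / 2) * (AA f p.1 p.2 +
      AA f p.2 p.1)) ≤ ∑ p ∈ DD V, ip (Pe p.1 f) (Pe p.2 f) := by
    refine Finset.sum_le_sum fun p hp => ?_
    rw [mem_DD] at hp
    rw [← AA_split hT f p.1 p.2 hp.2.2]
    exact hD V p.1 p.2 f hp.1 hp.2.1 hp.2.2
  have h2 : ∑ p ∈ DD V, (ip (Ps p.1 p.2 f) (Ps p.1 p.2 f) - (1 / 2) * (AA f p.1 p.2 +
      AA f p.2 p.1)) = ∑ p ∈ DD V, (ip (Ps p.1 p.2 f) (Ps p.1 p.2 f) - AA f p.1 p.2) := by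
    rw [Finset.sum_sub_distrib, Finset.sum_sub_distrib, ← Finset.mul_sum,
      Finset.sum_add_distrib, sum_DD_swap (AA f)]
    ring
  have h3 : ∑ p ∈ DD V, (ip (Ps p.1 p.2 f) (Ps p.1 p.2 f) - AA f p.1 p.2) =
      ∑ e ∈ (univ : Finset V).powersetCard 2, ∑ e' ∈ (eᶜ : Finset V).powersetCard 2,
        (ip (Ps e e' f) (Ps e e' f) - AA f e e') :=
    sum_DD (fun e e' => ip (Ps e e' f) (Ps e e' f) - AA f e e')
  have h4 : ∑ e ∈ (univ : Finset V).powersetCard 2, ip (Pe e f) (Pe e f) ≤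
      ∑ e ∈ (univ : Finset V).powersetCard 2, ∑ e' ∈ (eᶜ : Finset V).powersetCard 2,
        (ip (Ps e e' f) (Ps e e' f) - AA f e e') :=
    Finset.sum_le_sum fun e he => hP V e f (mem_powersetCard.mp he).2
  rw [← h3, ← h2] at h4
  exact h4.trans h1

end

theorem hsq_proof (hE : EOPH) (_hU : CUTS) (hR : HTRI) (hD : HDISJ) (hP : HPERE) (hT : HTOT) :
    HSQ := by
  intro V _ _ f
  rw [ip_f_RH hE, ip_RH_RH, split]
  have h1 : ∑ e ∈ (univ : Finset V).powersetCard 2, ip (Pe e f) (Pe e f) ≤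
      ∑ p ∈ ((univ : Finset V).powersetCard 2).offDiag, ip (Pe p.1 f) (Pe p.2 f) := by
    rw [← sum_filter_add_sum_filter_not _ (fun p : Finset V × Finset V => ¬ Disjoint p.1 p.2)]
    have h5 : 0 ≤ ∑ p ∈ ((univ : Finset V).powersetCard 2).offDiag with
        ¬ Disjoint p.1 p.2, ip (Pe p.1 f) (Pe p.2 f) := by
      rw [← sum_fiberwise_of_maps_to (g := fun p : Finset V × Finset V => p.1 ∪ p.2)
        (t := (univ : Finset V).powersetCard 3) (fun p hp => maps p hp)]
      apply sum_nonneg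
      intro T hT'
      rw [fiber T hT']
      have h2 := hR V T f (mem_powersetCard.mp hT').2
      rw [ip_f_RH hE, ip_RH_RH, split] at h2
      linarith
    have h6 := disj_part hT hD hP f
    have h7 : ∑ p ∈ DD V, ip (Pe p.1 f) (Pe p.2 f) =
        ∑ p ∈ ((univ : Finset V).powersetCard 2).offDiag with
          ¬ ¬ Disjoint p.1 p.2, ip (Pe p.1 f) (Pe p.2 f) := rfl
    linarith
  linarith

end Vale.Agent.P335.H.Hsq
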