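import Vale.Agent.P335.HMods

/-! P335, general simple graphs, module HSTs: states and graphs. -/

namespace Vale.Agent.P335.H.Hst

open Finset

variable {n : ℕ}

theorem toSt_mk (G : SimpleGraph (Fin n)) (i j : Fin n) :
    toSt G s(i, j) = true ↔ G.Adj i j := by
  classical
  unfold toSt
  simp only [decide_eq_true_eq]
  exact G.mem_edgeSet

theorem toSt_diag (G : SimpleGraph (Fin n)) (i : Fin n) : toSt G s(i, i) = false := by
  have h : ¬ (toSt G s(i, i) = true) := by
    rw [toSt_mk]
    exact G.irrefl
  simpa using h

open Classical in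
theorem dg_toSt (G : SimpleGraph (Fin n)) (i : Fin n) :
    dg (toSt G) i = (univ.filter (fun w => G.Adj i w)).card := by
  unfold dg
  congr 1
  ext j
  simp only [mem_filter, mem_univ, true_and]
  rw [toSt_mk]
  constructor
  · exact fun h => h.2
  · exact fun h => ⟨fun e => h.ne e.symm, h⟩

theorem toSt_inj : Function.Injective (toSt (n := n)) := by
  intro G H h
  ext i j
  rw [← toSt_mk, ← toSt_mk, h]

theorem mem_Om {d : Fin n → ℕ} {G : SimpleGraph (Fin n)} :
    G ∈ Om d ↔ ∀ i, dg (toSt G) i = d i := by
  classical
  unfold Om
  simp only [mem_filter, mem_univ, true_and]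
  constructor
  · intro h i
    rw [dg_toSt, ← h i]
  · intro h i
    rw [← h i, dg_toSt]

theorem hsts_proof : HSTs := by
  refine ⟨fun n => toSt_inj, ?_, fun n G i => toSt_diag G i, ?_⟩
  · intro n x hx
    refine ⟨⟨fun i j => x s(i, j) = true, ⟨?_⟩, ⟨?_⟩⟩, ?_⟩
    · intro i j h
      rw [Sym2.eq_swap]
      exact h
    · intro i h
      rw [hx i] at h
      exact absurd h (by decide)
    · funext c
      induction c using Sym2.ind with
      | _ i j =>
        rw [Bool.eq_iff_iff, toSt_mk]
  · intro n d G H hG
    rw [mem_Om] at hG
    rw [mem_Om]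
    constructor
    · intro h
      refine ⟨?_, fun i => by rw [hG i, h i]⟩
      intro c hc
      induction c using Sym2.ind with
      | _ i j =>
        have hij : i = j := by
          by_contra hne
          apply hc
          unfold offd
          simp [hne]
        subst hij
        rw [toSt_diag, toSt_diag]
    · intro h i
      rw [← h.2 i, hG i]

end Vale.Agent.P335.H.Hst
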