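import Vale.Agent.P335.HMods

/-! P335, general simple graphs, module HSW: Poincare inequality for the switch operators. -/

namespace Vale.Agent.P335.H.Hsw

open Finset

theorem ip_nonneg {X : Type} [Fintype X] (f : X → ℝ) : 0 ≤ ip f f := by
  unfold ip
  exact Finset.sum_nonneg (fun x _ => mul_self_nonneg _)

theorem ip_sub_right {X : Type} [Fintype X] (f g h : X → ℝ) :
    ip f (g - h) = ip f g - ip f h := by
  unfold ip
  rw [← Finset.sum_sub_distrib]
  exact Finset.sum_congr rfl (fun x _ => by simp only [Pi.sub_apply]; ring)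

theorem ip_sub_left {X : Type} [Fintype X] (f g h : X → ℝ) :
    ip (g - h) f = ip g f - ip h f := by
  unfold ip
  rw [← Finset.sum_sub_distrib]
  exact Finset.sum_congr rfl (fun x _ => by simp only [Pi.sub_apply]; ring)

theorem ip_sum_right {X ι : Type} [Fintype X] (s : Finset ι) (f : X → ℝ) (g : ι → X → ℝ) :
    ip f (fun x => ∑ i ∈ s, g i x) = ∑ i ∈ s, ip f (g i) := by
  unfold ip
  rw [Finset.sum_comm]
  exact Finset.sum_congr rfl (fun x _ => by rw [Finset.mul_sum])

theorem hsw_proof (hE : EOPH) (hG : HGAP) (hP : HPERE) : HSW := by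
  intro V _ _ f
  have h1 := hG V f
  have h2 : ip f (RH univ f) =
      ∑ e ∈ (univ : Finset V).powersetCard 2, ip (Pe e f) (Pe e f) := by
    have : RH univ f = fun x => ∑ e ∈ (univ : Finset V).powersetCard 2, Pe e f x := rfl
    rw [this, ip_sum_right]
    refine Finset.sum_congr rfl (fun e _ => ?_)
    have h3 : Pe e f = f - EC (cut e eᶜ) f := rfl
    have h4 := hE.E_symm V (cut e eᶜ) f f
    have h5 := hE.E_symm V (cut e eᶜ) f (EC (cut e eᶜ) f)
    rw [hE.E_idem] at h5
    rw [h3, ip_sub_right, ip_sub_right, ip_sub_left, ip_sub_left, h4, h5]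
    ring
  refine h1.trans (h2.le.trans (Finset.sum_le_sum (fun e he => ?_)))
  have he2 : e.card = 2 := (Finset.mem_powersetCard.1 he).2
  refine (hP V e f he2).trans (Finset.sum_le_sum (fun e' _ => ?_))
  have h6 : 0 ≤ ∑ x, ind (Alt e e' x) * (TT e e' f x) ^ 2 := by
    refine Finset.sum_nonneg (fun x _ => mul_nonneg ?_ (sq_nonneg _))
    unfold ind
    split_ifs
    · exact zero_le_one
    · exact le_refl _
  linarith

end Vale.Agent.P335.H.Hsw
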