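import Vale.Agent.P335.Heops
import Vale.Agent.P335.Hcuts

/-!
P335, general simple graphs, modules HTOT and HT4.
-/

set_option linter.unusedSectionVars false

namespace Vale.Agent.P335.H.Htot

open Finset Heops Hcuts

section
variable {V : Type} [Fintype V] [DecidableEq V]

theorem part_right {S W : Finset V} (hd : Disjoint S W) (x : St V) {b : V} (hb : b ∈ W) :
    part (cut S W) x b = ∑ a ∈ S, (x s(a, b)).toNat := by
  have hbS : b ∉ S := fun h => Finset.disjoint_left.mp hd h hb
  unfold part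
  rw [← Finset.sum_filter]
  have hf : univ.filter (fun j => j ≠ b ∧ s(b, j) ∈ cut S W) = S := by
    ext j
    rw [Finset.mem_filter, mem_cut_mk]
    constructor
    · rintro ⟨_, _, h⟩
      rcases h with h | h
      · exact absurd h.1 hbS
      · exact h.1
    · intro h
      exact ⟨Finset.mem_univ _, fun e => hbS (e ▸ h), Or.inr ⟨h, hb⟩⟩
  rw [hf]
  exact Finset.sum_congr rfl (fun a _ => by rw [Sym2.eq_swap])

theorem part_left {S W : Finset V} (hd : Disjoint S W) (x : St V) {a : V} (ha : a ∈ S) :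
    part (cut S W) x a = ∑ b ∈ W, (x s(a, b)).toNat := by
  rw [cut_comm, part_right hd.symm x ha]
  exact Finset.sum_congr rfl (fun b _ => by rw [Sym2.eq_swap])

theorem part_none {S W : Finset V} (x : St V) {i : V} (h1 : i ∉ S) (h2 : i ∉ W) :
    part (cut S W) x i = 0 := by
  unfold part
  refine Finset.sum_eq_zero (fun j _ => ?_)
  rw [if_neg]
  rintro ⟨_, h⟩
  rw [mem_cut_mk] at h
  rcases h with h | h
  · exact h1 h.1
  · exact h2 h.2

/-- column sums are invariants of the classes of `cut S W` -/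
theorem col_eq {S W : Finset V} (hd : Disjoint S W) {x y : St V} (h : Rl (cut S W) x y) {b : V}
    (hb : b ∈ W) : ∑ a ∈ S, (x s(a, b)).toNat = ∑ a ∈ S, (y s(a, b)).toNat := by
  rw [← part_right hd x hb, ← part_right hd y hb]
  exact part_rl h b

/-- row sums are invariants of the classes of `cut S W` -/
theorem row_eq {S W : Finset V} (hd : Disjoint S W) {x y : St V} (h : Rl (cut S W) x y) {a : V}
    (ha : a ∈ S) : ∑ b ∈ W, (x s(a, b)).toNat = ∑ b ∈ W, (y s(a, b)).toNat := by
  rw [← part_left hd x ha, ← part_left hd y ha]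
  exact part_rl h a

theorem disj_compl (e : Finset V) : Disjoint e eᶜ := disjoint_compl_right

theorem sub_compl {e e' : Finset V} (hd : Disjoint e e') {b : V} (hb : b ∈ e') : b ∈ eᶜ := by
  rw [Finset.mem_compl]
  exact fun h => Finset.disjoint_left.mp hd h hb

theorem tot_eq {e e' : Finset V} (hd : Disjoint e e') {x y : St V} (h : Rl (cut e eᶜ) x y) :
    tot e e' x = tot e e' y := by
  unfold tot
  rw [Finset.sum_comm, Finset.sum_comm (s := e) (t := e')]
  exact Finset.sum_congr rfl (fun b hb => col_eq (disj_compl e) h (sub_compl hd hb))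

theorem tot_symm (e e' : Finset V) (x : St V) : tot e e' x = tot e' e x := by
  unfold tot
  rw [Finset.sum_comm]
  exact Finset.sum_congr rfl (fun b _ => Finset.sum_congr rfl (fun a _ => by rw [Sym2.eq_swap]))

theorem card_eq_sum (W : Finset V) (x : St V) (a : V) :
    (W.filter (fun b => x s(a, b) = true)).card = ∑ b ∈ W, (x s(a, b)).toNat := by
  rw [Finset.card_filter]
  refine Finset.sum_congr rfl (fun b _ => ?_)
  cases x s(a, b) <;> rfl

theorem card_eq_sum' (S : Finset V) (x : St V) (b : V) :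
    (S.filter (fun a => x s(a, b) = true)).card = ∑ a ∈ S, (x s(a, b)).toNat := by
  rw [Finset.card_filter]
  refine Finset.sum_congr rfl (fun a _ => ?_)
  cases x s(a, b) <;> rfl

theorem alt_iff (e e' : Finset V) (x : St V) : Alt e e' x ↔
    (∀ a ∈ e, ∑ b ∈ e', (x s(a, b)).toNat = 1) ∧ (∀ b ∈ e', ∑ a ∈ e, (x s(a, b)).toNat = 1) := by
  unfold Alt
  constructor
  · rintro ⟨h1, h2⟩
    exact ⟨fun a ha => by rw [← card_eq_sum]; exact h1 a ha,
      fun b hb => by rw [← card_eq_sum']; exact h2 b hb⟩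
  · rintro ⟨h1, h2⟩
    exact ⟨fun a ha => by rw [card_eq_sum]; exact h1 a ha,
      fun b hb => by rw [card_eq_sum']; exact h2 b hb⟩

theorem alt_of_cells {e e' : Finset V} {x y : St V}
    (h : ∀ a ∈ e, ∀ b ∈ e', x s(a, b) = y s(a, b)) : Alt e e' x → Alt e e' y := by
  rw [alt_iff, alt_iff]
  rintro ⟨h1, h2⟩
  constructor
  · intro a ha
    rw [← h1 a ha]
    exact Finset.sum_congr rfl (fun b hb => by rw [h a ha b hb])
  · intro b hb
    rw [← h2 b hb]
    exact Finset.sum_congr rfl (fun a ha => by rw [h a ha b hb])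

theorem alt_symm (e e' : Finset V) (x : St V) : Alt e e' x → Alt e' e x := by
  rw [alt_iff, alt_iff]
  rintro ⟨h1, h2⟩
  constructor
  · intro b hb
    rw [← h2 b hb]
    exact Finset.sum_congr rfl (fun a _ => by rw [Sym2.eq_swap])
  · intro a ha
    rw [← h1 a ha]
    exact Finset.sum_congr rfl (fun b _ => by rw [Sym2.eq_swap])

theorem cell_not_A {e e' : Finset V} (hd : Disjoint e e') {a b : V} (ha : a ∈ e) (hb : b ∈ e') :
    s(a, b) ∉ cutA e e' ∧ s(a, b) ∉ cutA e' e := by
  have h1 : b ∉ e := fun h => Finset.disjoint_left.mp hd h hb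
  have h2 : a ∉ e' := fun h => Finset.disjoint_left.mp hd ha h
  unfold cutA
  rw [mem_cut_mk, mem_cut_mk]
  simp only [Finset.mem_compl, Finset.mem_union]
  tauto

theorem alt_M {e e' : Finset V} (hd : Disjoint e e') {x y : St V} (h : Rl (cut e e') x y) :
    Alt e e' x → Alt e e' y := by
  rw [alt_iff, alt_iff]
  rintro ⟨h1, h2⟩
  exact ⟨fun a ha => by rw [← row_eq hd h ha]; exact h1 a ha,
    fun b hb => by rw [← col_eq hd h hb]; exact h2 b hb⟩

/-! ### HT4 -/

/-- columns over `e'` are constant on `e` -/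
def Kc (e e' : Finset V) (x : St V) : Prop :=
  ∀ b ∈ e', ∀ a ∈ e, ∀ a' ∈ e, x s(a, b) = x s(a', b)

theorem kc_cells {e e' W : Finset V} (hdW : Disjoint e W) (hW : e' ⊆ W) {x y : St V}
    (hk : Kc e e' x) (h : Rl (cut e W) x y) : ∀ a ∈ e, ∀ b ∈ e', y s(a, b) = x s(a, b) := by
  intro a ha b hb
  have hc := col_eq hdW h (hW hb)
  by_cases hx : x s(a, b) = true
  · rw [hx]
    by_contra hy
    have hy' : y s(a, b) = false := by simpa using hy
    have h1 : ∑ a' ∈ e, (x s(a', b)).toNat = ∑ _a' ∈ e, 1 :=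
      Finset.sum_congr rfl (fun a' ha' => by rw [hk b hb a' ha' a ha, hx]; rfl)
    have h2 : ∑ a' ∈ e, (y s(a', b)).toNat < ∑ _a' ∈ e, 1 := by
      refine Finset.sum_lt_sum (fun a' _ => Bool.toNat_le _) ⟨a, ha, ?_⟩
      rw [hy']
      exact Nat.zero_lt_one
    omega
  · have hx' : x s(a, b) = false := by simpa using hx
    have h1 : ∑ a' ∈ e, (x s(a', b)).toNat = 0 :=
      Finset.sum_eq_zero (fun a' ha' => by rw [hk b hb a' ha' a ha, hx']; rfl)
    rw [h1] at hc
    have h2 := (Finset.sum_eq_zero_iff.mp hc.symm) a ha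
    rw [hx']
    cases hy : y s(a, b)
    · rfl
    · rw [hy] at h2
      exact absurd h2 (by decide)

theorem cut_sub {e e' : Finset V} (hd : Disjoint e e') :
    cut e e' ⊆ cut e eᶜ ∧ cutA e e' ⊆ cut e eᶜ := by
  rw [cut_split hd]
  exact ⟨Finset.subset_union_right, Finset.subset_union_left⟩

end

theorem htot_proof : HTOT := by
  intro V _ _ e e' x y hd
  refine ⟨fun h => tot_eq hd h, fun h => ?_, fun h => ?_, fun _ _ h => ?_, tot_symm e e' x, ?_⟩
  · exact ⟨alt_of_cells (fun a ha b hb => h.1 _ (cell_not_A hd ha hb).1),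
      alt_of_cells (fun a ha b hb => (h.1 _ (cell_not_A hd ha hb).1).symm)⟩
  · exact ⟨alt_of_cells (fun a ha b hb => h.1 _ (cell_not_A hd ha hb).2),
      alt_of_cells (fun a ha b hb => (h.1 _ (cell_not_A hd ha hb).2).symm)⟩
  · exact ⟨alt_M hd h, alt_M hd (rl_symm h)⟩
  · exact ⟨alt_symm e e' x, alt_symm e' e x⟩

theorem ht4_proof : HT4 := by
  intro V _ _ e e' f x hd hk
  have hsub := cut_sub hd
  have hW : e' ⊆ eᶜ := fun b hb => sub_compl hd hb
  have hcells : ∀ y, Rl (cut e eᶜ) x y → ∀ a ∈ e, ∀ b ∈ e', y s(a, b) = x s(a, b) :=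
    fun y hy => kc_cells (disj_compl e) hW hk hy
  -- the classes of `cut e eᶜ` and of `cutA e e'` coincide
  have hcl : cl (cut e eᶜ) x = cl (cutA e e') x := by
    ext y
    rw [mem_cl, mem_cl]
    constructor
    · intro hy
      refine ⟨fun c hc => ?_, hy.2⟩
      by_cases hM : c ∈ cut e e'
      · obtain ⟨a, ha, b, hb, rfl⟩ := mem_cut.mp hM
        exact (hcells y hy a ha b hb).symm
      · refine hy.1 c (fun h => ?_)
        rw [cut_split hd, Finset.mem_union] at h
        exact h.elim hc hM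
    · intro hy
      exact rl_mono hsub.2 hy
  have hM : ∀ y ∈ cl (cutA e e') x, EC (cut e e') f y = f y := by
    intro y hy
    rw [← hcl, mem_cl] at hy
    have hky : Kc e e' y := by
      intro b hb a ha a' ha'
      rw [hcells y hy a ha b hb, hcells y hy a' ha' b hb]
      exact hk b hb a ha a' ha'
    refine E_fix _ f y (fun z hz => ?_)
    have hz' := kc_cells hd (Finset.Subset.refl e') hky hz
    have : z = y := by
      funext c
      by_cases hc : c ∈ cut e e'
      · obtain ⟨a, ha, b, hb, rfl⟩ := mem_cut.mp hc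
        exact hz' a ha b hb
      · exact (hz.1 c hc).symm
    rw [this]
  have h1 : Pe e f = f - EC (cut e eᶜ) f := rfl
  unfold TT
  rw [h1, E_sub, E_tower1 f hsub.1, E_sub, E_tower1 f hsub.2]
  have h2 : EC (cutA e e') (EC (cut e e') f) x = EC (cut e eᶜ) f x := by
    unfold EC
    rw [hcl]
    congr 1
    refine Finset.sum_congr rfl (fun y hy => ?_)
    exact hM y hy
  rw [Pi.sub_apply, h2, sub_self]

end Vale.Agent.P335.H.Htot
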