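import Vale.Agent.P335.HMods

/-!
P335, general simple graphs, module HTRI: the three-row inequality from the bipartite TRI.
For a triple `T` the inner edges behave like one extra column: row `r` of `T` has there the
negation of the opposite inner edge.
-/

set_option linter.unusedSectionVars false

namespace Vale.Agent.P335.H.Htri

open Finset

section
variable {V : Type} [Fintype V] [DecidableEq V]

/-- matrices -/
abbrev Mt (T : Finset V) := {v : V // v ∈ T} → Option {w : V // w ∉ T} → Bool

open Classical in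
/-- overwrite the cells touching `T` -/
noncomputable def Phi (T : Finset V) (x0 : St V) (M : Mt T) : St V := fun c =>
  if (∀ v ∈ c, v ∈ T) ∧ ¬ c.IsDiag then
    decide (∀ r : {v : V // v ∈ T}, r.1 ∉ c → M r none = false)
  else if ∃ (r : {v : V // v ∈ T}) (q : {w : V // w ∉ T}), c = s(r.1, q.1) then
    decide (∃ (r : {v : V // v ∈ T}) (q : {w : V // w ∉ T}), c = s(r.1, q.1) ∧ M r (some q) = true)
  else x0 c

theorem cross_unique (T : Finset V) {r r' : {v : V // v ∈ T}} {q q' : {w : V // w ∉ T}}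
    (h : s(r.1, q.1) = s(r'.1, q'.1)) : r = r' ∧ q = q' := by
  rw [Sym2.eq_iff] at h
  rcases h with h | h
  · exact ⟨Subtype.ext h.1, Subtype.ext h.2⟩
  · exact absurd (h.1 ▸ r.2) q'.2

theorem phi_cross (T : Finset V) (x0 : St V) (M : Mt T) (r : {v : V // v ∈ T})
    (q : {w : V // w ∉ T}) : Phi T x0 M s(r.1, q.1) = M r (some q) := by
  unfold Phi
  rw [if_neg, if_pos ⟨r, q, rfl⟩]
  · cases hM : M r (some q)
    · rw [decide_eq_false_iff_not]
      rintro ⟨r', q', h1, h2⟩
      obtain ⟨h3, h4⟩ := cross_unique T h1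
      rw [← h3, ← h4, hM] at h2
      exact absurd h2 (by decide)
    · rw [decide_eq_true_iff]
      exact ⟨r, q, rfl, hM⟩
  · rintro ⟨h1, _⟩
    exact q.2 (h1 q.1 (by simp))

/-- `i, j, k` are the elements of `T` -/
def H3 (T : Finset V) (i j k : {v : V // v ∈ T}) : Prop :=
  i ≠ j ∧ i ≠ k ∧ j ≠ k ∧ ∀ v : {v : V // v ∈ T}, v = i ∨ v = j ∨ v = k

theorem H3.rot {T : Finset V} {i j k : {v : V // v ∈ T}} (h : H3 T i j k) : H3 T j k i :=
  ⟨h.2.2.1, h.1.symm, h.2.1.symm, fun v => by rcases h.2.2.2 v with h | h | h <;> tauto⟩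

theorem H3.sw {T : Finset V} {i j k : {v : V // v ∈ T}} (h : H3 T i j k) : H3 T i k j :=
  ⟨h.2.1, h.1, h.2.2.1.symm, fun v => by rcases h.2.2.2 v with h | h | h <;> tauto⟩

theorem phi_inner (T : Finset V) (x0 : St V) (M : Mt T) {i j k : {v : V // v ∈ T}}
    (h : H3 T i j k) : Phi T x0 M s(i.1, j.1) = !(M k none) := by
  obtain ⟨hij, hik, hjk, hall⟩ := h
  unfold Phi
  rw [if_pos]
  · cases hM : M k none
    · rw [Bool.not_false, decide_eq_true_iff]
      intro r hr
      rcases hall r with h1 | h1 | h1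
      · exact absurd (by rw [h1]; simp) hr
      · exact absurd (by rw [h1]; simp) hr
      · rw [h1]; exact hM
    · rw [Bool.not_true, decide_eq_false_iff_not]
      intro hall2
      have := hall2 k (by
        rw [Sym2.mem_iff]
        rintro (h1 | h1)
        · exact hik (Subtype.ext h1.symm)
        · exact hjk (Subtype.ext h1.symm))
      rw [hM] at this
      exact absurd this (by decide)
  · constructor
    · intro v hv
      rw [Sym2.mem_iff] at hv
      rcases hv with h1 | h1
      · rw [h1]; exact i.2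
      · rw [h1]; exact j.2
    · rw [Sym2.mk_isDiag_iff]
      exact fun h1 => hij (Subtype.ext h1)

theorem phi_out (T : Finset V) (x0 : St V) (M : Mt T) (u v : V)
    (h : (u ∉ T ∧ v ∉ T) ∨ u = v) : Phi T x0 M s(u, v) = x0 s(u, v) := by
  unfold Phi
  rw [if_neg, if_neg]
  · rintro ⟨r, q, h1⟩
    rw [Sym2.eq_iff] at h1
    rcases h with h | h
    · rcases h1 with h1 | h1
      · exact h.1 (h1.1 ▸ r.2)
      · exact h.2 (h1.2 ▸ r.2)
    · rcases h1 with h1 | h1
      · exact q.2 (by rw [← h1.2, ← h, h1.1]; exact r.2)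
      · exact q.2 (by rw [← h1.1, h, h1.2]; exact r.2)
  · rintro ⟨h1, h2⟩
    rcases h with h | h
    · exact h.1 (h1 u (by simp))
    · exact h2 (by rw [Sym2.mk_isDiag_iff]; exact h)

/-- every cell is of one of four types -/
theorem cases4 (T : Finset V) (c : Sym2 V) :
    (∃ u v, c = s(u, v) ∧ ((u ∉ T ∧ v ∉ T) ∨ u = v)) ∨
    (∃ (r : {v : V // v ∈ T}) (q : {w : V // w ∉ T}), c = s(r.1, q.1)) ∨
    (∃ i j : {v : V // v ∈ T}, i ≠ j ∧ c = s(i.1, j.1)) := by
  induction c using Sym2.ind with
  | _ u v =>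
    by_cases huv : u = v
    · exact Or.inl ⟨u, v, rfl, Or.inr huv⟩
    by_cases hu : u ∈ T <;> by_cases hv : v ∈ T
    · exact Or.inr (Or.inr ⟨⟨u, hu⟩, ⟨v, hv⟩, fun h => huv (congrArg Subtype.val h), rfl⟩)
    · exact Or.inr (Or.inl ⟨⟨u, hu⟩, ⟨v, hv⟩, rfl⟩)
    · exact Or.inr (Or.inl ⟨⟨v, hv⟩, ⟨u, hu⟩, Sym2.eq_swap⟩)
    · exact Or.inl ⟨u, v, rfl, Or.inl ⟨hu, hv⟩⟩

theorem third (T : Finset V) (hT : T.card = 3) {i j : {v : V // v ∈ T}} (hij : i ≠ j) :
    ∃ k, H3 T i j k := by
  have hc : Fintype.card {v : V // v ∈ T} = 3 := by rw [Fintype.card_coe, hT]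
  have h1 : ((univ : Finset {v : V // v ∈ T}) \ {i, j}).card = 1 := by
    rw [card_sdiff_of_subset (subset_univ _), card_univ, hc, card_pair hij]
  obtain ⟨k, hk⟩ := card_eq_one.mp h1
  have hk2 : ∀ v, v ∈ (univ : Finset {v : V // v ∈ T}) \ {i, j} ↔ v = k := by
    intro v; rw [hk, mem_singleton]
  refine ⟨k, hij, ?_, ?_, ?_⟩
  · have := (hk2 k).mpr rfl
    simp only [mem_sdiff, mem_univ, true_and, mem_insert, mem_singleton, not_or] at this
    exact fun h => this.1 h.symm
  · have := (hk2 k).mpr rfl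
    simp only [mem_sdiff, mem_univ, true_and, mem_insert, mem_singleton, not_or] at this
    exact fun h => this.2 h.symm
  · intro v
    by_cases h2 : v = i
    · exact Or.inl h2
    by_cases h3 : v = j
    · exact Or.inr (Or.inl h3)
    refine Or.inr (Or.inr ((hk2 v).mp ?_))
    simp only [mem_sdiff, mem_univ, true_and, mem_insert, mem_singleton, not_or]
    exact ⟨h2, h3⟩

theorem others (T : Finset V) (hT : T.card = 3) (i : {v : V // v ∈ T}) :
    ∃ j k, H3 T i j k := by
  have hc : Fintype.card {v : V // v ∈ T} = 3 := by rw [Fintype.card_coe, hT]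
  have : ∃ j, j ≠ i := by
    by_contra h
    push Not at h
    have : Fintype.card {v : V // v ∈ T} ≤ 1 := by
      rw [Fintype.card_le_one_iff]
      intro a b; rw [h a, h b]
    omega
  obtain ⟨j, hj⟩ := this
  obtain ⟨k, hk⟩ := third T hT hj.symm
  exact ⟨j, k, hk⟩

theorem sum3 {T : Finset V} {i j k : {v : V // v ∈ T}} (h : H3 T i j k)
    (F : {v : V // v ∈ T} → ℕ) : ∑ r, F r = F i + F j + F k := by
  have hu : (univ : Finset {v : V // v ∈ T}) = {i, j, k} := by
    ext v
    simp only [mem_univ, mem_insert, mem_singleton, true_iff]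
    exact h.2.2.2 v
  rw [hu, sum_insert, sum_insert, sum_singleton]
  · ring
  · simp only [mem_singleton]; exact h.2.2.1
  · simp only [mem_insert, mem_singleton, not_or]; exact ⟨h.1, h.2.1⟩

theorem rsum_eq {T : Finset V} (M : Mt T) (i : {v : V // v ∈ T}) :
    rsum M i = (M i none).toNat + ∑ q : {w : V // w ∉ T}, (M i (some q)).toNat := by
  unfold rsum
  rw [card_filter, Fintype.sum_option]
  congr 1
  · cases M i none <;> simp
  · exact sum_congr rfl (fun q _ => by cases M i (some q) <;> simp)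

theorem csum_eq {T : Finset V} (M : Mt T) (j : Option {w : V // w ∉ T}) :
    csum M j = ∑ r : {v : V // v ∈ T}, (M r j).toNat := by
  unfold csum
  rw [card_filter]
  exact sum_congr rfl (fun r _ => by cases M r j <;> simp)

theorem dg_eq (T : Finset V) (x : St V) (i : V) :
    dg x i = (∑ r : {v : V // v ∈ T}, if r.1 ≠ i ∧ x s(i, r.1) = true then 1 else 0) +
      ∑ q : {w : V // w ∉ T}, if q.1 ≠ i ∧ x s(i, q.1) = true then 1 else 0 := by
  unfold dg
  rw [card_filter]
  have h := (Fintype.sum_subtype_add_sum_subtype (fun v => v ∈ T)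
    (fun j => if j ≠ i ∧ x s(i, j) = true then 1 else 0)).symm
  rw [h]
  congr 1
  refine sum_congr ?_ (fun _ _ => rfl)
  ext v; simp

/-- degree of an inner vertex -/
theorem dg_in (T : Finset V) (hT : T.card = 3) (x0 : St V) (M : Mt T) (i : {v : V // v ∈ T}) :
    dg (Phi T x0 M) i.1 + csum M none = rsum M i + 2 := by
  obtain ⟨j, k, h⟩ := others T hT i
  rw [dg_eq T, rsum_eq, csum_eq, sum3 h, sum3 h]
  have h1 : (∑ q : {w : V // w ∉ T},
      if q.1 ≠ i.1 ∧ Phi T x0 M s(i.1, q.1) = true then 1 else 0) =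
      ∑ q : {w : V // w ∉ T}, (M i (some q)).toNat := by
    refine sum_congr rfl (fun q _ => ?_)
    rw [phi_cross]
    have : q.1 ≠ i.1 := fun h => q.2 (h ▸ i.2)
    cases M i (some q) <;> simp [this]
  rw [h1]
  have hji : j.1 ≠ i.1 := fun h2 => h.1 (Subtype.ext h2.symm)
  have hki : k.1 ≠ i.1 := fun h2 => h.2.1 (Subtype.ext h2.symm)
  rw [phi_inner T x0 M h, phi_inner T x0 M h.sw]
  have h3 : (if i.1 ≠ i.1 ∧ Phi T x0 M s(i.1, i.1) = true then 1 else 0) = 0 := by
    rw [if_neg]; exact fun h => h.1 rfl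
  rw [h3]
  cases M i none <;> cases M j none <;> cases M k none <;> simp [hji, hki] <;> ring

/-- degree of an outer vertex -/
theorem dg_out (T : Finset V) (x0 : St V) (M : Mt T) (q : {w : V // w ∉ T}) :
    dg (Phi T x0 M) q.1 = csum M (some q) +
      ∑ w : {w : V // w ∉ T}, if w.1 ≠ q.1 ∧ x0 s(q.1, w.1) = true then 1 else 0 := by
  rw [dg_eq T, csum_eq]
  congr 1
  · refine sum_congr rfl (fun r _ => ?_)
    have h1 : Phi T x0 M s(q.1, r.1) = M r (some q) := by
      rw [Sym2.eq_swap]; exact phi_cross T x0 M r q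
    rw [h1]
    have : r.1 ≠ q.1 := fun h => q.2 (h ▸ r.2)
    cases M r (some q) <;> simp [this]
  · refine sum_congr rfl (fun w _ => ?_)
    rw [phi_out T x0 M q.1 w.1 (Or.inl ⟨q.2, w.2⟩)]

/-! ### the relation -/

/-- the rows of `e` as rows of the matrix -/
def sub (T e : Finset V) : Finset {v : V // v ∈ T} := e.subtype (fun v => v ∈ T)

theorem mem_sub (T e : Finset V) (r : {v : V // v ∈ T}) : r ∈ sub T e ↔ r.1 ∈ e := by
  unfold sub; rw [mem_subtype]

theorem mem_cut (S W : Finset V) (c : Sym2 V) :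
    c ∈ cut S W ↔ ∃ a ∈ S, ∃ b ∈ W, c = s(a, b) := by
  unfold cut
  rw [mem_image]
  constructor
  · rintro ⟨p, hp, rfl⟩
    rw [mem_product] at hp
    exact ⟨p.1, hp.1, p.2, hp.2, rfl⟩
  · rintro ⟨a, ha, b, hb, rfl⟩
    exact ⟨(a, b), mem_product.mpr ⟨ha, hb⟩, rfl⟩

theorem mem_cut_mk (e : Finset V) (u v : V) :
    s(u, v) ∈ cut e eᶜ ↔ (u ∈ e ∧ v ∉ e) ∨ (v ∈ e ∧ u ∉ e) := by
  rw [mem_cut]
  constructor
  · rintro ⟨a, ha, b, hb, h⟩
    rw [mem_compl] at hb
    rw [Sym2.eq_iff] at h
    rcases h with h | h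
    · exact Or.inl ⟨h.1 ▸ ha, h.2 ▸ hb⟩
    · exact Or.inr ⟨h.2 ▸ ha, h.1 ▸ hb⟩
  · rintro (h | h)
    · exact ⟨u, h.1, v, mem_compl.mpr h.2, rfl⟩
    · exact ⟨v, h.1, u, mem_compl.mpr h.2, Sym2.eq_swap⟩

/-- a pair inside `T` -/
theorem pair_form (T e : Finset V) (hT : T.card = 3) (he : e ⊆ T) (he2 : e.card = 2) :
    ∃ a b c : {v : V // v ∈ T}, H3 T a b c ∧ a.1 ∈ e ∧ b.1 ∈ e ∧ c.1 ∉ e := by
  obtain ⟨a, b, hab, rfl⟩ := card_eq_two.mp he2
  have ha : a ∈ T := he (by simp)
  have hb : b ∈ T := he (by simp)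
  obtain ⟨c, hc⟩ := third T hT (i := ⟨a, ha⟩) (j := ⟨b, hb⟩) (fun h => hab (congrArg Subtype.val h))
  refine ⟨⟨a, ha⟩, ⟨b, hb⟩, c, hc, by simp, by simp, ?_⟩
  simp only [mem_insert, mem_singleton, not_or]
  exact ⟨fun h => hc.2.1 (Subtype.ext h.symm), fun h => hc.2.2.1 (Subtype.ext h.symm)⟩

theorem rel_iff (T e : Finset V) (hT : T.card = 3) (he : e ⊆ T) (he2 : e.card = 2)
    (x0 : St V) (M M' : Mt T) :
    Rl (cut e eᶜ) (Phi T x0 M) (Phi T x0 M') ↔ Rel (sub T e) M M' := by
  obtain ⟨a, b, c, h3, ha, hb, hc⟩ := pair_form T e hT he he2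
  have hcls : ∀ i, i ∉ sub T e → i = c := by
    intro i hi
    rw [mem_sub] at hi
    rcases h3.2.2.2 i with h | h | h
    · exact absurd (h ▸ ha) hi
    · exact absurd (h ▸ hb) hi
    · exact h
  constructor
  · intro h
    -- the row `c` is the same
    have hrow : M c = M' c := by
      funext j
      cases j with
      | none =>
        have h1 := h.1 s(a.1, b.1) (by rw [mem_cut_mk]; tauto)
        rw [phi_inner T x0 M h3, phi_inner T x0 M' h3] at h1
        exact Bool.not_inj h1
      | some q =>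
        have hq : q.1 ∉ e := fun h => q.2 (he h)
        have h1 := h.1 s(c.1, q.1) (by rw [mem_cut_mk]; tauto)
        rw [phi_cross, phi_cross] at h1
        exact h1
    have hrc : rsum M c = rsum M' c := by unfold rsum; rw [hrow]
    have hnone : csum M none = csum M' none := by
      have h1 := dg_in T hT x0 M c
      have h2 := dg_in T hT x0 M' c
      have h4 := h.2 c.1
      omega
    refine ⟨fun i hi => by rw [hcls i hi]; exact hrow, fun i => ?_, fun j => ?_⟩
    · have h1 := dg_in T hT x0 M i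
      have h2 := dg_in T hT x0 M' i
      have h4 := h.2 i.1
      omega
    · cases j with
      | none => exact hnone
      | some q =>
        have h1 := dg_out T x0 M q
        have h2 := dg_out T x0 M' q
        have h4 := h.2 q.1
        omega
  · intro h
    refine ⟨fun cc hcc => ?_, fun v => ?_⟩
    · rcases cases4 T cc with ⟨u, v, rfl, huv⟩ | ⟨r, q, rfl⟩ | ⟨i, j, hij, rfl⟩
      · rw [phi_out T x0 M u v huv, phi_out T x0 M' u v huv]
      · rw [phi_cross, phi_cross]
        have hq : q.1 ∉ e := fun h => q.2 (he h)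
        have hr : r.1 ∉ e := fun h => hcc (by rw [mem_cut_mk]; tauto)
        rw [h.1 r (by rw [mem_sub]; exact hr)]
      · obtain ⟨k, hk⟩ := third T hT hij
        rw [phi_inner T x0 M hk, phi_inner T x0 M' hk]
        have hke : k.1 ∉ e := by
          intro hke
          -- then one of `i, j` is `c` and the other is in `e`
          apply hcc
          rw [mem_cut_mk]
          rcases hk.2.2.2 c with h1 | h1 | h1
          · -- c = i, so j in e
            have hj : j.1 ∈ e := by
              rcases h3.2.2.2 j with h2 | h2 | h2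
              · rw [h2]; exact ha
              · rw [h2]; exact hb
              · exact absurd (h1.symm.trans h2.symm) hij
            exact Or.inr ⟨hj, by rw [← h1]; exact hc⟩
          · have hi : i.1 ∈ e := by
              rcases h3.2.2.2 i with h2 | h2 | h2
              · rw [h2]; exact ha
              · rw [h2]; exact hb
              · exact absurd (h2.trans h1) hij
            exact Or.inl ⟨hi, by rw [← h1]; exact hc⟩
          · exact absurd (h1 ▸ hke) hc
        rw [h.1 k (by rw [mem_sub]; exact hke)]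
    · by_cases hv : v ∈ T
      · have h1 := dg_in T hT x0 M ⟨v, hv⟩
        have h2 := dg_in T hT x0 M' ⟨v, hv⟩
        have h4 := h.2.1 ⟨v, hv⟩
        have h5 := h.2.2 none
        simp only at h1 h2
        omega
      · have h1 := dg_out T x0 M ⟨v, hv⟩
        have h2 := dg_out T x0 M' ⟨v, hv⟩
        have h5 := h.2.2 (some ⟨v, hv⟩)
        simp only at h1 h2
        omega

/-! ### the matrix of a state -/

/-- agreement away from `T` -/
def Ag (T : Finset V) (x y : St V) : Prop := ∀ u v, ((u ∉ T ∧ v ∉ T) ∨ u = v) → x s(u, v) = y s(u, v)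

open Classical in
/-- the matrix of a state -/
noncomputable def Mo (T : Finset V) (y : St V) : Mt T := fun r q =>
  match q with
  | some q => y s(r.1, q.1)
  | none => decide (∀ i j, H3 T i j r → y s(i.1, j.1) = false)

theorem phi_mo (T : Finset V) (hT : T.card = 3) (x0 y : St V) (h : Ag T x0 y) :
    Phi T x0 (Mo T y) = y := by
  classical
  funext cc
  rcases cases4 T cc with ⟨u, v, rfl, huv⟩ | ⟨r, q, rfl⟩ | ⟨i, j, hij, rfl⟩
  · rw [phi_out T x0 _ u v huv]; exact h u v huv
  · rw [phi_cross]; rfl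
  · obtain ⟨k, hk⟩ := third T hT hij
    rw [phi_inner T x0 _ hk]
    have hM : Mo T y k none = decide (∀ i j, H3 T i j k → y s(i.1, j.1) = false) := by
      unfold Mo; congr!
    rw [hM]
    cases hy : y s(i.1, j.1)
    · have : ∀ i j, H3 T i j k → y s(i.1, j.1) = false := by
        intro i' j' h'
        have : s(i'.1, j'.1) = s(i.1, j.1) := by
          rcases hk.2.2.2 i' with h1 | h1 | h1 <;> rcases hk.2.2.2 j' with h2 | h2 | h2
          · exact absurd (h1.trans h2.symm) h'.1
          · rw [h1, h2]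
          · exact absurd h2 h'.2.2.1
          · rw [h1, h2]; exact Sym2.eq_swap
          · exact absurd (h1.trans h2.symm) h'.1
          · exact absurd h2 h'.2.2.1
          · exact absurd h1 h'.2.1
          · exact absurd h1 h'.2.1
          · exact absurd h1 h'.2.1
        rw [this]; exact hy
      rw [decide_eq_true this]; rfl
    · have : ¬ ∀ i j, H3 T i j k → y s(i.1, j.1) = false := by
        intro h1
        rw [h1 i j hk] at hy
        exact absurd hy (by decide)
      rw [decide_eq_false this]; rfl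

theorem phi_inj (T : Finset V) (hT : T.card = 3) (x0 : St V) :
    Function.Injective (Phi T x0) := by
  intro M M' h
  funext r q
  cases q with
  | some q =>
    have := congrFun h s(r.1, q.1)
    rw [phi_cross, phi_cross] at this
    exact this
  | none =>
    obtain ⟨j, k, hk⟩ := others T hT r
    have := congrFun h s(j.1, k.1)
    rw [phi_inner T x0 M hk.rot, phi_inner T x0 M' hk.rot] at this
    exact Bool.not_inj this

theorem ag_phi (T : Finset V) (x0 : St V) (M : Mt T) : Ag T x0 (Phi T x0 M) :=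
  fun u v h => (phi_out T x0 M u v h).symm

theorem ag_of_rl (T e : Finset V) (he : e ⊆ T) {x y : St V} (h : Rl (cut e eᶜ) x y) :
    Ag T x y := by
  intro u v huv
  apply h.1
  rw [mem_cut_mk]
  rcases huv with h1 | h1
  · rintro (h2 | h2)
    · exact h1.1 (he h2.1)
    · exact h1.2 (he h2.1)
  · rw [h1]; tauto

/-- transfer of the average -/
theorem EC_phi (T e : Finset V) (hT : T.card = 3) (he : e ⊆ T) (he2 : e.card = 2)
    (x0 : St V) (f : St V → ℝ) (M : Mt T) :
    EC (cut e eᶜ) f (Phi T x0 M) = E (sub T e) (fun M => f (Phi T x0 M)) M := by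
  classical
  have himg : cl (cut e eᶜ) (Phi T x0 M) = (cls (sub T e) M).image (Phi T x0) := by
    ext y
    rw [mem_image]
    unfold cl cls
    simp only [mem_filter, mem_univ, true_and]
    constructor
    · intro h
      have hag : Ag T x0 y := by
        intro u v huv
        rw [← ag_of_rl T e he h u v huv]
        exact ag_phi T x0 M u v huv
      refine ⟨Mo T y, ?_, phi_mo T hT x0 y hag⟩
      rw [← rel_iff T e hT he he2 x0, phi_mo T hT x0 y hag]
      exact h
    · rintro ⟨M', h, rfl⟩
      exact (rel_iff T e hT he he2 x0 M M').mpr h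
  unfold EC E
  rw [himg, sum_image (fun _ _ _ _ h => phi_inj T hT x0 h),
    card_image_of_injective _ (phi_inj T hT x0)]

theorem RH_phi (T : Finset V) (hT : T.card = 3) (x0 : St V) (f : St V → ℝ) (M : Mt T) :
    RH T f (Phi T x0 M) = RT univ (fun M => f (Phi T x0 M)) M := by
  unfold RH RT
  refine sum_bij' (fun e _ => sub T e) (fun e' _ => e'.map (Function.Embedding.subtype _))
    ?_ ?_ ?_ ?_ ?_
  · intro e he
    rw [mem_powersetCard] at he ⊢
    refine ⟨subset_univ _, ?_⟩
    unfold sub
    rw [card_subtype, filter_true_of_mem he.1, he.2]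
  · intro e' he'
    rw [mem_powersetCard] at he' ⊢
    refine ⟨?_, by rw [card_map]; exact he'.2⟩
    intro v hv
    rw [mem_map] at hv
    obtain ⟨r, _, rfl⟩ := hv
    exact r.2
  · intro e he
    rw [mem_powersetCard] at he
    ext v
    simp only [mem_map, Function.Embedding.coe_subtype]
    constructor
    · rintro ⟨r, hr, rfl⟩
      exact (mem_sub T e r).mp hr
    · intro hv
      exact ⟨⟨v, he.1 hv⟩, (mem_sub T e _).mpr hv, rfl⟩
  · intro e' _
    ext r
    rw [mem_sub]
    simp only [mem_map, Function.Embedding.coe_subtype]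
    constructor
    · rintro ⟨r', hr', h⟩
      rw [← Subtype.ext h]; exact hr'
    · intro hr
      exact ⟨r, hr, rfl⟩
  · intro e he
    rw [mem_powersetCard] at he
    unfold Pe P
    rw [EC_phi T e hT he.1 he.2]

/-- normal form away from `T` -/
noncomputable def nf (T : Finset V) (x : St V) : St V := Phi T x (fun _ _ => false)

theorem nf_eq (T : Finset V) (hT : T.card = 3) (x y : St V) : nf T x = nf T y ↔ Ag T x y := by
  constructor
  · intro h u v huv
    have := congrFun h s(u, v)
    unfold nf at this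
    rw [phi_out T x _ u v huv, phi_out T y _ u v huv] at this
    exact this
  · intro h
    funext cc
    unfold nf
    rcases cases4 T cc with ⟨u, v, rfl, huv⟩ | ⟨r, q, rfl⟩ | ⟨i, j, hij, rfl⟩
    · rw [phi_out T x _ u v huv, phi_out T y _ u v huv]; exact h u v huv
    · rw [phi_cross, phi_cross]
    · obtain ⟨k, hk⟩ := third T hT hij
      rw [phi_inner T x _ hk, phi_inner T y _ hk]

theorem sum_nonneg_of (T : Finset V) (hT : T.card = 3) (F : St V → ℝ)
    (h : ∀ x0, 0 ≤ ∑ M : Mt T, F (Phi T x0 M)) : 0 ≤ ∑ x, F x := by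
  classical
  rw [← sum_fiberwise univ (nf T) F]
  refine sum_nonneg (fun p _ => ?_)
  by_cases hp : ∃ x0, nf T x0 = p
  · obtain ⟨x0, rfl⟩ := hp
    have h1 : ∑ x ∈ univ.filter (fun x => nf T x = nf T x0), F x = ∑ M : Mt T, F (Phi T x0 M) := by
      symm
      refine sum_bij (fun M _ => Phi T x0 M) ?_ ?_ ?_ ?_
      · intro M _
        rw [mem_filter]
        refine ⟨mem_univ _, ?_⟩
        rw [nf_eq T hT]
        intro u v huv
        exact phi_out T x0 M u v huv
      · intro M _ M' _ h; exact phi_inj T hT x0 h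
      · intro y hy
        rw [mem_filter, nf_eq T hT] at hy
        refine ⟨Mo T y, mem_univ _, phi_mo T hT x0 y (fun u v huv => (hy.2 u v huv).symm)⟩
      · intro M _; rfl
    rw [h1]; exact h x0
  · rw [sum_eq_zero]
    intro x hx
    rw [mem_filter] at hx
    exact absurd ⟨x, hx.2⟩ hp

end

theorem htri_proof (hTRI : TRI) : HTRI := by
  intro V _ _ T f hT
  have h : 0 ≤ ∑ x, (RH T f x * RH T f x - f x * RH T f x) := by
    apply sum_nonneg_of T hT
    intro x0
    have h1 := hTRI {v : V // v ∈ T} (Option {w : V // w ∉ T}) univ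
      (fun M => f (Phi T x0 M)) (by rw [card_univ, Fintype.card_coe, hT])
    unfold ip at h1
    rw [sum_sub_distrib]
    simp only [RH_phi T hT x0 f]
    linarith
  rw [sum_sub_distrib] at h
  unfold ip
  linarith

end Vale.Agent.P335.H.Htri
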