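import Vale.Agent.P335.HMods

/-! JOHN: the inequality on the Johnson scheme, from SPEC3. -/

namespace Vale.Agent.P335.H.John

open Finset

variable {α : Type} [DecidableEq α]

section
variable (U : Finset α) (a : ℕ)

/-- the `a`-subsets of `U` -/
abbrev X := {N : Finset α // N ∈ U.powersetCard a}

variable {U a}

/-- the exchange -/
def sw (j l : U) (N : X U a) : X U a :=
  ⟨N.1.map (Equiv.swap j.1 l.1).toEmbedding, by
    have h := Finset.mem_powersetCard.mp N.2
    rw [Finset.mem_powersetCard]
    refine ⟨?_, by rw [Finset.card_map, h.2]⟩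
    intro x hx
    rw [Finset.mem_map] at hx
    obtain ⟨y, hy, rfl⟩ := hx
    have hyU := h.1 hy
    simp only [Equiv.coe_toEmbedding]
    by_cases h1 : y = j.1
    · rw [h1, Equiv.swap_apply_left]; exact l.2
    · by_cases h2 : y = l.1
      · rw [h2, Equiv.swap_apply_right]; exact j.2
      · rw [Equiv.swap_apply_of_ne_of_ne h1 h2]; exact hyU⟩

lemma mem_sw (j l : U) (N : X U a) (x : α) :
    x ∈ (sw j l N).1 ↔ Equiv.swap j.1 l.1 x ∈ N.1 := by
  simp only [sw, Finset.mem_map, Equiv.coe_toEmbedding]
  constructor
  · rintro ⟨y, hy, rfl⟩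
    rwa [Equiv.swap_apply_self]
  · intro h
    exact ⟨_, h, Equiv.swap_apply_self _ _ _⟩

/-- `N` contains exactly one of the two points -/
def chi (p q : U) (N : X U a) : Prop := ¬ (p.1 ∈ N.1 ↔ q.1 ∈ N.1)

instance (p q : U) (N : X U a) : Decidable (chi p q N) := by unfold chi; infer_instance

lemma sw_sw (j l : U) (N : X U a) : sw j l (sw j l N) = N := by
  apply Subtype.ext
  ext x
  rw [mem_sw, mem_sw, Equiv.swap_apply_self]

lemma sw_comm (j l : U) (N : X U a) : sw j l N = sw l j N := by
  apply Subtype.ext
  ext x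
  rw [mem_sw, mem_sw, Equiv.swap_comm]

lemma chi_comm (j l : U) (N : X U a) : chi j l N ↔ chi l j N := by
  unfold chi
  tauto

lemma sw_fix (j l : U) (N : X U a) (h : ¬ chi j l N) : sw j l N = N := by
  unfold chi at h
  push Not at h
  apply Subtype.ext
  ext x
  rw [mem_sw]
  by_cases h1 : x = j.1
  · rw [h1, Equiv.swap_apply_left]; exact h.symm
  · by_cases h2 : x = l.1
    · rw [h2, Equiv.swap_apply_right]; exact h
    · rw [Equiv.swap_apply_of_ne_of_ne h1 h2]

lemma chi_sw_self (j l : U) (N : X U a) : chi j l (sw j l N) ↔ chi j l N := by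
  unfold chi
  rw [mem_sw, mem_sw, Equiv.swap_apply_left, Equiv.swap_apply_right]
  tauto

/-- conjugation -/
lemma sw_conj (j l p q : U) (N : X U a) :
    sw (Equiv.swap j l p) (Equiv.swap j l q) (sw j l N) = sw j l (sw p q N) := by
  apply Subtype.ext
  ext x
  rw [mem_sw, mem_sw, mem_sw, mem_sw]
  have hc : ∀ r : U, ((Equiv.swap j l r : U) : α) = Equiv.swap j.1 l.1 r.1 := by
    intro r
    by_cases h1 : r = j
    · subst h1; simp
    · by_cases h2 : r = l
      · subst h2; simp
      · rw [Equiv.swap_apply_of_ne_of_ne h1 h2, Equiv.swap_apply_of_ne_of_ne]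
        · exact fun h => h1 (Subtype.ext h)
        · exact fun h => h2 (Subtype.ext h)
  rw [hc, hc]
  have h := Equiv.swap_apply_apply (Equiv.swap j.1 l.1) p.1 q.1
  rw [h]
  simp only [Equiv.Perm.mul_apply, Equiv.swap_inv, Equiv.swap_apply_self]

lemma chi_conj (j l p q : U) (N : X U a) :
    chi (Equiv.swap j l p) (Equiv.swap j l q) (sw j l N) ↔ chi p q N := by
  have hc : ∀ r : U, ((Equiv.swap j l r : U) : α) = Equiv.swap j.1 l.1 r.1 := by
    intro r
    by_cases h1 : r = j
    · subst h1; simp
    · by_cases h2 : r = l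
      · subst h2; simp
      · rw [Equiv.swap_apply_of_ne_of_ne h1 h2, Equiv.swap_apply_of_ne_of_ne]
        · exact fun h => h1 (Subtype.ext h)
        · exact fun h => h2 (Subtype.ext h)
  unfold chi
  rw [mem_sw, mem_sw, hc, hc, Equiv.swap_apply_self, Equiv.swap_apply_self]

lemma chi_sw_third (j l q : U) (hj : q ≠ j) (hl : q ≠ l) (N : X U a) :
    chi l q (sw j l N) ↔ chi j q N := by
  have := chi_conj j l j q N
  rwa [Equiv.swap_apply_left, Equiv.swap_apply_of_ne_of_ne hj hl] at this

lemma chi_sw_third' (j l q : U) (hj : q ≠ j) (hl : q ≠ l) (N : X U a) :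
    chi j q (sw j l N) ↔ chi l q N := by
  have := chi_conj j l l q N
  rwa [Equiv.swap_apply_right, Equiv.swap_apply_of_ne_of_ne hj hl] at this

lemma sum_sw (j l : U) (F : X U a → ℝ) : ∑ N, F (sw j l N) = ∑ N, F N := by
  apply Finset.sum_bij' (fun N _ => sw j l N) (fun N _ => sw j l N)
  · intros; simp
  · intros; simp
  · intro N _; exact sw_sw j l N
  · intro N _; exact sw_sw j l N
  · intros; rfl

/-- indicator -/
def ci (p q : U) (N : X U a) : ℝ := if chi p q N then 1 else 0

/-- number of sets with exactly one of the points -/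
noncomputable def DD (p q : U) : ℝ := ∑ M : X U a, ci p q M

/-- average -/
noncomputable def AA (f : X U a → ℝ) (p q : U) : ℝ :=
  (∑ M : X U a, ci p q M * f M) / DD (U := U) (a := a) p q

/-- the operator -/
noncomputable def TO : (X U a → ℝ) →ₗ[ℝ] (X U a → ℝ) where
  toFun f := fun N => (1 / 2) * ∑ p : U, ∑ q : U,
    ((f N - f (sw p q N)) / 2 - ci p q N * AA f p q)
  map_add' f g := by
    funext N
    simp only [Pi.add_apply]
    rw [← mul_add, ← Finset.sum_add_distrib]
    congr 1
    apply Finset.sum_congr rfl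
    intro p _
    rw [← Finset.sum_add_distrib]
    apply Finset.sum_congr rfl
    intro q _
    have : AA (f + g) p q = AA f p q + AA g p q := by
      unfold AA
      rw [← add_div, ← Finset.sum_add_distrib]
      congr 1
      apply Finset.sum_congr rfl
      intro M _
      simp only [Pi.add_apply]
      ring
    rw [this]
    ring
  map_smul' c f := by
    funext N
    have hA : ∀ p q : U, AA (c • f) p q = c * AA f p q := by
      intro p q
      unfold AA
      rw [← mul_div_assoc, Finset.mul_sum]
      congr 1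
      apply Finset.sum_congr rfl
      intro M _
      simp only [Pi.smul_apply, smul_eq_mul]
      ring
    simp only [Pi.smul_apply, smul_eq_mul, RingHom.id_apply, hA]
    have h2 : ∀ p q : U, (c * f N - c * f (sw p q N)) / 2 - ci p q N * (c * AA f p q) =
        c * ((f N - f (sw p q N)) / 2 - ci p q N * AA f p q) := by
      intro p q
      ring
    simp only [h2, ← Finset.mul_sum]
    ring

lemma TO_apply (f : X U a → ℝ) (N : X U a) : TO f N = (1 / 2) * ∑ p : U, ∑ q : U,
    ((f N - f (sw p q N)) / 2 - ci p q N * AA f p q) := rfl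

/-- the bilinear form -/
lemma ip_TO (f g : X U a → ℝ) : ip (TO f) g = (1 / 2) * ∑ p : U, ∑ q : U,
    ((∑ N, f N * g N - ∑ N, f (sw p q N) * g N) / 2 -
      (∑ N, ci p q N * f N) * (∑ N, ci p q N * g N) / DD (U := U) (a := a) p q) := by
  unfold ip
  simp only [TO_apply]
  have h1 : ∀ N : X U a, (1 / 2 * ∑ p : U, ∑ q : U,
      ((f N - f (sw p q N)) / 2 - ci p q N * AA f p q)) * g N =
      (1 / 2) * ∑ p : U, ∑ q : U,
        (((f N - f (sw p q N)) / 2 - ci p q N * AA f p q) * g N) := by
    intro N
    rw [mul_assoc, Finset.sum_mul]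
    congr 1
    apply Finset.sum_congr rfl
    intro p _
    rw [Finset.sum_mul]
  simp only [h1]
  rw [← Finset.mul_sum]
  congr 1
  rw [Finset.sum_comm]
  apply Finset.sum_congr rfl
  intro p _
  rw [Finset.sum_comm]
  apply Finset.sum_congr rfl
  intro q _
  have h2 : ∀ N : X U a, ((f N - f (sw p q N)) / 2 - ci p q N * AA f p q) * g N =
      (1 / 2) * (f N * g N) - (1 / 2) * (f (sw p q N) * g N) - AA f p q * (ci p q N * g N) := by
    intro N
    ring
  simp only [h2]
  rw [Finset.sum_sub_distrib, Finset.sum_sub_distrib, ← Finset.mul_sum, ← Finset.mul_sum,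
    ← Finset.mul_sum]
  unfold AA
  ring

lemma TO_symm (f g : X U a → ℝ) : ip (TO f) g = ip f (TO g) := by
  have h : ip f (TO g) = ip (TO g) f := by
    unfold ip
    apply Finset.sum_congr rfl
    intro N _
    ring
  rw [h, ip_TO, ip_TO]
  congr 1
  apply Finset.sum_congr rfl
  intro p _
  apply Finset.sum_congr rfl
  intro q _
  have h1 : ∑ N, f (sw p q N) * g N = ∑ N, g (sw p q N) * f N := by
    rw [← sum_sw p q (fun N => f (sw p q N) * g N)]
    apply Finset.sum_congr rfl
    intro N _
    rw [sw_sw]
    ring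
  have h2 : ∑ N, f N * g N = ∑ N, g N * f N := by
    apply Finset.sum_congr rfl
    intro N _
    ring
  rw [h1, h2]
  ring

lemma sum_mem (N : X U a) : ∑ p : U, (if p.1 ∈ N.1 then (1 : ℝ) else 0) = a := by
  have h := Finset.mem_powersetCard.mp N.2
  rw [Finset.sum_coe_sort U (fun p => if p ∈ N.1 then (1 : ℝ) else 0), Finset.sum_ite_mem,
    Finset.inter_eq_right.mpr h.1]
  simp [h.2]

lemma ci_eq (p q : U) (N : X U a) : ci p q N =
    (if p.1 ∈ N.1 then (1 : ℝ) else 0) * (1 - (if q.1 ∈ N.1 then (1 : ℝ) else 0)) +
    (1 - (if p.1 ∈ N.1 then (1 : ℝ) else 0)) * (if q.1 ∈ N.1 then (1 : ℝ) else 0) := by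
  unfold ci chi
  by_cases h1 : p.1 ∈ N.1 <;> by_cases h2 : q.1 ∈ N.1 <;> simp [h1, h2]

lemma sum_ci (N : X U a) : ∑ p : U, ∑ q : U, ci p q N = 2 * a * ((U.card : ℝ) - a) := by
  simp only [ci_eq]
  have h1 : ∀ p : U, ∑ q : U, ((if p.1 ∈ N.1 then (1 : ℝ) else 0) *
      (1 - (if q.1 ∈ N.1 then (1 : ℝ) else 0)) +
      (1 - (if p.1 ∈ N.1 then (1 : ℝ) else 0)) * (if q.1 ∈ N.1 then (1 : ℝ) else 0)) =
      (if p.1 ∈ N.1 then (1 : ℝ) else 0) * ((U.card : ℝ) - a) +
      (1 - (if p.1 ∈ N.1 then (1 : ℝ) else 0)) * a := by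
    intro p
    rw [Finset.sum_add_distrib, ← Finset.mul_sum, ← Finset.mul_sum, sum_mem,
      Finset.sum_sub_distrib, sum_mem]
    simp
  simp only [h1]
  rw [Finset.sum_add_distrib, ← Finset.sum_mul, ← Finset.sum_mul, sum_mem,
    Finset.sum_sub_distrib, sum_mem]
  simp
  ring

lemma ci_nonneg (p q : U) (N : X U a) : 0 ≤ ci p q N := by
  unfold ci; split_ifs <;> norm_num

lemma ci_le (p q : U) (N : X U a) : ci p q N ≤ 1 := by
  unfold ci; split_ifs <;> norm_num

lemma TO_one : TO (fun _ : X U a => (1 : ℝ)) =
    fun _ => - (a * ((U.card : ℝ) - a)) := by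
  funext N
  rw [TO_apply]
  have h : ∀ p q : U, ((1 : ℝ) - 1) / 2 - ci p q N * AA (fun _ : X U a => (1 : ℝ)) p q =
      - ci p q N := by
    intro p q
    by_cases hc : chi p q N
    · have hD : 0 < DD (U := U) (a := a) p q := by
        unfold DD
        apply lt_of_lt_of_le (b := ci p q N)
        · simp [ci, hc]
        · exact Finset.single_le_sum (fun M _ => ci_nonneg p q M) (Finset.mem_univ N)
      have : AA (fun _ : X U a => (1 : ℝ)) p q = 1 := by
        unfold AA
        simp only [mul_one]
        exact div_self hD.ne'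
      rw [this]
      ring
    · simp [ci, hc]
  simp only [h]
  simp only [Finset.sum_neg_distrib, sum_ci]
  ring

/-! ### the maximal gradient -/

lemma gradK (f : X U a → ℝ) (Lm : ℝ) (j l : U) (hjl : j ≠ l)
    (hmax : ∀ (p q : U) (M : X U a), f M - f (sw p q M) ≤ Lm) (N : X U a) :
    |(1 / 2) * ∑ p : U, ∑ q : U, ci p q N * AA f p q -
      (1 / 2) * ∑ p : U, ∑ q : U, ci p q (sw j l N) * AA f p q| ≤
      ((U.card : ℝ) - 2) / 2 * Lm := by
  have habs : ∀ (p q : U) (M : X U a), |f M - f (sw p q M)| ≤ Lm := by
    intro p q M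
    rw [abs_le]
    refine ⟨?_, hmax p q M⟩
    have := hmax p q (sw p q M)
    rw [sw_sw] at this
    linarith
  have hLm : 0 ≤ Lm := le_trans (abs_nonneg _) (habs j l N)
  have hAc : ∀ p q : U, AA f p q = AA f q p := by
    intro p q
    unfold AA DD ci
    simp only [chi_comm p q]
  have hcc : ∀ (p q : U) (M : X U a), ci p q M = ci q p M := by
    intro p q M
    unfold ci
    simp only [chi_comm p q]
  -- key estimate
  have key : ∀ q : U, q ≠ j → q ≠ l →
      |(ci j q N - ci j q (sw j l N)) * AA f j q + (ci l q N - ci l q (sw j l N)) * AA f l q| ≤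
      Lm / 2 := by
    intro q hqj hql
    have e1 : ci j q (sw j l N) = ci l q N := by
      unfold ci
      simp only [chi_sw_third' j l q hqj hql]
    have e2 : ci l q (sw j l N) = ci j q N := by
      unfold ci
      simp only [chi_sw_third j l q hqj hql]
    have e3 : ∀ M : X U a, ci l q (sw j l M) = ci j q M := by
      intro M
      unfold ci
      simp only [chi_sw_third j l q hqj hql]
    have eD : DD (U := U) (a := a) l q = DD (U := U) (a := a) j q := by
      unfold DD
      rw [← sum_sw j l]
      simp only [e3]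
    have eA : AA f j q - AA f l q = (∑ M : X U a, ci j q M * (f M - f (sw j l M))) /
        DD (U := U) (a := a) j q := by
      unfold AA
      rw [eD, ← sum_sw j l (fun M => ci l q M * f M), ← sub_div, ← Finset.sum_sub_distrib]
      congr 1
      apply Finset.sum_congr rfl
      intro M _
      rw [e3]
      ring
    -- the count
    have hhalf : 2 * ∑ M : X U a, ci j q M * ci j l M = DD (U := U) (a := a) j q := by
      have h1 : ∑ M : X U a, ci j q M * ci j l M = ∑ M : X U a, ci j q M * (1 - ci j l M) := by
        rw [← sum_sw j q (fun M => ci j q M * ci j l M)]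
        apply Finset.sum_congr rfl
        intro M _
        have h2 : ci j q (sw j q M) = ci j q M := by
          unfold ci
          simp only [chi_sw_self]
        rw [h2]
        by_cases hc : chi j q M
        · have h3 : ci j l (sw j q M) = 1 - ci j l M := by
            have hjl' : l.1 ≠ j.1 := fun h => hjl (Subtype.ext h.symm)
            have hlq' : l.1 ≠ q.1 := fun h => hql (Subtype.ext h.symm)
            unfold ci chi
            unfold chi at hc
            simp only [mem_sw, Equiv.swap_apply_left,
              Equiv.swap_apply_of_ne_of_ne hjl' hlq']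
            by_cases k1 : j.1 ∈ M.1 <;> by_cases k2 : q.1 ∈ M.1 <;> by_cases k3 : l.1 ∈ M.1 <;>
              simp_all
          rw [h3]
        · simp [ci, hc]
      have h4 : ∑ M : X U a, ci j q M * ci j l M + ∑ M : X U a, ci j q M * (1 - ci j l M) =
          DD (U := U) (a := a) j q := by
        rw [← Finset.sum_add_distrib]
        unfold DD
        apply Finset.sum_congr rfl
        intro M _
        ring
      rw [← h1] at h4
      linarith
    have hAA : |AA f j q - AA f l q| ≤ Lm / 2 := by
      rw [eA, abs_div]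
      have hDn : 0 ≤ DD (U := U) (a := a) j q := by
        unfold DD
        exact Finset.sum_nonneg fun M _ => ci_nonneg j q M
      rw [abs_of_nonneg hDn]
      have h5 : |∑ M : X U a, ci j q M * (f M - f (sw j l M))| ≤
          DD (U := U) (a := a) j q * (Lm / 2) := by
        calc |∑ M : X U a, ci j q M * (f M - f (sw j l M))|
            ≤ ∑ M : X U a, |ci j q M * (f M - f (sw j l M))| :=
              Finset.abs_sum_le_sum_abs _ _
          _ ≤ ∑ M : X U a, ci j q M * ci j l M * Lm := by
              apply Finset.sum_le_sum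
              intro M _
              rw [abs_mul, abs_of_nonneg (ci_nonneg j q M), mul_assoc]
              apply mul_le_mul_of_nonneg_left _ (ci_nonneg j q M)
              by_cases hc : chi j l M
              · simp only [ci, hc, if_true, one_mul]
                exact habs j l M
              · rw [sw_fix j l M hc]
                simp [ci, hc]
          _ = DD (U := U) (a := a) j q * (Lm / 2) := by
              rw [← Finset.sum_mul, ← hhalf]
              ring
      rcases hDn.eq_or_lt with h0 | hpos
      · rw [← h0]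
        simp only [div_zero]
        linarith
      · rw [div_le_iff₀ hpos]
        linarith
    rw [e1, e2]
    have e4 : (ci j q N - ci l q N) * AA f j q + (ci l q N - ci j q N) * AA f l q =
        (ci j q N - ci l q N) * (AA f j q - AA f l q) := by ring
    rw [e4, abs_mul]
    have h6 : |ci j q N - ci l q N| ≤ 1 := by
      rw [abs_le]
      constructor
      · linarith [ci_nonneg j q N, ci_le l q N]
      · linarith [ci_nonneg l q N, ci_le j q N]
    calc |ci j q N - ci l q N| * |AA f j q - AA f l q| ≤ 1 * (Lm / 2) :=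
          mul_le_mul h6 hAA (abs_nonneg _) (by norm_num)
      _ = Lm / 2 := one_mul _
  -- the decomposition of the double sum
  set δ : U → U → ℝ := fun p q => (ci p q N - ci p q (sw j l N)) * AA f p q with hδ
  have hsum : (1 / 2) * ∑ p : U, ∑ q : U, ci p q N * AA f p q -
      (1 / 2) * ∑ p : U, ∑ q : U, ci p q (sw j l N) * AA f p q =
      (1 / 2) * ∑ p : U, ∑ q : U, δ p q := by
    rw [← mul_sub, ← Finset.sum_sub_distrib]
    congr 1
    apply Finset.sum_congr rfl
    intro p _
    rw [← Finset.sum_sub_distrib]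
    apply Finset.sum_congr rfl
    intro q _
    simp only [hδ]
    ring
  have hδc : ∀ p q, δ p q = δ q p := by
    intro p q
    simp only [hδ]
    rw [hcc p q N, hcc p q (sw j l N), hAc p q]
  have hδ0 : ∀ p q, p ≠ j → p ≠ l → q ≠ j → q ≠ l → δ p q = 0 := by
    intro p q h1 h2 h3 h4
    have := chi_conj j l p q N
    rw [Equiv.swap_apply_of_ne_of_ne h1 h2, Equiv.swap_apply_of_ne_of_ne h3 h4] at this
    simp only [hδ, ci, this]
    ring
  have hδjl : δ j l = 0 := by
    simp only [hδ, ci, chi_sw_self]
    ring
  have hself : ∀ p, δ p p = 0 := by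
    intro p
    simp [hδ, ci, chi]
  set S : Finset U := Finset.univ.filter (fun q => q ≠ j ∧ q ≠ l) with hS
  have hsplit : ∀ F : U → ℝ, ∑ q : U, F q = F j + F l + ∑ q ∈ S, F q := by
    intro F
    have h1 : (Finset.univ : Finset U) = insert j (insert l S) := by
      ext q
      simp only [hS, Finset.mem_univ, Finset.mem_insert, Finset.mem_filter, true_and, true_iff]
      tauto
    rw [h1, Finset.sum_insert, Finset.sum_insert]
    · ring
    · simp [hS]
    · simp [hS, hjl]
  have hScard : (S.card : ℝ) = (U.card : ℝ) - 2 := by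
    have := hsplit (fun _ => 1)
    simp at this
    linarith
  have htot : ∑ p : U, ∑ q : U, δ p q = 2 * ∑ q ∈ S, (δ j q + δ l q) := by
    rw [hsplit (fun p => ∑ q : U, δ p q), hsplit (fun q => δ j q), hsplit (fun q => δ l q)]
    have h1 : ∑ p ∈ S, ∑ q : U, δ p q = ∑ p ∈ S, (δ j p + δ l p) := by
      apply Finset.sum_congr rfl
      intro p hp
      simp only [hS, Finset.mem_filter, Finset.mem_univ, true_and] at hp
      rw [hsplit (fun q => δ p q)]
      have : ∑ q ∈ S, δ p q = 0 := by
        apply Finset.sum_eq_zero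
        intro q hq
        simp only [hS, Finset.mem_filter, Finset.mem_univ, true_and] at hq
        exact hδ0 p q hp.1 hp.2 hq.1 hq.2
      rw [this, hδc p j, hδc p l, add_zero]
    rw [h1, hself, hself, hδjl, hδc l j, hδjl, Finset.sum_add_distrib]
    ring
  rw [hsum, htot]
  have h7 : (1 / 2 : ℝ) * (2 * ∑ q ∈ S, (δ j q + δ l q)) = ∑ q ∈ S, (δ j q + δ l q) := by ring
  rw [h7]
  calc |∑ q ∈ S, (δ j q + δ l q)| ≤ ∑ q ∈ S, |δ j q + δ l q| := Finset.abs_sum_le_sum_abs _ _
    _ ≤ ∑ q ∈ S, Lm / 2 := by
        apply Finset.sum_le_sum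
        intro q hq
        simp only [hS, Finset.mem_filter, Finset.mem_univ, true_and] at hq
        exact key q hq.1 hq.2
    _ = ((U.card : ℝ) - 2) / 2 * Lm := by
        rw [Finset.sum_const, nsmul_eq_mul, hScard]
        ring

lemma gradT (f : X U a → ℝ) (Lm : ℝ) (j l : U) (hjl : j ≠ l)
    (hmax : ∀ (p q : U) (M : X U a), f M - f (sw p q M) ≤ Lm) (N : X U a)
    (hN : f N - f (sw j l N) = Lm) (hc : chi j l N) :
    (U.card : ℝ) / 2 * Lm ≤
    (1 / 2) * ∑ p : U, ∑ q : U, (f N - f (sw p q N)) / 2 -
      (1 / 2) * ∑ p : U, ∑ q : U, (f (sw j l N) - f (sw p q (sw j l N))) / 2 := by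
  -- reindex
  have hre : ∑ p : U, ∑ q : U, (f (sw j l N) - f (sw p q (sw j l N))) / 2 =
      ∑ p : U, ∑ q : U, (f (sw j l N) - f (sw j l (sw p q N))) / 2 := by
    rw [← Equiv.sum_comp (Equiv.swap j l)]
    apply Finset.sum_congr rfl
    intro p _
    rw [← Equiv.sum_comp (Equiv.swap j l)]
    apply Finset.sum_congr rfl
    intro q _
    rw [sw_conj]
  set e : U → U → ℝ := fun p q => Lm - (f (sw p q N) - f (sw j l (sw p q N))) with he
  have he0 : ∀ p q, 0 ≤ e p q := by
    intro p q
    have := hmax j l (sw p q N)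
    simp only [he]
    linarith
  have hsum : (1 / 2) * ∑ p : U, ∑ q : U, (f N - f (sw p q N)) / 2 -
      (1 / 2) * ∑ p : U, ∑ q : U, (f (sw j l N) - f (sw p q (sw j l N))) / 2 =
      (1 / 4) * ∑ p : U, ∑ q : U, e p q := by
    rw [hre, ← mul_sub, ← Finset.sum_sub_distrib]
    have : ∀ p : U, ∑ q : U, (f N - f (sw p q N)) / 2 -
        ∑ q : U, (f (sw j l N) - f (sw j l (sw p q N))) / 2 = (1 / 2) * ∑ q : U, e p q := by
      intro p
      rw [← Finset.sum_sub_distrib, Finset.mul_sum]
      apply Finset.sum_congr rfl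
      intro q _
      simp only [he]
      linarith
    simp only [this]
    rw [← Finset.mul_sum]
    ring
  rw [hsum]
  have hec : ∀ p q, e p q = e q p := by
    intro p q
    simp only [he]
    rw [sw_comm p q]
  have hejl : e j l = 2 * Lm := by
    simp only [he]
    rw [sw_sw]
    linarith
  have hkey : ∀ q : U, q ≠ j → q ≠ l → Lm ≤ e j q + e l q := by
    intro q hqj hql
    have hqj' : q.1 ≠ j.1 := fun h => hqj (Subtype.ext h)
    have hql' : q.1 ≠ l.1 := fun h => hql (Subtype.ext h)
    have hjl' : j.1 ≠ l.1 := fun h => hjl (Subtype.ext h)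
    by_cases hq : (q.1 ∈ N.1 ↔ j.1 ∈ N.1)
    · -- exchanging l and q
      have h1 : ¬ chi j l (sw l q N) := by
        unfold chi
        simp only [mem_sw, Equiv.swap_apply_left, Equiv.swap_apply_of_ne_of_ne hjl' hqj'.symm]
        tauto
      have h2 : e l q = Lm := by
        simp only [he]
        rw [sw_fix j l _ h1]
        ring
      linarith [he0 j q]
    · have h1 : ¬ chi j l (sw j q N) := by
        unfold chi at hc ⊢
        simp only [mem_sw, Equiv.swap_apply_left, Equiv.swap_apply_of_ne_of_ne hjl'.symm hql'.symm]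
        tauto
      have h2 : e j q = Lm := by
        simp only [he]
        rw [sw_fix j l _ h1]
        ring
      linarith [he0 l q]
  set S : Finset U := Finset.univ.filter (fun q => q ≠ j ∧ q ≠ l) with hS
  have hsplit : ∀ F : U → ℝ, ∑ q : U, F q = F j + F l + ∑ q ∈ S, F q := by
    intro F
    have h1 : (Finset.univ : Finset U) = insert j (insert l S) := by
      ext q
      simp only [hS, Finset.mem_univ, Finset.mem_insert, Finset.mem_filter, true_and, true_iff]
      tauto
    rw [h1, Finset.sum_insert, Finset.sum_insert]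
    · ring
    · simp [hS]
    · simp [hS, hjl]
  have hScard : (S.card : ℝ) = (U.card : ℝ) - 2 := by
    have := hsplit (fun _ => 1)
    simp at this
    linarith
  have hb1 : (S.card : ℝ) * Lm ≤ ∑ q ∈ S, (e j q + e l q) := by
    rw [← nsmul_eq_mul, ← Finset.sum_const]
    apply Finset.sum_le_sum
    intro q hq
    simp only [hS, Finset.mem_filter, Finset.mem_univ, true_and] at hq
    exact hkey q hq.1 hq.2
  have hb2 : (S.card : ℝ) * Lm ≤ ∑ p ∈ S, ∑ q : U, e p q := by
    rw [← nsmul_eq_mul, ← Finset.sum_const]
    apply Finset.sum_le_sum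
    intro p hp
    simp only [hS, Finset.mem_filter, Finset.mem_univ, true_and] at hp
    rw [hsplit (fun q => e p q)]
    have h1 := hkey p hp.1 hp.2
    rw [hec j p, hec l p] at h1
    have h2 : 0 ≤ ∑ q ∈ S, e p q := Finset.sum_nonneg fun q _ => he0 p q
    linarith
  have htot : 2 * (U.card : ℝ) * Lm ≤ ∑ p : U, ∑ q : U, e p q := by
    rw [hsplit (fun p => ∑ q : U, e p q), hsplit (fun q => e j q), hsplit (fun q => e l q)]
    rw [Finset.sum_add_distrib] at hb1
    rw [hScard] at hb1 hb2
    have h1 := he0 j j
    have h2 := he0 l l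
    rw [hec l j, hejl]
    linarith
  linarith

/-- connectivity -/
lemma const_of_inv (f : X U a → ℝ) (h : ∀ (p q : U) (M : X U a), f (sw p q M) = f M) :
    ∀ N M : X U a, f N = f M := by
  have main : ∀ (k : ℕ) (N M : X U a), (N.1 \ M.1).card = k → f N = f M := by
    intro k
    induction k with
    | zero =>
      intro N M hk
      rw [Finset.card_eq_zero, Finset.sdiff_eq_empty_iff_subset] at hk
      have hN := Finset.mem_powersetCard.mp N.2
      have hM := Finset.mem_powersetCard.mp M.2
      have : N.1 = M.1 := Finset.eq_of_subset_of_card_le hk (by rw [hN.2, hM.2])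
      rw [Subtype.ext this]
    | succ k ih =>
      intro N M hk
      have hN := Finset.mem_powersetCard.mp N.2
      have hM := Finset.mem_powersetCard.mp M.2
      have h1 : (N.1 \ M.1).Nonempty := by
        rw [← Finset.card_pos]; omega
      have h2 : (M.1 \ N.1).Nonempty := by
        rw [← Finset.card_pos]
        have := Finset.card_sdiff_add_card_inter N.1 M.1
        have h3 := Finset.card_sdiff_add_card_inter M.1 N.1
        rw [Finset.inter_comm] at h3
        omega
      obtain ⟨p, hp⟩ := h1
      obtain ⟨q, hq⟩ := h2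
      rw [Finset.mem_sdiff] at hp hq
      have hpU := hN.1 hp.1
      have hqU := hM.1 hq.1
      rw [← h ⟨p, hpU⟩ ⟨q, hqU⟩ N]
      apply ih
      have hset : (sw ⟨p, hpU⟩ ⟨q, hqU⟩ N).1 \ M.1 = (N.1 \ M.1).erase p := by
        ext x
        simp only [Finset.mem_sdiff, mem_sw, Finset.mem_erase]
        by_cases hxp : x = p
        · subst hxp
          simp [hq.2]
        · by_cases hxq : x = q
          · subst hxq
            simp [hq.1]
          · rw [Equiv.swap_apply_of_ne_of_ne hxp hxq]
            tauto
      rw [hset, Finset.card_erase_of_mem (Finset.mem_sdiff.mpr hp), hk]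
      rfl
  intro N M
  exact main _ N M rfl

lemma eig (f : X U a → ℝ) (nu : ℝ) (hf : f ≠ 0) (hs : ∑ N, f N = 0) (hT : TO f = nu • f) :
    1 ≤ nu := by
  classical
  -- maximal gradient
  by_cases hinv : ∀ (p q : U) (M : X U a), f M - f (sw p q M) ≤ 0
  · exfalso
    apply hf
    have h1 : ∀ (p q : U) (M : X U a), f (sw p q M) = f M := by
      intro p q M
      have h2 := hinv p q M
      have h3 := hinv p q (sw p q M)
      rw [sw_sw] at h3
      linarith
    have h2 := const_of_inv f h1
    funext N
    have h3 : ∑ M : X U a, f M = (Fintype.card (X U a) : ℝ) * f N := by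
      rw [Finset.sum_congr rfl (fun M _ => h2 M N), Finset.sum_const, nsmul_eq_mul,
        Finset.card_univ]
    rw [hs] at h3
    have h4 : (Fintype.card (X U a) : ℝ) ≠ 0 := by
      have : 0 < Fintype.card (X U a) := Fintype.card_pos_iff.mpr ⟨N⟩
      positivity
    have h5 := mul_eq_zero.mp h3.symm
    rcases h5 with h5 | h5
    · exact absurd h5 h4
    · exact h5
  · push Not at hinv
    obtain ⟨p0, q0, M0, h0⟩ := hinv
    obtain ⟨x, -, hx⟩ := Finset.exists_max_image (Finset.univ : Finset (U × U × X U a))
      (fun x => f x.2.2 - f (sw x.1 x.2.1 x.2.2)) ⟨(p0, q0, M0), Finset.mem_univ _⟩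
    obtain ⟨j, l, N⟩ := x
    set Lm := f N - f (sw j l N) with hLm
    have hmax : ∀ (p q : U) (M : X U a), f M - f (sw p q M) ≤ Lm := fun p q M =>
      hx (p, q, M) (Finset.mem_univ _)
    have hpos : 0 < Lm := lt_of_lt_of_le h0 (hmax p0 q0 M0)
    have hjl : j ≠ l := by
      rintro rfl
      rw [sw_fix j j N (by simp [chi])] at hLm
      linarith
    have hc : chi j l N := by
      by_contra hc
      rw [sw_fix j l N hc] at hLm
      linarith
    have g1 := gradT f Lm j l hjl hmax N rfl hc
    have g2 := abs_le.mp (gradK f Lm j l hjl hmax N)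
    have e1 : TO f N - TO f (sw j l N) = nu * Lm := by
      rw [hT]
      simp only [Pi.smul_apply, smul_eq_mul, hLm]
      ring
    have e2 : ∀ M : X U a, TO f M = (1 / 2) * ∑ p : U, ∑ q : U, (f M - f (sw p q M)) / 2 -
        (1 / 2) * ∑ p : U, ∑ q : U, ci p q M * AA f p q := by
      intro M
      rw [TO_apply, ← mul_sub, ← Finset.sum_sub_distrib]
      congr 1
      apply Finset.sum_congr rfl
      intro p _
      rw [← Finset.sum_sub_distrib]
    rw [e2, e2] at e1
    have : Lm ≤ nu * Lm := by
      have g3 := g2.2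
      nlinarith [g1, g3, e1]
    nlinarith

end

/-! ### back to sums over pairs -/

lemma sum_pairs (U : Finset α) (F : Finset α → ℝ) :
    ∑ p ∈ U.powersetCard 2, F p =
      (1 / 2) * ∑ j : U, ∑ l : U, (if j ≠ l then F {j.1, l.1} else 0) := by
  have h1 : ∑ x ∈ U.offDiag, F {x.1, x.2} = ∑ p ∈ U.powersetCard 2,
      ∑ x ∈ U.offDiag with ({x.1, x.2} : Finset α) = p, F {x.1, x.2} := by
    symm
    apply Finset.sum_fiberwise_of_maps_to
    intro x hx
    rw [Finset.mem_offDiag] at hx
    rw [Finset.mem_powersetCard]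
    refine ⟨?_, Finset.card_pair hx.2.2⟩
    intro y hy
    simp only [Finset.mem_insert, Finset.mem_singleton] at hy
    rcases hy with rfl | rfl
    · exact hx.1
    · exact hx.2.1
  have h2 : ∀ p ∈ U.powersetCard 2,
      ∑ x ∈ U.offDiag with ({x.1, x.2} : Finset α) = p, F {x.1, x.2} = 2 * F p := by
    intro p hp
    rw [Finset.mem_powersetCard] at hp
    obtain ⟨c, d, hcd, rfl⟩ := Finset.card_eq_two.mp hp.2
    have hcU : c ∈ U := hp.1 (by simp)
    have hdU : d ∈ U := hp.1 (by simp)
    have hset : (U.offDiag.filter fun x => ({x.1, x.2} : Finset α) = {c, d}) =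
        {(c, d), (d, c)} := by
      ext ⟨x, y⟩
      simp only [Finset.mem_filter, Finset.mem_offDiag, Finset.mem_insert, Finset.mem_singleton,
        Prod.mk.injEq]
      constructor
      · rintro ⟨⟨h1, h2, h3⟩, h4⟩
        have hx : x ∈ ({c, d} : Finset α) := by rw [← h4]; simp
        have hy : y ∈ ({c, d} : Finset α) := by rw [← h4]; simp
        simp only [Finset.mem_insert, Finset.mem_singleton] at hx hy
        rcases hx with rfl | rfl <;> rcases hy with rfl | rfl
        · exact absurd rfl h3
        · left; exact ⟨rfl, rfl⟩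
        · right; exact ⟨rfl, rfl⟩
        · exact absurd rfl h3
      · rintro (⟨rfl, rfl⟩ | ⟨rfl, rfl⟩)
        · exact ⟨⟨hcU, hdU, hcd⟩, rfl⟩
        · exact ⟨⟨hdU, hcU, hcd.symm⟩, Finset.pair_comm _ _⟩
    rw [hset, Finset.sum_pair]
    · rw [Finset.pair_comm d c]
      ring
    · intro h
      simp only [Prod.mk.injEq] at h
      exact hcd h.1
  rw [Finset.sum_congr rfl h2, ← Finset.mul_sum] at h1
  have h3 : ∑ j : U, ∑ l : U, (if j ≠ l then F {j.1, l.1} else 0) =
      ∑ x ∈ U.offDiag, F {x.1, x.2} := by
    rw [← Finset.sum_product' Finset.univ Finset.univ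
      (fun (j l : U) => if j ≠ l then F {j.1, l.1} else 0), ← Finset.sum_filter]
    apply Finset.sum_bij (fun (x : U × U) _ => (x.1.1, x.2.1))
    · intro x hx
      simp only [Finset.mem_filter, Finset.mem_product, Finset.mem_univ, true_and] at hx
      rw [Finset.mem_offDiag]
      exact ⟨x.1.2, x.2.2, fun h => hx (Subtype.ext h)⟩
    · intro x _ y _ h
      simp only [Prod.mk.injEq] at h
      exact Prod.ext (Subtype.ext h.1) (Subtype.ext h.2)
    · intro y hy
      rw [Finset.mem_offDiag] at hy
      refine ⟨(⟨y.1, hy.1⟩, ⟨y.2, hy.2.1⟩), ?_, rfl⟩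
      simp only [Finset.mem_filter, Finset.mem_product, Finset.mem_univ, true_and, ne_eq,
        Subtype.mk.injEq]
      exact hy.2.2
    · intro x _
      rfl
  rw [h3, h1]
  ring

theorem john_proof (hspec : SPEC3) : JOHN := by
  intro α _ _ U a g hg
  classical
  set f : X U a → ℝ := fun N => g N.1 with hf
  have hsum : ∀ F : Finset α → ℝ, ∑ N : X U a, F N.1 = ∑ N ∈ U.powersetCard a, F N := fun F =>
    Finset.sum_coe_sort _ F
  have h0 : ∑ N : X U a, f N = 0 := by
    rw [← hg]; exact hsum g
  have hmain := hspec (X U a) TO _ TO_symm TO_one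
    (fun nu f hf hs hT => eig f nu hf hs hT) f h0
  have h1 : ip f f = ∑ N ∈ U.powersetCard a, (g N) ^ 2 := by
    unfold ip
    rw [← hsum (fun N => (g N) ^ 2)]
    apply Finset.sum_congr rfl
    intro N _
    simp only [hf]
    ring
  rw [h1] at hmain
  refine hmain.trans (le_of_eq ?_)
  rw [← TO_symm, ip_TO, sum_pairs]
  congr 1
  apply Finset.sum_congr rfl
  intro j _
  apply Finset.sum_congr rfl
  intro l _
  by_cases hjl : j = l
  · subst hjl
    simp only [ne_eq, not_true_eq_false, if_false]
    have e1 : ∀ N : X U a, sw j j N = N := fun N => sw_fix j j N (by simp [chi])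
    have e2 : ∀ N : X U a, ci j j N = 0 := fun N => by simp [ci, chi]
    simp only [e1, e2, zero_mul, Finset.sum_const_zero]
    simp
  · rw [if_pos hjl]
    have hjl' : j.1 ≠ l.1 := fun h => hjl (Subtype.ext h)
    -- chi and the intersection
    have hchi : ∀ N : X U a, chi j l N ↔ (N.1 ∩ {j.1, l.1}).card = 1 := by
      intro N
      unfold chi
      by_cases k1 : j.1 ∈ N.1
      · by_cases k2 : l.1 ∈ N.1
        · have : N.1 ∩ {j.1, l.1} = {j.1, l.1} := by
            ext x; simp only [Finset.mem_inter, Finset.mem_insert, Finset.mem_singleton]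
            constructor
            · exact fun h => h.2
            · rintro (rfl | rfl)
              · exact ⟨k1, Or.inl rfl⟩
              · exact ⟨k2, Or.inr rfl⟩
          rw [this, Finset.card_pair hjl']
          simp [k1, k2]
        · have : N.1 ∩ {j.1, l.1} = {j.1} := by
            ext x; simp only [Finset.mem_inter, Finset.mem_insert, Finset.mem_singleton]
            constructor
            · rintro ⟨h, rfl | rfl⟩
              · rfl
              · exact absurd h k2
            · rintro rfl
              exact ⟨k1, Or.inl rfl⟩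
          rw [this, Finset.card_singleton]
          simp [k1, k2]
      · by_cases k2 : l.1 ∈ N.1
        · have : N.1 ∩ {j.1, l.1} = {l.1} := by
            ext x; simp only [Finset.mem_inter, Finset.mem_insert, Finset.mem_singleton]
            constructor
            · rintro ⟨h, rfl | rfl⟩
              · exact absurd h k1
              · rfl
            · rintro rfl
              exact ⟨k2, Or.inr rfl⟩
          rw [this, Finset.card_singleton]
          simp [k1, k2]
        · have : N.1 ∩ {j.1, l.1} = ∅ := by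
            ext x; simp only [Finset.mem_inter, Finset.mem_insert, Finset.mem_singleton]
            constructor
            · rintro ⟨h, rfl | rfl⟩
              · exact absurd h k1
              · exact absurd h k2
            · intro h; simp at h
          rw [this, Finset.card_empty]
          simp [k1, k2]
    have hsw : ∀ N : X U a, chi j l N → (sw j l N).1 = symmDiff N.1 {j.1, l.1} := by
      intro N hc
      unfold chi at hc
      ext x
      rw [mem_sw, Finset.mem_symmDiff]
      simp only [Finset.mem_insert, Finset.mem_singleton]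
      by_cases h1 : x = j.1
      · subst h1
        rw [Equiv.swap_apply_left]
        tauto
      · by_cases h2 : x = l.1
        · subst h2
          rw [Equiv.swap_apply_right]
          tauto
        · rw [Equiv.swap_apply_of_ne_of_ne h1 h2]
          tauto
    have hfil : ∀ F : Finset α → ℝ, ∑ N ∈ (U.powersetCard a).filter
        (fun N => (N ∩ {j.1, l.1}).card = 1), F N = ∑ N : X U a, ci j l N * F N.1 := by
      intro F
      rw [Finset.sum_filter, ← hsum]
      apply Finset.sum_congr rfl
      intro N _
      unfold ci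
      by_cases hc : chi j l N
      · rw [if_pos ((hchi N).mp hc), if_pos hc, one_mul]
      · rw [if_neg (fun h => hc ((hchi N).mpr h)), if_neg hc, zero_mul]
    have hcard : (((U.powersetCard a).filter
        (fun N => (N ∩ {j.1, l.1}).card = 1)).card : ℝ) = DD (U := U) (a := a) j l := by
      have := hfil (fun _ => 1)
      simp only [Finset.sum_const, nsmul_eq_mul, mul_one] at this
      exact this
    rw [hcard, hfil, hfil]
    have hq : ∑ N : X U a, ci j l N * (g N.1 - g (symmDiff N.1 {j.1, l.1})) ^ 2 =
        2 * (∑ N : X U a, f N * f N - ∑ N : X U a, f (sw j l N) * f N) := by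
      have e1 : ∀ N : X U a, ci j l N * (g N.1 - g (symmDiff N.1 {j.1, l.1})) ^ 2 =
          f N * f N + f (sw j l N) * f (sw j l N) - 2 * (f (sw j l N) * f N) := by
        intro N
        by_cases hc : chi j l N
        · simp only [ci, hc, if_true, one_mul, hf]
          rw [hsw N hc]
          ring
        · simp only [ci, hc, if_false, zero_mul]
          rw [sw_fix j l N hc]
          ring
      simp only [e1]
      rw [Finset.sum_sub_distrib, Finset.sum_add_distrib, ← Finset.mul_sum,
        sum_sw j l (fun N => f N * f N)]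
      ring
    rw [hq]
    simp only [hf]
    ring

end Vale.Agent.P335.H.John
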