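import Vale.Agent.P335.Final
import Vale.Agent.P335.Heops
import Vale.Agent.P335.Hcuts
import Vale.Agent.P335.Htot
import Vale.Agent.P335.Hcm
import Vale.Agent.P335.Hdisj
import Vale.Agent.P335.Hspec3
import Vale.Agent.P335.John
import Vale.Agent.P335.Hpere
import Vale.Agent.P335.Htri
import Vale.Agent.P335.Hconn
import Vale.Agent.P335.Hsq
import Vale.Agent.P335.Hgap
import Vale.Agent.P335.Hsw
import Vale.Agent.P335.Hst
import Vale.Agent.P335.Hpoin
import Vale.Agent.P335.Hfull
import Vale.Agent.P335.Hq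

/-!
P335, general simple graphs: assembly.
-/

namespace Vale.Agent.P335.H.FIN

theorem eoph : EOPH := Heops.eoph_proof
theorem cuts : CUTS := Hcuts.cuts_proof
theorem htri : HTRI := Htri.htri_proof Vale.Agent.P335.FIN.tri
theorem hdisj : HDISJ := Hdisj.hdisj_proof eoph cuts Htot.htot_proof Hcm.hcm_proof Htot.ht4_proof
theorem john : JOHN := John.john_proof Spec3.spec3_proof
theorem hpere : HPERE := Hpere.HPERE_proof eoph john
theorem hsq : HSQ := Hsq.hsq_proof eoph cuts htri hdisj hpere Htot.htot_proof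
theorem hgap : HGAP := Hgap.hgap_proof eoph cuts hsq Conn.hconn_proof
  Vale.Agent.P335.SP2.spec2_proof
theorem hsw : HSW := Hsw.hsw_proof eoph hgap hpere
theorem hpoin (hQ : HQ) : HPOIN := Hpoin.hpoin_proof eoph cuts hsw Hst.hsts_proof hQ
  Vale.Agent.P335.Kbas.kbas_proof Vale.Agent.P335.NUMx.qcard_proof
theorem fullmix_of (hQ : HQ) : FULLMIX := Hfull.fullmix_proof Vale.Agent.P335.MX.mix_proof
  Vale.Agent.P335.NUMx.num_proof (hpoin hQ) Vale.Agent.P335.Kbas.kbas_proof

theorem fullmix : FULLMIX := fullmix_of Hq.hq_proof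

end Vale.Agent.P335.H.FIN
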