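import Mathlib

/-!
P335, the switch chain on simple graphs: definitions used in the final statement.
-/

namespace Vale.Agent.P335

open Finset

/-- ordered quadruples of distinct vertices -/
def Quad (n : ℕ) : Finset (Fin n × Fin n × Fin n × Fin n) :=
  univ.filter (fun q => q.1 ≠ q.2.1 ∧ q.1 ≠ q.2.2.1 ∧ q.1 ≠ q.2.2.2 ∧ q.2.1 ≠ q.2.2.1 ∧
    q.2.1 ≠ q.2.2.2 ∧ q.2.2.1 ≠ q.2.2.2)

open Classical in
/-- For a quadruple `(a, b, c, d)` let `F = {ab, cd}` and `F' = {bc, da}`.  If both edges of `F`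
are present and both edges of `F'` are absent, replace `F` by `F'`; otherwise do nothing. -/
noncomputable def step {n : ℕ} (G : SimpleGraph (Fin n)) (q : Fin n × Fin n × Fin n × Fin n) :
    SimpleGraph (Fin n) :=
  if G.Adj q.1 q.2.1 ∧ G.Adj q.2.2.1 q.2.2.2 ∧ ¬ G.Adj q.2.1 q.2.2.1 ∧ ¬ G.Adj q.2.2.2 q.1 then
    SimpleGraph.fromEdgeSet ((G.edgeSet \ {s(q.1, q.2.1), s(q.2.2.1, q.2.2.2)}) ∪
      {s(q.2.1, q.2.2.1), s(q.2.2.2, q.1)})
  else G

open Classical in
/-- the kernel: pick a uniformly random quadruple of distinct vertices and perform `step` -/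
noncomputable def Kn (n : ℕ) : Matrix (SimpleGraph (Fin n)) (SimpleGraph (Fin n)) ℝ :=
  fun G H => (((Quad n).filter (fun q => step G q = H)).card : ℝ) / ((Quad n).card : ℝ)

open Classical in
/-- the switch chain: stay put with probability 1/2, otherwise use `Kn` -/
noncomputable def Pn (n : ℕ) : Matrix (SimpleGraph (Fin n)) (SimpleGraph (Fin n)) ℝ :=
  (1 / 2 : ℝ) • (1 + Kn n)

open Classical in
/-- all simple graphs on `Fin n` with degree vector `d` -/
noncomputable def Om {n : ℕ} (d : Fin n → ℕ) : Finset (SimpleGraph (Fin n)) :=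
  univ.filter (fun G => ∀ v, (univ.filter (fun w => G.Adj v w)).card = d v)

open Classical in
/-- total variation distance between the law after `t` steps from `G` and the uniform law on
`Om d` -/
noncomputable def tv {n : ℕ} (d : Fin n → ℕ) (t : ℕ) (G : SimpleGraph (Fin n)) : ℝ :=
  (1 / 2) * ∑ H, |((Pn n) ^ t) G H - (if H ∈ Om d then 1 / ((Om d).card : ℝ) else 0)|

/-- the mixing time -/
noncomputable def tmix {n : ℕ} (d : Fin n → ℕ) : ℕ := sInf {t | ∀ G ∈ Om d, tv d t G ≤ 1 / 4}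

/-- `K` is a clique and its complement is independent -/
def SplitBy {n : ℕ} (K : Finset (Fin n)) (G : SimpleGraph (Fin n)) : Prop :=
  (∀ u ∈ K, ∀ v ∈ K, u ≠ v → G.Adj u v) ∧ (∀ u, u ∉ K → ∀ v, v ∉ K → ¬ G.Adj u v)

end Vale.Agent.P335
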