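import Vale.Agent.P335.Mods
import Vale.Agent.P335.GDefs

/-!
Interface for P335, simple-graph part.
-/

namespace Vale.Agent.P335

open Finset

/-- QCARD: number of quadruples. -/
def QCARD : Prop := ∀ n : ℕ, 4 ≤ n →
  ((Quad n).card : ℝ) = (n : ℝ) * (n - 1) * (n - 2) * (n - 3)

open Classical in
/-- KBAS: the kernel `Kn` is a symmetric stochastic matrix and preserves degrees. -/
structure KBASs : Prop where
  nonneg : ∀ (n : ℕ) (G H : SimpleGraph (Fin n)), 0 ≤ Kn n G H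
  symm : ∀ (n : ℕ) (G H : SimpleGraph (Fin n)), Kn n G H = Kn n H G
  stoch : ∀ (n : ℕ), 4 ≤ n → ∀ G : SimpleGraph (Fin n), ∑ H, Kn n G H = 1
  closed : ∀ (n : ℕ) (d : Fin n → ℕ) (G H : SimpleGraph (Fin n)), Kn n G H ≠ 0 → G ∈ Om d → H ∈ Om d
  omcard : ∀ (n : ℕ) (d : Fin n → ℕ), (Om d).card ≤ 2 ^ (n * (n - 1) / 2)

/-- SPLIT: splitness (with the same clique) depends only on the degrees. -/
def SPLIT : Prop := ∀ (n : ℕ) (d : Fin n → ℕ) (K : Finset (Fin n)) (G0 G : SimpleGraph (Fin n)),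
  G0 ∈ Om d → G ∈ Om d → SplitBy K G0 → SplitBy K G

/-- the split graph with clique `K` given by a 0/1 matrix -/
def toG {n : ℕ} (K : Finset (Fin n)) (x : {v // v ∈ K} → {v // v ∉ K} → Bool) :
    SimpleGraph (Fin n) where
  Adj u v := (u ∈ K ∧ v ∈ K ∧ u ≠ v) ∨ (∃ (hu : u ∈ K) (hv : v ∉ K), x ⟨u, hu⟩ ⟨v, hv⟩ = true) ∨
    (∃ (hu : u ∉ K) (hv : v ∈ K), x ⟨v, hv⟩ ⟨u, hu⟩ = true)
  symm := ⟨by
    rintro u v (⟨h1, h2, h3⟩ | ⟨h1, h2, h3⟩ | ⟨h1, h2, h3⟩)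
    · exact Or.inl ⟨h2, h1, h3.symm⟩
    · exact Or.inr (Or.inr ⟨h2, h1, h3⟩)
    · exact Or.inr (Or.inl ⟨h2, h1, h3⟩)⟩
  loopless := ⟨by
    rintro u (⟨_, _, h3⟩ | ⟨h1, h2, _⟩ | ⟨h1, h2, _⟩)
    · exact h3 rfl
    · exact h2 h1
    · exact h1 h2⟩

open Classical in
/-- TOG: split graphs are matrices, `Om d` is a class, and switches correspond. -/
structure TOGs : Prop where
  inj : ∀ (n : ℕ) (K : Finset (Fin n)), Function.Injective (toG K)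
  surj : ∀ (n : ℕ) (K : Finset (Fin n)) (G : SimpleGraph (Fin n)), SplitBy K G → ∃ x, toG K x = G
  split : ∀ (n : ℕ) (K : Finset (Fin n)) (x : {v // v ∈ K} → {v // v ∉ K} → Bool),
    SplitBy K (toG K x)
  om : ∀ (n : ℕ) (d : Fin n → ℕ) (K : Finset (Fin n)) (x y : {v // v ∈ K} → {v // v ∉ K} → Bool),
    toG K x ∈ Om d → (toG K y ∈ Om d ↔ Rel univ x y)

open Classical in
/-- TSUM: the quadruple sum equals twice the matrix sum. -/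
def TSUM : Prop := ∀ (n : ℕ) (K : Finset (Fin n)) (x : {v // v ∈ K} → {v // v ∉ K} → Bool)
  (f : SimpleGraph (Fin n) → ℝ),
  ∑ q ∈ Quad n, (f (toG K x) - f (step (toG K x) q)) ^ 2 =
    2 * ∑ i : {v // v ∈ K}, ∑ k : {v // v ∈ K}, ∑ j : {v // v ∉ K}, ∑ l : {v // v ∉ K},
      if Avail x i k j l then (f (toG K x) - f (toG K (sw x i k j l))) ^ 2 else 0

open Classical in
/-- GPOIN: Poincare inequality for split degree vectors. -/
def GPOIN : Prop := ∀ (n : ℕ) (d : Fin n → ℕ) (K : Finset (Fin n)) (G0 : SimpleGraph (Fin n)),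
  4 ≤ n → G0 ∈ Om d → SplitBy K G0 → ∀ f : SimpleGraph (Fin n) → ℝ,
  (4 / ((n : ℝ) * (n - 1) * (n - 2) * (n - 3))) *
      ∑ G ∈ Om d, (f G - (∑ H ∈ Om d, f H) / ((Om d).card : ℝ)) ^ 2 ≤
    (1 / 4) * ∑ G ∈ Om d, ∑ H ∈ Om d, Kn n G H * (f G - f H) ^ 2

/-- SPLITMIX: the final theorem. -/
def SPLITMIX : Prop := ∀ (n : ℕ) (d : Fin n → ℕ), 4 ≤ n →
  (∃ (K : Finset (Fin n)) (G : SimpleGraph (Fin n)), G ∈ Om d ∧ SplitBy K G) →
  (∀ G ∈ Om d, tv d (n ^ 6) G ≤ 1 / 4) ∧ tmix d ≤ n ^ 6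

end Vale.Agent.P335
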