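import Vale.Agent.P335.Mods
import Vale.Agent.P335.GMods

/-!
P335, general simple graphs: definitions.  A state is a 0/1 function on unordered pairs of
vertices (the diagonal cells play no role and are never changed).
-/

namespace Vale.Agent.P335.H

open Finset

/-- states -/
abbrev St (V : Type) := Sym2 V → Bool

section
variable {V : Type} [Fintype V] [DecidableEq V]

/-- degree of `i` -/
def dg (x : St V) (i : V) : ℕ := (univ.filter (fun j => j ≠ i ∧ x s(i, j) = true)).card

/-- equal outside the cells `C`, and equal degrees -/
def Rl (C : Finset (Sym2 V)) (x y : St V) : Prop :=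
  (∀ c, c ∉ C → x c = y c) ∧ ∀ i, dg x i = dg y i

open Classical in
/-- the class of `x`: everything obtained by resampling the cells `C` -/
noncomputable def cl (C : Finset (Sym2 V)) (x : St V) : Finset (St V) :=
  univ.filter (fun y => Rl C x y)

/-- average over the class: resample the cells `C` -/
noncomputable def EC (C : Finset (Sym2 V)) (f : St V → ℝ) (x : St V) : ℝ :=
  (∑ y ∈ cl C x, f y) / ((cl C x).card : ℝ)

/-- the cells between `S` and `W` -/
def cut (S W : Finset V) : Finset (Sym2 V) := (S ×ˢ W).image (fun p => s(p.1, p.2))

/-- the off-diagonal cells -/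
def offd (V : Type) [Fintype V] [DecidableEq V] : Finset (Sym2 V) :=
  univ.filter (fun c => ¬ c.IsDiag)

/-- the cells of `e` outside `e ∪ e'` -/
def cutA (e e' : Finset V) : Finset (Sym2 V) := cut e (e ∪ e')ᶜ

/-- pair operator: one minus resampling of the rows of the pair `e` -/
noncomputable def Pe (e : Finset V) (f : St V → ℝ) : St V → ℝ :=
  fun x => f x - EC (cut e eᶜ) f x

/-- switch operator: one minus resampling of the four cells between `e` and `e'` -/
noncomputable def Ps (e e' : Finset V) (f : St V → ℝ) : St V → ℝ :=
  fun x => f x - EC (cut e e') f x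

/-- sum of the pair operators inside `T` -/
noncomputable def RH (T : Finset V) (f : St V → ℝ) : St V → ℝ :=
  fun x => ∑ e ∈ T.powersetCard 2, Pe e f x

/-- `P e f` averaged over the outer cells of `e` and over the four cells between `e` and `e'` -/
noncomputable def TT (e e' : Finset V) (f : St V → ℝ) : St V → ℝ :=
  EC (cutA e e') (EC (cut e e') (Pe e f))

/-- the four cells between `e` and `e'` are alternating: every vertex of `e` has exactly one
neighbour in `e'` and conversely -/
def Alt (e e' : Finset V) (x : St V) : Prop :=
  (∀ a ∈ e, (e'.filter (fun b => x s(a, b) = true)).card = 1) ∧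
  (∀ b ∈ e', (e.filter (fun a => x s(a, b) = true)).card = 1)

/-- number of edges between `e` and `e'` -/
def tot (e e' : Finset V) (x : St V) : ℕ := ∑ a ∈ e, ∑ b ∈ e', (x s(a, b)).toNat

open Classical in
/-- indicator -/
noncomputable def ind (p : Prop) : ℝ := if p then 1 else 0

end

/-- the state of a graph -/
noncomputable def toSt {n : ℕ} (G : SimpleGraph (Fin n)) : St (Fin n) := by
  classical exact fun c => decide (c ∈ G.edgeSet)

end Vale.Agent.P335.H
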