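import Vale.Agent.P335.HDefs

/-!
Interface for P335, general simple graphs (helper8).  Each `def X : Prop` (or structure) is a
module: prove `theorem x_proof (deps) : X` in its own file, own sub-namespace.
Plan and full proofs: notes/P335_full_helper8.md.
-/

namespace Vale.Agent.P335.H

open Finset

/-! ### spectral lemma -/

/-- SPEC3 -/
def SPEC3 : Prop := ∀ (X : Type) [Fintype X] (T : (X → ℝ) →ₗ[ℝ] (X → ℝ)) (c : ℝ),
  (∀ f g, ip (T f) g = ip f (T g)) → T (fun _ => 1) = (fun _ => c) →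
  (∀ (nu : ℝ) (f : X → ℝ), f ≠ 0 → ∑ x, f x = 0 → T f = nu • f → 1 ≤ nu) →
  ∀ f, ∑ x, f x = 0 → ip f f ≤ ip f (T f)

/-! ### the averaging operators -/

/-- EOPH: basic facts. -/
structure EOPH : Prop where
  rl_refl : ∀ (V : Type) [Fintype V] [DecidableEq V] (C : Finset (Sym2 V)) (x : St V), Rl C x x
  rl_symm : ∀ (V : Type) [Fintype V] [DecidableEq V] (C : Finset (Sym2 V)) (x y : St V),
    Rl C x y → Rl C y x
  rl_trans : ∀ (V : Type) [Fintype V] [DecidableEq V] (C : Finset (Sym2 V)) (x y z : St V),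
    Rl C x y → Rl C y z → Rl C x z
  rl_mono : ∀ (V : Type) [Fintype V] [DecidableEq V] (C C' : Finset (Sym2 V)) (x y : St V),
    C ⊆ C' → Rl C x y → Rl C' x y
  E_congr : ∀ (V : Type) [Fintype V] [DecidableEq V] (C : Finset (Sym2 V)) (f : St V → ℝ)
    (x y : St V), Rl C x y → EC C f x = EC C f y
  E_fix : ∀ (V : Type) [Fintype V] [DecidableEq V] (C : Finset (Sym2 V)) (f : St V → ℝ)
    (x : St V), (∀ y, Rl C x y → f y = f x) → EC C f x = f x
  E_add : ∀ (V : Type) [Fintype V] [DecidableEq V] (C : Finset (Sym2 V)) (f g : St V → ℝ),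
    EC C (f + g) = EC C f + EC C g
  E_sub : ∀ (V : Type) [Fintype V] [DecidableEq V] (C : Finset (Sym2 V)) (f g : St V → ℝ),
    EC C (f - g) = EC C f - EC C g
  E_smul : ∀ (V : Type) [Fintype V] [DecidableEq V] (C : Finset (Sym2 V)) (c : ℝ)
    (f : St V → ℝ), EC C (c • f) = c • EC C f
  E_symm : ∀ (V : Type) [Fintype V] [DecidableEq V] (C : Finset (Sym2 V)) (f g : St V → ℝ),
    ip (EC C f) g = ip f (EC C g)
  E_idem : ∀ (V : Type) [Fintype V] [DecidableEq V] (C : Finset (Sym2 V)) (f : St V → ℝ),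
    EC C (EC C f) = EC C f
  E_tower : ∀ (V : Type) [Fintype V] [DecidableEq V] (C C' : Finset (Sym2 V)) (f : St V → ℝ),
    C ⊆ C' → EC C (EC C' f) = EC C' f ∧ EC C' (EC C f) = EC C' f
  E_comm : ∀ (V : Type) [Fintype V] [DecidableEq V] (C C' : Finset (Sym2 V)) (f : St V → ℝ),
    Disjoint C C' → EC C (EC C' f) = EC C' (EC C f)
  E_mul : ∀ (V : Type) [Fintype V] [DecidableEq V] (C : Finset (Sym2 V)) (w f : St V → ℝ),
    (∀ x y, Rl C x y → w x = w y) → EC C (fun x => w x * f x) = fun x => w x * EC C f x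
  E_sq : ∀ (V : Type) [Fintype V] [DecidableEq V] (C : Finset (Sym2 V)) (f : St V → ℝ),
    ip (EC C f) (EC C f) ≤ ip f f
  E_sum : ∀ (V : Type) [Fintype V] [DecidableEq V] (C : Finset (Sym2 V)) (f : St V → ℝ),
    ∑ x, EC C f x = ∑ x, f x

/-- CUTS: the cell sets. -/
structure CUTS : Prop where
  comm : ∀ (V : Type) [Fintype V] [DecidableEq V] (S W : Finset V), cut S W = cut W S
  split : ∀ (V : Type) [Fintype V] [DecidableEq V] (e e' : Finset V), Disjoint e e' →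
    cut e eᶜ = cutA e e' ∪ cut e e'
  disjA : ∀ (V : Type) [Fintype V] [DecidableEq V] (e e' : Finset V), Disjoint e e' →
    Disjoint (cutA e e') (cut e e') ∧ Disjoint (cutA e e') (cut e' e'ᶜ)
  offd : ∀ (V : Type) [Fintype V] [DecidableEq V] (S W : Finset V), Disjoint S W →
    cut S W ⊆ offd V

/-! ### three rows -/

/-- HTRI: from the bipartite TRI. -/
def HTRI : Prop := ∀ (V : Type) [Fintype V] [DecidableEq V] (T : Finset V) (f : St V → ℝ),
  T.card = 3 → ip f (RH T f) ≤ ip (RH T f) (RH T f)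

/-! ### disjoint pairs -/

/-- HCM: `E e` and `E e'` commute off the states with two edges between `e` and `e'`. -/
def HCM : Prop := ∀ (V : Type) [Fintype V] [DecidableEq V] (e e' : Finset V) (f : St V → ℝ),
  e.card = 2 → e'.card = 2 → Disjoint e e' → (∀ x, tot e e' x = 2 → f x = 0) →
  EC (cut e eᶜ) (EC (cut e' e'ᶜ) f) = EC (cut e' e'ᶜ) (EC (cut e eᶜ) f)

/-- HTOT: the number of edges between `e` and `e'` is an invariant; alternation only depends on
the four cells. -/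
def HTOT : Prop := ∀ (V : Type) [Fintype V] [DecidableEq V] (e e' : Finset V) (x y : St V),
  Disjoint e e' →
  (Rl (cut e eᶜ) x y → tot e e' x = tot e e' y) ∧
  (Rl (cutA e e') x y → (Alt e e' x ↔ Alt e e' y)) ∧
  (Rl (cutA e' e) x y → (Alt e e' x ↔ Alt e e' y)) ∧
  (e.card = 2 → e'.card = 2 → Rl (cut e e') x y → (Alt e e' x ↔ Alt e e' y)) ∧
  tot e e' x = tot e' e x ∧ (Alt e e' x ↔ Alt e' e x)

/-- HT4: if the cells over each vertex of `e'` are equal, then nothing is left. -/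
def HT4 : Prop := ∀ (V : Type) [Fintype V] [DecidableEq V] (e e' : Finset V) (f : St V → ℝ)
  (x : St V), Disjoint e e' → (∀ b ∈ e', ∀ a ∈ e, ∀ a' ∈ e, x s(a, b) = x s(a', b)) →
  TT e e' f x = 0

/-- HDISJ: lower bound for the cross term of two disjoint pairs. -/
def HDISJ : Prop := ∀ (V : Type) [Fintype V] [DecidableEq V] (e e' : Finset V) (f : St V → ℝ),
  e.card = 2 → e'.card = 2 → Disjoint e e' →
  ip (Ps e e' f) (Ps e e' f) - (1 / 2) * ∑ x, ind (Alt e e' x) * ((TT e e' f x) ^ 2 +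
    (TT e' e f x) ^ 2) ≤ ip (Pe e f) (Pe e' f)

/-! ### the Johnson scheme -/

/-- JOHN -/
def JOHN : Prop := ∀ (α : Type) [Fintype α] [DecidableEq α] (U : Finset α) (a : ℕ)
  (g : Finset α → ℝ), ∑ N ∈ U.powersetCard a, g N = 0 →
  ∑ N ∈ U.powersetCard a, (g N) ^ 2 ≤ ∑ p ∈ U.powersetCard 2,
    ((1 / 4) * ∑ N ∈ (U.powersetCard a).filter (fun N => (N ∩ p).card = 1),
        (g N - g (symmDiff N p)) ^ 2
      - (∑ N ∈ (U.powersetCard a).filter (fun N => (N ∩ p).card = 1), g N) ^ 2 /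
        (((U.powersetCard a).filter (fun N => (N ∩ p).card = 1)).card : ℝ))

/-- HPERE: fixed pair `e`, all disjoint pairs. -/
def HPERE : Prop := ∀ (V : Type) [Fintype V] [DecidableEq V] (e : Finset V) (f : St V → ℝ),
  e.card = 2 → ip (Pe e f) (Pe e f) ≤ ∑ e' ∈ (eᶜ : Finset V).powersetCard 2,
    (ip (Ps e e' f) (Ps e e' f) - ∑ x, ind (Alt e e' x) * (TT e e' f x) ^ 2)

/-! ### all pairs -/

/-- HSQ: `L^2 >= 2 L`. -/
def HSQ : Prop := ∀ (V : Type) [Fintype V] [DecidableEq V] (f : St V → ℝ),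
  2 * ip f (RH univ f) ≤ ip (RH univ f) (RH univ f)

/-- HCONN: connectivity by switches. -/
def HCONN : Prop := ∀ (V : Type) [Fintype V] [DecidableEq V] (f : St V → ℝ),
  (∀ (e e' : Finset V) (x y : St V), e.card = 2 → e'.card = 2 → Disjoint e e' →
    Rl (cut e e') x y → f x = f y) →
  ∀ x y, Rl (offd V) x y → f x = f y

/-- HGAP -/
def HGAP : Prop := ∀ (V : Type) [Fintype V] [DecidableEq V] (f : St V → ℝ),
  2 * ip (f - EC (offd V) f) (f - EC (offd V) f) ≤ ip f (RH univ f)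

/-- HSW: Poincare inequality for the switch chain. -/
def HSW : Prop := ∀ (V : Type) [Fintype V] [DecidableEq V] (f : St V → ℝ),
  2 * ip (f - EC (offd V) f) (f - EC (offd V) f) ≤
    ∑ e ∈ (univ : Finset V).powersetCard 2, ∑ e' ∈ (eᶜ : Finset V).powersetCard 2,
      ip (Ps e e' f) (Ps e e' f)

/-! ### back to simple graphs -/

/-- HST: states and graphs. -/
structure HSTs : Prop where
  inj : ∀ n : ℕ, Function.Injective (toSt (n := n))
  surj : ∀ (n : ℕ) (x : St (Fin n)), (∀ i, x s(i, i) = false) → ∃ G, toSt G = x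
  diag : ∀ (n : ℕ) (G : SimpleGraph (Fin n)) (i : Fin n), toSt G s(i, i) = false
  om : ∀ (n : ℕ) (d : Fin n → ℕ) (G H : SimpleGraph (Fin n)), G ∈ Om d →
    (H ∈ Om d ↔ Rl (offd (Fin n)) (toSt G) (toSt H))

/-- HQ: the sum over quadruples is a sum over pairs of disjoint pairs. -/
def HQ : Prop := ∀ (n : ℕ) (F : St (Fin n) → ℝ) (G : SimpleGraph (Fin n)),
  ∑ q ∈ Quad n, (F (toSt G) - F (toSt (step G q))) ^ 2 =
    8 * ∑ e ∈ (univ : Finset (Fin n)).powersetCard 2,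
      ∑ e' ∈ (eᶜ : Finset (Fin n)).powersetCard 2, (Ps e e' F (toSt G)) ^ 2

/-- HPOIN: Poincare inequality for every degree vector. -/
def HPOIN : Prop := ∀ (n : ℕ) (d : Fin n → ℕ), 4 ≤ n → ∀ f : SimpleGraph (Fin n) → ℝ,
  (4 / ((n : ℝ) * (n - 1) * (n - 2) * (n - 3))) *
      ∑ G ∈ Om d, (f G - (∑ H ∈ Om d, f H) / ((Om d).card : ℝ)) ^ 2 ≤
    (1 / 4) * ∑ G ∈ Om d, ∑ H ∈ Om d, Kn n G H * (f G - f H) ^ 2

/-- FULLMIX: the Kannan-Tetali-Vempala conjecture for simple graphs. -/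
def FULLMIX : Prop := ∀ (n : ℕ) (d : Fin n → ℕ), 4 ≤ n →
  (∀ G ∈ Om d, tv d (n ^ 6) G ≤ 1 / 4) ∧ tmix d ≤ n ^ 6

end Vale.Agent.P335.H
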