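import Vale.Agent.P335.Heops
import Vale.Agent.P335.Hcuts

/-!
# P335, module HQ: the sum over quadruples is a sum over pairs of disjoint pairs
-/

set_option linter.unusedSectionVars false

namespace Vale.Agent.P335.H.Hq

open Finset Heops Hcuts

section
variable {V : Type} [Fintype V] [DecidableEq V]

theorem part_cut {e e' : Finset V} (hd : Disjoint e e') (x : St V) {i : V} (hi : i ∈ e) :
    part (cut e e') x i = ∑ j ∈ e', (x s(i, j)).toNat := by
  unfold part
  rw [← Finset.sum_filter]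
  refine Finset.sum_congr ?_ fun _ _ => rfl
  ext j
  rw [Finset.mem_filter, mem_cut_mk]
  have h1 : i ∉ e' := fun h => Finset.disjoint_left.mp hd hi h
  constructor
  · rintro ⟨_, _, h | h⟩
    · exact h.2
    · exact absurd h.2 h1
  · intro h
    exact ⟨Finset.mem_univ _, fun h' => h1 (h' ▸ h), Or.inl ⟨hi, h⟩⟩

theorem part_cut_zero {e e' : Finset V} (x : St V) {i : V} (hi : i ∉ e) (hi' : i ∉ e') :
    part (cut e e') x i = 0 := by
  unfold part
  refine Finset.sum_eq_zero fun j _ => ?_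
  rw [if_neg]
  rw [mem_cut_mk]
  rintro ⟨_, h | h⟩
  · exact hi h.1
  · exact hi' h.2

/-- the state with the cells `C` flipped -/
def fl (C : Finset (Sym2 V)) (x : St V) : St V := fun s => if s ∈ C then !x s else x s

/-- four distinct vertices -/
structure Four (a b c d : V) : Prop where
  ab : a ≠ b
  ac : a ≠ c
  ad : a ≠ d
  bc : b ≠ c
  bd : b ≠ d
  cd : c ≠ d

theorem Four.disj {a b c d : V} (h : Four a b c d) : Disjoint ({a, c} : Finset V) {b, d} := by
  rw [Finset.disjoint_left]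
  intro u hu hv
  simp only [Finset.mem_insert, Finset.mem_singleton] at hu hv
  rcases hu with rfl | rfl <;> rcases hv with hv | hv
  · exact h.ab hv
  · exact h.ad hv
  · exact h.bc hv.symm
  · exact h.cd hv

theorem part4 {a b c d : V} (h : Four a b c d) (x : St V) :
    part (cut {a, c} {b, d}) x a = (x s(a, b)).toNat + (x s(a, d)).toNat ∧
    part (cut {a, c} {b, d}) x c = (x s(c, b)).toNat + (x s(c, d)).toNat ∧
    part (cut {a, c} {b, d}) x b = (x s(a, b)).toNat + (x s(c, b)).toNat ∧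
    part (cut {a, c} {b, d}) x d = (x s(a, d)).toNat + (x s(c, d)).toNat := by
  have hd := h.disj
  have h1 : (b : V) ∉ ({d} : Finset V) := by simpa using h.bd
  have h2 : (a : V) ∉ ({c} : Finset V) := by simpa using h.ac
  refine ⟨?_, ?_, ?_, ?_⟩
  · rw [part_cut hd x (by simp), Finset.sum_insert h1, Finset.sum_singleton]
  · rw [part_cut hd x (by simp), Finset.sum_insert h1, Finset.sum_singleton]
  · rw [cut_comm, part_cut hd.symm x (by simp), Finset.sum_insert h2, Finset.sum_singleton,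
      Sym2.eq_swap, Sym2.eq_swap (a := b) (b := c)]
  · rw [cut_comm, part_cut hd.symm x (by simp), Finset.sum_insert h2, Finset.sum_singleton,
      Sym2.eq_swap, Sym2.eq_swap (a := d) (b := c)]

theorem mem4 {a b c d : V} {s : Sym2 V} :
    s ∈ cut ({a, c} : Finset V) {b, d} ↔ s = s(a, b) ∨ s = s(a, d) ∨ s = s(c, b) ∨ s = s(c, d) := by
  rw [mem_cut]
  constructor
  · rintro ⟨u, hu, v, hv, rfl⟩
    simp only [Finset.mem_insert, Finset.mem_singleton] at hu hv
    rcases hu with rfl | rfl <;> rcases hv with rfl | rfl <;> simp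
  · rintro (rfl | rfl | rfl | rfl)
    · exact ⟨a, by simp, b, by simp, rfl⟩
    · exact ⟨a, by simp, d, by simp, rfl⟩
    · exact ⟨c, by simp, b, by simp, rfl⟩
    · exact ⟨c, by simp, d, by simp, rfl⟩

/-- the two alternating patterns -/
def AltP (x : St V) (a b c d : V) : Prop :=
  x s(a, b) = true ∧ x s(c, d) = true ∧ x s(c, b) = false ∧ x s(a, d) = false

theorem eq_of_four {a b c d : V} {x y : St V}
    (h : ∀ s, s ∉ cut ({a, c} : Finset V) {b, d} → x s = y s) (h1 : x s(a, b) = y s(a, b))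
    (h2 : x s(a, d) = y s(a, d)) (h3 : x s(c, b) = y s(c, b)) (h4 : x s(c, d) = y s(c, d)) :
    x = y := by
  funext s
  by_cases hs : s ∈ cut ({a, c} : Finset V) {b, d}
  · rcases mem4.mp hs with rfl | rfl | rfl | rfl <;> assumption
  · exact h s hs

theorem fl_not {C : Finset (Sym2 V)} {x : St V} {s : Sym2 V} (h : s ∉ C) : fl C x s = x s := by
  unfold fl
  rw [if_neg h]

theorem fl_mem {C : Finset (Sym2 V)} {x : St V} {s : Sym2 V} (h : s ∈ C) : fl C x s = !x s := by
  unfold fl
  rw [if_pos h]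

theorem rl_alt {a b c d : V} (h : Four a b c d) {x : St V} (hx : AltP x a b c d) (y : St V) :
    Rl (cut ({a, c} : Finset V) {b, d}) x y ↔ y = x ∨ y = fl (cut ({a, c} : Finset V) {b, d}) x := by
  obtain ⟨x1, x2, x3, x4⟩ := hx
  obtain ⟨p1, p2, p3, p4⟩ := part4 h x
  constructor
  · intro hr
    obtain ⟨q1, q2, q3, q4⟩ := part4 h y
    have e1 := part_rl hr a
    have e2 := part_rl hr c
    have e3 := part_rl hr b
    have e4 := part_rl hr d
    rw [p1, q1, x1, x4] at e1
    rw [p2, q2, x2, x3] at e2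
    rw [p3, q3, x1, x3] at e3
    rw [p4, q4, x4, x2] at e4
    cases hab : y s(a, b) with
    | true =>
      left
      rw [hab] at e1 e3
      refine eq_of_four (a := a) (b := b) (c := c) (d := d) (fun s hs => (hr.1 s hs).symm) (by rw [hab, x1]) ?_ ?_ ?_
      · cases had : y s(a, d) with
        | true => rw [had] at e1; simp at e1
        | false => rw [x4]
      · cases hcb : y s(c, b) with
        | true => rw [hcb] at e3; simp at e3
        | false => rw [x3]
      · cases hcd : y s(c, d) with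
        | true => rw [x2]
        | false =>
          cases hcb : y s(c, b) with
          | true => rw [hcb] at e3; simp at e3
          | false => rw [hcd, hcb] at e2; simp at e2
    | false =>
      right
      rw [hab] at e1 e3
      have had : y s(a, d) = true := by
        cases had : y s(a, d) with
        | true => rfl
        | false => rw [had] at e1; simp at e1
      have hcb : y s(c, b) = true := by
        cases hcb : y s(c, b) with
        | true => rfl
        | false => rw [hcb] at e3; simp at e3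
      have hcd : y s(c, d) = false := by
        cases hcd : y s(c, d) with
        | true => rw [hcd, hcb] at e2; simp at e2
        | false => rfl
      refine eq_of_four (a := a) (b := b) (c := c) (d := d) (fun s hs => ?_) ?_ ?_ ?_ ?_
      · rw [fl_not hs]; exact (hr.1 s hs).symm
      · rw [fl_mem (mem4.mpr (Or.inl rfl)), x1, hab]; rfl
      · rw [fl_mem (mem4.mpr (Or.inr (Or.inl rfl))), x4, had]; rfl
      · rw [fl_mem (mem4.mpr (Or.inr (Or.inr (Or.inl rfl)))), x3, hcb]; rfl
      · rw [fl_mem (mem4.mpr (Or.inr (Or.inr (Or.inr rfl)))), x2, hcd]; rfl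
  · rintro (rfl | rfl)
    · exact rl_refl _ _
    · refine rl_of_part (fun s hs => (fl_not hs).symm) fun i => ?_
      obtain ⟨q1, q2, q3, q4⟩ := part4 h (fl (cut ({a, c} : Finset V) {b, d}) x)
      rw [fl_mem (mem4.mpr (Or.inl rfl)), x1] at q1 q3
      rw [fl_mem (mem4.mpr (Or.inr (Or.inl rfl))), x4] at q1 q4
      rw [fl_mem (mem4.mpr (Or.inr (Or.inr (Or.inl rfl)))), x3] at q2 q3
      rw [fl_mem (mem4.mpr (Or.inr (Or.inr (Or.inr rfl)))), x2] at q2 q4
      rw [x1, x4] at p1
      rw [x3, x2] at p2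
      rw [x1, x3] at p3
      rw [x4, x2] at p4
      by_cases ha : i = a
      · rw [ha, p1, q1]; rfl
      by_cases hb : i = b
      · rw [hb, p3, q3]; rfl
      by_cases hc : i = c
      · rw [hc, p2, q2]; rfl
      by_cases hdd : i = d
      · rw [hdd, p4, q4]; rfl
      rw [part_cut_zero x (by simp [ha, hc]) (by simp [hb, hdd]),
        part_cut_zero _ (by simp [ha, hc]) (by simp [hb, hdd])]

theorem bool_key : ∀ x1 x2 x3 x4 y1 y2 y3 y4 : Bool,
    ¬ (x1 = true ∧ x4 = true ∧ x3 = false ∧ x2 = false) →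
    ¬ (x2 = true ∧ x3 = true ∧ x4 = false ∧ x1 = false) →
    x1.toNat + x2.toNat = y1.toNat + y2.toNat → x3.toNat + x4.toNat = y3.toNat + y4.toNat →
    x1.toNat + x3.toNat = y1.toNat + y3.toNat → x2.toNat + x4.toNat = y2.toNat + y4.toNat →
    y1 = x1 ∧ y2 = x2 ∧ y3 = x3 ∧ y4 = x4 := by
  intro x1 x2 x3 x4 y1 y2 y3 y4
  cases x1 <;> cases x2 <;> cases x3 <;> cases x4 <;> cases y1 <;> cases y2 <;> cases y3 <;>
    cases y4 <;> simp

theorem rl_nonalt {a b c d : V} (h : Four a b c d) {x : St V} (hx : ¬ AltP x a b c d)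
    (hx' : ¬ AltP x a d c b) (y : St V) (hr : Rl (cut ({a, c} : Finset V) {b, d}) x y) : y = x := by
  obtain ⟨p1, p2, p3, p4⟩ := part4 h x
  obtain ⟨q1, q2, q3, q4⟩ := part4 h y
  have e1 := part_rl hr a
  have e2 := part_rl hr c
  have e3 := part_rl hr b
  have e4 := part_rl hr d
  rw [p1, q1] at e1
  rw [p2, q2] at e2
  rw [p3, q3] at e3
  rw [p4, q4] at e4
  unfold AltP at hx hx'
  have key : y s(a, b) = x s(a, b) ∧ y s(a, d) = x s(a, d) ∧ y s(c, b) = x s(c, b) ∧
      y s(c, d) = x s(c, d) := bool_key _ _ _ _ _ _ _ _ hx hx' e1 e2 e3 e4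
  exact eq_of_four (a := a) (b := b) (c := c) (d := d) (fun s hs => (hr.1 s hs).symm) key.1 key.2.1 key.2.2.1 key.2.2.2

theorem Ps_alt {a b c d : V} (h : Four a b c d) {x : St V} (hx : AltP x a b c d)
    (F : St V → ℝ) : Ps {a, c} {b, d} F x =
      (F x - F (fl (cut ({a, c} : Finset V) {b, d}) x)) / 2 := by
  have hne : x ≠ fl (cut ({a, c} : Finset V) {b, d}) x := by
    intro e
    have := congrFun e s(a, b)
    rw [fl_mem (mem4.mpr (Or.inl rfl)), hx.1] at this
    simp at this
  have hcl : cl (cut ({a, c} : Finset V) {b, d}) x =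
      {x, fl (cut ({a, c} : Finset V) {b, d}) x} := by
    ext y
    rw [mem_cl, rl_alt h hx, Finset.mem_insert, Finset.mem_singleton]
  unfold Ps EC
  rw [hcl, Finset.sum_pair hne, Finset.card_pair hne]
  push_cast
  ring

theorem Ps_nonalt {a b c d : V} (h : Four a b c d) {x : St V} (hx : ¬ AltP x a b c d)
    (hx' : ¬ AltP x a d c b) (F : St V → ℝ) : Ps {a, c} {b, d} F x = 0 := by
  unfold Ps
  rw [E_fix _ F x fun y hy => by rw [rl_nonalt h hx hx' y hy], sub_self]

end

/-! ### graphs -/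

theorem toSt_apply {n : ℕ} (G : SimpleGraph (Fin n)) (u v : Fin n) :
    toSt G s(u, v) = true ↔ G.Adj u v := by
  classical
  unfold toSt
  rw [decide_eq_true_iff, SimpleGraph.mem_edgeSet]

theorem toSt_false {n : ℕ} (G : SimpleGraph (Fin n)) (u v : Fin n) :
    toSt G s(u, v) = false ↔ ¬ G.Adj u v := by
  rw [← toSt_apply, Bool.not_eq_true]

theorem cond_iff {n : ℕ} (G : SimpleGraph (Fin n)) (a b c d : Fin n) :
    AltP (toSt G) a b c d ↔ (G.Adj a b ∧ G.Adj c d ∧ ¬ G.Adj b c ∧ ¬ G.Adj d a) := by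
  unfold AltP
  rw [toSt_apply, toSt_apply, toSt_false, toSt_false, G.adj_comm c b, G.adj_comm a d]

theorem step_neg {n : ℕ} (G : SimpleGraph (Fin n)) (a b c d : Fin n)
    (h : ¬ AltP (toSt G) a b c d) : step G (a, b, c, d) = G := by
  rw [cond_iff] at h
  unfold step
  exact if_neg h

theorem toSt_step {n : ℕ} (G : SimpleGraph (Fin n)) {a b c d : Fin n} (hf : Four a b c d)
    (h : AltP (toSt G) a b c d) :
    toSt (step G (a, b, c, d)) = fl (cut ({a, c} : Finset (Fin n)) {b, d}) (toSt G) := by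
  have h' := (cond_iff G a b c d).mp h
  have hs : step G (a, b, c, d) =
      SimpleGraph.fromEdgeSet ((G.edgeSet \ {s(a, b), s(c, d)}) ∪ {s(b, c), s(d, a)}) := by
    unfold step
    exact if_pos h'
  have hadj : ∀ u v : Fin n, (step G (a, b, c, d)).Adj u v ↔
      ((G.Adj u v ∧ s(u, v) ≠ s(a, b) ∧ s(u, v) ≠ s(c, d)) ∨ s(u, v) = s(b, c) ∨
        s(u, v) = s(d, a)) ∧ u ≠ v := by
    intro u v
    rw [hs, SimpleGraph.fromEdgeSet_adj]
    simp only [Set.mem_union, Set.mem_sdiff, SimpleGraph.mem_edgeSet, Set.mem_insert_iff,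
      Set.mem_singleton_iff, not_or, ne_eq]
  funext s
  induction s using Sym2.ind with
  | _ u v =>
  by_cases hc : s(u, v) ∈ cut ({a, c} : Finset (Fin n)) {b, d}
  · rw [fl_mem hc]
    have n1 : s(a, b) ≠ s(b, c) := by
      intro e
      rw [Sym2.eq_iff] at e
      rcases e with ⟨e1, _⟩ | ⟨e1, _⟩
      · exact hf.ab e1
      · exact hf.ac e1
    have n2 : s(a, b) ≠ s(d, a) := by
      intro e
      rw [Sym2.eq_iff] at e
      rcases e with ⟨e1, _⟩ | ⟨_, e1⟩
      · exact hf.ad e1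
      · exact hf.bd e1
    have n3 : s(c, d) ≠ s(b, c) := by
      intro e
      rw [Sym2.eq_iff] at e
      rcases e with ⟨e1, _⟩ | ⟨_, e1⟩
      · exact hf.bc e1.symm
      · exact hf.bd e1.symm
    have n4 : s(c, d) ≠ s(d, a) := by
      intro e
      rw [Sym2.eq_iff] at e
      rcases e with ⟨e1, _⟩ | ⟨e1, _⟩
      · exact hf.cd e1
      · exact hf.ac e1.symm
    rcases mem4.mp hc with e | e | e | e
    · rw [e, h.1]
      have hv : ¬ (step G (a, b, c, d)).Adj a b := by
        rw [hadj]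
        rintro ⟨⟨_, h1, _⟩ | h1 | h1, _⟩
        · exact h1 rfl
        · exact n1 h1
        · exact n2 h1
      rw [(toSt_false _ _ _).mpr hv]
      rfl
    · rw [e, h.2.2.2]
      have hv : (step G (a, b, c, d)).Adj a d := by
        rw [hadj]
        exact ⟨Or.inr (Or.inr Sym2.eq_swap), hf.ad⟩
      rw [(toSt_apply _ _ _).mpr hv]
      rfl
    · rw [e, h.2.2.1]
      have hv : (step G (a, b, c, d)).Adj c b := by
        rw [hadj]
        exact ⟨Or.inr (Or.inl Sym2.eq_swap), hf.bc.symm⟩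
      rw [(toSt_apply _ _ _).mpr hv]
      rfl
    · rw [e, h.2.1]
      have hv : ¬ (step G (a, b, c, d)).Adj c d := by
        rw [hadj]
        rintro ⟨⟨_, _, h1⟩ | h1 | h1, _⟩
        · exact h1 rfl
        · exact n3 h1
        · exact n4 h1
      rw [(toSt_false _ _ _).mpr hv]
      rfl
  · rw [fl_not hc]
    have m1 : s(u, v) ≠ s(a, b) := fun e => hc (mem4.mpr (Or.inl e))
    have m2 : s(u, v) ≠ s(d, a) := fun e => hc (mem4.mpr (Or.inr (Or.inl (e.trans Sym2.eq_swap))))
    have m3 : s(u, v) ≠ s(b, c) :=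
      fun e => hc (mem4.mpr (Or.inr (Or.inr (Or.inl (e.trans Sym2.eq_swap)))))
    have m4 : s(u, v) ≠ s(c, d) := fun e => hc (mem4.mpr (Or.inr (Or.inr (Or.inr e))))
    have hiff : (step G (a, b, c, d)).Adj u v ↔ G.Adj u v := by
      rw [hadj]
      constructor
      · rintro ⟨⟨h1, _⟩ | h1 | h1, _⟩
        · exact h1
        · exact absurd h1 m3
        · exact absurd h1 m2
      · intro h1
        exact ⟨Or.inl ⟨h1, m1, m4⟩, h1.ne⟩
    rw [Bool.eq_iff_iff, toSt_apply, toSt_apply, hiff]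

/-! ### the sum over quadruples -/

theorem sum_quad {n : ℕ} (phi : Fin n × Fin n × Fin n × Fin n → ℝ) :
    ∑ q ∈ Quad n, phi q = ∑ e ∈ (univ : Finset (Fin n)).powersetCard 2,
      ∑ e' ∈ (eᶜ : Finset (Fin n)).powersetCard 2,
        ∑ q ∈ (Quad n).filter (fun q => ({q.1, q.2.2.1} : Finset (Fin n)) = e ∧
          ({q.2.1, q.2.2.2} : Finset (Fin n)) = e'), phi q := by
  rw [← Finset.sum_fiberwise_of_maps_to (s := Quad n)
    (t := (univ : Finset (Fin n)).powersetCard 2)
    (g := fun q => ({q.1, q.2.2.1} : Finset (Fin n)))]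
  · refine Finset.sum_congr rfl fun e he => ?_
    rw [← Finset.sum_fiberwise_of_maps_to
      (s := (Quad n).filter (fun q => ({q.1, q.2.2.1} : Finset (Fin n)) = e))
      (t := (eᶜ : Finset (Fin n)).powersetCard 2)
      (g := fun q => ({q.2.1, q.2.2.2} : Finset (Fin n)))]
    · refine Finset.sum_congr rfl fun e' he' => ?_
      rw [Finset.filter_filter]
    · intro q hq
      rw [Finset.mem_filter] at hq
      obtain ⟨hq, rfl⟩ := hq
      unfold Quad at hq
      rw [Finset.mem_filter] at hq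
      obtain ⟨_, h1, h2, h3, h4, h5, h6⟩ := hq
      rw [Finset.mem_powersetCard]
      refine ⟨?_, Finset.card_pair h5⟩
      intro v hv
      simp only [Finset.mem_insert, Finset.mem_singleton] at hv
      rw [Finset.mem_compl, Finset.mem_insert, Finset.mem_singleton, not_or]
      rcases hv with rfl | rfl
      · exact ⟨fun e => h1 e.symm, h4⟩
      · exact ⟨fun e => h3 e.symm, fun e => h6 e.symm⟩
  · intro q hq
    unfold Quad at hq
    rw [Finset.mem_filter] at hq
    rw [Finset.mem_powersetCard]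
    exact ⟨Finset.subset_univ _, Finset.card_pair hq.2.2.1⟩

theorem pair_eq {n : ℕ} {u v a c : Fin n} (h : ({u, v} : Finset (Fin n)) = {a, c})
    (hac : a ≠ c) : (u = a ∧ v = c) ∨ (u = c ∧ v = a) := by
  have hu : u ∈ ({a, c} : Finset (Fin n)) := by rw [← h]; simp
  have hv : v ∈ ({a, c} : Finset (Fin n)) := by rw [← h]; simp
  have ha : a ∈ ({u, v} : Finset (Fin n)) := by rw [h]; simp
  have hc : c ∈ ({u, v} : Finset (Fin n)) := by rw [h]; simp
  simp only [Finset.mem_insert, Finset.mem_singleton] at hu hv ha hc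
  rcases hu with rfl | rfl
  · rcases hc with hc | hc
    · exact absurd hc.symm hac
    · exact Or.inl ⟨rfl, hc.symm⟩
  · rcases ha with ha | ha
    · exact absurd ha hac
    · exact Or.inr ⟨rfl, ha.symm⟩

theorem fiber_eq {n : ℕ} {a b c d : Fin n} (hf : Four a b c d) :
    (Quad n).filter (fun q => ({q.1, q.2.2.1} : Finset (Fin n)) = {a, c} ∧
      ({q.2.1, q.2.2.2} : Finset (Fin n)) = {b, d}) =
    {(a, b, c, d), (a, d, c, b), (c, b, a, d), (c, d, a, b)} := by
  ext q
  obtain ⟨q1, q2, q3, q4⟩ := q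
  unfold Quad
  simp only [Finset.mem_filter, Finset.mem_univ, true_and, Finset.mem_insert,
    Finset.mem_singleton, Prod.mk.injEq]
  constructor
  · rintro ⟨_, h1, h2⟩
    rcases pair_eq h1 hf.ac with ⟨rfl, rfl⟩ | ⟨rfl, rfl⟩ <;>
      rcases pair_eq h2 hf.bd with ⟨rfl, rfl⟩ | ⟨rfl, rfl⟩ <;> simp
  · obtain ⟨n1, n2, n3, n4, n5, n6⟩ := hf
    rintro (⟨rfl, rfl, rfl, rfl⟩ | ⟨rfl, rfl, rfl, rfl⟩ | ⟨rfl, rfl, rfl, rfl⟩ |
      ⟨rfl, rfl, rfl, rfl⟩)
    · exact ⟨⟨n1, n2, n3, n4, n5, n6⟩, rfl, rfl⟩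
    · exact ⟨⟨n3, n2, n1, n6.symm, n5.symm, n4.symm⟩, rfl, Finset.pair_comm _ _⟩
    · exact ⟨⟨n4.symm, n2.symm, n6, n1.symm, n5, n3⟩, Finset.pair_comm _ _, rfl⟩
    · exact ⟨⟨n6, n2.symm, n4.symm, n3.symm, n5.symm, n1⟩, Finset.pair_comm _ _,
        Finset.pair_comm _ _⟩

theorem sum_fiber {n : ℕ} {a b c d : Fin n} (hf : Four a b c d)
    (phi : Fin n × Fin n × Fin n × Fin n → ℝ) :
    ∑ q ∈ (Quad n).filter (fun q => ({q.1, q.2.2.1} : Finset (Fin n)) = {a, c} ∧
      ({q.2.1, q.2.2.2} : Finset (Fin n)) = {b, d}), phi q =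
    phi (a, b, c, d) + (phi (a, d, c, b) + (phi (c, b, a, d) + phi (c, d, a, b))) := by
  rw [fiber_eq hf]
  rw [Finset.sum_insert, Finset.sum_insert, Finset.sum_insert, Finset.sum_singleton]
  · simp only [Finset.mem_singleton, Prod.mk.injEq, not_and]
    intro _ h
    exact absurd h hf.bd
  · simp only [Finset.mem_insert, Finset.mem_singleton, Prod.mk.injEq, not_or, not_and]
    exact ⟨fun h => absurd h hf.ac, fun h => absurd h hf.ac⟩
  · simp only [Finset.mem_insert, Finset.mem_singleton, Prod.mk.injEq, not_or, not_and]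
    exact ⟨fun _ h => absurd h hf.bd, fun h => absurd h hf.ac, fun h => absurd h hf.ac⟩

theorem hq_proof : HQ := by
  intro n F G
  rw [sum_quad, Finset.mul_sum]
  refine Finset.sum_congr rfl fun e he => ?_
  rw [Finset.mul_sum]
  refine Finset.sum_congr rfl fun e' he' => ?_
  rw [Finset.mem_powersetCard] at he he'
  obtain ⟨a, c, hac, rfl⟩ := Finset.card_eq_two.mp he.2
  obtain ⟨b, d, hbd, rfl⟩ := Finset.card_eq_two.mp he'.2
  have hb : b ∈ (({a, c} : Finset (Fin n))ᶜ) := he'.1 (by simp)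
  have hd : d ∈ (({a, c} : Finset (Fin n))ᶜ) := he'.1 (by simp)
  rw [Finset.mem_compl, Finset.mem_insert, Finset.mem_singleton, not_or] at hb hd
  have hf : Four a b c d := ⟨fun h => hb.1 h.symm, hac, fun h => hd.1 h.symm, hb.2, hbd,
    fun h => hd.2 h.symm⟩
  have hf2 : Four a d c b := ⟨hf.ad, hf.ac, hf.ab, hf.cd.symm, hf.bd.symm, hf.bc.symm⟩
  have hf3 : Four c b a d := ⟨hf.bc.symm, hf.ac.symm, hf.cd, hf.ab.symm, hf.bd, hf.ad⟩
  have hf4 : Four c d a b := ⟨hf.cd, hf.ac.symm, hf.bc.symm, hf.ad.symm, hf.bd.symm, hf.ab⟩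
  rw [sum_fiber hf]
  have i2 : AltP (toSt G) c d a b ↔ AltP (toSt G) a b c d := by
    unfold AltP
    constructor
    · rintro ⟨h1, h2, h3, h4⟩
      exact ⟨h2, h1, h4, h3⟩
    · rintro ⟨h1, h2, h3, h4⟩
      exact ⟨h2, h1, h4, h3⟩
  have i3 : AltP (toSt G) c b a d ↔ AltP (toSt G) a d c b := by
    unfold AltP
    constructor
    · rintro ⟨h1, h2, h3, h4⟩
      exact ⟨h2, h1, h4, h3⟩
    · rintro ⟨h1, h2, h3, h4⟩
      exact ⟨h2, h1, h4, h3⟩
  have c2 : cut ({c, a} : Finset (Fin n)) {d, b} = cut ({a, c} : Finset (Fin n)) {b, d} := by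
    rw [Finset.pair_comm c a, Finset.pair_comm d b]
  have c3 : cut ({a, c} : Finset (Fin n)) {d, b} = cut ({a, c} : Finset (Fin n)) {b, d} := by
    rw [Finset.pair_comm d b]
  have c4 : cut ({c, a} : Finset (Fin n)) {b, d} = cut ({a, c} : Finset (Fin n)) {b, d} := by
    rw [Finset.pair_comm c a]
  by_cases h1 : AltP (toSt G) a b c d
  · have h2 : ¬ AltP (toSt G) a d c b := by
      unfold AltP at h1 ⊢
      intro h
      rw [h1.1] at h
      exact absurd h.2.2.2 (by simp)
    rw [step_neg G a d c b h2, step_neg G c b a d (fun h => h2 (i3.mp h)),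
      toSt_step G hf h1, toSt_step G hf4 (i2.mpr h1), Ps_alt hf h1, c2]
    ring
  · by_cases h2 : AltP (toSt G) a d c b
    · rw [step_neg G a b c d h1, step_neg G c d a b (fun h => h1 (i2.mp h)),
        toSt_step G hf2 h2, toSt_step G hf3 (i3.mpr h2)]
      have e : Ps ({a, c} : Finset (Fin n)) {b, d} F (toSt G) =
          Ps ({a, c} : Finset (Fin n)) {d, b} F (toSt G) := by
        rw [Finset.pair_comm b d]
      rw [e, Ps_alt hf2 h2, c3, c4]
      ring
    · rw [step_neg G a b c d h1, step_neg G c d a b (fun h => h1 (i2.mp h)),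
        step_neg G a d c b h2, step_neg G c b a d (fun h => h2 (i3.mp h)), Ps_nonalt hf h1 h2]
      ring

end Vale.Agent.P335.H.Hq
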