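import Vale.Agent.P335.Defs

/-!
Interface for P335 (helper18).  Each `def X : Prop` is a module: prove `theorem x_proof (deps) : X`
in its own file, in the namespace `Vale.Agent.P335.XX` (own sub-namespace to avoid clashes).
-/

namespace Vale.Agent.P335

open Finset

/-! ### abstract spectral facts -/

/-- SPEC1: a symmetric nonnegative operator all of whose eigenvalues are 0 or at least 1
satisfies `T <= T^2`. -/
def SPEC1 : Prop := ∀ (X : Type) [Fintype X] (T : (X → ℝ) →ₗ[ℝ] (X → ℝ)),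
  (∀ f g, ip (T f) g = ip f (T g)) → (∀ f, 0 ≤ ip f (T f)) →
  (∀ (nu : ℝ) (f : X → ℝ), f ≠ 0 → T f = nu • f → nu = 0 ∨ 1 ≤ nu) →
  ∀ f, ip f (T f) ≤ ip (T f) (T f)

/-- SPEC2: if `T <= T^2` then `T` dominates the projection `1 - E` off its kernel. -/
def SPEC2 : Prop := ∀ (X : Type) [Fintype X] (T : (X → ℝ) →ₗ[ℝ] (X → ℝ)) (E : (X → ℝ) → (X → ℝ)),
  (∀ f g, ip (T f) g = ip f (T g)) → (∀ f, 0 ≤ ip f (T f)) →
  (∀ f, ip f (T f) ≤ ip (T f) (T f)) →
  (∀ f, T (E f) = 0) → (∀ f, T f = 0 → E f = f) → (∀ f g, ip (E f) g = ip f (E g)) →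
  ∀ f, ip (f - E f) (f - E f) ≤ ip f (T f)

/-! ### the averaging operators -/

/-- EOP: basic properties of `Rel`, `cls`, `E`, `sw`. -/
structure EOPs : Prop where
  rel_refl : ∀ (R Q : Type) [Fintype R] [DecidableEq R] [Fintype Q] [DecidableEq Q]
    (T : Finset R) (x : R → Q → Bool), Rel T x x
  rel_symm : ∀ (R Q : Type) [Fintype R] [DecidableEq R] [Fintype Q] [DecidableEq Q]
    (T : Finset R) (x y : R → Q → Bool), Rel T x y → Rel T y x
  rel_trans : ∀ (R Q : Type) [Fintype R] [DecidableEq R] [Fintype Q] [DecidableEq Q]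
    (T : Finset R) (x y z : R → Q → Bool), Rel T x y → Rel T y z → Rel T x z
  rel_mono : ∀ (R Q : Type) [Fintype R] [DecidableEq R] [Fintype Q] [DecidableEq Q]
    (S T : Finset R) (x y : R → Q → Bool), S ⊆ T → Rel S x y → Rel T x y
  rel_sw : ∀ (R Q : Type) [Fintype R] [DecidableEq R] [Fintype Q] [DecidableEq Q]
    (T : Finset R) (x : R → Q → Bool) (i k : R) (j l : Q), i ∈ T → k ∈ T → Avail x i k j l →
      Rel T x (sw x i k j l)
  avail_ne : ∀ (R Q : Type) [Fintype R] [DecidableEq R] [Fintype Q] [DecidableEq Q]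
    (x : R → Q → Bool) (i k : R) (j l : Q), Avail x i k j l → i ≠ k ∧ j ≠ l
  avail_sw : ∀ (R Q : Type) [Fintype R] [DecidableEq R] [Fintype Q] [DecidableEq Q]
    (x : R → Q → Bool) (i k : R) (j l : Q), Avail x i k j l →
      Avail (sw x i k j l) i k l j ∧ Avail (sw x i k j l) k i j l ∧ Avail x k i l j
  sw_sw : ∀ (R Q : Type) [Fintype R] [DecidableEq R] [Fintype Q] [DecidableEq Q]
    (x : R → Q → Bool) (i k : R) (j l : Q), sw (sw x i k j l) i k j l = x
  sw_comm : ∀ (R Q : Type) [Fintype R] [DecidableEq R] [Fintype Q] [DecidableEq Q]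
    (x : R → Q → Bool) (i k : R) (j l : Q),
      sw x k i j l = sw x i k j l ∧ sw x i k l j = sw x i k j l
  E_congr : ∀ (R Q : Type) [Fintype R] [DecidableEq R] [Fintype Q] [DecidableEq Q]
    (T : Finset R) (f : (R → Q → Bool) → ℝ) (x y : R → Q → Bool), Rel T x y → E T f x = E T f y
  E_fix : ∀ (R Q : Type) [Fintype R] [DecidableEq R] [Fintype Q] [DecidableEq Q]
    (T : Finset R) (f : (R → Q → Bool) → ℝ) (x : R → Q → Bool),
      (∀ y, Rel T x y → f y = f x) → E T f x = f x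
  E_add : ∀ (R Q : Type) [Fintype R] [DecidableEq R] [Fintype Q] [DecidableEq Q]
    (T : Finset R) (f g : (R → Q → Bool) → ℝ), E T (f + g) = E T f + E T g
  E_smul : ∀ (R Q : Type) [Fintype R] [DecidableEq R] [Fintype Q] [DecidableEq Q]
    (T : Finset R) (c : ℝ) (f : (R → Q → Bool) → ℝ), E T (c • f) = c • E T f
  E_symm : ∀ (R Q : Type) [Fintype R] [DecidableEq R] [Fintype Q] [DecidableEq Q]
    (T : Finset R) (f g : (R → Q → Bool) → ℝ), ip (E T f) g = ip f (E T g)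
  E_tower : ∀ (R Q : Type) [Fintype R] [DecidableEq R] [Fintype Q] [DecidableEq Q]
    (S T : Finset R) (f : (R → Q → Bool) → ℝ), S ⊆ T → E S (E T f) = E T f
  E_small : ∀ (R Q : Type) [Fintype R] [DecidableEq R] [Fintype Q] [DecidableEq Q]
    (T : Finset R) (f : (R → Q → Bool) → ℝ), T.card ≤ 1 → E T f = f

/-- COMM: resampling disjoint sets of rows commutes. -/
def COMM : Prop := ∀ (R Q : Type) [Fintype R] [DecidableEq R] [Fintype Q] [DecidableEq Q]
  (S T : Finset R) (f : (R → Q → Bool) → ℝ), Disjoint S T → E S (E T f) = E T (E S f)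

/-- CONN (Ryser): a function invariant under the switches inside the rows `T` is constant on
the classes of `T`. -/
def CONN : Prop := ∀ (R Q : Type) [Fintype R] [DecidableEq R] [Fintype Q] [DecidableEq Q]
  (T : Finset R) (f : (R → Q → Bool) → ℝ),
  (∀ (x : R → Q → Bool) (i k : R) (j l : Q), i ∈ T → k ∈ T → Avail x i k j l →
    f (sw x i k j l) = f x) →
  ∀ x y, Rel T x y → f x = f y

/-! ### three rows -/

/-- KEY1: same-type switch on rows `i, k`; keep row `k`, resample rows `i, m`. -/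
def KEY1 : Prop := ∀ (R Q : Type) [Fintype R] [DecidableEq R] [Fintype Q] [DecidableEq Q]
  (f : (R → Q → Bool) → ℝ) (i k m : R) (j l : Q) (x : R → Q → Bool) (L : ℝ),
  i ≠ k → i ≠ m → k ≠ m → Avail x i k j l → x m j = x m l → SameBd {i, k, m} f L →
  |E {i, m} f x - E {i, m} f (sw x i k j l)| ≤ L

/-- KEY2a: the summation identity.  `y` is in the small fibre, `x = sw y k i j l` in the big one. -/
def KEY2 : Prop := ∀ (R Q : Type) [Fintype R] [DecidableEq R] [Fintype Q] [DecidableEq Q]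
  (f : (R → Q → Bool) → ℝ) (i k m : R) (j l : Q) (x : R → Q → Bool) (Ls Lm : ℝ),
  i ≠ k → i ≠ m → k ≠ m → Avail x i k j l → x m j ≠ x m l →
  SameBd {i, k, m} f Ls → MixBd {i, k, m} f Lm →
  |E {i, m} f x - E {i, m} f (sw x i k j l)| ≤ Lm + Ls

/-- TRI: the three-row inequality. -/
def TRI : Prop := ∀ (R Q : Type) [Fintype R] [DecidableEq R] [Fintype Q] [DecidableEq Q]
  (T : Finset R) (f : (R → Q → Bool) → ℝ), T.card = 3 →
  ip f (RT T f) ≤ ip (RT T f) (RT T f)

/-! ### all rows -/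

/-- GARL: Bochner/Garland step. -/
def GARL : Prop := ∀ (R Q : Type) [Fintype R] [DecidableEq R] [Fintype Q] [DecidableEq Q]
  (f : (R → Q → Bool) → ℝ),
  ip f (RT univ f) ≤ ip (RT univ f) (RT univ f)

/-- GAPR: the gap of the pair-resampling generator is at least 1. -/
def GAPR : Prop := ∀ (R Q : Type) [Fintype R] [DecidableEq R] [Fintype Q] [DecidableEq Q]
  (f : (R → Q → Bool) → ℝ), ip (P univ f) (P univ f) ≤ ip f (RT univ f)

open Classical in
/-- PAIR: two rows. -/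
def PAIR : Prop := ∀ (R Q : Type) [Fintype R] [DecidableEq R] [Fintype Q] [DecidableEq Q]
  (f : (R → Q → Bool) → ℝ) (i k : R), i ≠ k →
  ip f (P {i, k} f) ≤ (1 / 4) * ∑ x : R → Q → Bool, ∑ j : Q, ∑ l : Q,
    if Avail x i k j l then (f x - f (sw x i k j l)) ^ 2 else 0

open Classical in
/-- GAPM: Poincare inequality for the switch chain on 0/1 matrices with given margins. -/
def GAPM : Prop := ∀ (R Q : Type) [Fintype R] [DecidableEq R] [Fintype Q] [DecidableEq Q]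
  (f : (R → Q → Bool) → ℝ),
  ip (P univ f) (P univ f) ≤ (1 / 8) * ∑ x : R → Q → Bool, ∑ i : R, ∑ k : R, ∑ j : Q, ∑ l : Q,
    if Avail x i k j l then (f x - f (sw x i k j l)) ^ 2 else 0

/-! ### Markov chain part -/

/-- MIX: spectral gap to total variation, for a symmetric stochastic matrix `(1 + K)/2` on a
closed set `Om` of states. -/
def MIX : Prop := ∀ (X : Type) [Fintype X] [DecidableEq X] (K : Matrix X X ℝ) (Om : Finset X)
  (lam : ℝ) (t : ℕ),
  (∀ x y, 0 ≤ K x y) → (∀ x y, K x y = K y x) → (∀ x, ∑ y, K x y = 1) →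
  (∀ x y, K x y ≠ 0 → x ∈ Om → y ∈ Om) → 0 ≤ lam → lam ≤ 1 →
  (∀ f : X → ℝ, lam * ∑ x ∈ Om, (f x - (∑ z ∈ Om, f z) / (Om.card : ℝ)) ^ 2 ≤
    (1 / 4) * ∑ x ∈ Om, ∑ y ∈ Om, K x y * (f x - f y) ^ 2) →
  Real.sqrt (Om.card : ℝ) * (1 - lam) ^ t ≤ 1 / 2 →
  ∀ x ∈ Om, (1 / 2) * ∑ y, |((((1 / 2 : ℝ) • (1 + K)) ^ t) x y) -
    (if y ∈ Om then 1 / (Om.card : ℝ) else 0)| ≤ 1 / 4

/-- NUM: numerics. -/
def NUM : Prop := ∀ (n N : ℕ), 4 ≤ n → N ≤ 2 ^ (n * (n - 1) / 2) →
  Real.sqrt (N : ℝ) * (1 - 4 / ((n : ℝ) * (n - 1) * (n - 2) * (n - 3))) ^ (n ^ 6) ≤ 1 / 2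

end Vale.Agent.P335
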