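import Vale.Agent.P335.Defs

/-!
P335, general simple graphs: configurations are functions on unordered pairs (loops are allowed
but never change).
-/

namespace Vale.Agent.P335

open Finset

section
variable {V : Type} [Fintype V] [DecidableEq V]

/-- degree (a loop counts once; loops never change) -/
def gdeg (x : Sym2 V → Bool) (v : V) : ℕ := (univ.filter (fun ε : Sym2 V => v ∈ ε ∧ x ε = true)).card

/-- the pairs `{a, b}` with `a ∈ A`, `b ∈ B` -/
def blk (A B : Finset V) : Finset (Sym2 V) :=
  univ.filter (fun ε => ∃ a ∈ A, ∃ b ∈ B, ε = s(a, b))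

/-- the pairs with exactly one element in `e` -/
def st (e : Finset V) : Finset (Sym2 V) := blk e eᶜ

/-- the pairs that are not loops -/
def nd (V : Type) [Fintype V] [DecidableEq V] : Finset (Sym2 V) :=
  univ.filter (fun ε => ¬ ε.IsDiag)

/-- equal outside `Z`, and equal degrees -/
def GRel (Z : Finset (Sym2 V)) (x y : Sym2 V → Bool) : Prop :=
  (∀ ε, ε ∉ Z → x ε = y ε) ∧ ∀ v, gdeg x v = gdeg y v

open Classical in
/-- the class of `x` -/
noncomputable def gcls (Z : Finset (Sym2 V)) (x : Sym2 V → Bool) : Finset (Sym2 V → Bool) :=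
  univ.filter (fun y => GRel Z x y)

/-- average over the class: resample the pairs in `Z` -/
noncomputable def GE (Z : Finset (Sym2 V)) (f : (Sym2 V → Bool) → ℝ) (x : Sym2 V → Bool) : ℝ :=
  (∑ y ∈ gcls Z x, f y) / ((gcls Z x).card : ℝ)

/-- complementary projection -/
noncomputable def GP (Z : Finset (Sym2 V)) (f : (Sym2 V → Bool) → ℝ) : (Sym2 V → Bool) → ℝ :=
  fun x => f x - GE Z f x

/-- sum over the pairs of vertices `e` inside `T` -/
noncomputable def GRT (T : Finset V) (f : (Sym2 V → Bool) → ℝ) : (Sym2 V → Bool) → ℝ :=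
  fun x => ∑ e ∈ T.powersetCard 2, GP (st e) f x

/-- four distinct vertices -/
def Dist (i k j l : V) : Prop := i ≠ k ∧ i ≠ j ∧ i ≠ l ∧ k ≠ j ∧ k ≠ l ∧ j ≠ l

/-- the switch is available: `ij`, `kl` present, `il`, `kj` absent -/
def GAv (x : Sym2 V → Bool) (i k j l : V) : Prop :=
  Dist i k j l ∧ x s(i, j) = true ∧ x s(k, l) = true ∧ x s(i, l) = false ∧ x s(k, j) = false

/-- flip the four pairs -/
def gsw (x : Sym2 V → Bool) (i k j l : V) : Sym2 V → Bool :=
  fun ε => if ε = s(i, j) ∨ ε = s(i, l) ∨ ε = s(k, j) ∨ ε = s(k, l) then !(x ε) else x ε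

/-- one of the two orientations is available -/
def Dg (x : Sym2 V → Bool) (i k j l : V) : Prop := GAv x i k j l ∨ GAv x i k l j

/-- number of ones in the block `{i, k} × {j, l}` -/
def c4 (x : Sym2 V → Bool) (i k j l : V) : ℕ :=
  (x s(i, j)).toNat + (x s(i, l)).toNat + (x s(k, j)).toNat + (x s(k, l)).toNat

open Classical in
/-- average of `P_{ik} f` over those members of the `{i,k}`-class of `x` which satisfy `Dg` -/
noncomputable def FF (f : (Sym2 V → Bool) → ℝ) (i k j l : V) (x : Sym2 V → Bool) : ℝ :=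
  (∑ y ∈ (gcls (st {i, k}) x).filter (fun y => Dg y i k j l), GP (st {i, k}) f y) /
    (((gcls (st {i, k}) x).filter (fun y => Dg y i k j l)).card : ℝ)

/-- the vertices where rows `i`, `k` differ -/
def gD (x : Sym2 V → Bool) (i k : V) : Finset V :=
  univ.filter (fun v => v ≠ i ∧ v ≠ k ∧ x s(i, v) ≠ x s(k, v))

/-- how many of them are neighbours of `i` -/
def gs (x : Sym2 V → Bool) (i k : V) : ℕ := ((gD x i k).filter (fun v => x s(i, v) = true)).card

/-- replace the neighbours of `i` in `D` by `A` and those of `k` in `D` by `D \ A` -/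
def gmk (x : Sym2 V → Bool) (i k : V) (D A : Finset V) : Sym2 V → Bool :=
  fun ε => if ε ∈ blk {i} D then decide (ε ∈ blk {i} A)
    else if ε ∈ blk {k} D then decide (ε ∈ blk {k} (D \ A)) else x ε

end

/-- `A` contains exactly one of `j`, `l` -/
def sp {Q : Type} (j l : Q) (A : Finset Q) : Prop := (j ∈ A ∧ l ∉ A) ∨ (l ∈ A ∧ j ∉ A)

end Vale.Agent.P335
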