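import Vale.Agent.P335.Mods
import Vale.Agent.P335.GDefs
import Vale.Agent.P335.SDefs

/-!
Interface for P335, general simple graphs (helper18).  Each `def X : Prop` is a module: prove
`theorem x_proof (deps) : X` in its own file, in the namespace `Vale.Agent.P335.XX`.
The proof text is in `notes/P335_full.md`.
-/

namespace Vale.Agent.P335

open Finset

/-- GOPS: basic facts on `GRel`, `gcls`, `GE`, `gsw`. -/
structure GOPSs : Prop where
  rel_refl : ∀ (V : Type) [Fintype V] [DecidableEq V] (Z : Finset (Sym2 V)) (x : Sym2 V → Bool),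
    GRel Z x x
  rel_symm : ∀ (V : Type) [Fintype V] [DecidableEq V] (Z : Finset (Sym2 V)) (x y : Sym2 V → Bool),
    GRel Z x y → GRel Z y x
  rel_trans : ∀ (V : Type) [Fintype V] [DecidableEq V] (Z : Finset (Sym2 V))
    (x y z : Sym2 V → Bool), GRel Z x y → GRel Z y z → GRel Z x z
  rel_mono : ∀ (V : Type) [Fintype V] [DecidableEq V] (Z W : Finset (Sym2 V))
    (x y : Sym2 V → Bool), Z ⊆ W → GRel Z x y → GRel W x y
  GE_congr : ∀ (V : Type) [Fintype V] [DecidableEq V] (Z : Finset (Sym2 V))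
    (f : (Sym2 V → Bool) → ℝ) (x y : Sym2 V → Bool), GRel Z x y → GE Z f x = GE Z f y
  GE_fix : ∀ (V : Type) [Fintype V] [DecidableEq V] (Z : Finset (Sym2 V))
    (f : (Sym2 V → Bool) → ℝ) (x : Sym2 V → Bool), (∀ y, GRel Z x y → f y = f x) → GE Z f x = f x
  GE_add : ∀ (V : Type) [Fintype V] [DecidableEq V] (Z : Finset (Sym2 V))
    (f g : (Sym2 V → Bool) → ℝ), GE Z (f + g) = GE Z f + GE Z g
  GE_smul : ∀ (V : Type) [Fintype V] [DecidableEq V] (Z : Finset (Sym2 V)) (c : ℝ)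
    (f : (Sym2 V → Bool) → ℝ), GE Z (c • f) = c • GE Z f
  GE_symm : ∀ (V : Type) [Fintype V] [DecidableEq V] (Z : Finset (Sym2 V))
    (f g : (Sym2 V → Bool) → ℝ), ip (GE Z f) g = ip f (GE Z g)
  GE_sum : ∀ (V : Type) [Fintype V] [DecidableEq V] (Z : Finset (Sym2 V))
    (f : (Sym2 V → Bool) → ℝ), ∑ x, GE Z f x = ∑ x, f x
  GE_tower : ∀ (V : Type) [Fintype V] [DecidableEq V] (Z W : Finset (Sym2 V))
    (f : (Sym2 V → Bool) → ℝ), Z ⊆ W → GE Z (GE W f) = GE W f
  GE_tower' : ∀ (V : Type) [Fintype V] [DecidableEq V] (Z W : Finset (Sym2 V))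
    (f : (Sym2 V → Bool) → ℝ), Z ⊆ W → GE W (GE Z f) = GE W f
  rel_sw : ∀ (V : Type) [Fintype V] [DecidableEq V] (Z : Finset (Sym2 V)) (x : Sym2 V → Bool)
    (i k j l : V), GAv x i k j l → s(i, j) ∈ Z → s(i, l) ∈ Z → s(k, j) ∈ Z → s(k, l) ∈ Z →
    GRel Z x (gsw x i k j l)
  av_symm : ∀ (V : Type) [Fintype V] [DecidableEq V] (x : Sym2 V → Bool) (i k j l : V),
    GAv x i k j l → GAv x k i l j ∧ GAv x j l i k
  av_sw : ∀ (V : Type) [Fintype V] [DecidableEq V] (x : Sym2 V → Bool) (i k j l : V),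
    GAv x i k j l → GAv (gsw x i k j l) i k l j
  sw_sw : ∀ (V : Type) [Fintype V] [DecidableEq V] (x : Sym2 V → Bool) (i k j l : V),
    gsw (gsw x i k j l) i k j l = x
  sw_symm : ∀ (V : Type) [Fintype V] [DecidableEq V] (x : Sym2 V → Bool) (i k j l : V),
    gsw x k i j l = gsw x i k j l ∧ gsw x i k l j = gsw x i k j l ∧ gsw x j l i k = gsw x i k j l

/-- GCOMM: resampling disjoint sets of pairs commutes. -/
def GCOMM : Prop := ∀ (V : Type) [Fintype V] [DecidableEq V] (Z W : Finset (Sym2 V))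
  (f : (Sym2 V → Bool) → ℝ), Disjoint Z W → GE Z (GE W f) = GE W (GE Z f)

/-- GTRI: three rows (transfer from the matrix theorem TRI). -/
def GTRI : Prop := ∀ (V : Type) [Fintype V] [DecidableEq V] (T : Finset V)
  (f : (Sym2 V → Bool) → ℝ), T.card = 3 → ip f (GRT T f) ≤ ip (GRT T f) (GRT T f)

open Classical in
/-- GODD: where the 2 x 2 block has 1 or 3 ones, the two resamplings commute. -/
def GODD : Prop := ∀ (V : Type) [Fintype V] [DecidableEq V] (i k j l : V)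
  (f : (Sym2 V → Bool) → ℝ), Dist i k j l →
  0 ≤ ∑ x : Sym2 V → Bool, if Odd (c4 x i k j l) then GP (st {i, k}) f x * GP (st {j, l}) f x else 0

/-- GEVEN: where the block has 0, 2, 4 ones and no switch is available. -/
def GEVEN : Prop := ∀ (V : Type) [Fintype V] [DecidableEq V] (i k j l : V)
  (g : (Sym2 V → Bool) → ℝ), Dist i k j l →
  (∀ x y, GRel (blk {i, k} ({i, k, j, l} : Finset V)ᶜ) x y → g x = g y) →
  (∀ x y, GRel (blk {j, l} ({i, k, j, l} : Finset V)ᶜ) x y → g x = g y) →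
  ∀ x, ¬ Odd (c4 x i k j l) → ¬ Dg x i k j l →
    GP (st {i, k}) g x = 0 ∨ GP (st {j, l}) g x = 0

open Classical in
/-- GZ0: resampling the block `{i,k} x {j,l}` alone. -/
def GZ0 : Prop := ∀ (V : Type) [Fintype V] [DecidableEq V] (i k j l : V)
  (f : (Sym2 V → Bool) → ℝ) (x : Sym2 V → Bool), Dist i k j l →
  GE (blk {i, k} {j, l}) f x = if Dg x i k j l then (f x + f (gsw x i k j l)) / 2 else f x

/-- GFF: `FF` as a product of block averages. -/
def GFF : Prop := ∀ (V : Type) [Fintype V] [DecidableEq V] (i k j l : V)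
  (f : (Sym2 V → Bool) → ℝ) (x : Sym2 V → Bool), Dist i k j l → Dg x i k j l →
  FF f i k j l x =
    GE (blk {i, k} ({i, k, j, l} : Finset V)ᶜ) (GE (blk {i, k} {j, l}) (GP (st {i, k}) f)) x

open Classical in
/-- GSTAR: the key inequality for two disjoint pairs. -/
def GSTAR : Prop := ∀ (V : Type) [Fintype V] [DecidableEq V] (i k j l : V)
  (f : (Sym2 V → Bool) → ℝ), Dist i k j l →
  (∑ x : Sym2 V → Bool, if Dg x i k j l then
      (1 / 2) * (f x - f (gsw x i k j l)) ^ 2 - (FF f i k j l x) ^ 2 - (FF f j l i k x) ^ 2 else 0)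
    ≤ 2 * ip (GP (st {i, k}) f) (GP (st {j, l}) f)

/-! ### the Johnson scheme inequality -/

open Classical in
/-- JOHNH: subsets of size `s`, at most half of the ground set. -/
def JOHNH : Prop := ∀ (Q : Type) [DecidableEq Q] (D : Finset Q) (s : ℕ) (u : Finset Q → ℝ),
  2 * s ≤ D.card → ∑ A ∈ D.powersetCard s, u A = 0 →
  ∑ j ∈ D, ∑ l ∈ D.erase j, (∑ A ∈ (D.powersetCard s).filter (fun A => sp j l A), u A) ^ 2 /
      (((D.powersetCard s).filter (fun A => sp j l A)).card : ℝ) ≤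
    (1 / 2) * ∑ A ∈ D.powersetCard s, ∑ j ∈ A, ∑ l ∈ D \ A, (u A - u (insert l (A.erase j))) ^ 2

open Classical in
/-- JOHN: all sizes (by taking complements). -/
def JOHN : Prop := ∀ (Q : Type) [DecidableEq Q] (D : Finset Q) (s : ℕ) (u : Finset Q → ℝ),
  s ≤ D.card → ∑ A ∈ D.powersetCard s, u A = 0 →
  ∑ j ∈ D, ∑ l ∈ D.erase j, (∑ A ∈ (D.powersetCard s).filter (fun A => sp j l A), u A) ^ 2 /
      (((D.powersetCard s).filter (fun A => sp j l A)).card : ℝ) ≤
    (1 / 2) * ∑ A ∈ D.powersetCard s, ∑ j ∈ A, ∑ l ∈ D \ A, (u A - u (insert l (A.erase j))) ^ 2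

/-- GPAR: parametrisation of the class of two rows by subsets. -/
structure GPARs : Prop where
  img : ∀ (V : Type) [Fintype V] [DecidableEq V] (x : Sym2 V → Bool) (i k : V), i ≠ k →
    gcls (st {i, k}) x =
      ((gD x i k).powersetCard (gs x i k)).image (gmk x i k (gD x i k))
  inj : ∀ (V : Type) [Fintype V] [DecidableEq V] (x : Sym2 V → Bool) (i k : V) (A B : Finset V),
    i ≠ k → A ⊆ gD x i k → B ⊆ gD x i k →
    gmk x i k (gD x i k) A = gmk x i k (gD x i k) B → A = B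
  av : ∀ (V : Type) [Fintype V] [DecidableEq V] (x : Sym2 V → Bool) (i k j l : V) (A : Finset V),
    i ≠ k → A ⊆ gD x i k →
    (GAv (gmk x i k (gD x i k) A) i k j l ↔ j ∈ A ∧ l ∈ gD x i k ∧ l ∉ A)
  sw : ∀ (V : Type) [Fintype V] [DecidableEq V] (x : Sym2 V → Bool) (i k j l : V) (A : Finset V),
    i ≠ k → A ⊆ gD x i k → j ∈ A → l ∈ gD x i k → l ∉ A →
    gsw (gmk x i k (gD x i k) A) i k j l = gmk x i k (gD x i k) (insert l (A.erase j))

open Classical in
/-- GJ: the Johnson inequality summed over all classes of the pair `i, k`. -/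
def GJ : Prop := ∀ (V : Type) [Fintype V] [DecidableEq V] (i k : V)
  (f : (Sym2 V → Bool) → ℝ), i ≠ k →
  (∑ j : V, ∑ l : V, ∑ x : Sym2 V → Bool, if Dg x i k j l then (FF f i k j l x) ^ 2 else 0) ≤
    (1 / 4) * ∑ j : V, ∑ l : V, ∑ x : Sym2 V → Bool,
      if Dg x i k j l then (f x - f (gsw x i k j l)) ^ 2 else 0

/-- GDPOS: the sum over disjoint pairs is nonnegative. -/
def GDPOS : Prop := ∀ (V : Type) [Fintype V] [DecidableEq V] (f : (Sym2 V → Bool) → ℝ),
  0 ≤ ∑ e ∈ (univ : Finset V).powersetCard 2,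
    ∑ e' ∈ ((univ : Finset V).powersetCard 2).filter (fun e' => Disjoint e e'),
      ip (GP (st e) f) (GP (st e') f)

/-- GGARL: Bochner/Garland step for graphs. -/
def GGARL : Prop := ∀ (V : Type) [Fintype V] [DecidableEq V] (f : (Sym2 V → Bool) → ℝ),
  ip f (GRT univ f) ≤ ip (GRT univ f) (GRT univ f)

/-- GCONN: graphs with the same degrees are connected by switches. -/
def GCONN : Prop := ∀ (V : Type) [Fintype V] [DecidableEq V] (f : (Sym2 V → Bool) → ℝ),
  (∀ (x : Sym2 V → Bool) (i k j l : V), GAv x i k j l → f (gsw x i k j l) = f x) →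
  ∀ x y, GRel (nd V) x y → f x = f y

/-- GGAPR: the gap of the pair-resampling generator is at least 1. -/
def GGAPR : Prop := ∀ (V : Type) [Fintype V] [DecidableEq V] (f : (Sym2 V → Bool) → ℝ),
  ip (GP (nd V) f) (GP (nd V) f) ≤ ip f (GRT univ f)

open Classical in
/-- GPAIR: two rows (transfer from PAIR). -/
def GPAIR : Prop := ∀ (V : Type) [Fintype V] [DecidableEq V] (f : (Sym2 V → Bool) → ℝ) (i k : V),
  i ≠ k → ip f (GP (st {i, k}) f) ≤ (1 / 4) * ∑ x : Sym2 V → Bool, ∑ j : V, ∑ l : V,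
    if GAv x i k j l then (f x - f (gsw x i k j l)) ^ 2 else 0

open Classical in
/-- GGAPM: Poincare inequality for the switches on configurations. -/
def GGAPM : Prop := ∀ (V : Type) [Fintype V] [DecidableEq V] (f : (Sym2 V → Bool) → ℝ),
  ip (GP (nd V) f) (GP (nd V) f) ≤
    (1 / 8) * ∑ x : Sym2 V → Bool, ∑ i : V, ∑ k : V, ∑ j : V, ∑ l : V,
      if GAv x i k j l then (f x - f (gsw x i k j l)) ^ 2 else 0

/-! ### transfer to `SimpleGraph (Fin n)` -/

open Classical in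
/-- the configuration of a graph -/
noncomputable def toC {n : ℕ} (G : SimpleGraph (Fin n)) : Sym2 (Fin n) → Bool :=
  fun ε => decide (ε ∈ G.edgeSet)

open Classical in
/-- TOC: graphs are configurations without loops. -/
structure TOCs : Prop where
  inj : ∀ (n : ℕ), Function.Injective (toC (n := n))
  loop : ∀ (n : ℕ) (G : SimpleGraph (Fin n)) (ε : Sym2 (Fin n)), ε.IsDiag → toC G ε = false
  surj : ∀ (n : ℕ) (x : Sym2 (Fin n) → Bool), (∀ ε, ε.IsDiag → x ε = false) → ∃ G, toC G = x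
  deg : ∀ (n : ℕ) (G : SimpleGraph (Fin n)) (v : Fin n),
    gdeg (toC G) v = (univ.filter (fun w => G.Adj v w)).card
  step_av : ∀ (n : ℕ) (G : SimpleGraph (Fin n)) (q : Fin n × Fin n × Fin n × Fin n), q ∈ Quad n →
    GAv (toC G) q.1 q.2.2.1 q.2.1 q.2.2.2 →
      toC (step G q) = gsw (toC G) q.1 q.2.2.1 q.2.1 q.2.2.2
  step_nav : ∀ (n : ℕ) (G : SimpleGraph (Fin n)) (q : Fin n × Fin n × Fin n × Fin n), q ∈ Quad n →
    ¬ GAv (toC G) q.1 q.2.2.1 q.2.1 q.2.2.2 → step G q = G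

open Classical in
/-- GPOING: Poincare inequality for every degree vector. -/
def GPOING : Prop := ∀ (n : ℕ) (d : Fin n → ℕ), 4 ≤ n → ∀ f : SimpleGraph (Fin n) → ℝ,
  (2 / ((n : ℝ) * (n - 1) * (n - 2) * (n - 3))) *
      ∑ G ∈ Om d, (f G - (∑ H ∈ Om d, f H) / ((Om d).card : ℝ)) ^ 2 ≤
    (1 / 4) * ∑ G ∈ Om d, ∑ H ∈ Om d, Kn n G H * (f G - f H) ^ 2

/-- GNUM: numerics. -/
def GNUM : Prop := ∀ (n N : ℕ), 4 ≤ n → N ≤ 2 ^ (n * (n - 1) / 2) →
  Real.sqrt (N : ℝ) * (1 - 2 / ((n : ℝ) * (n - 1) * (n - 2) * (n - 3))) ^ (n ^ 6) ≤ 1 / 2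

/-- FULLMIX: the final theorem. -/
def FULLMIX : Prop := ∀ (n : ℕ) (d : Fin n → ℕ), 4 ≤ n →
  (∀ G ∈ Om d, tv d (n ^ 6) G ≤ 1 / 4) ∧ tmix d ≤ n ^ 6

end Vale.Agent.P335
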