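import Vale.Agent.P335.GMods

/-! P335, module TOGs: split graphs and 0/1 matrices. -/

namespace Vale.Agent.P335.Tog

open Finset

variable {n : ℕ}

theorem adj_in (K : Finset (Fin n)) (x : {v // v ∈ K} → {v // v ∉ K} → Bool) {u v : Fin n}
    (hu : u ∈ K) (hv : v ∉ K) : (toG K x).Adj u v ↔ x ⟨u, hu⟩ ⟨v, hv⟩ = true := by
  constructor
  · rintro (⟨_, h2, _⟩ | ⟨_, _, h⟩ | ⟨h1, _, _⟩)
    · exact absurd h2 hv
    · exact h
    · exact absurd hu h1
  · intro h
    exact Or.inr (Or.inl ⟨hu, hv, h⟩)

theorem adj_out (K : Finset (Fin n)) (x : {v // v ∈ K} → {v // v ∉ K} → Bool) {u v : Fin n}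
    (hu : u ∉ K) (hv : v ∈ K) : (toG K x).Adj u v ↔ x ⟨v, hv⟩ ⟨u, hu⟩ = true := by
  rw [SimpleGraph.adj_comm]
  exact adj_in K x hv hu

theorem adj_kk (K : Finset (Fin n)) (x : {v // v ∈ K} → {v // v ∉ K} → Bool) {u v : Fin n}
    (hu : u ∈ K) (hv : v ∈ K) : (toG K x).Adj u v ↔ u ≠ v := by
  constructor
  · intro h
    exact h.ne
  · intro h
    exact Or.inl ⟨hu, hv, h⟩

theorem adj_nn (K : Finset (Fin n)) (x : {v // v ∈ K} → {v // v ∉ K} → Bool) {u v : Fin n}
    (hu : u ∉ K) (hv : v ∉ K) : ¬ (toG K x).Adj u v := by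
  rintro (⟨h1, _, _⟩ | ⟨h1, _, _⟩ | ⟨_, h1, _⟩)
  · exact hu h1
  · exact hu h1
  · exact hv h1

open Classical in
theorem deg_in (K : Finset (Fin n)) (x : {v // v ∈ K} → {v // v ∉ K} → Bool) (u : {v // v ∈ K}) :
    (univ.filter (fun w => (toG K x).Adj u w)).card = (K.card - 1) + rsum x u := by
  have e : univ.filter (fun w => (toG K x).Adj u w) =
      (K.erase (u : Fin n)) ∪ (univ.filter (fun j => x u j = true)).map
        (Function.Embedding.subtype _) := by
    ext w
    simp only [mem_filter, mem_univ, true_and, mem_union, mem_erase, mem_map,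
      Function.Embedding.coe_subtype]
    by_cases hw : w ∈ K
    · rw [adj_kk K x u.2 hw]
      constructor
      · intro h
        exact Or.inl ⟨fun hc => h hc.symm, hw⟩
      · rintro (⟨h, _⟩ | ⟨a, _, ha⟩)
        · exact fun hc => h hc.symm
        · exact absurd hw (by rw [← ha]; exact a.2)
    · rw [adj_in K x u.2 hw]
      constructor
      · intro h
        exact Or.inr ⟨⟨w, hw⟩, h, rfl⟩
      · rintro (⟨_, h⟩ | ⟨a, h, ha⟩)
        · exact absurd h hw
        · have : a = ⟨w, hw⟩ := Subtype.ext ha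
          rw [← this]
          exact h
  rw [e, card_union_of_disjoint, card_map, card_erase_of_mem u.2]
  · rfl
  · rw [disjoint_left]
    intro w hw hw'
    rw [mem_map] at hw'
    obtain ⟨a, _, ha⟩ := hw'
    have h1 := (mem_erase.1 hw).2
    rw [← ha] at h1
    exact a.2 h1

open Classical in
theorem deg_out (K : Finset (Fin n)) (x : {v // v ∈ K} → {v // v ∉ K} → Bool)
    (u : {v // v ∉ K}) :
    (univ.filter (fun w => (toG K x).Adj u w)).card = csum x u := by
  have e : univ.filter (fun w => (toG K x).Adj u w) =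
      (univ.filter (fun i => x i u = true)).map (Function.Embedding.subtype _) := by
    ext w
    simp only [mem_filter, mem_univ, true_and, mem_map, Function.Embedding.coe_subtype]
    by_cases hw : w ∈ K
    · rw [adj_out K x u.2 hw]
      constructor
      · intro h
        exact ⟨⟨w, hw⟩, h, rfl⟩
      · rintro ⟨a, h, ha⟩
        have : a = ⟨w, hw⟩ := Subtype.ext ha
        rw [← this]
        exact h
    · constructor
      · intro h
        exact absurd h (adj_nn K x u.2 hw)
      · rintro ⟨a, _, ha⟩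
        exact absurd (by rw [← ha]; exact a.2) hw
  rw [e, card_map]
  rfl

theorem togs_proof : TOGs := by
  classical
  refine ⟨?_, ?_, ?_, ?_⟩
  · intro n K x y h
    funext i j
    have h1 := adj_in K x i.2 j.2
    have h2 := adj_in K y i.2 j.2
    rw [h, h2] at h1
    exact (Bool.eq_iff_iff.2 h1).symm
  · intro n K G hG
    refine ⟨fun i j => decide (G.Adj i j), ?_⟩
    ext u v
    by_cases hu : u ∈ K <;> by_cases hv : v ∈ K
    · rw [adj_kk K _ hu hv]
      exact ⟨fun h => hG.1 u hu v hv h, fun h => h.ne⟩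
    · rw [adj_in K _ hu hv]
      simp
    · rw [adj_out K _ hu hv, SimpleGraph.adj_comm]
      simp
    · exact ⟨fun h => absurd h (adj_nn K _ hu hv), fun h => absurd h (hG.2 u hu v hv)⟩
  · intro n K x
    exact ⟨fun u hu v hv huv => (adj_kk K x hu hv).2 huv, fun u hu v hv => adj_nn K x hu hv⟩
  · intro n d K x y hx
    have hom : ∀ z : {v // v ∈ K} → {v // v ∉ K} → Bool, toG K z ∈ Om d ↔
        (∀ u : {v // v ∈ K}, (K.card - 1) + rsum z u = d u) ∧
          (∀ u : {v // v ∉ K}, csum z u = d u) := by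
      intro z
      unfold Om
      rw [mem_filter]
      constructor
      · rintro ⟨_, h⟩
        exact ⟨fun u => by rw [← deg_in K z u]; exact h u,
          fun u => by rw [← deg_out K z u]; exact h u⟩
      · rintro ⟨h1, h2⟩
        refine ⟨mem_univ _, fun v => ?_⟩
        by_cases hv : v ∈ K
        · have := deg_in K z ⟨v, hv⟩
          rw [h1 ⟨v, hv⟩] at this
          exact this
        · have := deg_out K z ⟨v, hv⟩
          rw [h2 ⟨v, hv⟩] at this
          exact this
    have hx' := (hom x).1 hx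
    rw [hom y]
    constructor
    · rintro ⟨h1, h2⟩
      refine ⟨fun i hi => absurd (mem_univ i) hi, fun i => ?_, fun j => ?_⟩
      · have a1 := h1 i
        have a2 := hx'.1 i
        omega
      · rw [hx'.2 j, h2 j]
    · rintro ⟨_, h1, h2⟩
      refine ⟨fun u => ?_, fun u => ?_⟩
      · rw [← h1 u]
        exact hx'.1 u
      · rw [← h2 u]
        exact hx'.2 u

end Vale.Agent.P335.Tog
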